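import Vale.Agent.P190.FrobDefs

/-! Existence of Frobenius pullback data. -/

namespace Vale.Agent.P190

theorem IsCoord.aeval_injective {k : Type} [Field k] {L : Type} [Field L] [Algebra k L]
    {x y : Lˣ} (hc : IsCoord k x y) :
    Function.Injective (MvPolynomial.aeval (R := k) ![(x : L), (y : L)]) := by
  rw [injective_iff_map_eq_zero]
  intro f hf
  have hl := hc.indep.comp (fun d : Fin 2 →₀ ℕ => ((d 0 : ℤ), (d 1 : ℤ))) (by
    intro d d' h
    simp only [Prod.mk.injEq, Nat.cast_inj] at h
    ext i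
    fin_cases i
    · exact h.1
    · exact h.2)
  rw [linearIndependent_iff'] at hl
  ext d
  by_cases hd : d ∈ f.support
  · refine hl f.support (fun d => f.coeff d) ?_ d hd
    rw [← hf, MvPolynomial.aeval_def, MvPolynomial.eval₂_eq']
    refine Finset.sum_congr rfl fun d _ => ?_
    simp [Algebra.smul_def, Fin.prod_univ_two]
  · exact MvPolynomial.notMem_support_iff.mp hd

theorem IsCoord.exists_derivation {k : Type} [Field k] {L : Type} [Field L] [Algebra k L]
    {x y : Lˣ} (hc : IsCoord k x y) (a b : L) :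
    ∃ d : Derivation ℤ L L, d (x : L) = a ∧ d (y : L) = b := by
  let ι : MvPolynomial (Fin 2) k →ₐ[k] L := MvPolynomial.aeval ![(x : L), (y : L)]
  have hι : Function.Injective ι := hc.aeval_injective
  have hr : ∀ q ∈ Algebra.adjoin k {(x : L), (y : L)}, ∃ f, ι f = q := by
    intro q hq
    have h : Algebra.adjoin k {(x : L), (y : L)} ≤ ι.range := by
      rw [Algebra.adjoin_le_iff]
      rintro _ (rfl | rfl)
      · exact ⟨MvPolynomial.X 0, by simp [ι]⟩
      · exact ⟨MvPolynomial.X 1, by simp [ι]⟩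
    exact h hq
  let _ : Algebra (MvPolynomial (Fin 2) k) L := ι.toRingHom.toAlgebra
  have hloc : IsFractionRing (MvPolynomial (Fin 2) k) L := by
    refine ⟨⟨fun f => ?_, fun q => ?_, fun {f g} h => ⟨1, by rw [hι h]⟩⟩⟩
    · refine IsUnit.mk0 _ fun h => nonZeroDivisors.ne_zero f.2 (hι ?_)
      rw [map_zero]; exact h
    · obtain ⟨c, hc1, hc2, hc3⟩ := hc.frac q
      obtain ⟨f, rfl⟩ := hr c hc1
      obtain ⟨g, hg⟩ := hr _ hc3
      refine ⟨⟨g, f, mem_nonZeroDivisors_of_ne_zero fun h => hc2 ?_⟩, hg.symm⟩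
      rw [h, map_zero]
  let ψ : MvPolynomial (Fin 2) k →ₐ[k] TrivSqZeroExt L L :=
    MvPolynomial.aeval ![TrivSqZeroExt.inl (x : L) + TrivSqZeroExt.inr a,
      TrivSqZeroExt.inl (y : L) + TrivSqZeroExt.inr b]
  have hψ : ∀ f, (ψ f).fst = ι f := by
    intro f
    have h : (TrivSqZeroExt.fstHom k L L).comp ψ = ι := by
      apply MvPolynomial.algHom_ext
      intro i
      fin_cases i <;> simp [ψ, ι]
    exact DFunLike.congr_fun h f
  have hu : ∀ f : nonZeroDivisors (MvPolynomial (Fin 2) k), IsUnit (ψ.toRingHom f) := by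
    intro f
    rw [TrivSqZeroExt.isUnit_iff_isUnit_fst]
    exact (hψ f).symm ▸ IsLocalization.map_units L f
  let Ψ : L →+* TrivSqZeroExt L L := IsLocalization.lift hu
  have hΨ : ∀ f, Ψ (ι f) = ψ f := fun f => IsLocalization.lift_eq hu f
  have h1 : ∀ q, (Ψ q).fst = q := by
    intro q
    have h : (TrivSqZeroExt.fstHom k L L).toRingHom.comp Ψ = RingHom.id L := by
      apply IsLocalization.ringHom_ext (nonZeroDivisors (MvPolynomial (Fin 2) k))
      refine RingHom.ext fun f => ?_
      change (Ψ (ι f)).fst = ι f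
      rw [hΨ, hψ]
    exact DFunLike.congr_fun h q
  let D : L →+ L :=
    { toFun := fun q => (Ψ q).snd
      map_zero' := by simp
      map_add' := fun q q' => by simp }
  refine ⟨Derivation.mk' D.toIntLinearMap fun q q' => ?_, ?_, ?_⟩
  · change (Ψ (q * q')).snd = q • (Ψ q').snd + q' • (Ψ q).snd
    rw [map_mul, TrivSqZeroExt.snd_mul, h1, h1]
    simp [mul_comm]
  · change (Ψ (x : L)).snd = a
    have h := hΨ (MvPolynomial.X 0)
    simp only [ι, ψ, MvPolynomial.aeval_X, Matrix.cons_val_zero] at h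
    rw [h]; simp
  · change (Ψ (y : L)).snd = b
    have h := hΨ (MvPolynomial.X 1)
    simp only [ι, ψ, MvPolynomial.aeval_X, Matrix.cons_val_one, Matrix.cons_val_zero] at h
    rw [h]; simp

/-- the partial derivatives on the function field -/
theorem IsCoord.exists_derivations {k : Type} [Field k] {L : Type} [Field L] [Algebra k L]
    {x y : Lˣ} (hc : IsCoord k x y) :
    ∃ dx dy : Derivation ℤ L L, dx (x : L) = 1 ∧ dx (y : L) = 0 ∧ dy (x : L) = 0 ∧
      dy (y : L) = 1 := by
  obtain ⟨dx, h1, h2⟩ := hc.exists_derivation 1 0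
  obtain ⟨dy, h3, h4⟩ := hc.exists_derivation 0 1
  exact ⟨dx, dy, h1, h2, h3, h4⟩

/-- the function field is spanned over its `p`-th powers by the reduced monomials -/
theorem IsCoord.exists_pow_sum (p : ℕ) [Fact p.Prime] {L : Type} [Field L] [Algebra (ZMod p) L]
    {x y : Lˣ} (hc : IsCoord (ZMod p) x y) (q : L) :
    ∃ u : Fin p × Fin p → L, q = ∑ c, ((x : L) ^ (c.1 : ℕ) * (y : L) ^ (c.2 : ℕ)) * u c ^ p := by
  have : CharP L p := charP_of_injective_algebraMap (algebraMap (ZMod p) L).injective p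
  have hp : 0 < p := (Fact.out : p.Prime).pos
  let K : Subfield L := (frobenius L p).fieldRange
  let S : Submodule K L := Submodule.span K
    (Set.range fun c : Fin p × Fin p => (x : L) ^ (c.1 : ℕ) * (y : L) ^ (c.2 : ℕ))
  have hS : ∀ (r v : L), v ∈ S → r ^ p * v ∈ S := fun r v hv =>
    S.smul_mem (⟨r ^ p, r, rfl⟩ : K) hv
  have h1 : ∀ m n : ℕ, (x : L) ^ m * (y : L) ^ n ∈ S := by
    intro m n
    have h := hS ((x : L) ^ (m / p) * (y : L) ^ (n / p)) _ (Submodule.subset_span
      ⟨(⟨m % p, Nat.mod_lt _ hp⟩, ⟨n % p, Nat.mod_lt _ hp⟩), rfl⟩)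
    rwa [mul_pow, ← pow_mul, ← pow_mul, mul_mul_mul_comm, ← pow_add, ← pow_add,
      Nat.div_add_mod', Nat.div_add_mod'] at h
  have h2 : ∀ v ∈ Algebra.adjoin (ZMod p) {(x : L), (y : L)}, v ∈ S := by
    intro v hv
    rw [← Subalgebra.mem_toSubmodule, Algebra.adjoin_eq_span] at hv
    induction hv using Submodule.span_induction with
    | mem v hv =>
      obtain ⟨m, n, rfl⟩ := (Submonoid.mem_closure_pair _ _ _).mp hv
      exact h1 m n
    | zero => exact S.zero_mem
    | add u v _ _ hu hv => exact S.add_mem hu hv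
    | smul c v _ hv =>
      rw [Algebra.smul_def, ← ZMod.pow_card c, map_pow]
      exact hS _ _ hv
  have h3 : q ∈ S := by
    obtain ⟨c, hc1, hc2, hc3⟩ := hc.frac q
    have h := hS c⁻¹ _ (h2 _ (Subalgebra.mul_mem _ hc3 (Subalgebra.pow_mem _ hc1 (p - 1))))
    have h4 : c * c ^ (p - 1) = c ^ p := by rw [← pow_succ', Nat.sub_add_cancel hp]
    rwa [mul_assoc q, h4, mul_left_comm, ← mul_pow, inv_mul_cancel₀ hc2, one_pow, mul_one] at h
  obtain ⟨c, hc⟩ := (Submodule.mem_span_range_iff_exists_fun K).mp h3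
  choose u hu using fun i => (c i).2
  refine ⟨u, hc.symm.trans (Finset.sum_congr rfl fun i _ => ?_)⟩
  change (c i : L) * _ = _
  rw [← hu i, frobenius_def, mul_comm]

theorem exists_geo_of_fr (p : ℕ) [Fact p.Prime] {L : Type} [Field L] [Algebra (ZMod p) L]
    {x y : Lˣ} (hk : Good (ZMod p)) (hc : IsCoord (ZMod p) x y)
    {A0 : Type} [CommRing A0] [Algebra L A0] (G0 : Geo false false x y A0)
    {A : Type} [CommRing A] [Algebra L A] (Fr : A0 →+* A)
    (hFr : ∀ q, Fr (algebraMap L A0 q) = algebraMap L A (q ^ p))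
    (hgen : ∀ B : Subalgebra L A, (∀ g, Fr g ∈ B) → B = ⊤) :
    ∃ G : Geo false false x y A, (∀ i, Fr (G0.s i) = G.s i ^ p) ∧ (∀ i, Fr (G0.t i) = G.t i ^ p) ∧
      Fr G0.w = G.w ^ p := by
  have : CharP L p := charP_of_injective_algebraMap (algebraMap (ZMod p) L).injective p
  have hp : p.Prime := Fact.out
  have hp2 : p ≠ 2 := by
    rintro rfl
    exact hk 2 (by norm_num) (by norm_num) (ZMod.natCast_self 2)
  obtain ⟨h, hh2⟩ := hp.odd_of_ne_two hp2
  have hpA : (p : A) = 0 := by rw [← map_natCast (algebraMap L A), CharP.cast_eq_zero, map_zero]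
  have root : ∀ (g f : A), IsUnit f → g ^ 2 = f ^ p → ∃ s, s ^ 2 = f ∧ g = s ^ p := by
    intro g f hf hg
    obtain ⟨u, rfl⟩ := hf
    have h1 : (((u⁻¹ : Aˣ) : A) ^ h * g) ^ 2 = u := by
      rw [mul_pow, hg, hh2, pow_succ (u : A), ← pow_mul, mul_comm h 2, ← mul_assoc, ← mul_pow,
        Units.inv_mul, one_pow, one_mul]
    refine ⟨_, h1, ?_⟩
    rw [hh2, pow_succ, pow_mul, h1, ← mul_assoc, ← mul_pow, Units.mul_inv, one_pow, one_mul]
  choose s hs1 hs2 using fun i => root (Fr (G0.s i)) (algebraMap L A (Px false (x : L) i))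
    ((Px_ne_zero hk hc false i).isUnit.map _) (by rw [← map_pow, G0.s_sq, hFr, map_pow])
  choose t ht1 ht2 using fun i => root (Fr (G0.t i)) (algebraMap L A (Py false (y : L) i))
    ((Py_ne_zero hk hc false i).isUnit.map _) (by rw [← map_pow, G0.t_sq, hFr, map_pow])
  have hu : ∀ e, IsUnit (hh s t e true) := by
    intro e
    refine isUnit_of_mul_isUnit_left (y := hh s t e false) ?_
    have h1 := Px_mul_Py_sub false false (x : L) (y : L) (e, false) (e, true)
    have h3 : av (e, false) - av (e, true) = -1 := by simp [av]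
    rw [h3] at h1
    have h2 := congrArg (algebraMap L A) h1
    rw [map_sub, map_mul, map_mul, map_mul, ← hs1, ← hs1, ← ht1, ← ht1, map_intCast] at h2
    have h4 : hh s t e true * hh s t e false =
        - algebraMap L A (del false false (x : L) (y : L)) := by
      simp only [hh]
      push_cast at h2
      linear_combination h2
    rw [h4]
    exact ((del_ne_zero hk hc false false).isUnit.map _).neg
  have hF : ∀ e, Fr (hh G0.s G0.t e true) = hh s t e true ^ p := by
    intro e
    obtain ⟨r, hr⟩ := exists_add_pow_prime_eq hp (s (e, false) * t (e, true))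
      (s (e, true) * t (e, false))
    simp only [hh, map_add, map_mul, hs2, ht2]
    rw [hr, hpA, mul_pow, mul_pow]
    ring
  obtain ⟨w, hw1, hw2⟩ := root (Fr G0.w) (hh s t 0 true * hh s t 1 true * hh s t 2 true)
    (((hu 0).mul (hu 1)).mul (hu 2))
    (by rw [← map_pow, G0.w_sq, map_mul, map_mul, hF, hF, hF, mul_pow, mul_pow])
  refine ⟨⟨s, t, w, hs1, ht1, hw1, hgen _ fun g => ?_⟩, hs2, ht2, hw2⟩
  have hg : g ∈ Algebra.adjoin L (Set.range G0.s ∪ Set.range G0.t ∪ {G0.w}) := by
    rw [G0.gen]; trivial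
  induction hg using Algebra.adjoin_induction with
  | mem g hg =>
    rcases hg with (⟨i, rfl⟩ | ⟨i, rfl⟩) | rfl
    · rw [hs2]
      exact Subalgebra.pow_mem _ (Algebra.subset_adjoin (by simp)) _
    · rw [ht2]
      exact Subalgebra.pow_mem _ (Algebra.subset_adjoin (by simp)) _
    · rw [hw2]
      exact Subalgebra.pow_mem _ (Algebra.subset_adjoin (by simp)) _
  | algebraMap q => rw [hFr]; exact Subalgebra.algebraMap_mem _ _
  | add u v _ _ hu hv => rw [map_add]; exact Subalgebra.add_mem _ hu hv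
  | mul u v _ _ hu hv => rw [map_mul]; exact Subalgebra.mul_mem _ hu hv

theorem exists_frob (p : ℕ) [Fact p.Prime] {L : Type} [Field L] [Algebra (ZMod p) L]
    {x y : Lˣ} (hk : Good (ZMod p)) (hc : IsCoord (ZMod p) x y)
    {A0 : Type} [CommRing A0] [Algebra L A0] (G0 : Geo false false x y A0)
    (V : Type) [AddCommGroup V] [Module L V] [Module A0 V] [IsScalarTower L A0 V]
    [Module (ZMod p) V] [IsScalarTower (ZMod p) L V] [FiniteDimensional L V] :
    ∃ (A : Type) (_ : CommRing A) (_ : Algebra L A) (_ : Module A V) (_ : IsScalarTower L A V)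
      (_ : Algebra (ZMod p) A) (_ : IsScalarTower (ZMod p) L A) (_ : IsScalarTower (ZMod p) A V)
      (G : Geo false false x y A), Nonempty (Frob p G0 G V V) := by
  have : CharP L p := charP_of_injective_algebraMap (algebraMap (ZMod p) L).injective p
  let b := Module.finBasis L V
  let φ : V →+ V :=
    { toFun := fun v => b.equivFun.symm fun i => b.equivFun v i ^ p
      map_zero' := by
        rw [← map_zero b.equivFun.symm]
        congr 1
        funext i
        simp [(Fact.out : p.Prime).ne_zero]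
      map_add' := fun u v => by
        rw [← map_add]
        congr 1
        funext i
        simp [add_pow_char] }
  have hφ : ∀ v i, b.equivFun (φ v) i = b.equivFun v i ^ p := fun v i =>
    congrFun (b.equivFun.apply_symm_apply _) i
  let Fr : A0 →+* Module.End L V :=
    (Matrix.toLinAlgEquiv b).toRingEquiv.toRingHom.comp ((frobenius L p).mapMatrix.comp
      ((LinearMap.toMatrixAlgEquiv b).toRingEquiv.toRingHom.comp
        (Algebra.lsmul L L V : A0 →ₐ[L] Module.End L V).toRingHom))
  have hFr : ∀ g, LinearMap.toMatrix b b (Fr g) =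
      (LinearMap.toMatrix b b (Algebra.lsmul L L V g)).map (frobenius L p) := fun g =>
    LinearMap.toMatrix_toLin b b _
  have hFrφ : ∀ (g : A0) v, φ (g • v) = Fr g (φ v) := by
    intro g v
    apply b.equivFun.injective
    funext i
    have h1 := LinearMap.toMatrix_mulVec_repr b b (Fr g) (φ v)
    have h2 := LinearMap.toMatrix_mulVec_repr b b (Algebra.lsmul L L V g) v
    have h3 : ⇑(b.repr (φ v)) = frobenius L p ∘ b.repr v := funext fun i => hφ v i
    rw [hφ]
    change b.repr (Algebra.lsmul L L V g v) i ^ p = b.repr (Fr g (φ v)) i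
    rw [← h1, ← h2, hFr, h3, ← RingHom.map_mulVec, frobenius_def]
  have hφs : ∀ (q : L) v, φ (q • v) = q ^ p • φ v := by
    intro q v
    apply b.equivFun.injective
    funext i
    rw [hφ, map_smul, map_smul, Pi.smul_apply, Pi.smul_apply, hφ, smul_eq_mul, smul_eq_mul, mul_pow]
  have hsurj : ∀ v, ∃ u : Fin p × Fin p → V,
      v = ∑ c, ((x : L) ^ (c.1 : ℕ) * (y : L) ^ (c.2 : ℕ)) • φ (u c) := by
    intro v
    choose u hu using fun i => hc.exists_pow_sum p (b.equivFun v i)
    refine ⟨fun c => b.equivFun.symm fun i => u i c, b.equivFun.injective ?_⟩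
    funext i
    rw [map_sum, Finset.sum_apply, hu]
    refine Finset.sum_congr rfl fun c _ => ?_
    rw [map_smul, Pi.smul_apply, hφ, LinearEquiv.apply_symm_apply, smul_eq_mul]
  have hFrL : ∀ q, Fr (algebraMap L A0 q) = algebraMap L (Module.End L V) (q ^ p) := by
    intro q
    refine LinearMap.ext fun v => ?_
    obtain ⟨u, rfl⟩ := hsurj v
    rw [map_sum, map_sum]
    refine Finset.sum_congr rfl fun c _ => ?_
    rw [map_smul, map_smul, ← hFrφ, algebraMap_smul, hφs, Module.algebraMap_end_apply]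
  let A := Algebra.adjoin L (Set.range Fr)
  have hcomm : IsMulCommutative A := Algebra.isMulCommutative_adjoin L (by
    rintro _ ⟨g, rfl⟩ _ ⟨g', rfl⟩
    rw [← map_mul, ← map_mul, mul_comm])
  let instA : CommRing A := { (inferInstance : Ring A) with mul_comm := hcomm.is_comm.comm }
  let Fr' : A0 →+* A := Fr.codRestrict A fun g => Algebra.subset_adjoin ⟨g, rfl⟩
  obtain ⟨G, hs, ht, hw⟩ := exists_geo_of_fr p hk hc G0 Fr' (fun q => Subtype.ext (hFrL q))
    (fun B hB => by
      rw [eq_top_iff]
      rintro ⟨a, ha⟩ -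
      induction ha using Algebra.adjoin_induction with
      | mem g hg =>
        obtain ⟨g, rfl⟩ := hg
        exact hB g
      | algebraMap q => exact B.algebraMap_mem q
      | add u v _ _ hu hv => exact B.add_mem hu hv
      | mul u v _ _ hu hv => exact B.mul_mem hu hv)
  obtain ⟨dx, dy, h1, h2, h3, h4⟩ := hc.exists_derivations
  let D : Derivation ℤ L L → V →+ V := fun d =>
    { toFun := fun v => b.equivFun.symm fun i => d (b.equivFun v i)
      map_zero' := by
        rw [← map_zero b.equivFun.symm]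
        congr 1
        funext i
        simp
      map_add' := fun u v => by
        rw [← map_add]
        congr 1
        funext i
        simp }
  have hD : ∀ d v i, b.equivFun (D d v) i = d (b.equivFun v i) := fun d v i =>
    congrFun (b.equivFun.apply_symm_apply _) i
  have hDs : ∀ d (q : L) v, D d (q • v) = d q • v + q • D d v := by
    intro d q v
    apply b.equivFun.injective
    funext i
    rw [hD, map_add, map_smul, map_smul, map_smul, Pi.add_apply, Pi.smul_apply, Pi.smul_apply,
      Pi.smul_apply, hD, smul_eq_mul, Derivation.leibniz, smul_eq_mul, smul_eq_mul, smul_eq_mul]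
    ring
  have hDφ : ∀ d v, D d (φ v) = 0 := by
    intro d v
    apply b.equivFun.injective
    funext i
    rw [hD, hφ, Derivation.leibniz_pow, nsmul_eq_mul, CharP.cast_eq_zero, zero_mul, map_zero,
      Pi.zero_apply]
  let instZ : Algebra (ZMod p) A := ((algebraMap L A).comp (algebraMap (ZMod p) L)).toAlgebra
  refine ⟨A, instA, inferInstance, inferInstance, inferInstance, instZ,
    IsScalarTower.of_algebraMap_eq fun _ => rfl,
    @IsScalarTower.mk _ _ _ instZ.toSMul _ _ fun c a v => ?_, G,
    ⟨⟨φ, fun u v huv => ?_, hφs, fun i v => ?_, fun i v => ?_, fun v => ?_, dx, dy, h1, h2, h3, h4,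
      D dx, D dy, hDs dx, hDs dy, hDφ dx, hDφ dy, hsurj⟩⟩⟩
  · change (algebraMap L A (algebraMap (ZMod p) L c) * a) • v = _
    rw [mul_smul, algebraMap_smul, algebraMap_smul]
  · apply b.equivFun.injective
    funext i
    apply frobenius_inj L p
    rw [frobenius_def, frobenius_def, ← hφ, ← hφ, huv]
  · rw [← hs, hFrφ]; rfl
  · rw [← ht, hFrφ]; rfl
  · rw [← hw, hFrφ]; rfl

end Vale.Agent.P190
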