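import Vale.Agent.P190.FrobPhi
import Vale.Agent.P190.FrobEx

/-! The bound for the discriminant in characteristic `p`. -/

namespace Vale.Agent.P190

/-- an upper bound for the discriminant of a sheaf with controlled slopes -/
theorem disc_le {k : Type} [Field k] {L : Type} [Field L] [Algebra k L] {x y : Lˣ}
    (hc : IsCoord k x y) {A : Type} [CommRing A] [Algebra L A] (G : Geo false false x y A)
    {V : Type} [AddCommGroup V] [Module L V] [Module k V] [IsScalarTower k L V] [Module A V]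
    [IsScalarTower L A V] {E : PSh k x y V} (hE : E.FG) (hs : G.Stab E) (hr : 0 < E.rk) (c : ℕ)
    (hμ : E.fib.SubLe A ((E.alp : ℚ) / E.rk + c)) (n : ℕ) (hX : E.X0 (-(n : ℤ))) :
    E.rk * E.gam - E.alp * E.bet ≤ (E.rk * n + |E.bet|) * (E.rk * (c * E.rk + 15)) := by
  have hρ : (0 : ℚ) < E.rk := by exact_mod_cast hr
  have hdeg : (E.fib.deg : ℚ) = (E.alp : ℚ) / E.rk * E.fib.rk := by
    rw [PSh.rk_fib, ← PSh.alp_eq_deg hc hE, div_mul_cancel₀ _ hρ.ne']
  have h1 := P1.SubLe.quotGe' hE.fib (Nat.cast_nonneg c) hμ hdeg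
  rw [PSh.rk_fib] at h1
  set j : ℤ := ⌊14 + c * E.rk - (E.alp : ℚ) / E.rk⌋ + 1 with hj
  have hj1 : 14 + c * E.rk - (E.alp : ℚ) / E.rk < j := by
    rw [hj]
    push_cast
    exact Int.lt_floor_add_one _
  have hj2 : (j : ℚ) ≤ 14 + c * E.rk - (E.alp : ℚ) / E.rk + 1 := by
    rw [hj]
    push_cast
    linarith [Int.floor_le (14 + c * E.rk - (E.alp : ℚ) / E.rk)]
  have h2 := P1.h1_eq_zero_of_quotGe hc.fib (hE.fib.tw j) (hs.ops.tw j) (h1.tw hc.fib hE.fib j)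
    (by push_cast; linarith)
  rw [← PSh.fib_tw E (-(n : ℤ)) j] at h2
  have h3 : E.hp (-(n : ℤ)) j ≤ 0 :=
    PSh.chi_nonpos (hX.H0_eq_bot le_rfl j) (PSh.H2Z_of_fib h2)
  rw [PSh.hp_eq hc hE] at h3
  have e : (E.rk : ℚ) * ((E.alp : ℚ) / E.rk) = E.alp := mul_div_cancel₀ _ hρ.ne'
  have h4 : 0 ≤ (E.rk : ℤ) * j + E.alp := by
    have : (0 : ℚ) ≤ (E.rk : ℚ) * j + E.alp := by
      have h5 := mul_le_mul_of_nonneg_left hj1.le hρ.le
      have h6 : (0 : ℚ) ≤ E.rk * (14 + c * E.rk) := by positivity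
      linarith
    exact_mod_cast this
  have h5 : (E.rk : ℤ) * j + E.alp ≤ E.rk * (c * E.rk + 15) := by
    have : (E.rk : ℚ) * j + E.alp ≤ E.rk * (c * E.rk + 15) := by
      have h5 := mul_le_mul_of_nonneg_left hj2 hρ.le
      linarith
    exact_mod_cast this
  have h6 := mul_le_mul_of_nonneg_left h3 (Int.natCast_nonneg E.rk)
  have h7 : (0 : ℤ) ≤ E.rk * n + |E.bet| := by positivity
  have h8 := mul_le_mul_of_nonneg_left h5 h7
  have h9 := mul_le_mul_of_nonneg_right (neg_le_abs E.bet) h4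
  linarith

theorem charp_bound (ρ n : ℕ) (β : ℤ) (hρ : 0 < ρ) : ∃ C : ℤ, ∀ (p : ℕ) [Fact p.Prime],
    15 < p → 4 * ρ < p →
    ∀ (L : Type) [Field L] [Algebra (ZMod p) L] (x y : Lˣ), IsCoord (ZMod p) x y →
    ∀ (A : Type) [CommRing A] [Algebra L A] (G : Geo false false x y A)
      (V : Type) [AddCommGroup V] [Module L V] [Module (ZMod p) V] [IsScalarTower (ZMod p) L V]
      [Module A V] [IsScalarTower L A V] (N : PSh (ZMod p) x y V),
      N.FG → N.Full → G.Stab N → N.rk = ρ → N.bet = β → N.X0 (-(n : ℤ)) →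
      N.fib.SubLe A ((N.alp : ℚ) / N.rk) →
      32 * p ^ 2 * (N.rk * N.gam - N.alp * N.bet) +
        4 * m4 * N.rk ^ 2 * (((p : ℤ) - 1) * (p - 15)) ≤ C * p := by
  refine ⟨32 * ((ρ * (n + 15 * m4) + (|β| + 6 * m4 * ρ)) * (ρ * (((ρ + 1) * 29 : ℕ) * ρ + 15))),
    fun p _ hp hr L _ _ x y hc A _ _ G V _ _ _ _ _ _ N hN hf hs h1 h2 hX hμ => ?_⟩
  subst h1 h2
  let _ : Algebra (ZMod p) A := ((algebraMap L A).comp (algebraMap (ZMod p) L)).toAlgebra
  have _ : IsScalarTower (ZMod p) L A := IsScalarTower.of_algebraMap_eq fun _ => rfl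
  have _ : IsScalarTower (ZMod p) A V := ⟨fun c a v => by
    rw [Algebra.smul_def, mul_smul, IsScalarTower.algebraMap_apply (ZMod p) L A, algebraMap_smul,
      algebraMap_smul]⟩
  have _ : FiniteDimensional L V := by
    have h := hN.finiteDimensional
    rw [hf] at h
    exact Module.Finite.equiv Submodule.topEquiv
  have hk := good_zmod p (by omega)
  obtain ⟨A', _, _, _, _, _, _, _, G', ⟨F⟩⟩ := exists_frob p hk hc G V
  obtain ⟨a1, -, a3, a4, a5, a6, a7⟩ := F.Phi_lin hk hc hN hf hs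
  have b1 := F.Phi_disc hk hc hN hf hs hp hr
  have b2 := F.Phi_subLe hk hc hN hf hs hμ
  have hρ' : (N.rk : ℚ) ≠ 0 := by exact_mod_cast hρ.ne'
  have b3 := disc_le hc G' a1 a3 (a4 ▸ hρ) ((N.rk + 1) * 29) (b2.mono (le_of_eq (by
    rw [a4, a5]
    push_cast
    field_simp))) (p * (n + 15 * m4)) (by exact_mod_cast a7 n hX)
  rw [a4] at b3
  have hp1 : (1 : ℤ) ≤ p := by exact_mod_cast (by omega : 1 ≤ p)
  have hm : (1 : ℤ) ≤ m4 := by exact_mod_cast m4_pos
  have hr0 : (0 : ℤ) ≤ N.rk := Int.natCast_nonneg _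
  have b4 : |(F.Phi N).bet| ≤ p * (|N.bet| + 6 * m4 * N.rk) := by
    rw [a6]
    refine (abs_add_le _ _).trans ?_
    have h1 : (0 : ℤ) ≤ (6 * m4 - 1) * ((p : ℤ) - 1) := mul_nonneg (by linarith) (by linarith)
    have h2 : (6 * m4 - 1) * ((p : ℤ) - 1) ≤ 6 * m4 * p := by nlinarith
    have h3 := mul_le_mul_of_nonneg_left h2 hr0
    rw [abs_mul, abs_of_nonneg (by linarith : (0 : ℤ) ≤ p), abs_of_nonneg (mul_nonneg hr0 h1)]
    linarith
  have b5 : (0 : ℤ) ≤ N.rk * (((N.rk + 1) * 29 : ℕ) * N.rk + 15) := by positivity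
  have b6 := mul_le_mul_of_nonneg_right b4 b5
  generalize (N.rk : ℤ) * (((N.rk + 1) * 29 : ℕ) * N.rk + 15) = K at b3 b6 ⊢
  push_cast at b3
  linarith

end Vale.Agent.P190
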