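import Vale.Agent.P190.MainGr

/-! Nonnegativity of Euler characteristics of thick pieces. -/

namespace Vale.Agent.P190

variable {k : Type} [Field k] {L : Type} [Field L] [Algebra k L] {x y : Lˣ}
  {A : Type} [CommRing A] [Algebra L A] [Algebra k A] [IsScalarTower k L A]
  {V : Type} [AddCommGroup V] [Module L V] [Module k V] [IsScalarTower k L V] [Module A V]
  [IsScalarTower L A V] [IsScalarTower k A V]

theorem PSh.H2Z.map {V' : Type} [AddCommGroup V'] [Module L V'] [Module k V']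
    [IsScalarTower k L V'] {E : PSh k x y V} (h : E.H2Z) (φ : V →ₗ[L] V') : (E.map φ).H2Z := by
  obtain ⟨b, c, e, f, g, i, -, -, -, -, -, -, h7⟩ := E.les2 φ
  rw [PSh.h2_eq_zero_iff.2 h] at h7
  exact PSh.h2_eq_zero_iff.1 (add_eq_zero.1 h7.symm).2

theorem PSh.H0_eq_bot_of_le {E E' : PSh k x y V} (h : E' ≤ E) (h0 : E.H0 = ⊥) : E'.H0 = ⊥ := by
  rw [eq_bot_iff, ← h0]
  intro v hv
  exact PSh.mem_H0.2 fun a b => h a b (PSh.mem_H0.1 hv a b)

namespace Setup
variable {G : Geo false false x y A} {S : Setup k V G}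

theorem H1Z_inf {U : Submodule A V}
    (h0 : ∀ n : ℕ, (gr S.M (zp S.z (-(n : ℤ)) U) U).H0 = ⊥) (hU : S.Adm U) :
    (S.M.inf (U.restrictScalars L)).H1Z := by
  have hk : LinearMap.ker (U.mkQ.restrictScalars L) = U.restrictScalars L := by
    ext v; simp
  obtain ⟨b, c, e, f, g, i, -, h2, h3, h4, -, -, -⟩ := S.M.les2 (U.mkQ.restrictScalars L)
  have h5 : (S.M.map (U.mkQ.restrictScalars L)).H0 = ⊥ := by
    rw [eq_bot_iff]
    intro w hw
    rw [PSh.mem_H0] at hw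
    choose v hv hvw using hw
    choose N hN using fun a b => S.exh (v a b)
    obtain ⟨n, hn, -⟩ := hU.comm
    obtain ⟨K, hK⟩ := (Set.finite_range fun ab : Bool × Bool => N ab.1 ab.2).bddAbove
    rw [← h0 (K + n), PSh.mem_H0]
    intro a b
    refine ⟨v a b, ⟨hv a b, ?_⟩, hvw a b⟩
    have h6 : (N a b : ℤ) ≤ K := by exact_mod_cast hK ⟨(a, b), rfl⟩
    have h7 := zp_mono S.z (-((K + n : ℕ) : ℤ)) hn
    rw [zp_zp] at h7
    exact h7 (zp_anti S.z_le (by push_cast; omega) (hN a b))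
  rw [PSh.h0_eq_zero_iff.2 h5] at h2
  rw [PSh.h1_eq_zero_iff.2 S.h1] at h4
  rw [hk, (add_eq_zero.1 h2.symm).2, (add_eq_zero.1 h4.symm).1, add_zero] at h3
  exact PSh.h1_eq_zero_iff.1 h3

theorem H2Z_inf {U : Submodule A V} (h2 : ∀ n : ℕ, (gr S.M U (zp S.z n U)).H2Z) (hU : S.Adm U) :
    (S.M.inf (U.restrictScalars L)).H2Z := by
  obtain ⟨n, hn, -⟩ := hU.comm
  obtain ⟨n', hn'⟩ := S.deep n
  obtain ⟨m, hm⟩ := hU.exists_zp_le (S.adm_base.zp n')
  intro v hv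
  have h3 := h2 m (show (zp S.z m U).mkQ v ∈ (gr S.M U (zp S.z m U)).lxy by
    unfold gr
    rw [PSh.lxy_map]
    exact ⟨v, hv, rfl⟩)
  unfold gr at h3
  rw [PSh.lx_map, PSh.lx_map, PSh.ly_map, PSh.ly_map, ← Submodule.map_sup, ← Submodule.map_sup,
    ← Submodule.map_sup] at h3
  obtain ⟨u, hu, huv⟩ := h3
  have h4 : v - u ∈ zp S.z m U := (Submodule.Quotient.eq _).1 huv.symm
  have h5' : ∀ E : PSh k x y V, (E.lx false ⊔ E.lx true) ⊔ (E.ly false ⊔ E.ly true) ≤ E.lxy :=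
    fun E => sup_le (sup_le (E.lx_le_lxy _) (E.lx_le_lxy _)) (sup_le (E.ly_le_lxy _) (E.ly_le_lxy _))
  have h5 : u ∈ (S.M.inf (U.restrictScalars L)).lxy := h5' _ hu
  have h6 := Submodule.sub_mem _ hv h5
  rw [PSh.lxy_inf] at h6
  have h7 := hn' _ h6.1 (hm h4)
  have h8 : ∀ a, (S.M.inf ((zp S.z n S.Λ).restrictScalars L)).ly a ≤
      (S.M.inf (U.restrictScalars L)).ly a := fun a => by
    rw [PSh.ly_inf, PSh.ly_inf]
    exact inf_le_inf_left _ hn
  have h9' := sup_le_sup (h8 false) (h8 true)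
  have h9 := h9' h7
  rw [← sub_add_cancel v u]
  exact Submodule.add_mem _ (Submodule.mem_sup_right h9) hu

theorem chi_nonneg {U U' : Submodule A V} (h : U' ≤ U)
    (h1 : (S.M.inf (U.restrictScalars L)).H1Z) (h2 : (S.M.inf (U'.restrictScalars L)).H2Z) :
    0 ≤ (gr S.M U U').chi := by
  have hk : (S.M.inf (U.restrictScalars L)).inf (LinearMap.ker (U'.mkQ.restrictScalars L)) =
      S.M.inf (U'.restrictScalars L) := by
    rw [PSh.inf_inf]
    congr 1
    ext v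
    simp only [Submodule.mem_inf, Submodule.restrictScalars_mem, LinearMap.mem_ker,
      LinearMap.restrictScalars_apply, Submodule.mkQ_apply, Submodule.Quotient.mk_eq_zero]
    exact ⟨fun h' => h'.2, fun h' => ⟨h h', h'⟩⟩
  obtain ⟨b, c, e, f, g, i, -, -, -, h4, h5, h6, -⟩ :=
    (S.M.inf (U.restrictScalars L)).les2 (U'.mkQ.restrictScalars L)
  rw [PSh.h1_eq_zero_iff.2 h1] at h4
  rw [hk, PSh.h2_eq_zero_iff.2 h2] at h6
  rw [(add_eq_zero.1 h4.symm).2, (add_eq_zero.1 h6.symm).1, add_zero] at h5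
  exact PSh.chi_nonneg_of_H1Z (PSh.h1_eq_zero_iff.1 h5)

/-- the Euler characteristic of a thick piece attached to an intermediate lattice -/
theorem thick_nonneg (hc : IsCoord k x y) {Λ U : Submodule A V} (hΛ : S.Adm Λ)
    (hsub : (gr S.M Λ (zp S.z 1 Λ)).fib.SubLe A (-15))
    (hquot : (gr S.M Λ (zp S.z 1 Λ)).fib.QuotGe A (-16))
    (h1 : zp S.z 1 Λ ≤ U) (h2 : U ≤ Λ) (hU : (gr S.M Λ U).fib.SubLe A (-15))
    (hU' : (gr S.M (zp S.z 31 U) (zp S.z 32 Λ)).H2Z) :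
    0 ≤ (gr S.M U (zp S.z 31 U)).chi := by
  have hA : S.Adm U := hΛ.between h1 h2
  have hfg : (gr S.M Λ (zp S.z 1 Λ)).fib.FG := (hΛ.fg (hΛ.zp 1)).fib
  have hops : (gr S.M Λ (zp S.z 1 Λ)).fib.Ops A 15 := (gr_stab S.stab _ _).ops
  have a1 : ∀ n : ℕ, (gr S.M (zp S.z (-(n : ℤ)) Λ) U).H0 = ⊥ := by
    intro n
    induction n with
    | zero =>
      rw [Nat.cast_zero, neg_zero, zp_zero]
      exact PSh.H0_eq_bot_of_fib (P1.h0_eq_zero_of_subLe hc.fib (hΛ.fg hA).fib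
        (gr_stab S.stab _ _).ops hU (by norm_num))
    | succ n ih =>
      have b1 : U ≤ zp S.z (-(n : ℤ)) Λ := by
        have := zp_anti hΛ.z_le (show -(n : ℤ) ≤ 0 by omega)
        rw [zp_zero] at this
        exact h2.trans this
      refine gr_H0_ext b1 (zp_anti hΛ.z_le (by push_cast; omega)) ih ?_
      have b2 : zp S.z (-(n : ℤ)) Λ = zp S.z (-((n + 1 : ℕ) : ℤ)) (zp S.z 1 Λ) := by
        rw [zp_zp]; congr 1; push_cast; ring
      rw [b2]
      refine S.gr_zp_H0 _ _ _ (PSh.H0_eq_bot_of_fib ?_)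
      rw [PSh.fib_tw]
      refine P1.h0_eq_zero_of_subLe hc.fib (hfg.tw _) (hops.tw _) (hsub.tw hc.fib hfg _) ?_
      have : (0 : ℚ) ≤ n := Nat.cast_nonneg n
      push_cast
      linarith
  have a2 : ∀ n : ℕ, (gr S.M (zp S.z 31 U) (zp S.z (32 + n) Λ)).H2Z := by
    intro n
    induction n with
    | zero => rw [Nat.cast_zero, add_zero]; exact hU'
    | succ n ih =>
      have b1 : zp S.z (32 + n) Λ ≤ zp S.z 31 U := by
        have := zp_mono S.z 31 h1
        rw [zp_zp] at this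
        exact (zp_anti hΛ.z_le (by omega)).trans this
      refine gr_H2Z_ext (zp_anti hΛ.z_le (by push_cast; omega)) b1 ?_ ih
      have b2 : zp S.z (32 + ((n + 1 : ℕ) : ℤ)) Λ = zp S.z (32 + n) (zp S.z 1 Λ) := by
        rw [zp_zp]; congr 1
      rw [b2]
      refine S.gr_zp_H2Z _ _ _ (PSh.H2Z_of_fib ?_)
      rw [PSh.fib_tw]
      refine P1.h1_eq_zero_of_quotGe hc.fib (hfg.tw _) (hops.tw _) (hquot.tw hc.fib hfg _) ?_
      have : (0 : ℚ) ≤ n := Nat.cast_nonneg n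
      push_cast
      linarith
  refine chi_nonneg ?_ (H1Z_inf (fun n => ?_) hA) (H2Z_inf (fun n => ?_) (hA.zp 31))
  · have := zp_anti hA.z_le (show (0 : ℤ) ≤ 31 by omega)
    rwa [zp_zero] at this
  · exact PSh.H0_eq_bot_of_le (gr_mono S.M (zp_mono S.z _ h2) U) (a1 n)
  · have b1 : zp S.z (32 + n) Λ ≤ zp S.z n (zp S.z 31 U) := by
      have := zp_mono S.z (n + 31) h1
      rw [zp_zp] at this
      rw [zp_zp]
      exact (zp_anti hΛ.z_le (by omega)).trans this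
    rw [← gr_factor S.M _ b1]
    exact (a2 n).map _

end Setup
end Vale.Agent.P190
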