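import Vale.Agent.P190.MainPot
import Vale.Agent.P190.MainChi

/-! The weighted sum of Euler characteristics is negative: the contradiction. -/

namespace Vale.Agent.P190

/-- a subsheaf of maximal slope -/
theorem P1.exists_max_slope {k : Type} [Field k] {F : Type} [Field F] [Algebra k F] {t : Fˣ}
    {V : Type} [AddCommGroup V] [Module F V] [Module k V] [IsScalarTower k F V]
    (A : Type) [CommRing A] [Algebra F A] [Module A V] [IsScalarTower F A V]
    (hc : IsCoord1 k t) {E : P1 k t V} (hE : E.FG) (hr : 0 < E.rk) :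
    ∃ U : Submodule A V, 0 < (E.inf (U.restrictScalars F)).rk ∧
      E.SubLe A (((E.inf (U.restrictScalars F)).deg : ℚ) / (E.inf (U.restrictScalars F)).rk) := by
  obtain ⟨c, hcb⟩ := P1.exists_bounds hc hE
  have hN : (0 : ℚ) < (E.rk.factorial : ℚ) := by exact_mod_cast Nat.factorial_pos _
  have hint : ∀ U : Submodule A V, 0 < (E.inf (U.restrictScalars F)).rk →
      ∃ z : ℤ, (z : ℚ) = E.rk.factorial *
        (((E.inf (U.restrictScalars F)).deg : ℚ) / (E.inf (U.restrictScalars F)).rk) := by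
    intro U hU
    obtain ⟨m, hm⟩ := Nat.dvd_factorial hU (P1.rk_mono hE (P1.inf_le E _))
    have h0 : ((E.inf (U.restrictScalars F)).rk : ℚ) ≠ 0 := by exact_mod_cast hU.ne'
    refine ⟨m * (E.inf (U.restrictScalars F)).deg, ?_⟩
    rw [hm]
    push_cast
    field_simp
  obtain ⟨z, ⟨U, hU, hz⟩, hmax⟩ := Int.exists_greatest_of_bdd
    (P := fun z : ℤ => ∃ U : Submodule A V, 0 < (E.inf (U.restrictScalars F)).rk ∧
      (z : ℚ) = E.rk.factorial *
        (((E.inf (U.restrictScalars F)).deg : ℚ) / (E.inf (U.restrictScalars F)).rk))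
    ⟨E.rk.factorial * c, by
      rintro z ⟨U, hU, hz⟩
      have h0 : (0 : ℚ) < ((E.inf (U.restrictScalars F)).rk : ℚ) := by exact_mod_cast hU
      have h1 : ((E.inf (U.restrictScalars F)).deg : ℚ) ≤ c * (E.inf (U.restrictScalars F)).rk := by
        exact_mod_cast (hcb _ (P1.inf_le E _)).1
      have h2 : (z : ℚ) ≤ E.rk.factorial * c := by
        rw [hz]
        exact mul_le_mul_of_nonneg_left ((div_le_iff₀ h0).2 h1) hN.le
      exact_mod_cast h2⟩
    (by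
      have h0 : E.inf ((⊤ : Submodule A V).restrictScalars F) = E := by
        simp
      obtain ⟨z, hz⟩ := hint ⊤ (by rw [h0]; exact hr)
      exact ⟨z, ⊤, by rw [h0]; exact hr, hz⟩)
  refine ⟨U, hU, fun U' => ?_⟩
  rcases Nat.eq_zero_or_pos (E.inf (U'.restrictScalars F)).rk with h0 | h0
  · rw [P1.deg_eq_zero_of_rk (hE.inf _) h0, h0]
    simp
  · obtain ⟨z', hz'⟩ := hint U' h0
    have h1 : (z' : ℚ) ≤ z := by exact_mod_cast hmax z' ⟨U', h0, hz'⟩
    rw [hz, hz'] at h1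
    have h2 : (0 : ℚ) < ((E.inf (U'.restrictScalars F)).rk : ℚ) := by exact_mod_cast h0
    exact (div_le_iff₀ h2).1 (le_of_mul_le_mul_left h1 hN)

/-- the numerical inequality for one semistable piece -/
theorem piece_ineq {ρ α β γ : ℤ} (hρ : 0 < ρ) {μ : ℚ} (hμ : (α : ℚ) = μ * ρ) (h1 : -16 ≤ μ)
    (h2 : μ ≤ -15) (hB : 32 * (ρ * γ - α * β) ≤ -(4 * m4 * ρ ^ 2 : ℤ)) :
    (μ + 16) * ((∑ t ∈ Finset.range 31, (ρ * t * t + α * t + β * t + γ) : ℤ) : ℚ) +
      (-15 - μ) * ((∑ t ∈ Finset.range 31,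
        (ρ * (t + 1) * (t + 1) + α * (t + 1) + β * (t + 1) + γ) : ℤ) : ℚ) ≤ -(ρ : ℚ) := by
  have e0 : (∑ t ∈ Finset.range 31, (ρ * t * t + α * t + β * t + γ) : ℤ) =
      9455 * ρ + 465 * α + 465 * β + 31 * γ := by
    simp only [Finset.sum_range_succ, Finset.sum_range_zero]
    push_cast
    ring
  have e1 : (∑ t ∈ Finset.range 31,
      (ρ * (t + 1) * (t + 1) + α * (t + 1) + β * (t + 1) + γ) : ℤ) =
      10416 * ρ + 496 * α + 496 * β + 31 * γ := by
    simp only [Finset.sum_range_succ, Finset.sum_range_zero]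
    push_cast
    ring
  have hρ' : (0 : ℚ) < ρ := by exact_mod_cast hρ
  have hB' : 32 * ((ρ : ℚ) * γ - α * β) ≤ -(4 * 4096 * (ρ : ℚ) ^ 2) := by
    unfold m4 at hB
    exact_mod_cast hB
  have hγ : (γ : ℚ) ≤ μ * β - 512 * ρ := by
    refine le_of_mul_le_mul_left ?_ hρ'
    rw [hμ] at hB'
    linarith
  rw [e0, e1]
  push_cast
  rw [hμ]
  have h3 : 0 ≤ (ρ : ℚ) * (31 * (μ + 31 / 2) ^ 2 + 13000) := by positivity
  nlinarith

variable {k : Type} [Field k] {L : Type} [Field L] [Algebra k L] {x y : Lˣ}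
  {A : Type} [CommRing A] [Algebra L A] [Algebra k A] [IsScalarTower k L A]
  {V : Type} [AddCommGroup V] [Module L V] [Module k V] [IsScalarTower k L V] [Module A V]
  [IsScalarTower L A V] [IsScalarTower k A V]

namespace Setup
variable {G : Geo false false x y A} {S : Setup k V G}

/-- the thick piece of a lattice is a sum of twists of the thin piece -/
theorem chi_thick (hc : IsCoord k x y) {Λ : Submodule A V} (hΛ : S.Adm Λ) (m : ℤ) (T : ℕ) :
    (gr S.M (zp S.z m Λ) (zp S.z (m + T) Λ)).chi =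
      ∑ t ∈ Finset.range T, (gr S.M Λ (zp S.z 1 Λ)).hp (m + t) (m + t) := by
  induction T with
  | zero =>
    rw [Nat.cast_zero, add_zero, gr_self, ← PSh.gam_eq_chi, PSh.gam, PSh.hp_bot]
    simp
  | succ T ih =>
    have h1 := gr_hp_add hc (M := S.M) (Λ1 := zp S.z m Λ) (Λ2 := zp S.z (m + T) Λ)
      (Λ3 := zp S.z (m + (T + 1 : ℕ)) Λ) ((hΛ.zp _).fg (hΛ.zp _))
      (zp_anti hΛ.z_le (by push_cast; omega)) (zp_anti hΛ.z_le (by omega)) 0 0
    have h2 := S.gr_zp_hp (m + T) Λ (zp S.z 1 Λ) 0 0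
    rw [zp_zp, add_zero, show m + T + 1 = m + (T + 1 : ℕ) by push_cast; ring] at h2
    rw [Finset.sum_range_succ, ← ih, ← PSh.gam_eq_chi, ← PSh.gam_eq_chi, PSh.gam, PSh.gam, h1, h2,
      add_comm]

/-- change of the thick piece along an inclusion of lattices -/
theorem chi_thick_sub (hc : IsCoord k x y) {U U' : Submodule A V} (hU : S.Adm U) (hU' : S.Adm U')
    (h : U ≤ U') (T : ℕ) :
    (gr S.M U' (zp S.z T U')).chi - (gr S.M U (zp S.z T U)).chi =
      ∑ t ∈ Finset.range T, (gr S.M U' U).hp t t -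
        ∑ t ∈ Finset.range T, (gr S.M U' U).hp (t + 1) (t + 1) := by
  have hfg := hU'.fg (hU.zp T)
  have hT : zp S.z T U ≤ U := by
    simpa using zp_anti hU.z_le (m := 0) (n := T) (by omega)
  have hT' : zp S.z T U' ≤ U' := by
    simpa using zp_anti hU'.z_le (m := 0) (n := T) (by omega)
  have h1 := gr_hp_add hc hfg hT h 0 0
  have h2 := gr_hp_add hc hfg (zp_mono S.z T h) hT' 0 0
  rw [S.gr_zp_hp, add_zero] at h2
  have h3 : ∀ (f : ℤ → ℤ) (n : ℕ), ∑ t ∈ Finset.range n, f t - ∑ t ∈ Finset.range n, f (t + 1) =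
      f 0 - f n := by
    intro f n
    induction n with
    | zero => simp
    | succ n ih =>
      rw [Finset.sum_range_succ, Finset.sum_range_succ]
      push_cast
      linarith
  rw [h3 (fun t => (gr S.M U' U).hp t t) T, ← PSh.gam_eq_chi, ← PSh.gam_eq_chi, PSh.gam, PSh.gam]
  linarith

/-- the invariant of the greedy Harder-Narasimhan induction -/
structure Inv (S : Setup k V G) (Λ U : Submodule A V) (μ : ℚ) : Prop where
  le1 : zp S.z 1 Λ ≤ U
  le2 : U ≤ Λ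
  lo : -16 ≤ μ
  hi : μ ≤ -15
  sub : (gr S.M Λ U).fib.SubLe A μ
  h2 : (gr S.M (zp S.z 31 U) (zp S.z 32 Λ)).H2Z
  ineq : (μ + 16) * ((gr S.M U (zp S.z 31 U)).chi : ℚ) ≤
    ((∑ t ∈ Finset.range 31, (gr S.M Λ U).hp (t + 1) (t + 1) : ℤ) : ℚ) -
      (gr S.M U (zp S.z 1 Λ)).rk

theorem inv_start (hc : IsCoord k x y) {Λ : Submodule A V} (hΛ : S.Adm Λ)
    (hsub : (gr S.M Λ (zp S.z 1 Λ)).fib.SubLe A (-15)) : S.Inv Λ (zp S.z 1 Λ) (-15) := by
  refine ⟨le_rfl, hΛ.z_le, by norm_num, le_rfl, hsub, ?_, ?_⟩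
  · rw [zp_zp, show (31 : ℤ) + 1 = 32 by norm_num, gr_self]
    exact PSh.h2_eq_zero_iff.1 PSh.h_bot.2.2
  · have h1 := chi_thick hc hΛ 1 31
    rw [show (1 : ℤ) + (31 : ℕ) = 31 + 1 by norm_num, ← zp_zp] at h1
    have h2 : (gr S.M (zp S.z 1 Λ) (zp S.z 1 Λ)).rk = 0 := by
      rw [gr_self]
      simp [PSh.rk]
    rw [h1, h2]
    simp only [add_comm (1 : ℤ)]
    norm_num

theorem inv_step (hc : IsCoord k x y) (hB : BogIneq k G) {Λ : Submodule A V} (hΛ : S.Adm Λ)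
    (hsub : (gr S.M Λ (zp S.z 1 Λ)).fib.SubLe A (-15))
    (hquot : (gr S.M Λ (zp S.z 1 Λ)).fib.QuotGe A (-16))
    {U : Submodule A V} {μ : ℚ} (h : S.Inv Λ U μ) (hr : 0 < (gr S.M Λ U).rk) :
    ∃ U' μ', S.Inv Λ U' μ' ∧ (gr S.M Λ U').rk < (gr S.M Λ U).rk := by
  have hU : S.Adm U := hΛ.between h.le1 h.le2
  have hE : (gr S.M Λ U).FG := hΛ.fg hU
  obtain ⟨Ub, hpos, hmax⟩ := P1.exists_max_slope A hc.fib hE.fib (by rwa [PSh.rk_fib])
  have hmu := h.sub Ub
  have hsubQ := hmax.inf Ub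
  rw [← PSh.fib_inf, gr_inf] at hpos hmax hmu hsubQ
  obtain ⟨U', hU'def⟩ : ∃ U', U' = Λ ⊓ Ub.comap U.mkQ := ⟨_, rfl⟩
  have hUU' : U ≤ U' := by
    rw [hU'def]
    refine le_inf h.le2 fun v hv => ?_
    rw [Submodule.mem_comap, Submodule.mkQ_apply, (Submodule.Quotient.mk_eq_zero U).2 hv]
    exact Ub.zero_mem
  have hU'Λ : U' ≤ Λ := by rw [hU'def]; exact inf_le_left
  rw [← hU'def] at hpos hmax hmu hsubQ
  have hU' : S.Adm U' := hΛ.between (h.le1.trans hUU') hU'Λ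
  have hQ : (gr S.M U' U).FG := hU'.fg hU
  rw [← PSh.alp_eq_deg hc hQ, PSh.rk_fib] at hmax hmu hsubQ
  rw [PSh.rk_fib] at hpos
  have hBQ := hB _ _ hQ (gr_stab S.stab U' U) hsubQ
  have hposQ : (0 : ℚ) < (gr S.M U' U).rk := by exact_mod_cast hpos
  obtain ⟨μ', hμ'⟩ : ∃ μ' : ℚ, μ' = ((gr S.M U' U).alp : ℚ) / (gr S.M U' U).rk := ⟨_, rfl⟩
  rw [← hμ'] at hmax hsubQ
  have hα : ((gr S.M U' U).alp : ℚ) = μ' * (gr S.M U' U).rk := by
    rw [hμ', div_mul_cancel₀ _ hposQ.ne']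
  have hle : μ' ≤ μ := by
    rw [hα] at hmu
    exact le_of_mul_le_mul_right hmu hposQ
  have hmax' := (gr_subLe_iff hc hE h.le2 μ').1 hmax
  have hlo : -16 ≤ μ' := by
    have h1 := (gr_quotGe_iff hc (hΛ.fg (hΛ.zp 1)) hΛ.z_le (-16)).1 hquot U h.le1 h.le2
    have h2 := hmax' Λ h.le2 le_rfl
    have h3 : (0 : ℚ) < (gr S.M Λ U).rk := by exact_mod_cast hr
    exact le_of_mul_le_mul_right (h1.trans h2) h3
  have hrk := gr_rk_add hc hE hUU' hU'Λ
  refine ⟨U', μ', ⟨h.le1.trans hUU', hU'Λ, hlo, hle.trans h.hi, ?_, ?_, ?_⟩, by omega⟩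
  · refine (gr_subLe_iff hc (hΛ.fg hU') hU'Λ μ').2 fun U2 h1 h2 => ?_
    have hfg : (gr S.M U2 U).FG := gr_FG_of_le hE h2 le_rfl
    have h3 := hmax' U2 (hUU'.trans h1) h2
    rw [gr_rk_add hc hfg hUU' h1, gr_alp_add hc hfg hUU' h1] at h3
    push_cast at h3
    linarith
  · refine gr_H2Z_ext (Λ2 := zp S.z 31 U) ?_ (zp_mono _ _ hUU') h.h2 ?_
    · rw [show (32 : ℤ) = 31 + 1 by norm_num, ← zp_zp]
      exact zp_mono _ _ h.le1
    · refine S.gr_zp_H2Z 31 U' U (PSh.H2Z_of_fib ?_)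
      rw [PSh.fib_tw]
      have hq := (hsubQ.quotGe (by rw [← PSh.alp_eq_deg hc hQ, PSh.rk_fib, hα])).tw hc.fib hQ.fib
        31
      refine P1.h1_eq_zero_of_quotGe hc.fib (hQ.fib.tw 31)
        ((gr_stab S.stab U' U).ops.tw 31) hq ?_
      push_cast
      linarith
  · have hF := thick_nonneg hc hΛ hsub hquot h.le1 h.le2 (h.sub.mono h.hi) h.h2
    have hF' : (0 : ℚ) ≤ (gr S.M U (zp S.z 31 U)).chi := by exact_mod_cast hF
    have hd := chi_thick_sub hc hU hU' hUU' 31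
    rw [show ((31 : ℕ) : ℤ) = 31 by norm_num] at hd
    have hP := piece_ineq (ρ := (gr S.M U' U).rk) (by exact_mod_cast hpos)
      (by exact_mod_cast hα) hlo (hle.trans h.hi) hBQ
    simp only [← PSh.hp_eq hc hQ] at hP
    have hI := h.ineq
    simp only [gr_hp_add hc hE hUU' hU'Λ, Finset.sum_add_distrib] at hI
    rw [gr_rk_add hc (hU'.fg (hΛ.zp 1)) h.le1 hUU', eq_add_of_sub_eq hd]
    have hm := mul_le_mul_of_nonneg_right hle hF'
    rw [Int.cast_add] at hI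
    rw [Int.cast_add, Int.cast_sub, Nat.cast_add]
    rw [Int.cast_natCast] at hP
    linarith

theorem inv_end (hc : IsCoord k x y) {Λ : Submodule A V} (hΛ : S.Adm Λ)
    (hsub : (gr S.M Λ (zp S.z 1 Λ)).fib.SubLe A (-15))
    (hquot : (gr S.M Λ (zp S.z 1 Λ)).fib.QuotGe A (-16))
    {U : Submodule A V} {μ : ℚ} (h : S.Inv Λ U μ) (hr : (gr S.M Λ U).rk = 0) :
    (gr S.M Λ (zp S.z 1 Λ)).rk = 0 := by
  have hU : S.Adm U := hΛ.between h.le1 h.le2
  have hbot := PSh.eq_bot_of_rk (hΛ.fg hU) hr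
  have hF := thick_nonneg hc hΛ hsub hquot h.le1 h.le2 (h.sub.mono h.hi) h.h2
  have hF' : (0 : ℚ) ≤ (gr S.M U (zp S.z 31 U)).chi := by exact_mod_cast hF
  have hI := h.ineq
  simp only [hbot, PSh.hp_bot, Finset.sum_const_zero, Int.cast_zero, zero_sub] at hI
  have h1 : (0 : ℚ) ≤ (μ + 16) * (gr S.M U (zp S.z 31 U)).chi :=
    mul_nonneg (by linarith [h.lo]) hF'
  have h2 : ((gr S.M U (zp S.z 1 Λ)).rk : ℚ) ≤ 0 := by linarith
  have h3 : (gr S.M U (zp S.z 1 Λ)).rk = 0 := by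
    have : (gr S.M U (zp S.z 1 Λ)).rk ≤ 0 := by exact_mod_cast h2
    omega
  rw [gr_rk_add hc (hΛ.fg (hΛ.zp 1)) h.le1 h.le2, h3, hr]

theorem false_of_bog (hc : IsCoord k x y) (hB : BogIneq k G) (S : Setup k V G) : False := by
  obtain ⟨V', _, _, _, _, _, _, _, S', hf⟩ := exists_full hc S
  obtain ⟨Λ, hΛ, hsub, hquot, hpos⟩ := exists_window hc S' hf
  have key : ∀ (n : ℕ) (U : Submodule A V') (μ : ℚ), S'.Inv Λ U μ → (gr S'.M Λ U).rk = n →
      False := by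
    intro n
    induction n using Nat.strong_induction_on with
    | _ n ih =>
      intro U μ h hn
      rcases Nat.eq_zero_or_pos (gr S'.M Λ U).rk with h0 | h0
      · exact hpos.ne' (inv_end hc hΛ hsub hquot h h0)
      · obtain ⟨U', μ', h', hlt⟩ := inv_step hc hB hΛ hsub hquot h h0
        exact ih _ (hn ▸ hlt) U' μ' h' rfl
  exact key _ _ _ (inv_start hc hΛ hsub) rfl

end Setup
end Vale.Agent.P190
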