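import Vale.Agent.P190.Concrete
import Vale.Agent.P190.MainEnd

/-! The completed section ring has no small Cohen-Macaulay module, given the Bogomolov type
inequality. -/

namespace Vale.Agent.P190

open IsLocalRing

universe u

theorem Geo.IsGrd.dim_le_three {k : Type} [Field k] {L : Type} [Field L] [Algebra k L] {x y : Lˣ}
    {A : Type} [CommRing A] [Nontrivial A] [Algebra L A] [Algebra k A] [IsScalarTower k L A]
    {G : Geo false false x y A} {D : Grd k A (Bool × Bool)} (h : G.IsGrd D) :
    ringKrullDim D.ring ≤ 3 := by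
  classical
  have hloc := D.isLocalRing
  have hnoe := D.isNoetherianRing
  have hmax := D.maximalIdeal_eq
  let s : Finset D.ring :=
    {D.Z (false, false), D.Z (true, true), D.Z (false, true) + D.Z (true, false)}
  let I : Ideal D.ring := Ideal.span (s : Set D.ring)
  have hrel : D.Z (false, true) * D.Z (true, false) = D.Z (false, false) * D.Z (true, true) := by
    apply Subtype.ext
    simp only [Grd.Z, Grd.hom, MulMemClass.coe_mul, PowerSeries.monomial_mul_monomial, h.u_eq,
      ← map_mul, ← Units.val_mul]
    congr 3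
    simp [mul_comm]
  have h00 : D.Z (false, false) ∈ I := Ideal.subset_span (by simp [s])
  have h11 : D.Z (true, true) ∈ I := Ideal.subset_span (by simp [s])
  have h01 : D.Z (false, true) + D.Z (true, false) ∈ I := Ideal.subset_span (by simp [s])
  have hz : D.zI ≤ I.radical := by
    refine Ideal.span_le.2 ?_
    rintro _ ⟨⟨a, b⟩, rfl⟩
    cases a <;> cases b
    · exact Ideal.le_radical h00
    · refine ⟨2, ?_⟩
      have : D.Z (false, true) ^ 2 = D.Z (false, true) * (D.Z (false, true) + D.Z (true, false)) -
          D.Z (true, true) * D.Z (false, false) := by rw [mul_add, hrel]; ring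
      rw [this]
      exact I.sub_mem (I.mul_mem_left _ h01) (I.mul_mem_left _ h00)
    · refine ⟨2, ?_⟩
      have : D.Z (true, false) ^ 2 = D.Z (true, false) * (D.Z (false, true) + D.Z (true, false)) -
          D.Z (true, true) * D.Z (false, false) := by
        rw [mul_add, mul_comm (D.Z (true, false)) (D.Z (false, true)), hrel]; ring
      rw [this]
      exact I.sub_mem (I.mul_mem_left _ h01) (I.mul_mem_left _ h00)
    · exact Ideal.le_radical h11
  have hI : I ≤ maximalIdeal D.ring := by
    rw [hmax]
    refine Ideal.span_le.2 ?_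
    have hZ : ∀ i, D.Z i ∈ D.F 1 := fun i => D.zI_le (Ideal.subset_span ⟨i, rfl⟩)
    intro r hr
    simp only [s, Finset.coe_insert, Finset.coe_singleton, Set.mem_insert_iff,
      Set.mem_singleton_iff] at hr
    rcases hr with rfl | rfl | rfl
    · exact hZ _
    · exact hZ _
    · exact (D.F 1).add_mem (hZ _) (hZ _)
  have hrad : I.radical = maximalIdeal D.ring := by
    apply le_antisymm ((maximalIdeal.isMaximal D.ring).isPrime.radical_le_iff.2 hI)
    intro r hr
    rw [hmax] at hr
    have h1 : r ^ (D.G + 1) ∈ D.zI := by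
      have := D.F_le_zI_pow 1 (D.F_one_pow_le _ (Ideal.pow_mem_pow hr (D.G + 1)))
      rwa [pow_one] at this
    exact Ideal.mem_radical_of_pow_mem (hz h1)
  have hmin : maximalIdeal D.ring ∈ I.minimalPrimes := by
    rw [← Ideal.radical_minimalPrimes, hrad, Ideal.minimalPrimes_eq_subsingleton_self]
    rfl
  have hle := Ideal.height_le_card_of_mem_minimalPrimes_span_finset hmin
  have hc : s.card ≤ 3 := Finset.card_le_three
  rw [← IsLocalRing.maximalIdeal_height_eq_ringKrullDim]
  have : (maximalIdeal D.ring).height ≤ 3 := hle.trans (by exact_mod_cast hc)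
  exact WithBot.coe_le_coe.2 this

theorem exists_ring_of_bog {k : Type} [Field k] {L : Type} [Field L] [Algebra k L] {x y : Lˣ}
    {A : Type} [CommRing A] [IsDomain A] [Algebra L A] [Algebra k A] [IsScalarTower k L A]
    (hk : Good k) (hc : IsCoord k x y) (G : Geo false false x y A) (hB : BogIneq k G) :
    ∃ (R : Type) (_ : CommRing R) (_ : IsDomain R) (_ : IsLocalRing R) (_ : IsNoetherianRing R)
      (_ : IsAdicComplete (maximalIdeal R) R) (_ : Algebra k R), ringKrullDim R = 3 ∧
      ∀ (M : Type u) [AddCommGroup M] [Module R M] [Module.Finite R M] [Nontrivial M]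
        (rs : List R), (∀ r ∈ rs, r ∈ maximalIdeal R) →
        RingTheory.Sequence.IsWeaklyRegular M rs →
        (rs.length : WithBot ℕ∞) < ringKrullDim R := by
  obtain ⟨D, hD⟩ := G.exists_grd hk hc
  haveI hloc := D.isLocalRing
  haveI hnoe := D.isNoetherianRing
  have hmax := D.maximalIdeal_eq
  refine ⟨D.ring, inferInstance, inferInstance, hloc, hnoe, hmax ▸ D.isAdicComplete, inferInstance,
    le_antisymm hD.dim_le_three (hD.three_le_dim hc), ?_⟩
  intro M _ _ _ _ rs hm hreg
  by_contra hlt
  have hle : ringKrullDim D.ring ≤ (rs.length : WithBot ℕ∞) := not_lt.1 hlt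
  have h3 : 3 ≤ rs.length := by
    have := (hD.three_le_dim hc).trans hle
    exact_mod_cast this
  obtain ⟨n, f, hf⟩ := exists_embedding M (torsionFree_of_mcm rs M hm hreg hle)
  let j : D.ring →ₗ[D.ring] Lau A := Algebra.linearMap D.ring (Lau A)
  have hj : Function.Injective j := fun a b h =>
    Subtype.ext (algebraMap_Lau_injective h)
  let g : M →ₗ[D.ring] (Fin n → Lau A) := (j.compLeft (Fin n)) ∘ₗ f
  have hg : Function.Injective g := fun a b h =>
    hf (funext fun i => hj (congrFun h i))
  obtain ⟨r1, h1, r2, h2, r3, h3', h0, hd⟩ := exists_depth3 g hg rs h3 hreg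
  have hne : LinearMap.range g ≠ ⊥ := by
    obtain ⟨m, hm0⟩ := exists_ne (0 : M)
    intro h
    have : g m ∈ (⊥ : Submodule D.ring (Fin n → Lau A)) := h ▸ LinearMap.mem_range_self g m
    exact hm0 (hg (by rw [map_zero]; exact (Submodule.mem_bot _).1 this))
  exact Setup.false_of_bog hc hB (hD.setup (M := LinearMap.range g)
    (by rintro _ ⟨m, rfl⟩ i; exact ⟨f m i, rfl⟩) hne h0 (hmax ▸ hm r1 h1) (hmax ▸ hm r2 h2)
    (hmax ▸ hm r3 h3') hd)

end Vale.Agent.P190
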