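import Vale.Agent.P190.Transfer
import Vale.Agent.P190.CharP
import Vale.Agent.P190.Final

/-! The Bogomolov type inequality in characteristic zero, and the final statement. -/

namespace Vale.Agent.P190

open IsLocalRing

universe u

variable {L : Type} [Field L] [Algebra ℚ L] {x y : Lˣ}
  {A : Type} [CommRing A] [Algebra L A]

theorem coeff_map_of_inj {k : Type} [Field k] {L : Type} [Field L] [Algebra k L] {x y : Lˣ}
    (hc : IsCoord k x y) {V V' : Type} [AddCommGroup V] [Module L V] [Module k V]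
    [IsScalarTower k L V] [AddCommGroup V'] [Module L V'] [Module k V'] [IsScalarTower k L V']
    {E : PSh k x y V} (hE : E.FG) (φ : V →ₗ[L] V') (hφ : Function.Injective φ) :
    (E.map φ).rk = E.rk ∧ (E.map φ).alp = E.alp ∧ (E.map φ).bet = E.bet ∧
      (E.map φ).gam = E.gam := by
  obtain ⟨h1, h2, h3, h4⟩ := PSh.coeff_eq_of_hp hc (hE.map φ) (r := E.rk) (a := E.alp)
    (b := E.bet) (c := E.gam) fun i j => by
      rw [PSh.hp_map_of_inj E φ (fun v _ hv => hφ (by rw [hv, map_zero])), PSh.hp_eq hc hE]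
  exact ⟨by exact_mod_cast h1, h2, h3, h4⟩

theorem bog_full (hc : IsCoord ℚ x y) (G : Geo false false x y A)
    {V : Type} [AddCommGroup V] [Module L V] [Module ℚ V] [IsScalarTower ℚ L V] [Module A V]
    [IsScalarTower L A V] {N : PSh ℚ x y V} (hN : N.FG) (hf : N.Full) (hs : G.Stab N)
    (hμ : N.fib.SubLe A ((N.alp : ℚ) / N.rk)) :
    32 * (N.rk * N.gam - N.alp * N.bet) ≤ -(4 * m4 * N.rk ^ 2 : ℤ) := by
  rcases Nat.eq_zero_or_pos N.rk with h0 | hpos
  · have hb := PSh.eq_bot_of_rk hN h0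
    have ha : N.alp = 0 := by rw [hb]; simp [PSh.alp, PSh.hp_bot]
    simp [h0, ha]
  haveI : FiniteDimensional L V := by
    have := hN.finiteDimensional
    rw [show Submodule.span L (N.ch false false : Set V) = ⊤ from hf] at this
    exact Module.Finite.equiv Submodule.topEquiv
  let bs := Module.finBasis L V
  obtain ⟨n, hn⟩ := PSh.Np_uniform hc hN bs
  obtain ⟨C, hC⟩ := charp_bound N.rk n N.bet hpos
  obtain ⟨m1, hm1⟩ := exists_compat hc bs G
  obtain ⟨m2, hm2⟩ := transfer hc G hN hs bs hμ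
  by_contra hlt
  have hlt' : -(4 * m4 * N.rk ^ 2 : ℤ) + 1 ≤ 32 * (N.rk * N.gam - N.alp * N.bet) := by omega
  obtain ⟨p, hp, hpp⟩ := Nat.exists_infinite_primes
    (m1 + m2 + 16 + 4 * N.rk + C.natAbs + 16 * (4 * m4 * N.rk ^ 2) + 1)
  haveI : Fact p.Prime := ⟨hpp⟩
  obtain ⟨L', _, _, x', y', hc'⟩ := exists_isCoord (ZMod p)
  obtain ⟨A', _, _, _, _, G', hG⟩ := hm1 p (by omega) L' x' y' hc'
  obtain ⟨e1, e2, e3, e4⟩ := PSh.Np_coeff hc hc' hN bs
  have key := hC p (by omega) (by omega) L' x' y' hc' A' G' _ (PSh.Np hc hc' N bs)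
    (PSh.Np_FG hc hc' hN bs) (PSh.Np_full hc hc' hN hf bs) (hG.stab hc hc' hs) e1 e3
    (hn p L' x' y' hc').1 (by rw [e1, e2]; exact hm2 p (by omega) L' x' y' hc' A' G' hG)
  rw [e1, e2, e3, e4] at key
  have hp' : ((C.natAbs + 16 * (4 * m4 * N.rk ^ 2) + 1 : ℕ) : ℤ) ≤ p := by exact_mod_cast by omega
  push_cast at hp'
  set K : ℤ := 4 * m4 * N.rk ^ 2 with hK
  set Δ : ℤ := N.rk * N.gam - N.alp * N.bet
  have hK0 : 0 ≤ K := by positivity
  have hCa : C ≤ |C| := le_abs_self C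
  have hp0 : (0 : ℤ) < p := by exact_mod_cast hpp.pos
  have h1 : (p : ℤ) ^ 2 * (-K + 1) ≤ p ^ 2 * (32 * Δ) :=
    mul_le_mul_of_nonneg_left hlt' (by positivity)
  have h2 : (p : ℤ) * (C + 16 * K + 1) ≤ p * p := mul_le_mul_of_nonneg_left (by omega) hp0.le
  nlinarith

theorem bogIneq (hc : IsCoord ℚ x y) (G : Geo false false x y A) : BogIneq ℚ G := by
  intro V _ _ _ _ _ _ N hN hs hμ
  let _ : Algebra ℚ A := ((algebraMap L A).comp (algebraMap ℚ L)).toAlgebra
  have _ : IsScalarTower ℚ L A := IsScalarTower.of_algebraMap_eq fun _ => rfl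
  have _ : IsScalarTower ℚ A V := IsScalarTower.of_algebraMap_smul fun c v => by
    rw [IsScalarTower.algebraMap_apply ℚ L A, algebraMap_smul, algebraMap_smul]
  obtain ⟨U, hU⟩ := hs.ops.exists_span
  rw [PSh.span_fib] at hU
  have hUm : ∀ v, v ∈ U ↔ v ∈ Submodule.span L (N.ch false false : Set V) := fun v => by
    rw [← hU]; rfl
  have hch : ∀ a b, ∀ v ∈ N.ch a b, v ∈ U := fun a b v hv => by
    rw [hUm, ← N.span_ch a b]; exact Submodule.subset_span hv
  let ι : U →ₗ[L] V := U.subtype.restrictScalars L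
  have hι : Function.Injective ι := Subtype.val_injective
  let N' : PSh ℚ x y U := N.comap ι
  have hN' : N'.FG := hN.comap ι hι
  have hmap : ∀ W : Submodule A U, (N'.inf (W.restrictScalars L)).map ι =
      N.inf ((W.map U.subtype).restrictScalars L) := by
    intro W
    ext a b v
    constructor
    · rintro ⟨u, ⟨hu, hu'⟩, rfl⟩
      exact ⟨hu, u, hu', rfl⟩
    · rintro ⟨hv, u, hu, rfl⟩
      exact ⟨u, ⟨hv, hu⟩, rfl⟩
  have hmap0 : N'.map ι = N := by
    ext a b v
    constructor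
    · rintro ⟨u, hu, rfl⟩
      exact hu
    · intro hv
      exact ⟨⟨v, hch a b v hv⟩, hv, rfl⟩
  obtain ⟨e1, e2, e3, e4⟩ := coeff_map_of_inj hc hN' ι hι
  rw [hmap0] at e1 e2 e3 e4
  have hf : N'.Full := by
    rw [PSh.Full, eq_top_iff]
    intro u _
    have h1 : ι u ∈ (Submodule.span L (N'.ch false false : Set U)).map ι := by
      rw [Submodule.map_span]
      refine Submodule.span_mono ?_ ((hUm u).1 u.2)
      intro v hv
      exact ⟨⟨v, hch _ _ v hv⟩, hv, rfl⟩
    obtain ⟨u', hu', h⟩ := h1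
    rwa [← hι h]
  have key := bog_full hc G hN' hf (hs.comap U.subtype) (by
    intro W
    obtain ⟨f1, f2, -, -⟩ := coeff_map_of_inj hc (hN'.inf (W.restrictScalars L)) ι hι
    have h := hμ (W.map U.subtype)
    rw [← PSh.fib_inf, ← PSh.alp_eq_deg hc (hN.inf _), PSh.rk_fib, ← hmap, f1, f2] at h
    rw [← PSh.fib_inf, ← PSh.alp_eq_deg hc (hN'.inf _), PSh.rk_fib, ← e1, ← e2]
    exact h)
  rwa [← e1, ← e2, ← e3, ← e4] at key

theorem exists_ring :
    ∃ (R : Type) (_ : CommRing R) (_ : IsDomain R) (_ : IsLocalRing R) (_ : IsNoetherianRing R)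
      (_ : IsAdicComplete (maximalIdeal R) R) (_ : Algebra ℚ R), ringKrullDim R = 3 ∧
      ∀ (M : Type u) [AddCommGroup M] [Module R M] [Module.Finite R M] [Nontrivial M]
        (rs : List R), (∀ r ∈ rs, r ∈ maximalIdeal R) →
        RingTheory.Sequence.IsWeaklyRegular M rs →
        (rs.length : WithBot ℕ∞) < ringKrullDim R := by
  obtain ⟨L, _, _, x, y, hc⟩ := exists_isCoord ℚ
  obtain ⟨A, _, _, _, ⟨G⟩⟩ := exists_geo_domain x y
  letI : Algebra ℚ A := ((algebraMap L A).comp (algebraMap ℚ L)).toAlgebra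
  haveI : IsScalarTower ℚ L A := IsScalarTower.of_algebraMap_eq fun _ => rfl
  exact exists_ring_of_bog good_rat hc G (bogIneq hc G)

end Vale.Agent.P190
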