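import Vale.Agent.P190.Defs

/-! Consequences of the existence of long regular sequences. -/

namespace Vale.Agent.P190

open IsLocalRing

universe u

/-- nonzero submodules of a module of depth `n` have dimension at least `n` -/
theorem le_supportDim_of_isRegular {R : Type} [CommRing R] [IsLocalRing R] [IsNoetherianRing R]
    (rs : List R) (M : Type u) [AddCommGroup M] [Module R M] [Module.Finite R M]
    (hm : ∀ r ∈ rs, r ∈ maximalIdeal R) (hreg : RingTheory.Sequence.IsWeaklyRegular M rs)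
    (N : Submodule R M) (hN : N ≠ ⊥) : (rs.length : WithBot ℕ∞) ≤ Module.supportDim R N := by
  induction rs generalizing M with
  | nil =>
    have : Nontrivial N := Submodule.nontrivial_iff_ne_bot.2 hN
    obtain ⟨d, hd⟩ := WithBot.ne_bot_iff_exists.1 (Module.supportDim_ne_bot_of_nontrivial R N)
    rw [← hd]
    exact WithBot.coe_le_coe.2 (zero_le (a := d))
  | cons r rs ih =>
    obtain ⟨hr, hreg'⟩ := (RingTheory.Sequence.isWeaklyRegular_cons_iff M r rs).1 hreg
    have hrm : r ∈ maximalIdeal R := hm r (by simp)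
    have up : ∀ (v : M) {n K : ℕ}, n ≤ K → r ^ n • v ∈ N → r ^ K • v ∈ N := by
      intro v n K hn hv
      obtain ⟨k, rfl⟩ := Nat.exists_eq_add_of_le' hn
      rw [pow_add, mul_smul]
      exact N.smul_mem _ hv
    let L : Submodule R M :=
      { carrier := {v | ∃ n : ℕ, r ^ n • v ∈ N}
        add_mem' := by
          rintro v w ⟨n, hn⟩ ⟨n', hn'⟩
          refine ⟨max n n', ?_⟩
          rw [smul_add]
          exact N.add_mem (up _ (le_max_left _ _) hn) (up _ (le_max_right _ _) hn')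
        zero_mem' := ⟨0, by simp⟩
        smul_mem' := by
          rintro c v ⟨n, hn⟩
          refine ⟨n, ?_⟩
          rw [smul_comm]
          exact N.smul_mem c hn }
    have ml : ∀ v, v ∈ L ↔ ∃ n : ℕ, r ^ n • v ∈ N := fun v => Iff.rfl
    obtain ⟨K, hK⟩ : ∃ K : ℕ, ∀ v ∈ L, r ^ K • v ∈ N := by
      obtain ⟨s, hs'⟩ := IsNoetherian.noetherian L
      choose n hn using fun v : s => (ml v).1 (hs' ▸ Submodule.subset_span v.2)
      obtain ⟨K, hK⟩ := (Set.finite_range n).bddAbove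
      refine ⟨K, fun v hv => ?_⟩
      rw [← hs'] at hv
      exact (Submodule.span_le (p := N.comap (LinearMap.lsmul R M (r ^ K)))).2
        (fun v hv => up v (hK ⟨⟨v, hv⟩, rfl⟩) (hn ⟨v, hv⟩)) hv
    have h1 : Module.supportDim R L ≤ Module.supportDim R N := by
      refine Module.supportDim_le_of_injective
        ((LinearMap.lsmul R M (r ^ K)).restrict (p := L) (q := N) hK) fun u v huv => ?_
      exact Subtype.ext (hr.pow K (congrArg Subtype.val huv))
    have h2 : IsSMulRegular L r := fun u v huv =>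
      Subtype.ext (hr (congrArg Subtype.val huv))
    have h3 := Module.supportDim_quotSMulTop_succ_eq_supportDim h2 hrm
    let q : M →ₗ[R] QuotSMulTop r M := Submodule.mkQ _
    have h4 : L.map q ≠ ⊥ := by
      intro h
      apply hN
      rw [eq_bot_iff]
      refine le_trans (b := L) (fun v hv => (ml v).2 ⟨0, by simpa using hv⟩) (le_of_eq ?_)
      refine Submodule.eq_bot_of_le_smul_of_le_jacobson_bot (maximalIdeal R) _
        (IsNoetherian.noetherian _) (fun v hv => ?_) (maximalIdeal_le_jacobson _)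
      have h5 : q v = 0 := by
        rw [← Submodule.mem_bot R, ← h]; exact ⟨v, hv, rfl⟩
      obtain ⟨w, -, rfl⟩ := (Submodule.mem_smul_pointwise_iff_exists _ _ _).1
        ((Submodule.Quotient.mk_eq_zero _).1 h5)
      refine Submodule.smul_mem_smul hrm ?_
      obtain ⟨n, hn⟩ := (ml _).1 hv
      exact (ml _).2 ⟨n + 1, by rwa [pow_succ, mul_smul]⟩
    have h5 := ih (QuotSMulTop r M) (fun a ha => hm a (by simp [ha])) hreg' _ h4
    have h6 : Module.supportDim R (L.map q) ≤ Module.supportDim R (QuotSMulTop r L) := by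
      refine Module.supportDim_le_of_surjective
        (Submodule.liftQ _ (q.submoduleMap L) fun v hv => ?_) ?_
      · obtain ⟨w, -, rfl⟩ := (Submodule.mem_smul_pointwise_iff_exists _ _ _).1 hv
        refine Subtype.ext ((Submodule.Quotient.mk_eq_zero _).2 ?_)
        exact Submodule.smul_mem_pointwise_smul _ _ _ trivial
      · intro v
        obtain ⟨w, rfl⟩ := q.submoduleMap_surjective L v
        exact ⟨Submodule.Quotient.mk w, rfl⟩
    rw [List.length_cons, Nat.cast_succ]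
    exact (add_le_add (h5.trans h6) le_rfl).trans (h3.le.trans h1)

/-- a maximal Cohen-Macaulay module over a local domain is torsion free -/
theorem torsionFree_of_mcm {R : Type} [CommRing R] [IsDomain R] [IsLocalRing R]
    [IsNoetherianRing R] (rs : List R) (M : Type u) [AddCommGroup M] [Module R M]
    [Module.Finite R M] (hm : ∀ r ∈ rs, r ∈ maximalIdeal R)
    (hreg : RingTheory.Sequence.IsWeaklyRegular M rs)
    (hlen : ringKrullDim R ≤ (rs.length : WithBot ℕ∞)) (a : R) (m : M) (h : a • m = 0) :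
    a = 0 ∨ m = 0 := by
  by_contra hc
  push Not at hc
  have ha : a ∈ maximalIdeal R := by
    rintro ⟨u, rfl⟩
    exact hc.2 (by rw [← one_smul R m, ← u.inv_mul, mul_smul, h, smul_zero])
  have h1 := le_supportDim_of_isRegular rs M hm hreg (Submodule.span R {m})
    (by simpa using hc.2)
  have h2 : Ideal.span {a} ≤ Module.annihilator R (Submodule.span R {m}) := by
    rw [Ideal.span_singleton_le_iff_mem, Module.mem_annihilator]
    rintro ⟨v, hv⟩
    obtain ⟨c, rfl⟩ := Submodule.mem_span_singleton.1 hv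
    refine Subtype.ext ?_
    change a • c • m = 0
    rw [smul_comm, h, smul_zero]
  have h3 := ringKrullDim_le_of_surjective _ (Ideal.Quotient.factor_surjective h2)
  rw [← Module.supportDim_eq_ringKrullDim_quotient_annihilator] at h3
  have h4 := ringKrullDim_quotient_span_singleton_succ_eq_ringKrullDim_of_mem_nonZeroDivisors
    (mem_nonZeroDivisors_of_ne_zero hc.1) ha
  have h5 := (add_le_add (h1.trans h3) (le_refl 1)).trans (h4.le.trans hlen)
  have h6 : rs.length + 1 ≤ rs.length := by exact_mod_cast h5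
  omega

/-- a finitely generated torsion free module over a domain embeds in a free module -/
theorem exists_embedding {R : Type} [CommRing R] [IsDomain R] (M : Type u) [AddCommGroup M]
    [Module R M] [Module.Finite R M] (h : ∀ (a : R) (m : M), a • m = 0 → a = 0 ∨ m = 0) :
    ∃ (n : ℕ) (f : M →ₗ[R] (Fin n → R)), Function.Injective f := by
  classical
  obtain ⟨n, s, hs⟩ := Module.Finite.exists_fin (R := R) (M := M)
  obtain ⟨I, hI1, hI2⟩ := exists_maximal_linearIndepOn R s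
  have hI : LinearIndependent R (fun i : I => s i) := hI1
  let b := Module.Basis.span hI
  have h1 : ∀ i, ∃ a : R, a ≠ 0 ∧ a • s i ∈ Submodule.span R (Set.range fun i : I => s i) := by
    intro i
    by_cases hi : i ∈ I
    · exact ⟨1, one_ne_zero, by rw [one_smul]; exact Submodule.subset_span ⟨⟨i, hi⟩, rfl⟩⟩
    · rw [← Set.image_eq_range]; exact hI2 i hi
  choose a ha ha' using h1
  have h2 : ∀ v, LinearMap.lsmul R M (∏ i, a i) v ∈
      Submodule.span R (Set.range fun i : I => s i) := by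
    intro v
    have h3 : Submodule.span R (Set.range s) ≤
        (Submodule.span R (Set.range fun i : I => s i)).comap (LinearMap.lsmul R M (∏ i, a i)) := by
      rw [Submodule.span_le]
      rintro _ ⟨i, rfl⟩
      change (∏ i, a i) • s i ∈ Submodule.span R (Set.range fun i : I => s i)
      rw [Fintype.prod_eq_prod_compl_mul i, mul_smul]
      exact Submodule.smul_mem _ _ (ha' i)
    exact h3 (hs ▸ Submodule.mem_top)
  refine ⟨Fintype.card I, (b.reindex (Fintype.equivFin I)).equivFun.toLinearMap ∘ₗ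
    (LinearMap.lsmul R M (∏ i, a i)).codRestrict _ h2,
    (b.reindex (Fintype.equivFin I)).equivFun.injective.comp ?_⟩
  rw [injective_iff_map_eq_zero]
  intro v hv
  exact (h _ _ (congrArg Subtype.val hv)).resolve_left (Finset.prod_ne_zero_iff.2 fun i _ => ha i)

/-- depth at least three, in elementary terms, for a submodule -/
structure Depth3 {R V : Type} [CommRing R] [AddCommGroup V] [Module R V] (M : Submodule R V)
    (r1 r2 r3 : R) : Prop where
  reg2 : ∀ m ∈ M, ∀ m1 ∈ M, r2 • m = r1 • m1 → ∃ n1 ∈ M, m = r1 • n1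
  reg3 : ∀ m ∈ M, ∀ m1 ∈ M, ∀ m2 ∈ M, r3 • m = r1 • m1 + r2 • m2 →
    ∃ n1 ∈ M, ∃ n2 ∈ M, m = r1 • n1 + r2 • n2

theorem exists_depth3 {R V : Type} [CommRing R] [AddCommGroup V] [Module R V]
    {M : Type u} [AddCommGroup M] [Module R M] [Nontrivial M] (f : M →ₗ[R] V)
    (hf : Function.Injective f) (rs : List R) (hlen : 3 ≤ rs.length)
    (hreg : RingTheory.Sequence.IsWeaklyRegular M rs) :
    ∃ r1 ∈ rs, ∃ r2 ∈ rs, ∃ r3 ∈ rs, r1 ≠ 0 ∧ Depth3 (LinearMap.range f) r1 r2 r3 := by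
  obtain ⟨r1, r2, r3, rs', rfl⟩ : ∃ r1 r2 r3 rs', rs = r1 :: r2 :: r3 :: rs' := by
    match rs, hlen with
    | r1 :: r2 :: r3 :: rs', _ => exact ⟨r1, r2, r3, rs', rfl⟩
  obtain ⟨h1, hreg⟩ := (RingTheory.Sequence.isWeaklyRegular_cons_iff _ _ _).1 hreg
  obtain ⟨h2, hreg⟩ := (RingTheory.Sequence.isWeaklyRegular_cons_iff _ _ _).1 hreg
  obtain ⟨h3, -⟩ := (RingTheory.Sequence.isWeaklyRegular_cons_iff _ _ _).1 hreg
  have key : ∀ (N : Type u) [AddCommGroup N] [Module R N] (r : R) (v : N),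
      (Submodule.Quotient.mk v : QuotSMulTop r N) = 0 ↔ ∃ w, v = r • w := by
    intro N _ _ r v
    rw [Submodule.Quotient.mk_eq_zero, Submodule.mem_smul_pointwise_iff_exists]
    exact ⟨fun ⟨w, _, hw⟩ => ⟨w, hw.symm⟩, fun ⟨w, hw⟩ => ⟨w, trivial, hw.symm⟩⟩
  refine ⟨r1, by simp, r2, by simp, r3, by simp, ?_, ?_, ?_⟩
  · rintro rfl
    exact not_subsingleton M (IsSMulRegular.zero_iff_subsingleton.1 h1)
  · rintro _ ⟨m, rfl⟩ _ ⟨m1, rfl⟩ h
    rw [← map_smul, ← map_smul] at h
    have h4 : (Submodule.Quotient.mk m : QuotSMulTop r1 M) = 0 := by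
      refine h2.right_eq_zero_of_smul ?_
      rw [← Submodule.Quotient.mk_smul, key]
      exact ⟨m1, hf h⟩
    obtain ⟨w, rfl⟩ := (key M r1 m).1 h4
    exact ⟨f w, ⟨w, rfl⟩, map_smul _ _ _⟩
  · rintro _ ⟨m, rfl⟩ _ ⟨m1, rfl⟩ _ ⟨m2, rfl⟩ h
    rw [← map_smul, ← map_smul, ← map_smul, ← map_add] at h
    have h4 : (Submodule.Quotient.mk (Submodule.Quotient.mk m) :
        QuotSMulTop r2 (QuotSMulTop r1 M)) = 0 := by
      refine h3.right_eq_zero_of_smul ?_
      rw [← Submodule.Quotient.mk_smul, ← Submodule.Quotient.mk_smul, key, hf h]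
      refine ⟨Submodule.Quotient.mk m2, ?_⟩
      rw [Submodule.Quotient.mk_add, (key M r1 _).2 ⟨m1, rfl⟩, zero_add, Submodule.Quotient.mk_smul]
    obtain ⟨w, hw⟩ := (key _ r2 _).1 h4
    obtain ⟨w, rfl⟩ := Submodule.Quotient.mk_surjective _ w
    rw [← sub_eq_zero, ← Submodule.Quotient.mk_smul, ← Submodule.Quotient.mk_sub, key] at hw
    obtain ⟨w', hw'⟩ := hw
    refine ⟨f w', ⟨w', rfl⟩, f w, ⟨w, rfl⟩, ?_⟩
    rw [← map_smul, ← map_smul, ← map_add, ← hw', sub_add_cancel]

theorem mem_of_descent {R W J : Type} [CommRing R] [AddCommGroup W] [Module R W] (z : J → R)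
    {r : R} (hr : r ∈ (Ideal.span (Set.range z)).radical) (B : Submodule R W) (C : W → Prop)
    (hC : ∀ γ, C γ → C (r • γ)) (hd : ∀ γ, C γ → r • γ ∈ B → γ ∈ B) {γ : W} (hγ : C γ)
    (hz : ∀ j, ∃ N : ℕ, z j ^ N • γ ∈ B) : γ ∈ B := by
  have h1 : Ideal.span (Set.range z) ≤
      Ideal.radical (B.comap (LinearMap.toSpanSingleton R W γ)) := by
    rw [Ideal.span_le]
    rintro _ ⟨j, rfl⟩
    exact hz j
  obtain ⟨K, hK⟩ := Ideal.radical_le_radical_iff.2 h1 hr
  have hK' : r ^ K • γ ∈ B := hK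
  clear hK hz h1
  induction K generalizing γ with
  | zero => simpa using hK'
  | succ K ih => exact hd γ hγ (ih (hC γ hγ) (by rwa [pow_succ, mul_smul] at hK'))

/-- vanishing of the first Cech cohomology on the punctured spectrum -/
theorem cech_h1 {R V J : Type} [CommRing R] [AddCommGroup V] [Module R V] [Fintype J]
    [Nonempty J] (M : Submodule R V) (z : J → R)
    (hz : ∀ j, Function.Bijective fun v : V => z j • v) {r1 r2 r3 : R}
    (h1 : IsSMulRegular V r1) (h : Depth3 M r1 r2 r3)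
    (hr1 : r1 ∈ (Ideal.span (Set.range z)).radical)
    (hr2 : r2 ∈ (Ideal.span (Set.range z)).radical)
    (hr3 : r3 ∈ (Ideal.span (Set.range z)).radical)
    (γ : J → V) (hγ : ∀ i j, γ i - γ j ∈ loc (z i * z j) M) :
    ∃ v, ∀ j, γ j - v ∈ loc (z j) M := by
  have ml : ∀ (u : R) (v : V), v ∈ loc u M ↔ ∃ n : ℕ, u ^ n • v ∈ M := fun u v =>
    mem_loc fun v hv => M.smul_mem u hv
  have up : ∀ (u : R) (v : V) {n N : ℕ}, n ≤ N → u ^ n • v ∈ M → u ^ N • v ∈ M :=
    fun u v n N hn hv => pow_smul_mem_of_le (fun v hv => M.smul_mem u hv) hn hv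
  have hzp : ∀ j (N : ℕ), Function.Bijective fun v : V => z j ^ N • v := by
    intro j N
    induction N with
    | zero => simp only [pow_zero, one_smul]; exact Function.bijective_id
    | succ N ih => simp only [pow_succ, mul_smul]; exact ih.comp (hz j)
  have unif : ∀ (j0 : J) (w : J → V), (∀ j, w j ∈ loc (z j * z j0) M) →
      ∃ N : ℕ, ∀ N' ≥ N, ∀ j, z j0 ^ N' • w j ∈ loc (z j) M := by
    intro j0 w hw
    choose n hn using fun j => (ml _ _).1 (hw j)
    obtain ⟨N, hN⟩ := (Set.finite_range n).bddAbove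
    refine ⟨N, fun N' hN' j => (ml _ _).2 ⟨N', ?_⟩⟩
    rw [← mul_smul, ← mul_pow]
    exact up _ _ ((hN ⟨j, rfl⟩).trans hN') (hn j)
  have step3 : ∀ m ∈ M, (∀ j, ∃ N : ℕ, ∃ m1 ∈ M, ∃ m2 ∈ M, z j ^ N • m = r1 • m1 + r2 • m2) →
      ∃ n1 ∈ M, ∃ n2 ∈ M, m = r1 • n1 + r2 • n2 := by
    intro m hm hj
    let B : Submodule R V := M.map (LinearMap.lsmul R V r1) ⊔ M.map (LinearMap.lsmul R V r2)
    have hB : ∀ v, v ∈ B ↔ ∃ n1 ∈ M, ∃ n2 ∈ M, v = r1 • n1 + r2 • n2 := by
      intro v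
      rw [Submodule.mem_sup]
      constructor
      · rintro ⟨_, ⟨n1, h1, rfl⟩, _, ⟨n2, h2, rfl⟩, rfl⟩
        exact ⟨n1, h1, n2, h2, rfl⟩
      · rintro ⟨n1, h1, n2, h2, rfl⟩
        exact ⟨_, ⟨n1, h1, rfl⟩, _, ⟨n2, h2, rfl⟩, rfl⟩
    refine (hB m).1 (mem_of_descent z hr3 B (· ∈ M) (fun v hv => M.smul_mem _ hv)
      (fun v hv hv' => ?_) hm fun j => ?_)
    · obtain ⟨n1, h1, n2, h2, h3⟩ := (hB _).1 hv'
      exact (hB _).2 (h.reg3 v hv n1 h1 n2 h2 h3)
    · obtain ⟨N, hN⟩ := hj j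
      exact ⟨N, (hB _).2 hN⟩
  have step2 : ∀ μ : J → V, (∀ j, μ j ∈ loc (z j) M) →
      (∀ i j, ∃ w ∈ loc (z i * z j) M, μ i - μ j = r1 • w) →
      ∃ m ∈ M, ∀ j, ∃ w ∈ loc (z j) M, μ j - m = r1 • w := by
    intro μ hμ1 hμ2
    let B : Submodule R (J → V) :=
      { carrier := {μ | ∃ m ∈ M, ∀ j, ∃ w ∈ loc (z j) M, μ j - m = r1 • w}
        add_mem' := by
          rintro μ μ' ⟨m, hm, h1⟩ ⟨m', hm', h2⟩
          refine ⟨m + m', M.add_mem hm hm', fun j => ?_⟩
          obtain ⟨w, hw, e1⟩ := h1 j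
          obtain ⟨w', hw', e2⟩ := h2 j
          refine ⟨w + w', Submodule.add_mem _ hw hw', ?_⟩
          rw [smul_add, ← e1, ← e2, Pi.add_apply]; abel
        zero_mem' := ⟨0, M.zero_mem, fun j => ⟨0, Submodule.zero_mem _, by simp⟩⟩
        smul_mem' := by
          rintro c μ ⟨m, hm, h1⟩
          refine ⟨c • m, M.smul_mem c hm, fun j => ?_⟩
          obtain ⟨w, hw, e1⟩ := h1 j
          refine ⟨c • w, Submodule.smul_mem _ c hw, ?_⟩
          rw [smul_comm, ← e1, smul_sub, Pi.smul_apply] }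
    refine mem_of_descent z hr2 B (fun μ => ∀ j, μ j ∈ loc (z j) M)
      (fun μ hμ j => Submodule.smul_mem _ _ (hμ j)) (fun μ hμ hμ' => ?_) hμ1 fun j0 => ?_
    · obtain ⟨m, hm, hν⟩ := hμ'
      choose ν hν1 hν2 using hν
      obtain ⟨m1, hm1, m2, hm2, rfl⟩ := step3 m hm fun j => by
        obtain ⟨n, hn⟩ := (ml _ _).1 (hμ j)
        obtain ⟨n', hn'⟩ := (ml _ _).1 (hν1 j)
        refine ⟨max n n', -(z j ^ max n n' • ν j), M.neg_mem (up _ _ (le_max_right _ _) hn'),
          z j ^ max n n' • μ j, up _ _ (le_max_left _ _) hn, ?_⟩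
        rw [smul_neg, smul_comm r1, smul_comm r2, ← hν2, Pi.smul_apply, smul_sub]; abel
      refine ⟨m2, hm2, fun j => ?_⟩
      have a1 : μ j - m2 ∈ loc (z j) M :=
        Submodule.sub_mem _ (hμ j) ((ml _ _).2 ⟨0, by simpa using hm2⟩)
      have a2 : ν j + m1 ∈ loc (z j) M :=
        Submodule.add_mem _ (hν1 j) ((ml _ _).2 ⟨0, by simpa using hm1⟩)
      obtain ⟨n, hn⟩ := (ml _ _).1 a1
      obtain ⟨n', hn'⟩ := (ml _ _).1 a2
      obtain ⟨n1, hn1, e⟩ := h.reg2 _ (up _ _ (le_max_left n n') hn) _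
        (up _ _ (le_max_right n n') hn') (by
          rw [smul_comm r1, smul_comm r2, smul_add r1, ← hν2, Pi.smul_apply, smul_sub r2]
          congr 1; abel)
      obtain ⟨w, hw⟩ := (hzp j (max n n')).2 n1
      have hw' : z j ^ max n n' • w = n1 := hw
      refine ⟨w, (ml _ _).2 ⟨max n n', hw' ▸ hn1⟩, (hzp j (max n n')).1 ?_⟩
      change _ • _ = _ • _
      rw [e, ← hw', smul_comm]
    · choose w hw1 hw2 using fun j => hμ2 j j0
      obtain ⟨N, hN⟩ := unif j0 w hw1
      obtain ⟨n, hn⟩ := (ml _ _).1 (hμ1 j0)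
      refine ⟨max N n, _, up _ _ (le_max_right N n) hn, fun j =>
        ⟨_, hN _ (le_max_left N n) j, ?_⟩⟩
      rw [smul_comm, ← hw2, smul_sub, Pi.smul_apply]
  let B : Submodule R (J → V) :=
    { carrier := {γ | ∃ v, ∀ j, γ j - v ∈ loc (z j) M}
      add_mem' := by
        rintro γ γ' ⟨v, h1⟩ ⟨v', h2⟩
        refine ⟨v + v', fun j => ?_⟩
        rw [Pi.add_apply, add_sub_add_comm]
        exact Submodule.add_mem _ (h1 j) (h2 j)
      zero_mem' := ⟨0, fun j => by simp⟩
      smul_mem' := by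
        rintro c γ ⟨v, h1⟩
        refine ⟨c • v, fun j => ?_⟩
        rw [Pi.smul_apply, ← smul_sub]
        exact Submodule.smul_mem _ c (h1 j) }
  refine mem_of_descent z hr1 B (fun γ => ∀ i j, γ i - γ j ∈ loc (z i * z j) M)
    (fun γ hγ i j => ?_) (fun γ hγ hγ' => ?_) hγ fun j0 => ?_
  · rw [Pi.smul_apply, Pi.smul_apply, ← smul_sub]
    exact Submodule.smul_mem _ _ (hγ i j)
  · obtain ⟨v, hv⟩ := hγ'
    obtain ⟨m, -, hw⟩ := step2 (fun j => (r1 • γ) j - v) hv fun i j =>
      ⟨_, hγ i j, by rw [smul_sub, Pi.smul_apply, Pi.smul_apply]; abel⟩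
    choose w hw1 hw2 using hw
    obtain ⟨j0⟩ := ‹Nonempty J›
    refine ⟨γ j0 - w j0, fun j => ?_⟩
    have e : γ j - (γ j0 - w j0) = w j := by
      apply h1
      change r1 • _ = r1 • _
      rw [smul_sub, smul_sub, ← hw2, ← hw2, Pi.smul_apply, Pi.smul_apply]; abel
    rw [e]; exact hw1 j
  · obtain ⟨N, hN⟩ := unif j0 (fun j => γ j - γ j0) fun j => hγ j j0
    refine ⟨N, z j0 ^ N • γ j0, fun j => ?_⟩
    rw [Pi.smul_apply, ← smul_sub]
    exact hN N le_rfl j

end Vale.Agent.P190
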