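import Vale.Agent.P190.P1Basic

/-! Slopes of sheaves on the projective line carrying an action of a commutative algebra. -/

namespace Vale.Agent.P190
namespace P1

variable {k : Type} [Field k] {F : Type} [Field F] [Algebra k F] {t : Fˣ}
  {V : Type} [AddCommGroup V] [Module F V] [Module k V] [IsScalarTower k F V]
  {V' : Type} [AddCommGroup V'] [Module F V'] [Module k V'] [IsScalarTower k F V']
  {A : Type} [CommRing A] [Algebra F A] [Module A V] [IsScalarTower F A V]
  [Module A V'] [IsScalarTower F A V']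

theorem Ops.tw {E : P1 k t V} {e : ℕ} (h : E.Ops A e) (j : ℤ) : (E.tw j).Ops A e := by
  obtain ⟨s, hs, h⟩ := h
  refine ⟨s, hs, fun a ha b v hv => ?_⟩
  have h1 := h a ha b _ (mem_tw.mp hv)
  rw [mem_tw, smul_comm (tu t j b)⁻¹ (tu t e b)⁻¹, smul_comm (tu t j b)⁻¹ a]
  exact h1

theorem Ops.inf {E : P1 k t V} {e : ℕ} (h : E.Ops A e) (U : Submodule A V) :
    (E.inf (U.restrictScalars F)).Ops A e := by
  obtain ⟨s, hs, h⟩ := h
  exact ⟨s, hs, fun a ha b v hv =>
    ⟨h a ha b v hv.1, (U.restrictScalars F).smul_mem _ (U.smul_mem a hv.2)⟩⟩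

theorem Ops.map {E : P1 k t V} {e : ℕ} (h : E.Ops A e) (f : V →ₗ[A] V') :
    (E.map (f.restrictScalars F)).Ops A e := by
  obtain ⟨s, hs, h⟩ := h
  refine ⟨s, hs, fun a ha b => ?_⟩
  rintro _ ⟨v, hv, rfl⟩
  exact ⟨_, h a ha b v hv, by simp [Units.smul_def]⟩

theorem Ops.pi {E : P1 k t V} {e : ℕ} (h : E.Ops A e) (ι : Type) [Finite ι] :
    (E.pi ι).Ops A e := by
  obtain ⟨s, hs, h⟩ := h
  exact ⟨s, hs, fun a ha b v hv i _ => h a ha b (v i) (hv i trivial)⟩

/-- the span of a stable sheaf is an `A`-submodule -/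
theorem Ops.exists_span {E : P1 k t V} {e : ℕ} (h : E.Ops A e) :
    ∃ U : Submodule A V, U.restrictScalars F = Submodule.span F (E.ch false : Set V) := by
  obtain ⟨s, hs, h⟩ := h
  have key : ∀ a ∈ Submodule.span F (s : Set A), ∀ v ∈ Submodule.span F (E.ch false : Set V),
      a • v ∈ Submodule.span F (E.ch false : Set V) := by
    intro a ha v hv
    induction ha using Submodule.span_induction with
    | mem a ha =>
      induction hv using Submodule.span_induction with
      | mem v hv => exact Submodule.subset_span (by simpa using h a ha false v hv)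
      | zero => simp
      | add u v _ _ hu hv =>
        rw [smul_add]
        exact Submodule.add_mem _ hu hv
      | smul c v _ hv =>
        rw [smul_comm]
        exact Submodule.smul_mem _ c hv
    | zero => simp
    | add a b _ _ ha hb =>
      rw [add_smul]
      exact Submodule.add_mem _ ha hb
    | smul c a _ ha =>
      rw [smul_assoc]
      exact Submodule.smul_mem _ c ha
  exact ⟨⟨(Submodule.span F (E.ch false : Set V)).toAddSubmonoid,
    fun a v hv => key a (hs ▸ Submodule.mem_top) v hv⟩, rfl⟩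

theorem SubLe.mono {E : P1 k t V} {μ μ' : ℚ} (h : E.SubLe A μ) (hμ : μ ≤ μ') : E.SubLe A μ' :=
  fun U => (h U).trans (mul_le_mul_of_nonneg_right hμ (Nat.cast_nonneg _))

theorem QuotGe.mono {E : P1 k t V} (hE : E.FG) {μ μ' : ℚ} (h : E.QuotGe A μ) (hμ : μ' ≤ μ) :
    E.QuotGe A μ' := by
  intro U
  refine le_trans (mul_le_mul_of_nonneg_right hμ ?_) (h U)
  have h1 : ((E.inf (U.restrictScalars F)).rk : ℚ) ≤ E.rk := by
    exact_mod_cast rk_mono hE (E.inf_le _)
  linarith

theorem SubLe.tw (hc : IsCoord1 k t) {E : P1 k t V} (hE : E.FG) {μ : ℚ} (h : E.SubLe A μ)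
    (j : ℤ) : (E.tw j).SubLe A (μ + j) := by
  intro U
  have h1 := h U
  rw [← inf_tw, deg_tw hc (hE.inf _), rk_tw]
  push_cast
  linarith

theorem QuotGe.tw (hc : IsCoord1 k t) {E : P1 k t V} (hE : E.FG) {μ : ℚ} (h : E.QuotGe A μ)
    (j : ℤ) : (E.tw j).QuotGe A (μ + j) := by
  intro U
  have h1 := h U
  rw [← inf_tw, deg_tw hc (hE.inf _), deg_tw hc hE, rk_tw, rk_tw]
  push_cast
  linarith

theorem SubLe.inf {E : P1 k t V} {μ : ℚ} (h : E.SubLe A μ) (U : Submodule A V) :
    (E.inf (U.restrictScalars F)).SubLe A μ := by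
  intro U'
  rw [inf_inf, ← Submodule.restrictScalars_inf]
  exact h (U ⊓ U')

theorem SubLe.quotGe {E : P1 k t V} {μ : ℚ} (h : E.SubLe A μ) (hμ : (E.deg : ℚ) = μ * E.rk) :
    E.QuotGe A μ := by
  intro U
  have h1 := h U
  rw [hμ]
  linarith

theorem inf_eq_of_rk {E : P1 k t V} (hE : E.FG) (U : Submodule F V) (h : (E.inf U).rk = E.rk) :
    E.inf U = E := by
  have := hE.finiteDimensional
  have h1 : Submodule.span F ((E.inf U).ch false : Set V) =
      Submodule.span F (E.ch false : Set V) :=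
    Submodule.eq_of_le_of_finrank_eq (Submodule.span_mono (E.inf_le U false)) h
  have h2 : Submodule.span F (E.ch false : Set V) ≤ U := by
    rw [← h1]
    exact Submodule.span_le.mpr fun v hv => hv.2
  ext b v
  refine ⟨fun hv => hv.1, fun hv => ⟨hv, h2 ?_⟩⟩
  rw [← E.span_ch b]
  exact Submodule.subset_span hv

/-- if all subsheaves have slope at most `μ + c` and `E` has slope `μ`, then all quotients
have slope at least `μ - c * rk` -/
theorem SubLe.quotGe' {E : P1 k t V} (hE : E.FG) {μ c : ℚ} (hc0 : 0 ≤ c) (h : E.SubLe A (μ + c))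
    (hμ : (E.deg : ℚ) = μ * E.rk) : E.QuotGe A (μ - c * E.rk) := by
  intro U
  have h1 := h U
  rcases (rk_mono hE (E.inf_le (U.restrictScalars F))).lt_or_eq with h2 | h2
  · have h3 : ((E.inf (U.restrictScalars F)).rk : ℚ) + 1 ≤ E.rk := by exact_mod_cast h2
    have h4 : (0 : ℚ) ≤ (E.inf (U.restrictScalars F)).rk := Nat.cast_nonneg _
    rw [hμ]
    have h5 : (0 : ℚ) ≤ c * (E.rk * (E.rk - (E.inf (U.restrictScalars F)).rk) -
        (E.inf (U.restrictScalars F)).rk) := mul_nonneg hc0 (by nlinarith)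
    linarith
  · rw [inf_eq_of_rk hE _ h2]
    simp

/-- a subsheaf whose span is `A`-stable obeys the slope bound, saturated or not -/
theorem SubLe.deg_le (hc : IsCoord1 k t) {E G : P1 k t V} (hE : E.FG) {μ : ℚ} (h : E.SubLe A μ)
    (hG : G ≤ E) (U : Submodule A V)
    (hU : U.restrictScalars F = Submodule.span F (G.ch false : Set V)) :
    (G.deg : ℚ) ≤ μ * G.rk := by
  have h1 : G ≤ E.inf (U.restrictScalars F) := by
    intro b v hv
    refine ⟨hG b hv, ?_⟩
    change v ∈ U.restrictScalars F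
    rw [hU, ← G.span_ch b]
    exact Submodule.subset_span hv
  have h2 : G.rk = (E.inf (U.restrictScalars F)).rk := by
    unfold rk
    rw [span_inf hc, hU, inf_eq_right.mpr (Submodule.span_mono (hG false))]
  have h3 : (G.deg : ℚ) ≤ (E.inf (U.restrictScalars F)).deg := by
    exact_mod_cast deg_mono hc (hE.inf _) h1 h2
  rw [h2]
  exact h3.trans (h U)

theorem map_mono {E E' : P1 k t V} (h : E' ≤ E) (f : V →ₗ[F] V') : E'.map f ≤ E.map f :=
  fun b => Submodule.map_mono (h b)

theorem le_trans' {E E' E'' : P1 k t V} (h : E ≤ E') (h' : E' ≤ E'') : E ≤ E'' :=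
  fun b => (h b).trans (h' b)

theorem subLe_of_maps (hc : IsCoord1 k t) {V'' : Type} [AddCommGroup V''] [Module F V'']
    [Module k V''] [IsScalarTower k F V''] [Module A V''] [IsScalarTower F A V'']
    {E : P1 k t V} {E' : P1 k t V'} {E'' : P1 k t V''} (hE : E.FG) (hE' : E'.FG) (hE'' : E''.FG)
    {e : ℕ} (ho : E.Ops A e) {μ : ℚ} (h' : E'.SubLe A μ) (h'' : E''.SubLe A μ)
    (f : V →ₗ[A] V') (g : V →ₗ[A] V'') (hf : E.map (f.restrictScalars F) ≤ E')
    (hg : E.map (g.restrictScalars F) ≤ E'') (hfg : ∀ v, f v = 0 → g v = 0 → v = 0) :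
    E.SubLe A μ := by
  intro U
  have hG := hE.inf (U.restrictScalars F)
  have hoG := ho.inf U
  have hle := E.inf_le (U.restrictScalars F)
  set G := E.inf (U.restrictScalars F) with hGdef
  obtain ⟨U₁, hU₁⟩ := (hoG.map f).exists_span
  have h1 := h'.deg_le hc hE' (le_trans' (map_mono hle _) hf) U₁ hU₁
  obtain ⟨U₂, hU₂⟩ := ((hoG.inf (LinearMap.ker f)).map g).exists_span
  have h2 := h''.deg_le hc hE''
    (le_trans' (map_mono (le_trans' (G.inf_le _) hle) _) hg) U₂ hU₂
  obtain ⟨h3, h4, -⟩ := map_of_inj hc (hG.inf ((LinearMap.ker f).restrictScalars F))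
    (g.restrictScalars F) fun v hv hv' => hfg v hv.2 hv'
  rw [h3, h4] at h2
  rw [deg_add hc hG (f.restrictScalars F), rk_add hc hG (f.restrictScalars F),
    LinearMap.ker_restrictScalars]
  push_cast
  linarith

theorem SubLe.pi (hc : IsCoord1 k t) {E : P1 k t V} (hE : E.FG) {e : ℕ} (ho : E.Ops A e) {μ : ℚ}
    (h : E.SubLe A μ) (n : ℕ) : (E.pi (Fin n)).SubLe A μ := by
  induction n with
  | zero =>
    intro U
    have hG := (hE.pi (Fin 0)).inf (U.restrictScalars F)
    have h1 : ((E.pi (Fin 0)).inf (U.restrictScalars F)).rk = 0 :=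
      (rk_eq_zero_iff hG).mpr fun b => Subsingleton.elim _ _
    rw [deg_eq_zero_of_rk hG h1, h1]
    simp
  | succ n ih =>
    refine subLe_of_maps hc (hE.pi _) hE (hE.pi _) (ho.pi _) h ih (LinearMap.proj 0)
      (LinearMap.pi fun i => LinearMap.proj i.succ) ?_ ?_ ?_
    · rintro b _ ⟨v, hv, rfl⟩
      exact hv 0 trivial
    · rintro b _ ⟨v, hv, rfl⟩ i _
      exact hv i.succ trivial
    · intro v h1 h2
      funext i
      refine Fin.cases h1 (fun j => ?_) i
      exact congrFun h2 j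

variable (k t) in
/-- the sheaf generated by a set of global sections -/
def gen (S : Set V) : P1 k t V where
  ch b := Submodule.span k {x | ∃ n : ℕ, ∃ w ∈ S, x = cs t b ^ n • w}
  smul_mem b v hv := by
    induction hv using Submodule.span_induction with
    | mem x hx =>
      obtain ⟨n, w, hw, rfl⟩ := hx
      exact Submodule.subset_span ⟨n + 1, w, hw, by rw [pow_succ', mul_smul]⟩
    | zero => simp
    | add u v _ _ hu hv =>
      rw [smul_add]
      exact Submodule.add_mem _ hu hv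
    | smul c v _ hv =>
      rw [smul_comm]
      exact Submodule.smul_mem _ c hv
  glue b v hv := by
    suffices h : ∃ n : ℕ, ∀ m ≥ n, cs t (!b) ^ m • v ∈
        Submodule.span k {x | ∃ n : ℕ, ∃ w ∈ S, x = cs t (!b) ^ n • w} by
      obtain ⟨n, hn⟩ := h
      exact ⟨n, hn n le_rfl⟩
    change v ∈ loc (cs t (!b)) (Submodule.span k {x | ∃ n : ℕ, ∃ w ∈ S, x = cs t (!b) ^ n • w})
    refine Submodule.span_le.mpr ?_ hv
    rintro _ ⟨n, w, hw, rfl⟩
    refine ⟨n, fun m hm => Submodule.subset_span ⟨m - n, w, hw, ?_⟩⟩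
    obtain ⟨d, rfl⟩ := Nat.exists_eq_add_of_le' hm
    rw [← mul_smul, Nat.add_sub_cancel, pow_add, cs_not, mul_assoc, ← mul_pow, inv_mul_cancel,
      one_pow, mul_one]

theorem subset_gen (S : Set V) (b : Bool) {w : V} (hw : w ∈ S) : w ∈ (gen k t S).ch b :=
  Submodule.subset_span ⟨0, w, hw, by simp⟩

theorem gen_le {S : Set V} {E : P1 k t V} (h : ∀ b, ∀ w ∈ S, w ∈ E.ch b) : gen k t S ≤ E := by
  intro b
  refine Submodule.span_le.mpr ?_
  rintro _ ⟨n, w, hw, rfl⟩
  exact pow_smul_mem (E.smul_mem b) n (h b w hw)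

theorem span_gen (S : Set V) :
    Submodule.span F ((gen k t S).ch false : Set V) = Submodule.span F S := by
  apply le_antisymm
  · refine Submodule.span_le.mpr ?_
    change (gen k t S).ch false ≤ (Submodule.span F S).restrictScalars k
    refine Submodule.span_le.mpr ?_
    rintro _ ⟨n, w, hw, rfl⟩
    exact (Submodule.span F S).smul_mem _ (Submodule.subset_span hw)
  · exact Submodule.span_mono fun w hw => subset_gen S false hw

theorem h1_gen (S : Set V) : (gen k t S).h1 = 0 := by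
  rw [h1_eq_zero_iff]
  intro v hv
  obtain ⟨n, hn⟩ := mem_ov.mp hv
  have key : (gen k t S).ch false ≤ pre (t⁻¹ ^ n) ((gen k t S).ch false ⊔ (gen k t S).ch true) := by
    refine Submodule.span_le.mpr ?_
    rintro _ ⟨m, w, hw, rfl⟩
    change t⁻¹ ^ n • t ^ m • w ∈ (gen k t S).ch false ⊔ (gen k t S).ch true
    rcases le_total n m with h | h
    · obtain ⟨d, rfl⟩ := Nat.exists_eq_add_of_le h
      refine Submodule.mem_sup_left (Submodule.subset_span ⟨d, w, hw, ?_⟩)
      rw [← mul_smul, pow_add, ← mul_assoc, ← mul_pow, inv_mul_cancel, one_pow, one_mul, cs_false]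
    · obtain ⟨d, rfl⟩ := Nat.exists_eq_add_of_le' h
      refine Submodule.mem_sup_right (Submodule.subset_span ⟨d, w, hw, ?_⟩)
      rw [← mul_smul, pow_add, mul_assoc, ← mul_pow, inv_mul_cancel, one_pow, mul_one, cs_true]
  have h1 := key hn
  rwa [mem_pre, ← mul_smul, ← mul_pow, inv_mul_cancel, one_pow, one_smul] at h1

theorem finrank_span_le_finrank (W : Submodule k V) [Module.Finite k W] {S : Set V}
    (hS : S ⊆ W) : Module.finrank F (Submodule.span F S) ≤ Module.finrank k W := by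
  let b := Module.finBasis k W
  have h1 : Submodule.span F S ≤ Submodule.span F (Set.range fun i => (b i : V)) := by
    refine Submodule.span_le.mpr fun w hw => ?_
    have h2 : w = ∑ i, b.repr ⟨w, hS hw⟩ i • (b i : V) := by
      have := congrArg W.subtype (b.sum_repr ⟨w, hS hw⟩)
      rw [map_sum] at this
      exact this.symm
    rw [h2]
    exact Submodule.sum_mem _ fun i _ =>
      Submodule.smul_of_tower_mem _ _ (Submodule.subset_span ⟨i, rfl⟩)
  have h3 := finrank_range_le_card (R := F) fun i => (b i : V)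
  rw [Fintype.card_fin] at h3
  have := FiniteDimensional.span_of_finite F (Set.finite_range fun i => (b i : V))
  exact (Submodule.finrank_mono h1).trans h3

/-- a globally generated sheaf has slope at least one -/
theorem rk_le_deg_gen (hc : IsCoord1 k t) {S : Set V} (h : (gen k t S).FG) :
    ((gen k t S).rk : ℤ) ≤ (gen k t S).deg := by
  have h1 := rdim_bot_ne_top_iff.mp (h0_ne_top hc h)
  unfold deg rk h0
  rw [h1_gen, rdim_bot_toNat, span_gen]
  have h2 := finrank_span_le_finrank (F := F) ((gen k t S).ch false ⊓ (gen k t S).ch true)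
    (S := S) fun w hw => ⟨subset_gen S false hw, subset_gen S true hw⟩
  simpa using h2

/-- sheaves of low slope have no sections -/
theorem h0_eq_zero_of_subLe (hc : IsCoord1 k t) {E : P1 k t V} (hE : E.FG) {e : ℕ}
    (ho : E.Ops A e) {μ : ℚ} (h : E.SubLe A μ) (hμ : μ < 1 - e) : E.h0 = 0 := by
  rw [h0_eq_zero_iff, eq_bot_iff]
  intro v hv
  by_contra hv0
  obtain ⟨s, hs, ho⟩ := ho
  let φ : A →ₗ[F] V := (LinearMap.toSpanSingleton A V v).restrictScalars F
  have hle : gen k t (φ '' (s : Set A)) ≤ E.tw e := by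
    refine gen_le ?_
    rintro b _ ⟨a, ha, rfl⟩
    refine ho a ha b v ?_
    cases b
    · exact hv.1
    · exact hv.2
  have hU : (LinearMap.range (LinearMap.toSpanSingleton A V v)).restrictScalars F =
      Submodule.span F ((gen k t (φ '' (s : Set A))).ch false : Set V) := by
    rw [span_gen, ← Submodule.map_span, hs, Submodule.map_top]
    rfl
  have hG := (hE.tw e).of_le hle
  have h1 := (h.tw hc hE e).deg_le hc (hE.tw e) hle _ hU
  have h2 : ((gen k t (φ '' (s : Set A))).rk : ℚ) ≤ (gen k t (φ '' (s : Set A))).deg := by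
    exact_mod_cast rk_le_deg_gen hc hG
  have h3 : (gen k t (φ '' (s : Set A))).rk ≠ 0 := by
    intro h3
    have h4 : v ∈ Submodule.span F ((gen k t (φ '' (s : Set A))).ch false : Set V) := by
      rw [← hU]
      exact ⟨1, one_smul A v⟩
    rw [(rk_eq_zero_iff hG).mp h3 false] at h4
    simp only [Submodule.bot_coe, Submodule.span_zero_singleton] at h4
    exact hv0 h4
  have h5 : (0 : ℚ) < (gen k t (φ '' (s : Set A))).rk := by
    exact_mod_cast Nat.pos_of_ne_zero h3
  push_cast at h1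
  nlinarith

/-- a sequence vanishing far to the right and killed by a nonzero polynomial vanishes -/
theorem seq_eq_zero_of_poly (lam : V →ₗ[k] k) {w : V} {n₀ : ℤ}
    (h0 : ∀ n ≥ n₀, lam (t ^ n • w) = 0) {q : F} (hq : q ∈ Algebra.adjoin k {(t : F)})
    (hq0 : q ≠ 0) (h : ∀ n : ℤ, lam (t ^ n • q • w) = 0) (n : ℤ) : lam (t ^ n • w) = 0 := by
  rw [Algebra.adjoin_singleton_eq_range_aeval] at hq
  obtain ⟨p, rfl⟩ := hq
  have hp : p ≠ 0 := by rintro rfl; simp at hq0
  by_contra hn
  obtain ⟨M, hM, hM'⟩ := Int.exists_greatest_of_bdd (P := fun m => lam (t ^ m • w) ≠ 0)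
    ⟨n₀, fun z hz => by by_contra h'; exact hz (h0 z (by omega))⟩ ⟨n, hn⟩
  have h1 := h (M - p.natTrailingDegree)
  have h2 : ∀ i : ℕ, t ^ (M - p.natTrailingDegree) • ((t : F) ^ i) • w =
      t ^ (M - p.natTrailingDegree + i) • w := fun i => by
    rw [zpow_add, mul_smul, zpow_natCast, Units.smul_def (t ^ i), Units.val_pow_eq_pow_val]
  change lam (_ • Polynomial.aeval (t : F) p • w) = 0 at h1
  rw [Polynomial.aeval_eq_sum_range, Finset.sum_smul, Finset.smul_sum, map_sum,
    Finset.sum_eq_single p.natTrailingDegree] at h1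
  · rw [smul_assoc, smul_comm, h2, map_smul, sub_add_cancel, smul_eq_mul, mul_eq_zero] at h1
    exact h1.elim (Polynomial.trailingCoeff_nonzero_iff_nonzero.mpr hp) hM
  · intro i _ hi
    rw [smul_assoc, smul_comm, h2, map_smul]
    rcases lt_or_gt_of_ne hi with h3 | h3
    · rw [Polynomial.coeff_eq_zero_of_lt_natTrailingDegree h3, zero_smul]
    · rw [not_not.mp fun h4 => absurd (hM' _ h4) (by omega), smul_zero]
  · intro h3
    exact absurd (Finset.mem_range.mpr (Nat.lt_succ_of_le p.natTrailingDegree_le_natDegree)) h3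

/-- the sections on the overlap killed by the residue pairing with `lam` -/
def killed (E : P1 k t V) (lam : V →ₗ[k] k) : P1 k t V where
  ch _ :=
    { carrier := {w | w ∈ E.ov ∧ ∀ n : ℤ, lam (t ^ n • w) = 0}
      add_mem' := fun ha hb => ⟨add_mem ha.1 hb.1, fun n => by
        rw [smul_add, map_add, ha.2, hb.2, add_zero]⟩
      zero_mem' := ⟨zero_mem _, fun n => by simp⟩
      smul_mem' := fun c v hv => ⟨E.ov.smul_mem c hv.1, fun n => by
        rw [smul_comm, map_smul, hv.2, smul_zero]⟩ }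
  smul_mem b v hv := by
    have key : ∀ m : ℤ, t ^ m • v ∈ E.ov ∧ ∀ n : ℤ, lam (t ^ n • t ^ m • v) = 0 := fun m =>
      ⟨zpow_smul_mem_ov m hv.1, fun n => by rw [← mul_smul, ← zpow_add]; exact hv.2 _⟩
    cases b
    · simpa using key 1
    · simpa using key (-1)
  glue b v hv := ⟨0, by simpa using hv⟩

theorem mem_killed {E : P1 k t V} {lam : V →ₗ[k] k} {b : Bool} {w : V} :
    w ∈ (E.killed lam).ch b ↔ w ∈ E.ov ∧ ∀ n : ℤ, lam (t ^ n • w) = 0 := Iff.rfl

theorem nat_smul_mem (E : P1 k t V) {n : ℤ} (hn : 0 ≤ n) :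
    (∀ v ∈ E.ch false, t ^ n • v ∈ E.ch false) ∧ ∀ v ∈ E.ch true, t ^ (-n) • v ∈ E.ch true := by
  obtain ⟨m, rfl⟩ := Int.eq_ofNat_of_zero_le hn
  refine ⟨fun v hv => ?_, fun v hv => ?_⟩
  · rw [zpow_natCast]
    exact pow_smul_mem (E.smul_mem false) m hv
  · rw [zpow_neg, zpow_natCast, ← inv_pow]
    exact pow_smul_mem (E.smul_mem true) m hv

theorem mem_killed_of_mem_span (hc : IsCoord1 k t) {E : P1 k t V} {lam : V →ₗ[k] k}
    (h0 : ∀ v ∈ E.ch false, lam v = 0) {w : V} (hw : w ∈ E.ov)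
    (h : w ∈ Submodule.span F ((E.killed lam).ch false : Set V)) : w ∈ (E.killed lam).ch false := by
  obtain ⟨q, hq, hq0, hq'⟩ := exists_smul_mem_of_mem_span hc _ false h
  obtain ⟨n₀, hn₀⟩ := mem_ov.mp hw
  refine ⟨hw, seq_eq_zero_of_poly lam (n₀ := n₀) (fun n hn => h0 _ ?_) hq hq0 hq'.2⟩
  have := (E.nat_smul_mem (sub_nonneg.mpr hn)).1 _ hn₀
  rwa [← mul_smul, ← zpow_natCast, ← zpow_add, sub_add_cancel] at this

theorem ov_le_span (E : P1 k t V) {w : V} (hw : w ∈ E.ov) :
    w ∈ Submodule.span F (E.ch false : Set V) := by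
  obtain ⟨n, hn⟩ := mem_ov.mp hw
  have := Submodule.smul_mem _ (((t ^ n)⁻¹ : Fˣ) : F)
    (Submodule.subset_span (R := F) (s := (E.ch false : Set V)) hn)
  rwa [← Units.smul_def, inv_smul_smul] at this

/-- duality: a sheaf with `h1 ≠ 0` has a nonzero quotient with few sections -/
theorem exists_quot_of_h1 (hc : IsCoord1 k t) {E : P1 k t V} (hE : E.FG) {e : ℕ}
    (ho : E.Ops A e) (h : E.h1 ≠ 0) :
    ∃ U : Submodule A V, (E.inf (U.restrictScalars F)).rk < E.rk ∧
      ((E.map (U.restrictScalars F).mkQ).tw (1 - (e : ℤ))).h0 = 0 := by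
  obtain ⟨w₀, hw₀, hw₀'⟩ := SetLike.not_le_iff_exists.mp (mt h1_eq_zero_iff.mpr h)
  obtain ⟨lam, hlam, hlam'⟩ := Submodule.exists_dual_map_eq_bot_of_notMem hw₀' inferInstance
  have hl : ∀ b, ∀ v ∈ E.ch b, lam v = 0 := fun b v hv => by
    have : v ∈ E.ch false ⊔ E.ch true := by
      cases b
      exacts [Submodule.mem_sup_left hv, Submodule.mem_sup_right hv]
    exact (Submodule.mem_bot k).mp (hlam' ▸ Submodule.mem_map_of_mem this)
  set N := Submodule.span F ((E.killed lam).ch false : Set V) with hN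
  let U : Submodule A V :=
    { carrier := {v | ∀ a : A, a • v ∈ N}
      add_mem' := fun ha hb a => by rw [smul_add]; exact add_mem (ha a) (hb a)
      zero_mem' := fun a => by simp
      smul_mem' := fun c v hv a => by rw [← mul_smul]; exact hv _ }
  have hU : ∀ v, v ∈ U ↔ ∀ a : A, a • v ∈ N := fun _ => Iff.rfl
  refine ⟨U, ?_, ?_⟩
  · have := hE.finiteDimensional
    rw [rk, rk, span_inf hc]
    refine Submodule.finrank_lt_finrank_of_lt (inf_lt_left.mpr fun h1 => hlam ?_)
    have h2 := (hU w₀).mp (h1 (E.ov_le_span hw₀)) 1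
    rw [one_smul] at h2
    simpa using (mem_killed_of_mem_span hc (hl false) hw₀ h2).2 0
  · rw [h0_eq_zero_iff, eq_bot_iff]
    rintro x ⟨⟨v₁, hv₁, h1⟩, ⟨v₂, hv₂, h2⟩⟩
    simp only [LinearMap.restrictScalars_apply, tu_false, inv_one, one_smul, tu_true] at h1 h2
    have h3 : v₁ - t ^ (1 - (e : ℤ)) • v₂ ∈ U := by
      rw [← Submodule.restrictScalars_mem F, ← Submodule.ker_mkQ (U.restrictScalars F),
        LinearMap.mem_ker, map_sub, Units.smul_def, map_smul, ← Units.smul_def, h1, h2,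
        smul_inv_smul, sub_self]
    obtain ⟨s, hs, hs'⟩ := ho
    have h4 : ∀ a ∈ s, a • v₁ ∈ N := fun a ha => by
      have h5 : a • v₁ ∈ E.ch false := by simpa using hs' a ha false v₁ hv₁
      have h6 : (t ^ (e : ℤ))⁻¹ • a • v₂ ∈ E.ch true := hs' a ha true v₂ hv₂
      have h7 : ∀ n : ℤ, t ^ n • a • t ^ (1 - (e : ℤ)) • v₂ =
          t ^ (n + 1) • (t ^ (e : ℤ))⁻¹ • a • v₂ := fun n => by
        rw [Units.smul_def (t ^ (1 - (e : ℤ))), smul_comm a, ← Units.smul_def, ← mul_smul,
          ← mul_smul, ← zpow_neg, ← zpow_add, ← zpow_add]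
        congr 2; ring
      have h8 : a • t ^ (1 - (e : ℤ)) • v₂ ∈ E.ov := by
        have := zpow_smul_mem_ov (0 + 1) (E.ch_le_ov true h6)
        rwa [← h7, zpow_zero, one_smul] at this
      have h9 := mem_killed_of_mem_span hc (hl false)
        (by rw [smul_sub]; exact sub_mem (E.ch_le_ov false h5) h8) ((hU _).mp h3 a)
      refine Submodule.subset_span ⟨E.ch_le_ov false h5, fun n => ?_⟩
      rcases le_or_gt 0 n with hn | hn
      · exact hl false _ ((E.nat_smul_mem hn).1 _ h5)
      · have h10 := h9.2 n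
        have h11 := hl true _ ((E.nat_smul_mem (n := -(n + 1)) (by omega)).2 _ h6)
        rw [neg_neg, ← h7] at h11
        rwa [smul_sub, smul_sub, map_sub, h11, sub_zero] at h10
    have h5 : v₁ ∈ U := fun a => by
      have ha : a ∈ Submodule.span F (s : Set A) := hs ▸ Submodule.mem_top
      induction ha using Submodule.span_induction with
      | mem a ha => exact h4 a ha
      | zero => simp
      | add a b _ _ ha hb => rw [add_smul]; exact add_mem ha hb
      | smul c a _ ha => rw [smul_assoc]; exact N.smul_mem c ha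
    rw [Submodule.mem_bot, ← h1]
    exact (Submodule.Quotient.mk_eq_zero _).mpr h5

/-- sheaves of high slope have no first cohomology -/
theorem h1_eq_zero_of_quotGe (hc : IsCoord1 k t) {E : P1 k t V} (hE : E.FG) {e : ℕ}
    (ho : E.Ops A e) {μ : ℚ} (h : E.QuotGe A μ) (hμ : (e : ℚ) - 1 < μ) : E.h1 = 0 := by
  by_contra h1
  obtain ⟨U, hU, hU'⟩ := exists_quot_of_h1 hc hE ho h1
  have h2 := rk_add hc hE (U.restrictScalars F).mkQ
  have h3 := deg_add hc hE (U.restrictScalars F).mkQ
  have h4 := deg_tw hc (hE.map (U.restrictScalars F).mkQ) (1 - (e : ℤ))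
  rw [Submodule.ker_mkQ] at h2 h3
  have h5 : ((E.map (U.restrictScalars F).mkQ).tw (1 - (e : ℤ))).deg ≤ 0 := by
    rw [deg, hU']; simp
  have h6 := h U
  set r := (E.map (U.restrictScalars F).mkQ).rk
  set d := (E.map (U.restrictScalars F).mkQ).deg
  have h7 : (0 : ℚ) < r := by exact_mod_cast (by omega : 0 < r)
  have h8 : (r : ℚ) * (1 - e) + d ≤ 0 := by exact_mod_cast h4 ▸ h5
  rw [h2, h3] at h6
  push_cast at h6
  nlinarith

/-- a bound for the number of sections, uniform in the rank -/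
theorem h0_le_of_subLe (hc : IsCoord1 k t) {E : P1 k t V} (hE : E.FG) {e : ℕ}
    (ho : E.Ops A e) {μ : ℚ} (h : E.SubLe A μ) (hμ : (e : ℚ) ≤ μ) :
    (E.h0.toNat : ℚ) ≤ μ * E.rk := by
  induction hn : E.rk using Nat.strong_induction_on generalizing E with
  | _ n ih =>
  subst hn
  by_cases h1 : E.h1 = 0
  · have h2 := h ⊤
    rw [Submodule.restrictScalars_top, inf_top] at h2
    unfold deg at h2
    rw [h1] at h2
    simpa using h2
  obtain ⟨U, hU, h2⟩ := exists_quot_of_h1 hc hE ho h1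
  have h3 := ih _ hU (hE.inf _) (ho.inf U) (h.inf U) rfl
  have hQ := hE.map (U.restrictScalars F).mkQ
  have h4 := rk_add hc hE (U.restrictScalars F).mkQ
  obtain ⟨b, c, -, h5, h6, -⟩ := les1 E (U.restrictScalars F).mkQ
  rw [Submodule.ker_mkQ] at h4 h5
  have h7 := h0_ne_top hc hQ
  have h8 := h0_ne_top hc (hE.inf (U.restrictScalars F))
  set Q := E.map (U.restrictScalars F).mkQ with hQdef
  have hb : b ≠ ⊤ := fun hb => h7 (by rw [h6, hb, top_add])
  have h9 : b.toNat ≤ Q.h0.toNat := ENat.toNat_le_toNat (h6 ▸ le_self_add) h7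
  have hμ0 : (0 : ℚ) ≤ μ := le_trans (Nat.cast_nonneg e) hμ
  have h10 : (Q.h0.toNat : ℚ) ≤ μ * Q.rk := by
    rcases Nat.eq_zero_or_pos e with rfl | he
    · have h11 : Q.h0 ≤ (Q.tw (1 - ((0 : ℕ) : ℤ))).h0 := by
        apply h0_mono
        have := Q.tw_le_tw (i := 0) (j := 1 - ((0 : ℕ) : ℤ)) (by simp)
        rwa [tw_zero] at this
      rw [h2, nonpos_iff_eq_zero] at h11
      rw [h11]
      simpa using mul_nonneg hμ0 (Nat.cast_nonneg Q.rk)
    · obtain ⟨c, rfl⟩ := Nat.exists_eq_add_of_le' he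
      have h11 : (1 - ((c + 1 : ℕ) : ℤ)) = -(c : ℤ) := by push_cast; ring
      rw [h11] at h2
      have h12 : (Q.h0.toNat : ℚ) ≤ Q.rk * c := by exact_mod_cast h0_le_of_tw hc hQ c h2
      have h13 : (0 : ℚ) ≤ Q.rk := Nat.cast_nonneg _
      push_cast at hμ
      nlinarith
  have h14 : (b.toNat : ℚ) ≤ Q.h0.toNat := by exact_mod_cast h9
  rw [h5, ENat.toNat_add h8 hb, h4]
  push_cast
  linarith

theorem exists_maximizer (hc : IsCoord1 k t) {E : P1 k t V} (hE : E.FG) (μ : ℚ) :
    ∃ U : Submodule A V, ∀ U' : Submodule A V,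
      ((E.inf (U'.restrictScalars F)).deg : ℚ) - μ * (E.inf (U'.restrictScalars F)).rk ≤
        (E.inf (U.restrictScalars F)).deg - μ * (E.inf (U.restrictScalars F)).rk := by
  obtain ⟨c, hb⟩ := exists_bounds hc hE
  obtain ⟨_, ⟨U, rfl⟩, hU⟩ := Int.exists_greatest_of_bdd
    (P := fun z => ∃ U : Submodule A V, (μ.den : ℤ) * (E.inf (U.restrictScalars F)).deg -
      μ.num * (E.inf (U.restrictScalars F)).rk = z)
    ⟨(μ.den * c + |μ.num|) * E.rk, by
      rintro _ ⟨U, rfl⟩
      have h1 := (hb _ (E.inf_le (U.restrictScalars F))).1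
      have h2 : ((E.inf (U.restrictScalars F)).rk : ℤ) ≤ E.rk := by
        exact_mod_cast rk_mono hE (E.inf_le _)
      have h3 : (0 : ℤ) ≤ (E.inf (U.restrictScalars F)).rk := Nat.cast_nonneg _
      have h4 : (0 : ℤ) ≤ μ.den := Nat.cast_nonneg _
      have h5 : (0 : ℤ) ≤ c := Nat.cast_nonneg _
      have h6 := neg_le_abs μ.num
      have h7 := abs_nonneg μ.num
      have h8 := mul_le_mul_of_nonneg_left h1 h4
      have h9 := mul_le_mul_of_nonneg_left h2 (add_nonneg (mul_nonneg h4 h5) h7)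
      have h10 := mul_le_mul_of_nonneg_right h6 h3
      linarith⟩ ⟨_, ⊤, rfl⟩
  refine ⟨U, fun U' => ?_⟩
  have h1 : ((μ.den : ℚ) * (E.inf (U'.restrictScalars F)).deg -
      μ.num * (E.inf (U'.restrictScalars F)).rk) ≤ (μ.den : ℚ) * (E.inf (U.restrictScalars F)).deg -
      μ.num * (E.inf (U.restrictScalars F)).rk := by
    exact_mod_cast hU _ ⟨U', rfl⟩
  rw [← Rat.den_mul_eq_num] at h1
  have h2 : (0 : ℚ) < μ.den := by exact_mod_cast μ.den_pos
  refine le_of_mul_le_mul_left ?_ h2
  linarith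

theorem span_map_field (E : P1 k t V) (f : V →ₗ[F] V') :
    Submodule.span F ((E.map f).ch false : Set V') =
      (Submodule.span F (E.ch false : Set V)).map f := by
  rw [Submodule.map_span]; rfl

/-- a subsheaf maximizing two slope functionals that are far apart is horizontal -/
theorem horizontal_of_max (hc : IsCoord1 k t) {E : P1 k t V} (hE : E.FG)
    (hfull : Submodule.span F (E.ch false : Set V) = ⊤) (θ : V →+ V) (e0 : ℕ)
    (hθ : ∀ a : A, ∃ a' : A, ∀ v, θ (a • v) = a' • v + a • θ v)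
    (hθE : ∀ b, ∀ v ∈ E.ch b, θ v ∈ (E.tw e0).ch b) {ν : ℚ} {U : Submodule A V}
    (h1 : ∀ U' : Submodule A V,
      ((E.inf (U'.restrictScalars F)).deg : ℚ) - ν * (E.inf (U'.restrictScalars F)).rk ≤
        (E.inf (U.restrictScalars F)).deg - ν * (E.inf (U.restrictScalars F)).rk)
    (h2 : ∀ U' : Submodule A V,
      ((E.inf (U'.restrictScalars F)).deg : ℚ) -
          (ν + (e0 + 1)) * (E.inf (U'.restrictScalars F)).rk ≤
        (E.inf (U.restrictScalars F)).deg - (ν + (e0 + 1)) * (E.inf (U.restrictScalars F)).rk) :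
    ∀ v ∈ U, θ v ∈ U := by
  let K : Submodule A V :=
    { carrier := {v | v ∈ U ∧ θ v ∈ U}
      add_mem' := fun ha hb => ⟨add_mem ha.1 hb.1, by rw [map_add]; exact add_mem ha.2 hb.2⟩
      zero_mem' := ⟨zero_mem _, by simp⟩
      smul_mem' := fun a v hv => ⟨U.smul_mem a hv.1, by
        obtain ⟨a', ha'⟩ := hθ a
        rw [ha']
        exact add_mem (U.smul_mem _ hv.1) (U.smul_mem _ hv.2)⟩ }
  let I : Submodule A V :=
    { carrier := {w | ∃ v ∈ U, w - θ v ∈ U}
      add_mem' := by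
        rintro a b ⟨v, hv, ha⟩ ⟨v', hv', hb⟩
        refine ⟨v + v', add_mem hv hv', ?_⟩
        rw [map_add, add_sub_add_comm]
        exact add_mem ha hb
      zero_mem' := ⟨0, zero_mem _, by simp⟩
      smul_mem' := by
        rintro a w ⟨v, hv, hw⟩
        obtain ⟨a', ha'⟩ := hθ a
        refine ⟨a • v, U.smul_mem a hv, ?_⟩
        rw [ha', add_comm, ← sub_sub, ← smul_sub]
        exact sub_mem (U.smul_mem _ hw) (U.smul_mem _ hv) }
  set UF := U.restrictScalars F with hUF
  let g₀ : UF →ₗ[F] V ⧸ UF :=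
    { toFun := fun v => UF.mkQ (θ v)
      map_add' := fun v w => by simp
      map_smul' := fun c v => by
        obtain ⟨a', ha'⟩ := hθ (algebraMap F A c)
        have := ha' v
        rw [algebraMap_smul, algebraMap_smul] at this
        rw [Submodule.coe_smul, this, map_add, UF.mkQ.map_smul c, RingHom.id_apply, add_eq_right]
        exact (Submodule.Quotient.mk_eq_zero _).mpr (U.smul_mem a' v.2) }
  obtain ⟨g, hg⟩ := g₀.exists_extend
  have hg' : ∀ v ∈ U, g v = UF.mkQ (θ v) := fun v hv => LinearMap.congr_fun hg ⟨v, hv⟩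
  have e1 : UF ⊓ LinearMap.ker g = K.restrictScalars F := by
    ext v
    refine and_congr_right fun hv => ?_
    rw [SetLike.mem_coe, LinearMap.mem_ker, hg' v hv]
    exact Submodule.Quotient.mk_eq_zero _
  have e2 : I.restrictScalars F ⊓ UF = UF :=
    inf_eq_right.mpr fun v hv => ⟨0, zero_mem _, by rw [map_zero, sub_zero]; exact hv⟩
  have r1 := rk_add hc (hE.inf UF) g
  have d1 := deg_add hc (hE.inf UF) g
  have r2 := rk_add hc (hE.inf (I.restrictScalars F)) UF.mkQ
  have d2 := deg_add hc (hE.inf (I.restrictScalars F)) UF.mkQ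
  rw [inf_inf, e1] at r1 d1
  rw [Submodule.ker_mkQ, inf_inf, e2] at r2 d2
  have s1 : Submodule.span F (((E.inf UF).map g).ch false : Set (V ⧸ UF)) = UF.map g := by
    rw [span_map_field, span_inf hc, hfull, top_inf_eq]
  have r3 : ((E.inf UF).map g).rk = ((E.inf (I.restrictScalars F)).map UF.mkQ).rk := by
    suffices s2 : UF.map g = (I.restrictScalars F).map UF.mkQ by
      rw [rk, rk, s1, span_map_field, span_inf hc, hfull, top_inf_eq, s2]
    refine le_antisymm ?_ ?_
    · rintro _ ⟨v, hv, rfl⟩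
      exact ⟨θ v, ⟨v, hv, by simp⟩, (hg' v hv).symm⟩
    · rintro _ ⟨w, ⟨v, hv, hw⟩, rfl⟩
      exact ⟨v, hv, by rw [hg' v hv]; exact ((Submodule.Quotient.eq _).mpr hw).symm⟩
  have hH := (hE.inf (I.restrictScalars F)).map UF.mkQ
  have d3 := deg_mono hc (hH.tw e0) (E' := (E.inf UF).map g) (by
    rintro b _ ⟨v, hv, rfl⟩
    refine ⟨(tu t e0 b)⁻¹ • θ v, ⟨hθE b v hv.1,
      (I.restrictScalars F).smul_mem _ ⟨v, hv.2, by simp⟩⟩, ?_⟩
    simp only [LinearMap.restrictScalars_apply, hg' v hv.2, Units.smul_def, map_smul])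
    (by rw [rk_tw, r3])
  rw [deg_tw hc hH, ← r3] at d3
  have m1 := h1 I
  have m2 := h2 K
  rw [r2, d2, ← r3] at m1
  rw [r1, d1] at m2
  have d4 : (((E.inf UF).map g).deg : ℚ) ≤ ((E.inf UF).map g).rk * e0 +
    ((E.inf (I.restrictScalars F)).map UF.mkQ).deg := by exact_mod_cast d3
  push_cast at m1 m2
  have r4 : ((E.inf UF).map g).rk = 0 := by
    have : (((E.inf UF).map g).rk : ℚ) ≤ 0 := by nlinarith
    exact_mod_cast le_antisymm this (Nat.cast_nonneg _)
  rw [(rk_eq_zero_iff ((hE.inf UF).map g)).mp r4 false] at s1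
  intro v hv
  have : g v ∈ UF.map g := Submodule.mem_map_of_mem hv
  rw [← s1, hg' v hv] at this
  have h3 : θ v ∈ UF := by simpa using this
  exact h3

/-- The Harder-Narasimhan gap bound in the presence of connections `θ i : E → E(e0)`:
if all horizontal subsheaves have slope at most `μ`, then all subsheaves have slope at most
`μ + (rk + 1) * (e0 + 1)`. -/
theorem subLe_of_connection (hc : IsCoord1 k t) {E : P1 k t V} (hE : E.FG) {e : ℕ}
    (ho : E.Ops A e) (hfull : Submodule.span F (E.ch false : Set V) = ⊤)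
    {ι : Type} (θ : ι → V →+ V) (e0 : ℕ)
    (hθ : ∀ i (a : A), ∃ a' : A, ∀ v, θ i (a • v) = a' • v + a • θ i v)
    (hθE : ∀ i b, ∀ v ∈ E.ch b, θ i v ∈ (E.tw e0).ch b) {μ : ℚ}
    (hhor : ∀ U : Submodule A V, (∀ i, ∀ v ∈ U, θ i v ∈ U) →
      ((E.inf (U.restrictScalars F)).deg : ℚ) ≤ μ * (E.inf (U.restrictScalars F)).rk) :
    E.SubLe A (μ + (E.rk + 1) * (e0 + 1)) := by
  choose U hU using fun j : ℕ => exists_maximizer (A := A) hc hE (μ + j * (e0 + 1))
  have hb : (E.inf ((⊥ : Submodule A V).restrictScalars F)).rk = 0 :=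
    (rk_eq_zero_iff (hE.inf _)).mpr fun b => eq_bot_iff.mpr fun v hv => hv.2
  have hb' := deg_eq_zero_of_rk (hE.inf _) hb
  have he : (0 : ℚ) < e0 + 1 := by positivity
  have step : ∀ j : ℕ, (E.inf ((U (j + 1)).restrictScalars F)).rk = 0 ∨
      (E.inf ((U (j + 1)).restrictScalars F)).rk < (E.inf ((U j).restrictScalars F)).rk := by
    intro j
    have h1 := hU j (U (j + 1))
    have h2 := hU (j + 1) (U j)
    push_cast at h2
    have h3 : ((E.inf ((U (j + 1)).restrictScalars F)).rk : ℚ) ≤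
        (E.inf ((U j).restrictScalars F)).rk := by nlinarith
    rcases h3.eq_or_lt with h4 | h4
    · left
      have h5 := hhor (U (j + 1)) fun i => horizontal_of_max hc hE hfull (θ i) e0 (hθ i) (hθE i)
        (ν := μ + j * (e0 + 1)) (fun U' => by have := hU j U'; rw [← h4] at this h2; linarith)
        (fun U' => by have := hU (j + 1) U'; push_cast at this; linarith)
      have h6 := hU (j + 1) ⊥
      rw [hb, hb'] at h6
      push_cast at h6
      have h7 : (0 : ℚ) < (j + 1) * (e0 + 1) := by positivity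
      have : ((E.inf ((U (j + 1)).restrictScalars F)).rk : ℚ) ≤ 0 := by nlinarith
      exact_mod_cast le_antisymm this (Nat.cast_nonneg _)
    · exact Or.inr (by exact_mod_cast h4)
  have key : ∀ j : ℕ, (E.inf ((U j).restrictScalars F)).rk = 0 ∨
      (E.inf ((U j).restrictScalars F)).rk + j ≤ E.rk := by
    intro j
    induction j with
    | zero => exact Or.inr (rk_mono hE (E.inf_le _))
    | succ j ih => have := step j; omega
  have h1 : (E.inf ((U (E.rk + 1)).restrictScalars F)).rk = 0 := by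
    have := key (E.rk + 1); omega
  intro U'
  have h2 := hU (E.rk + 1) U'
  rw [h1, deg_eq_zero_of_rk (hE.inf _) h1] at h2
  push_cast at h2
  linarith

end P1
end Vale.Agent.P190
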