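import Vale.Agent.P190.Geo
import Vale.Agent.P190.P1Ops

/-! The abstract setting of the main argument: a quasi-coherent sheaf on the punctured cone,
and lattices along the exceptional divisor. Definitions. -/

namespace Vale.Agent.P190

variable {k : Type} [Field k] {L : Type} [Field L] [Algebra k L] {x y : Lˣ}
  {A : Type} [CommRing A] [Algebra L A] [Algebra k A] [IsScalarTower k L A]

variable (k) in
/-- the Bogomolov type inequality for sheaves on the surface -/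
def BogIneq (G : Geo false false x y A) : Prop :=
  ∀ (V : Type) [AddCommGroup V] [Module L V] [Module k V] [IsScalarTower k L V] [Module A V]
    [IsScalarTower L A V] (N : PSh k x y V), N.FG → G.Stab N →
    N.fib.SubLe A ((N.alp : ℚ) / N.rk) →
    32 * (N.rk * N.gam - N.alp * N.bet) ≤ -(4 * m4 * N.rk ^ 2 : ℤ)

variable {V : Type} [AddCommGroup V] [Module L V] [Module k V] [IsScalarTower k L V] [Module A V]
  [IsScalarTower L A V] [IsScalarTower k A V]

/-- the image of `M ∩ Λ` in `V / Λ'` -/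
def gr (M : PSh k x y V) (Λ Λ' : Submodule A V) : PSh k x y (V ⧸ Λ') :=
  (M.inf (Λ.restrictScalars L)).map (Λ'.mkQ.restrictScalars L)

/-- the translate `z ^ n Λ` -/
def zp (z : V ≃ₗ[A] V) (n : ℤ) (Λ : Submodule A V) : Submodule A V :=
  Λ.map ((z ^ n : V ≃ₗ[A] V) : V →ₗ[A] V)

variable (k V) in
/-- the data coming from a maximal Cohen-Macaulay module -/
structure Setup (G : Geo false false x y A) where
  z : V ≃ₗ[A] V
  Λ : Submodule A V
  M : PSh k x y V
  z_le : zp z 1 Λ ≤ Λ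
  exh : ∀ v, ∃ n : ℕ, v ∈ zp z (-(n : ℤ)) Λ
  sep : ∀ v, (∀ n : ℕ, v ∈ zp z n Λ) → v = 0
  stab : G.Stab M
  tw : ∀ a b v, v ∈ M.ch a b ↔ (tu x 1 a * tu y 1 b) • z v ∈ M.ch a b
  h1 : M.H1Z
  fg : ∀ n : ℕ, (gr M (zp z (-(n : ℤ)) Λ) (zp z n Λ)).FG
  deep : ∀ n : ℕ, ∃ n' : ℕ, ∀ v ∈ M.lxy, v ∈ zp z n' Λ →
    v ∈ (M.inf ((zp z n Λ).restrictScalars L)).ly false ⊔
      (M.inf ((zp z n Λ).restrictScalars L)).ly true
  ne : M ≠ ⊥

namespace Setup
variable {G : Geo false false x y A}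

/-- admissible lattices -/
structure Adm (S : Setup k V G) (Λ : Submodule A V) : Prop where
  z_le : zp S.z 1 Λ ≤ Λ
  comm : ∃ n : ℕ, zp S.z n S.Λ ≤ Λ ∧ Λ ≤ zp S.z (-(n : ℤ)) S.Λ

/-- the normalized degree of `Λ / Λ'` -/
noncomputable def psi (S : Setup k V G) (Λ Λ' : Submodule A V) : ℤ :=
  (gr S.M Λ Λ').alp + 16 * (gr S.M Λ Λ').rk

/-- the potential -/
noncomputable def pot (S : Setup k V G) (Λ : Submodule A V) : ℤ :=
  S.psi Λ (Λ ⊓ S.Λ) - S.psi S.Λ (Λ ⊓ S.Λ)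

end Setup

end Vale.Agent.P190
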