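import Vale.Agent.P190.GeoGrd
import Vale.Agent.P190.Depth
import Vale.Agent.P190.MainDefs

/-! The sheaf on the punctured cone attached to a module over the completed section ring. -/

namespace Vale.Agent.P190

open PowerSeries

variable {k : Type} [Field k] {L : Type} [Field L] [Algebra k L] {x y : Lˣ}
  {A : Type} [CommRing A] [Algebra L A] [Algebra k A] [IsScalarTower k L A]

/-- the uniformizer as a unit of the ring of Laurent series -/
noncomputable def zU (A : Type) [CommRing A] : (Lau A)ˣ :=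
  (IsLocalization.Away.algebraMap_isUnit (S := Lau A) (X : A⟦X⟧)).unit

theorem zU_val : ((zU A : (Lau A)ˣ) : Lau A) = algebraMap A⟦X⟧ (Lau A) X := rfl

/-- multiplication by the uniformizer -/
noncomputable def zE (A : Type) [CommRing A] (n : ℕ) : (Fin n → Lau A) ≃ₗ[A] (Fin n → Lau A) :=
  DistribMulAction.toLinearEquiv A (Fin n → Lau A) (zU A)

/-- the standard lattice -/
noncomputable def stdL (A : Type) [CommRing A] (n : ℕ) : Submodule A (Fin n → Lau A) :=
  Submodule.pi Set.univ fun _ => LinearMap.range (IsScalarTower.toAlgHom A A⟦X⟧ (Lau A)).toLinearMap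

theorem powers_X_le : Submonoid.powers (X : A⟦X⟧) ≤ nonZeroDivisors A⟦X⟧ := by
  rw [Submonoid.powers_le, mem_nonZeroDivisors_iff_left]
  intro f hf
  exact X_mul_cancel (by rw [hf, mul_zero])

theorem algebraMap_Lau_injective : Function.Injective (algebraMap A⟦X⟧ (Lau A)) :=
  IsLocalization.injective (Lau A) powers_X_le

theorem zE_apply (n : ℕ) (v : Fin n → Lau A) : zE A n v = zU A • v := rfl

theorem zE_zpow (n : ℕ) (m : ℤ) (v : Fin n → Lau A) :
    (zE A n ^ m : (Fin n → Lau A) ≃ₗ[A] (Fin n → Lau A)) v = zU A ^ m • v := by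
  induction m using Int.induction_on generalizing v with
  | zero => simp
  | succ m ih => rw [zpow_add_one, zpow_add_one, LinearEquiv.mul_apply, ih, zE_apply, mul_smul]
  | pred m ih =>
    obtain ⟨w, rfl⟩ := (zE A n).surjective v
    rw [← LinearEquiv.mul_apply, ← zpow_add_one, sub_add_cancel, ih, zE_apply, smul_smul,
      ← zpow_add_one, sub_add_cancel]

theorem mem_zp_stdL {n : ℕ} {m : ℤ} {v : Fin n → Lau A} :
    v ∈ zp (zE A n) m (stdL A n) ↔
      ∃ f : Fin n → A⟦X⟧, ∀ i, v i = (zU A ^ m : (Lau A)ˣ) * algebraMap A⟦X⟧ (Lau A) (f i) := by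
  constructor
  · rintro ⟨w, hw, rfl⟩
    choose f hf using fun i => hw i trivial
    refine ⟨f, fun i => ?_⟩
    have e : algebraMap A⟦X⟧ (Lau A) (f i) = w i := hf i
    rw [e, LinearEquiv.coe_coe, zE_zpow]
    rfl
  · rintro ⟨f, hf⟩
    refine ⟨fun i => algebraMap A⟦X⟧ (Lau A) (f i), fun i _ => ⟨f i, rfl⟩, ?_⟩
    rw [LinearEquiv.coe_coe, zE_zpow]
    funext i
    rw [hf i]
    rfl

theorem zU_pow_val (m : ℕ) :
    ((zU A ^ (m : ℤ) : (Lau A)ˣ) : Lau A) = algebraMap A⟦X⟧ (Lau A) (X ^ m) := by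
  rw [zpow_natCast, Units.val_pow_eq_pow_val, zU_val, map_pow]

theorem stdL_z_le (n : ℕ) : zp (zE A n) 1 (stdL A n) ≤ stdL A n := by
  intro v hv
  obtain ⟨f, hf⟩ := mem_zp_stdL.1 hv
  intro i _
  refine ⟨X * f i, ?_⟩
  rw [hf i, zpow_one, zU_val, ← map_mul]
  rfl

theorem stdL_exh (n : ℕ) (v : Fin n → Lau A) :
    ∃ m : ℕ, v ∈ zp (zE A n) (-(m : ℤ)) (stdL A n) := by
  choose m f hf using fun i => IsLocalization.Away.surj (X : A⟦X⟧) (v i)
  refine ⟨∑ i, m i, mem_zp_stdL.2 ⟨fun i => X ^ (∑ j, m j - m i) * f i, fun i => ?_⟩⟩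
  have h1 : m i ≤ ∑ j, m j := Finset.single_le_sum (fun _ _ => Nat.zero_le _) (Finset.mem_univ i)
  rw [zpow_neg, Units.eq_inv_mul_iff_mul_eq, zU_pow_val, map_mul, ← hf i, ← map_pow,
    mul_left_comm, ← map_mul, ← pow_add, Nat.sub_add_cancel h1, mul_comm]

theorem stdL_sep (n : ℕ) (v : Fin n → Lau A) (h : ∀ m : ℕ, v ∈ zp (zE A n) m (stdL A n)) :
    v = 0 := by
  choose f hf using fun m => mem_zp_stdL.1 (h m)
  funext i
  have h0 : f 0 i = 0 := by
    ext t
    have e : f 0 i = X ^ (t + 1) * f (t + 1) i := by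
      apply algebraMap_Lau_injective
      rw [map_mul, ← zU_pow_val, ← hf, hf 0 i]
      simp
    rw [e]
    exact X_pow_dvd_iff.1 (dvd_mul_right _ _) t (Nat.lt_succ_self t)
  rw [hf 0 i, h0]
  simp

theorem loc_le_of_dvd {R V : Type} [CommRing R] [AddCommGroup V] [Module R V]
    {u u' : R} (M : Submodule R V) {j : ℕ} (h : u ∣ u' ^ j) : loc u M ≤ loc u' M := by
  intro v hv
  obtain ⟨m, hm⟩ := (mem_loc fun v hv => M.smul_mem u hv).1 hv
  obtain ⟨c, hc⟩ := h
  refine (mem_loc fun v hv => M.smul_mem u' hv).2 ⟨j * m, ?_⟩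
  rw [pow_mul, hc, mul_pow, mul_comm, mul_smul]
  exact M.smul_mem _ hm

namespace Geo.IsGrd
variable {G : Geo false false x y A} {D : Grd k A (Bool × Bool)} {n : ℕ}

omit [Algebra L A] [IsScalarTower k L A] [Algebra k L] in
theorem hom_smul (t : ℕ) (c : A) (hc : c ∈ D.R t) (v : Fin n → Lau A) :
    D.hom t c hc • v = c • zU A ^ t • v := by
  funext i
  show (monomial t c : A⟦X⟧) • v i = c • ((zU A ^ t : (Lau A)ˣ) : Lau A) • v i
  rw [← zpow_natCast, zU_pow_val, algebraMap_smul, ← smul_assoc, smul_eq_C_mul,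
    monomial_eq_C_mul_X_pow]

omit [Algebra L A] [IsScalarTower k L A] [Algebra k L] in
theorem mem_locZ (M : Submodule D.ring (Fin n → Lau A)) {z : D.ring} {v : Fin n → Lau A} :
    v ∈ loc z M ↔ ∃ m : ℕ, z ^ m • v ∈ M :=
  mem_loc fun _ hv => M.smul_mem z hv

theorem Z_smul (h : G.IsGrd D) (a b : Bool) (v : Fin n → Lau A) :
    D.Z (a, b) • v = (tu x 1 a * tu y 1 b) • zE A n v := by
  rw [Grd.Z, hom_smul, h.u_eq, algebraMap_smul, pow_one, zE_apply]
  rfl

theorem Z_pow_smul (h : G.IsGrd D) (a b : Bool) (m : ℕ) (v : Fin n → Lau A) :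
    D.Z (a, b) ^ m • v = (tu x 1 a * tu y 1 b) ^ m • zU A ^ m • v := by
  induction m generalizing v with
  | zero => simp
  | succ m ih =>
    rw [pow_succ, mul_smul, ih, h.Z_smul, zE_apply, smul_comm (zU A ^ m) (tu x 1 a * tu y 1 b),
      smul_smul, smul_smul (zU A ^ m), ← pow_succ, ← pow_succ]

theorem Z_pow_cs_x (h : G.IsGrd D) (a b : Bool) (m : ℕ) (v : Fin n → Lau A) :
    D.Z (a, b) ^ m • cs x a ^ m • v = D.Z (!a, b) ^ m • v := by
  have e : tu x 1 a * tu y 1 b * cs x a = tu x 1 (!a) * tu y 1 b := by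
    cases a <;> simp [mul_comm]
  rw [h.Z_pow_smul, h.Z_pow_smul, smul_comm (zU A ^ m), smul_smul, ← mul_pow, e]

theorem Z_pow_cs_y (h : G.IsGrd D) (a b : Bool) (m : ℕ) (v : Fin n → Lau A) :
    D.Z (a, b) ^ m • cs y b ^ m • v = D.Z (a, !b) ^ m • v := by
  have e : tu x 1 a * tu y 1 b * cs y b = tu x 1 a * tu y 1 (!b) := by
    cases b <;> simp
  rw [h.Z_pow_smul, h.Z_pow_smul, smul_comm (zU A ^ m), smul_smul, ← mul_pow, e]

theorem smul_x (h : G.IsGrd D) (M : Submodule D.ring (Fin n → Lau A)) (a b : Bool)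
    {v : Fin n → Lau A} (hv : v ∈ loc (D.Z (a, b)) M) : cs x a • v ∈ loc (D.Z (a, b)) M := by
  obtain ⟨m, hm⟩ := (mem_locZ M).1 hv
  refine (mem_locZ M).2 ⟨m + 1, ?_⟩
  have := h.Z_pow_cs_x a b 1 v
  rw [pow_one, pow_one, pow_one] at this
  rw [pow_succ, mul_smul, this, smul_comm]
  exact M.smul_mem _ hm

theorem smul_y (h : G.IsGrd D) (M : Submodule D.ring (Fin n → Lau A)) (a b : Bool)
    {v : Fin n → Lau A} (hv : v ∈ loc (D.Z (a, b)) M) : cs y b • v ∈ loc (D.Z (a, b)) M := by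
  obtain ⟨m, hm⟩ := (mem_locZ M).1 hv
  refine (mem_locZ M).2 ⟨m + 1, ?_⟩
  have := h.Z_pow_cs_y a b 1 v
  rw [pow_one, pow_one, pow_one] at this
  rw [pow_succ, mul_smul, this, smul_comm]
  exact M.smul_mem _ hm

theorem glue_x (h : G.IsGrd D) (M : Submodule D.ring (Fin n → Lau A)) (a b : Bool)
    {v : Fin n → Lau A} (hv : v ∈ loc (D.Z (a, b)) M) :
    ∃ m : ℕ, cs x (!a) ^ m • v ∈ loc (D.Z (!a, b)) M := by
  obtain ⟨m, hm⟩ := (mem_locZ M).1 hv
  refine ⟨m, (mem_locZ M).2 ⟨m, ?_⟩⟩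
  rwa [h.Z_pow_cs_x, Bool.not_not]

theorem glue_y (h : G.IsGrd D) (M : Submodule D.ring (Fin n → Lau A)) (a b : Bool)
    {v : Fin n → Lau A} (hv : v ∈ loc (D.Z (a, b)) M) :
    ∃ m : ℕ, cs y (!b) ^ m • v ∈ loc (D.Z (a, !b)) M := by
  obtain ⟨m, hm⟩ := (mem_locZ M).1 hv
  refine ⟨m, (mem_locZ M).2 ⟨m, ?_⟩⟩
  rwa [h.Z_pow_cs_y, Bool.not_not]

/-- the sheaf attached to a submodule -/
noncomputable def sh (h : G.IsGrd D) (M : Submodule D.ring (Fin n → Lau A)) :
    PSh k x y (Fin n → Lau A) where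
  ch a b := (loc (D.Z (a, b)) M).restrictScalars k
  smul_x a b _ hv := h.smul_x M a b hv
  smul_y a b _ hv := h.smul_y M a b hv
  glue_x a b _ hv := h.glue_x M a b hv
  glue_y a b _ hv := h.glue_y M a b hv

theorem mem_sh (h : G.IsGrd D) {M : Submodule D.ring (Fin n → Lau A)} {a b : Bool}
    {v : Fin n → Lau A} : v ∈ (h.sh M).ch a b ↔ ∃ m : ℕ, D.Z (a, b) ^ m • v ∈ M :=
  mem_locZ M

theorem smul_mem_sh (h : G.IsGrd D) {M : Submodule D.ring (Fin n → Lau A)} {a b : Bool} {g : A}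
    (hg : ∃ t, D.u (a, b) ^ t * g ∈ D.R t) {v : Fin n → Lau A} (hv : v ∈ (h.sh M).ch a b) :
    g • v ∈ (h.sh M).ch a b := by
  obtain ⟨t, ht⟩ := hg
  obtain ⟨m, hm⟩ := h.mem_sh.1 hv
  refine h.mem_sh.2 ⟨m + t, ?_⟩
  have e : D.Z (a, b) ^ t • g • v = D.hom t _ ht • v := by
    rw [hom_smul, h.Z_pow_smul, h.u_eq, mul_smul, ← map_pow, algebraMap_smul,
      smul_comm (zU A ^ t) g, Units.smul_def, Units.val_pow_eq_pow_val]
  rw [pow_add, mul_smul, e, smul_comm]
  exact M.smul_mem _ hm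

theorem sh_stab (h : G.IsGrd D) (M : Submodule D.ring (Fin n → Lau A)) : G.Stab (h.sh M) :=
  ⟨fun i a b _ hv => h.smul_mem_sh (h.s i a b) hv, fun i a b _ hv => h.smul_mem_sh (h.t i a b) hv,
    fun ε a b _ hv => h.smul_mem_sh (h.w ε a b) hv⟩

theorem sh_tw (h : G.IsGrd D) (M : Submodule D.ring (Fin n → Lau A)) (a b : Bool)
    (v : Fin n → Lau A) :
    v ∈ (h.sh M).ch a b ↔ (tu x 1 a * tu y 1 b) • zE A n v ∈ (h.sh M).ch a b := by
  rw [← h.Z_smul, h.mem_sh, h.mem_sh]
  constructor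
  · rintro ⟨m, hm⟩
    exact ⟨m, by rw [smul_comm]; exact M.smul_mem _ hm⟩
  · rintro ⟨m, hm⟩
    exact ⟨m + 1, by rwa [pow_succ, mul_smul]⟩

theorem sh_ne (h : G.IsGrd D) {M : Submodule D.ring (Fin n → Lau A)} (hM : M ≠ ⊥) :
    h.sh M ≠ ⊥ := by
  intro e
  apply hM
  rw [eq_bot_iff]
  intro v hv
  have : v ∈ (h.sh M).ch false false := h.mem_sh.2 ⟨0, by simpa using hv⟩
  rw [e] at this
  exact this

theorem mem_loc_of_lx (h : G.IsGrd D) {M : Submodule D.ring (Fin n → Lau A)} {b : Bool}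
    {v : Fin n → Lau A} (hv : v ∈ (h.sh M).lx b) :
    v ∈ loc (D.Z (false, b) * D.Z (true, b)) M := by
  obtain ⟨m, hm⟩ := PSh.mem_lx.1 hv
  obtain ⟨j, hj⟩ := h.mem_sh.1 hm
  have h1 := M.smul_mem (D.Z (false, b) ^ m) hj
  rw [smul_comm, show x = cs x false from rfl, h.Z_pow_cs_x] at h1
  refine (mem_locZ M).2 ⟨m + j, ?_⟩
  have h2 := M.smul_mem (D.Z (false, b) ^ m * D.Z (true, b) ^ j) h1
  rw [smul_smul, smul_smul] at h2
  rwa [show (D.Z (false, b) * D.Z (true, b)) ^ (m + j) =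
    D.Z (false, b) ^ m * D.Z (true, b) ^ j * D.Z (false, b) ^ j * D.Z (!false, b) ^ m by
      rw [Bool.not_false]; ring]

theorem mem_loc_of_ly (h : G.IsGrd D) {M : Submodule D.ring (Fin n → Lau A)} {a : Bool}
    {v : Fin n → Lau A} (hv : v ∈ (h.sh M).ly a) :
    v ∈ loc (D.Z (a, false) * D.Z (a, true)) M := by
  obtain ⟨m, hm⟩ := PSh.mem_ly.1 hv
  obtain ⟨j, hj⟩ := h.mem_sh.1 hm
  have h1 := M.smul_mem (D.Z (a, false) ^ m) hj
  rw [smul_comm, show y = cs y false from rfl, h.Z_pow_cs_y] at h1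
  refine (mem_locZ M).2 ⟨m + j, ?_⟩
  have h2 := M.smul_mem (D.Z (a, false) ^ m * D.Z (a, true) ^ j) h1
  rw [smul_smul, smul_smul] at h2
  rwa [show (D.Z (a, false) * D.Z (a, true)) ^ (m + j) =
    D.Z (a, false) ^ m * D.Z (a, true) ^ j * D.Z (a, false) ^ j * D.Z (a, !false) ^ m by
      rw [Bool.not_false]; ring]

theorem Z_mul_Z (h : G.IsGrd D) :
    D.Z (false, true) * D.Z (true, false) = D.Z (false, false) * D.Z (true, true) := by
  apply Subtype.ext
  show (monomial 1 (D.u (false, true)) * monomial 1 (D.u (true, false)) : A⟦X⟧) =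
    monomial 1 (D.u (false, false)) * monomial 1 (D.u (true, true))
  rw [monomial_mul_monomial, monomial_mul_monomial, h.u_eq, h.u_eq, h.u_eq, h.u_eq, ← map_mul,
    ← map_mul, ← Units.val_mul, ← Units.val_mul]
  simp [mul_comm]

theorem sh_h1 [IsDomain A] (h : G.IsGrd D) {M : Submodule D.ring (Fin n → Lau A)}
    {r1 r2 r3 : D.ring} (h0 : r1 ≠ 0) (h1 : r1 ∈ D.F 1) (h2 : r2 ∈ D.F 1) (h3 : r3 ∈ D.F 1)
    (hd : Depth3 M r1 r2 r3) : (h.sh M).H1Z := by
  intro α β hα hβ hco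
  have hrad : ∀ r ∈ D.F 1, r ∈ (Ideal.span (Set.range D.Z)).radical := fun r hr =>
    ⟨D.G + 1, by
      have := D.F_le_zI_pow 1 (D.F_one_pow_le _ (Ideal.pow_mem_pow hr (D.G + 1)))
      rwa [pow_one] at this⟩
  have hz : ∀ j, Function.Bijective fun v : Fin n → Lau A => D.Z j • v := by
    rintro ⟨a, b⟩
    simp only [h.Z_smul]
    exact (MulAction.bijective (tu x 1 a * tu y 1 b)).comp (zE A n).bijective
  have hreg : IsSMulRegular (Fin n → Lau A) r1 := by
    intro v w hvw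
    have := IsLocalization.isDomain_localization (powers_X_le (A := A))
    have hne : algebraMap A⟦X⟧ (Lau A) r1 ≠ 0 := fun e => h0 (Subtype.ext
      (algebraMap_Lau_injective (e.trans (map_zero _).symm)))
    funext i
    have e : (r1 : A⟦X⟧) • v i = (r1 : A⟦X⟧) • w i := congrFun hvw i
    rw [Algebra.smul_def, Algebra.smul_def] at e
    exact mul_left_cancel₀ hne e
  obtain ⟨γ, g1, g2, g3, g4⟩ : ∃ γ : Bool × Bool → Fin n → Lau A, γ (true, true) = 0 ∧
      γ (true, false) = β true ∧ γ (false, true) = α true ∧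
      γ (false, false) = α false + β true :=
    ⟨fun j => match j with
      | (true, true) => 0
      | (true, false) => β true
      | (false, true) => α true
      | (false, false) => α false + β true, rfl, rfl, rfl, rfl⟩
  have hx : ∀ b, γ (false, b) - γ (true, b) = α b := by
    intro b
    cases b
    · rw [g4, g2, add_sub_cancel_right]
    · rw [g3, g1, sub_zero]
  have hy : ∀ a, γ (a, false) - γ (a, true) = β a := by
    intro a
    cases a
    · rw [g4, g3, add_sub_right_comm, hco, sub_add_cancel]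
    · rw [g2, g1, sub_zero]
  have hP := h.Z_mul_Z
  have hα' := fun b => h.mem_loc_of_lx (hα b)
  have hβ' := fun a => h.mem_loc_of_ly (hβ a)
  have hT : ∀ j, γ j ∈ loc (D.Z (false, false) * D.Z (true, true)) M := by
    have e1 : β true ∈ loc (D.Z (false, false) * D.Z (true, true)) M :=
      loc_le_of_dvd M (j := 2) ⟨D.Z (false, false) * D.Z (false, true), by
        rw [sq]; nth_rewrite 1 [← hP]; ring⟩ (hβ' true)
    have e2 : α true ∈ loc (D.Z (false, false) * D.Z (true, true)) M :=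
      loc_le_of_dvd M (j := 2) ⟨D.Z (false, false) * D.Z (true, false), by
        rw [sq]; nth_rewrite 1 [← hP]; ring⟩ (hα' true)
    have e3 : α false ∈ loc (D.Z (false, false) * D.Z (true, true)) M :=
      loc_le_of_dvd M (j := 2) ⟨D.Z (false, true) * D.Z (true, true), by
        rw [sq]; nth_rewrite 1 [← hP]; ring⟩ (hα' false)
    rintro ⟨a, b⟩
    cases a <;> cases b
    · rw [g4]; exact Submodule.add_mem _ e3 e1
    · rw [g3]; exact e2
    · rw [g2]; exact e1
    · rw [g1]; exact Submodule.zero_mem _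
  have hsymm : ∀ i j, γ i - γ j ∈ loc (D.Z i * D.Z j) M → γ j - γ i ∈ loc (D.Z j * D.Z i) M := by
    intro i j hij
    rw [mul_comm, ← neg_sub]
    exact Submodule.neg_mem _ hij
  have hX : ∀ b, γ (false, b) - γ (true, b) ∈ loc (D.Z (false, b) * D.Z (true, b)) M :=
    fun b => by rw [hx]; exact hα' b
  have hY : ∀ a, γ (a, false) - γ (a, true) ∈ loc (D.Z (a, false) * D.Z (a, true)) M :=
    fun a => by rw [hy]; exact hβ' a
  have hD1 : γ (false, false) - γ (true, true) ∈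
      loc (D.Z (false, false) * D.Z (true, true)) M := Submodule.sub_mem _ (hT _) (hT _)
  have hD2 : γ (false, true) - γ (true, false) ∈
      loc (D.Z (false, true) * D.Z (true, false)) M := by
    rw [hP]; exact Submodule.sub_mem _ (hT _) (hT _)
  obtain ⟨v, hv⟩ := cech_h1 M D.Z hz hreg hd (hrad _ h1) (hrad _ h2) (hrad _ h3) γ (by
    rintro ⟨a, b⟩ ⟨a', b'⟩
    have h0 : ∀ i, γ i - γ i ∈ loc (D.Z i * D.Z i) M := fun i => by
      rw [sub_self]; exact Submodule.zero_mem _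
    cases a <;> cases b <;> cases a' <;> cases b'
    exacts [h0 _, hY _, hX _, hD1, hsymm _ _ (hY _), h0 _, hD2, hX _, hsymm _ _ (hX _),
      hsymm _ _ hD2, h0 _, hY _, hsymm _ _ hD1, hsymm _ _ (hX _), hsymm _ _ (hY _), h0 _])
  refine ⟨fun a b => γ (a, b) - v, fun a b => hv (a, b), fun b => ?_, fun a => ?_⟩
  · rw [sub_sub_sub_cancel_right, hx]
  · rw [sub_sub_sub_cancel_right, hy]

omit [Algebra k L] [IsScalarTower k L A] in
theorem cB_smulR (r : D.ring) (z : Lau A) : r • z = algebraMap A⟦X⟧ (Lau A) r * z := by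
  rw [← Algebra.smul_def]; rfl

omit [Algebra k L] [IsScalarTower k L A] in
theorem cB_Z_coe (i : Bool × Bool) : ((D.Z i : D.ring) : A⟦X⟧) = C (D.u i) * X := by
  change monomial 1 (D.u i) = _
  rw [monomial_eq_C_mul_X_pow, pow_one]

theorem cB_smulA (c : A) (z : Lau A) : c • z = algebraMap A⟦X⟧ (Lau A) (C c) * z := by
  rw [Algebra.smul_def, IsScalarTower.algebraMap_apply A A⟦X⟧ (Lau A), PowerSeries.algebraMap_apply]
  rfl

theorem cB_split (f : A⟦X⟧) (K : ℕ) :
    ∃ f' : A⟦X⟧, f = ∑ j ∈ Finset.range K, C (coeff j f) * X ^ j + X ^ K * f' := by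
  obtain ⟨f', hf⟩ : (X : A⟦X⟧) ^ K ∣ f - ∑ j ∈ Finset.range K, C (coeff j f) * X ^ j := by
    rw [X_pow_dvd_iff]
    intro t ht
    rw [map_sub, map_sum, Finset.sum_eq_single t]
    · simp
    · intro j _ hj
      rw [coeff_C_mul, coeff_X_pow, if_neg hj.symm, mul_zero]
    · intro h
      exact absurd (Finset.mem_range.2 ht) h
  exact ⟨f', by rw [← hf]; ring⟩

set_option maxHeartbeats 2000000 in
theorem sh_fg (h : G.IsGrd D) {M : Submodule D.ring (Fin n → Lau A)}
    (hM : ∀ v ∈ M, ∀ i, ∃ f : D.ring, v i = algebraMap A⟦X⟧ (Lau A) f) (m : ℕ) :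
    (gr (h.sh M) (zp (zE A n) (-(m : ℤ)) (stdL A n)) (zp (zE A n) m (stdL A n))).FG := by
  classical
  intro a b
  obtain ⟨S, hS⟩ := h.fin a b
  obtain ⟨U, hU⟩ : ∃ U : Lˣ, U = tu x 1 a * tu y 1 b := ⟨_, rfl⟩
  have hu : D.u (a, b) = algebraMap L A (U : L) := hU ▸ h.u_eq a b
  let φ : Fin n × ℕ → A →ₗ[L] ((Fin n → Lau A) ⧸ zp (zE A n) m (stdL A n)) := fun ij =>
    ((zp (zE A n) m (stdL A n)).mkQ.restrictScalars L) ∘ₗ (LinearMap.single L _ ij.1) ∘ₗ
      ((LinearMap.toSpanSingleton A (Lau A)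
        ((zU A ^ ((ij.2 : ℤ) - m) : (Lau A)ˣ) : Lau A)).restrictScalars L) ∘ₗ
      (((U ^ ((ij.2 : ℤ) - m) : Lˣ) : L) • LinearMap.id)
  have hφ : ∀ ij c, φ ij c = (zp (zE A n) m (stdL A n)).mkQ (Pi.single ij.1
      ((((U ^ ((ij.2 : ℤ) - m) : Lˣ) : L) • c) • ((zU A ^ ((ij.2 : ℤ) - m) : (Lau A)ˣ) : Lau A))) :=
    fun ij c => rfl
  refine ⟨(Finset.univ ×ˢ Finset.range (2 * m)).biUnion fun ij => S.image (φ ij), ?_⟩
  rintro _ ⟨v, ⟨⟨N0, hN0⟩, hv2⟩, rfl⟩
  obtain ⟨f, hf⟩ := mem_zp_stdL.1 hv2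
  choose g hg using hM _ (hN0 (N0 + m) (Nat.le_add_right _ _))
  have hX : ∀ t : ℕ, algebraMap A⟦X⟧ (Lau A) (X ^ t) = ((zU A ^ (t : ℤ) : (Lau A)ˣ) : Lau A) := by
    intro t
    rw [map_pow, zpow_natCast, Units.val_pow_eq_pow_val, zU_val]
  have hcoef : ∀ i j, ∃ c ∈ Submodule.span (PSh.chartRing k x y a b) (S : Set A),
      coeff j (f i) = ((U ^ ((j : ℤ) - m) : Lˣ) : L) • c := by
    intro i j
    have h1 : C (D.u (a, b) ^ (N0 + m)) * (f i * X ^ N0) = (g i : A⟦X⟧) := by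
      apply algebraMap_Lau_injective
      rw [← hg i, Pi.smul_apply, cB_smulR, hf i, SubmonoidClass.coe_pow, cB_Z_coe, mul_pow,
        ← map_pow C, map_mul, map_mul, map_mul, hX, hX, mul_assoc, ← mul_assoc (Units.val _),
        ← Units.val_mul, ← zpow_add, mul_comm (algebraMap A⟦X⟧ (Lau A) (f i))]
      congr 4
      push_cast
      ring
    have h2 := congrArg (coeff (j + N0)) h1
    rw [coeff_C_mul, coeff_mul_X_pow] at h2
    obtain ⟨c, hc, h3⟩ := hS _ _ ((g i).2 (j + N0))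
    refine ⟨c, hc, ?_⟩
    rw [← h2, hu, ← map_pow, ← map_pow, ← Algebra.smul_def, ← Algebra.smul_def,
      ← Units.val_pow_eq_pow_val, ← Units.val_pow_eq_pow_val, ← Units.smul_def, ← Units.smul_def,
      ← eq_inv_smul_iff, smul_smul] at h3
    rw [h3, ← Units.smul_def, ← zpow_natCast, ← zpow_natCast, ← zpow_neg, ← zpow_add]
    congr 2
    push_cast
    ring
  choose c hc1 hc2 using hcoef
  choose f' hf' using fun i => cB_split (f i) (2 * m)
  have key : (zp (zE A n) m (stdL A n)).mkQ v =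
      ∑ ij ∈ Finset.univ ×ˢ Finset.range (2 * m), φ ij (c ij.1 ij.2) := by
    simp only [hφ]
    rw [← map_sum, Submodule.mkQ_apply, Submodule.mkQ_apply, Submodule.Quotient.eq]
    refine mem_zp_stdL.2 ⟨f', fun i => ?_⟩
    rw [Pi.sub_apply, Finset.sum_apply, Finset.sum_product, Finset.sum_eq_single i]
    · simp only [Pi.single_eq_same, ← hc2, cB_smulA]
      rw [hf i, sub_eq_iff_eq_add']
      conv_lhs => rw [hf' i]
      rw [map_add, map_sum, mul_add, Finset.mul_sum, map_mul, hX, ← mul_assoc, ← Units.val_mul,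
        ← zpow_add]
      congr 1
      · refine Finset.sum_congr rfl fun j _ => ?_
        rw [map_mul, hX, mul_left_comm, ← Units.val_mul, ← zpow_add, neg_add_eq_sub]
      · congr 3
        push_cast
        ring
    · intro i' _ hi'
      exact Finset.sum_eq_zero fun j _ => Pi.single_eq_of_ne hi'.symm _
    · intro hi
      exact absurd (Finset.mem_univ i) hi
  change (zp (zE A n) m (stdL A n)).mkQ v ∈ _
  rw [key]
  refine Submodule.sum_mem _ fun ij hij => ?_
  refine Submodule.span_mono ?_ (PSh.map_mem_span _ (φ ij) (hc1 ij.1 ij.2))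
  rintro _ ⟨s, hs, rfl⟩
  exact Finset.mem_coe.2 (Finset.mem_biUnion.2 ⟨ij, hij, Finset.mem_image_of_mem _ hs⟩)

variable (A x y) in
/-- a Laurent monomial as a unit of the ring of Laurent series -/
noncomputable def cBmon (e e' e'' : ℤ) : (Lau A)ˣ :=
  Units.map (algebraMap L (Lau A)).toMonoidHom (x ^ e * y ^ e') * zU A ^ e''

theorem cBmon_smul (e e' e'' d d' d'' : ℤ) (v : Fin n → Lau A) :
    cBmon x y A e e' e'' • cBmon x y A d d' d'' • v =
      cBmon x y A (e + d) (e' + d') (e'' + d'') • v := by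
  rw [smul_smul, cBmon, cBmon, cBmon, mul_mul_mul_comm, ← map_mul, mul_mul_mul_comm, ← zpow_add,
    ← zpow_add, ← zpow_add]

theorem cBmon_L (e e' : ℤ) (v : Fin n → Lau A) :
    (x ^ e * y ^ e') • v = cBmon x y A e e' 0 • v := by
  rw [cBmon, zpow_zero, mul_one, Units.smul_def, Units.smul_def]
  exact (algebraMap_smul (Lau A) _ v).symm

theorem cBmon_Z (h : G.IsGrd D) (a b : Bool) (v : Fin n → Lau A) :
    D.Z (a, b) • v = cBmon x y A (if a then 1 else 0) (if b then 1 else 0) 1 • v := by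
  have e1 : zE A n v = cBmon x y A 0 0 1 • v := by
    rw [cBmon, zpow_zero, zpow_zero, mul_one, map_one, one_mul, zpow_one]
    rfl
  have e2 : tu x 1 a * tu y 1 b = x ^ (if a then 1 else 0 : ℤ) * y ^ (if b then 1 else 0 : ℤ) := by
    cases a <;> cases b <;> simp
  rw [h.Z_smul, e1, e2, cBmon_L, cBmon_smul, add_zero, add_zero, zero_add]

theorem cBmon_Z_pow (h : G.IsGrd D) (a b : Bool) (t : ℕ) (v : Fin n → Lau A) :
    D.Z (a, b) ^ t • v = cBmon x y A (if a then t else 0) (if b then t else 0) t • v := by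
  induction t with
  | zero => simp [cBmon]
  | succ t ih =>
    rw [pow_succ', mul_smul, ih, h.cBmon_Z, cBmon_smul]
    congr 2
    · cases a <;> simp [add_comm]
    · cases b <;> simp [add_comm]
    · simp [add_comm]

set_option maxHeartbeats 2000000 in
theorem sh_deep (h : G.IsGrd D) {M : Submodule D.ring (Fin n → Lau A)}
    (hM : ∀ v ∈ M, ∀ i, ∃ f : D.ring, v i = algebraMap A⟦X⟧ (Lau A) f) (m : ℕ) :
    ∃ m' : ℕ, ∀ v ∈ (h.sh M).lxy, v ∈ zp (zE A n) m' (stdL A n) →
      v ∈ ((h.sh M).inf ((zp (zE A n) m (stdL A n)).restrictScalars L)).ly false ⊔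
        ((h.sh M).inf ((zp (zE A n) m (stdL A n)).restrictScalars L)).ly true := by
  haveI := D.isNoetherianRing
  obtain ⟨E, hE⟩ : ∃ E, E = (h.sh M).inf ((zp (zE A n) m (stdL A n)).restrictScalars L) :=
    ⟨_, rfl⟩
  rw [← hE]
  have base : ∀ w ∈ M, ∀ e e' : ℤ, cBmon x y A e e' m • w ∈ E.ly false ⊔ E.ly true := by
    intro w hw e e'
    have h1 : ∀ a, D.Z (a, false) ^ m • w ∈ E.ch a false := by
      intro a
      rw [hE]
      refine ⟨le_loc (fun v hv => M.smul_mem _ hv) (M.smul_mem _ hw), ?_⟩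
      choose g hg using hM w hw
      refine mem_zp_stdL.2 ⟨fun i => C (D.u (a, false)) ^ m * g i, fun i => ?_⟩
      rw [Pi.smul_apply, cB_smulR, hg i, SubmonoidClass.coe_pow, cB_Z_coe, mul_pow, map_mul,
        map_mul, map_pow _ X, zpow_natCast, Units.val_pow_eq_pow_val, zU_val]
      ring
    have h2 : ∃ a, cBmon x y A e 0 m • w ∈ E.ch a false := by
      rcases le_or_gt 0 e with he | he
      · refine ⟨false, ?_⟩
        have h3 := pow_smul_mem (E.smul_x false false) e.toNat (h1 false)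
        rw [h.cBmon_Z_pow, cs_false, ← zpow_natCast, Int.toNat_of_nonneg he,
          ← mul_one (x ^ e), ← zpow_zero y, cBmon_L, cBmon_smul] at h3
        simpa using h3
      · refine ⟨true, ?_⟩
        have h3 := pow_smul_mem (E.smul_x true false) (m - e).toNat (h1 true)
        rw [h.cBmon_Z_pow, cs_true, ← zpow_natCast, Int.toNat_of_nonneg (by omega), inv_zpow',
          ← mul_one (x ^ (-(m - e))), ← zpow_zero y, cBmon_L, cBmon_smul] at h3
        simpa using h3
    obtain ⟨a, ha⟩ := h2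
    have h4 : cBmon x y A e e' m • w ∈ E.ly a := by
      refine PSh.mem_ly.2 ⟨e'.natAbs, ?_⟩
      have h3 := pow_smul_mem (E.smul_y a false) (e'.natAbs + e').toNat ha
      rw [cs_false, ← zpow_natCast, Int.toNat_of_nonneg (by omega), ← one_mul (y ^ _),
        ← zpow_zero x, cBmon_L, cBmon_smul] at h3
      rw [← zpow_natCast, ← one_mul (y ^ _), ← zpow_zero x, cBmon_L, cBmon_smul]
      simpa using h3
    cases a
    · exact Submodule.mem_sup_left h4
    · exact Submodule.mem_sup_right h4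
  have step : ∀ s : ℕ, ∀ w ∈ D.zI ^ s • M, ∀ e e' : ℤ,
      cBmon x y A e e' (m - s) • w ∈ E.ly false ⊔ E.ly true := by
    intro s
    induction s with
    | zero =>
      intro w hw
      rw [pow_zero, Ideal.one_eq_top, Submodule.top_smul] at hw
      simpa using base w hw
    | succ s ih =>
      intro w hw
      rw [pow_succ', Submodule.mul_smul] at hw
      refine Submodule.smul_induction_on hw (fun r hr w hw => ?_) (fun u u' hu hu' e e' => ?_)
      · induction hr using Submodule.span_induction generalizing w with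
        | mem r hr =>
          obtain ⟨⟨a, b⟩, rfl⟩ := hr
          intro e e'
          rw [h.cBmon_Z, cBmon_smul, show (m : ℤ) - ((s + 1 : ℕ) : ℤ) + 1 = m - s by omega]
          exact ih w hw _ _
        | zero => intro e e'; simp
        | add r r' _ _ h1 h2 =>
          intro e e'
          rw [add_smul, smul_add]
          exact add_mem (h1 w hw e e') (h2 w hw e e')
        | smul c r _ h1 =>
          rw [smul_eq_mul, mul_comm, mul_smul]
          exact h1 _ (Submodule.smul_mem _ c hw)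
      · rw [smul_add]
        exact add_mem (hu e e') (hu' e e')
  let ψ : (Fin n → D.ring) →ₗ[D.ring] (Fin n → Lau A) :=
    { toFun := fun g i => algebraMap A⟦X⟧ (Lau A) (g i)
      map_add' := fun g g' => by funext i; simp
      map_smul' := fun r g => by
        funext i
        simp only [Pi.smul_apply, smul_eq_mul, MulMemClass.coe_mul, map_mul, RingHom.id_apply,
          cB_smulR] }
  obtain ⟨c, hc⟩ := D.zI.exists_pow_inf_eq_pow_smul (M.comap ψ)
  refine ⟨m + D.G + c, fun v hv hv2 => ?_⟩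
  obtain ⟨a, b, hb⟩ := PSh.mem_lxy.1 hv
  replace hb := hb b le_rfl
  obtain ⟨f, hf⟩ := mem_zp_stdL.1 hv2
  choose g hg using hM _ hb
  have hw : ψ g = D.Z (false, false) ^ b • (x * y) ^ a • v := funext fun i => (hg i).symm
  have hg1 : ∀ i, g i ∈ D.zI ^ (m + b + c) := by
    intro i
    refine D.F_le_zI_pow _ (X_pow_dvd_iff.1 ⟨C (D.u (false, false)) ^ b *
      C (algebraMap L A (((x * y) ^ a : Lˣ) : L)) * f i, ?_⟩)
    apply algebraMap_Lau_injective
    rw [← hg i, Pi.smul_apply, Pi.smul_apply, cB_smulR, Units.smul_def,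
      ← algebraMap_smul A (((x * y) ^ a : Lˣ) : L), cB_smulA, hf i, SubmonoidClass.coe_pow,
      cB_Z_coe, zpow_natCast, Units.val_pow_eq_pow_val (zU A), zU_val]
    simp only [map_mul, map_pow]
    ring
  have hg2 : g ∈ D.zI ^ (m + b + c) • (⊤ : Submodule D.ring (Fin n → D.ring)) := by
    classical
    rw [← Finset.univ_sum_single g]
    refine Submodule.sum_mem _ fun i _ => ?_
    have : Pi.single i (g i) = g i • (Pi.single i 1 : Fin n → D.ring) := by
      rw [← Pi.single_smul, smul_eq_mul, mul_one]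
    rw [this]
    exact Submodule.smul_mem_smul (hg1 i) Submodule.mem_top
  have hg3 : g ∈ D.zI ^ (m + b) • M.comap ψ := by
    have h1 : g ∈ D.zI ^ (m + b + c) • (⊤ : Submodule D.ring (Fin n → D.ring)) ⊓ M.comap ψ :=
      ⟨hg2, by
        change ψ g ∈ M
        rw [hw]
        exact hb⟩
    rw [hc _ (Nat.le_add_left _ _), Nat.add_sub_cancel] at h1
    exact Submodule.smul_mono le_rfl inf_le_right h1
  have hg4 : ψ g ∈ D.zI ^ (m + b) • M := by
    have h1 := Submodule.mem_map_of_mem (f := ψ) hg3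
    rw [Submodule.map_smul''] at h1
    exact Submodule.smul_mono le_rfl (Submodule.map_comap_le _ _) h1
  have h5 := step _ _ hg4 (-a) (-a)
  rw [hw, h.cBmon_Z_pow, mul_pow, ← zpow_natCast, ← zpow_natCast, cBmon_L, cBmon_smul,
    cBmon_smul] at h5
  simpa [cBmon] using h5

/-- the setting attached to a nonzero submodule of depth three -/
noncomputable def setup [IsDomain A] (h : G.IsGrd D) {M : Submodule D.ring (Fin n → Lau A)}
    (hM : ∀ v ∈ M, ∀ i, ∃ f : D.ring, v i = algebraMap A⟦X⟧ (Lau A) f) (hne : M ≠ ⊥)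
    {r1 r2 r3 : D.ring} (h0 : r1 ≠ 0) (h1 : r1 ∈ D.F 1) (h2 : r2 ∈ D.F 1) (h3 : r3 ∈ D.F 1)
    (hd : Depth3 M r1 r2 r3) : Setup k (Fin n → Lau A) G where
  z := zE A n
  Λ := stdL A n
  M := h.sh M
  z_le := stdL_z_le n
  exh := stdL_exh n
  sep := stdL_sep n
  stab := h.sh_stab M
  tw := h.sh_tw M
  h1 := h.sh_h1 h0 h1 h2 h3 hd
  fg := h.sh_fg hM
  deep := h.sh_deep hM
  ne := h.sh_ne hne

end Geo.IsGrd

end Vale.Agent.P190
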