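import Vale.Agent.P190.Trace

/-! The numerical outcome of the last comparison step. -/

namespace Vale.Agent.P190
namespace Geo

variable {k : Type} [Field k] {L : Type} [Field L] [Algebra k L] {x y : Lˣ}
  {A : Type} [CommRing A] [Algebra L A] [Algebra k A] [IsScalarTower k L A]
  {V : Type} [AddCommGroup V] [Module L V] [Module k V] [IsScalarTower k L V] [Module A V]
  [IsScalarTower L A V] [IsScalarTower k A V]
  {p : ℕ} [Fact p.Prime] [CharP k p] {G : Geo false false x y A} {W : PSh k x y V}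

omit [Fact p.Prime] in
theorem dnum_ne_two (hk : Good k) : p ≠ 2 := by
  rintro rfl
  exact hk 2 (by norm_num) (by norm_num) (CharP.cast_eq_zero k 2)

omit [Algebra k A] [IsScalarTower k L A] in
theorem dnum_isUnit_dl (hk : Good k) (hc : IsCoord k x y) (G : Geo false false x y A) :
    IsUnit G.dl :=
  (del_ne_zero hk hc false false).isUnit.map _

omit [Algebra k A] [IsScalarTower k L A] in
theorem dnum_isUnit_Th (hk : Good k) (hc : IsCoord k x y) (G : Geo false false x y A) :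
    IsUnit G.Th :=
  IsUnit.prod_univ_iff.2 fun _ => (G.isUnit_s hk hc _).mul (G.isUnit_t hk hc _)

omit [Fact p.Prime] [CharP k p] [IsScalarTower k L A] [IsScalarTower k A V] in
theorem DReady.dnum_fg (h : G.DReady p W) (n : ℕ) : (G.Y W n).FG := h.fg.YY _ _ _ n

omit [Fact p.Prime] [CharP k p] [IsScalarTower k L A] [IsScalarTower k A V] in
theorem DReady.dnum_rk (hk : Good k) (hc : IsCoord k x y) (h : G.DReady p W) (n : ℕ) :
    (G.Y W n).rk = W.rk := by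
  rw [(h.full.YY (G.isUnit_ww hk hc) (3 * m4) 3 n).rk_eq, h.full.rk_eq]

omit [Fact p.Prime] [CharP k p] [IsScalarTower k L A] [IsScalarTower k A V] in
theorem DReady.dnum_hp (hk : Good k) (hc : IsCoord k x y) (h : G.DReady p W) (n : ℕ) (i j : ℤ) :
    (G.Y W n).hp i j =
      W.rk * i * j + (G.Y W n).alp * i + (G.Y W n).bet * j + (G.Y W n).gam := by
  rw [PSh.hp_eq hc (h.dnum_fg n), h.dnum_rk hk hc]

theorem DReady.dnum_succ_le (hk : Good k) (hc : IsCoord k x y) (h : G.DReady p W) (n : ℕ) :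
    G.Y W (n + 1) ≤ G.Y W n := PSh.YY_succ_le (h.h2 hk hc) n

theorem DReady.pi_shift (hk : Good k) (hc : IsCoord k x y) (h : G.DReady p W) (n : ℕ) (i j : ℤ) :
    (G.Y W (n + 2)).hp i j - (G.Y W (n + 3)).hp i j =
      (G.Y W n).hp (i + (2 * m4 : ℕ)) (j + 2) - (G.Y W (n + 1)).hp (i + (2 * m4 : ℕ)) (j + 2) := by
  have e1 := PSh.hp_modular hc ((h.dnum_fg n).mul G.dl (4 * m4) 4) (h.dnum_fg (n + 3))
    (i + (6 * m4 : ℕ)) (j + 6)
  have e2 := PSh.hp_modular hc ((h.dnum_fg (n + 2)).mul G.Th (6 * m4) 6) (h.dnum_fg (n + 3))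
    (i + (6 * m4 : ℕ)) (j + 6)
  rw [h.nu_sup hk hc n, h.nu_inf_dl hk hc n, PSh.hp_mul _ (dnum_isUnit_dl hk hc G),
    PSh.hp_mul _ (dnum_isUnit_dl hk hc G)] at e1
  rw [h.nu_inf_Th hk hc (n + 2), PSh.hp_mul _ (dnum_isUnit_Th hk hc G),
    PSh.hp_mul _ (dnum_isUnit_Th hk hc G)] at e2
  have a1 : i + (6 * m4 : ℕ) - (4 * m4 : ℕ) = i + (2 * m4 : ℕ) := by push_cast; ring
  have a2 : j + 6 - (4 : ℕ) = j + 2 := by push_cast; ring
  have a3 : i + (6 * m4 : ℕ) - (6 * m4 : ℕ) = i := by ring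
  have a4 : j + 6 - (6 : ℕ) = j := by push_cast; ring
  rw [a1, a2] at e1
  rw [a3, a4] at e2
  have a5 : n + 2 + 1 = n + 3 := rfl
  rw [a5] at e2
  linarith

theorem DReady.dnum_shift (hk : Good k) (hc : IsCoord k x y) (h : G.DReady p W) (n : ℕ) :
    (G.Y W (n + 2)).alp - (G.Y W (n + 3)).alp = (G.Y W n).alp - (G.Y W (n + 1)).alp ∧
    (G.Y W (n + 2)).bet - (G.Y W (n + 3)).bet = (G.Y W n).bet - (G.Y W (n + 1)).bet ∧
    (G.Y W (n + 2)).gam - (G.Y W (n + 3)).gam = (G.Y W n).gam - (G.Y W (n + 1)).gam +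
      (2 * m4 * ((G.Y W n).alp - (G.Y W (n + 1)).alp) +
        2 * ((G.Y W n).bet - (G.Y W (n + 1)).bet)) := by
  have h00 := h.pi_shift hk hc n 0 0
  have h10 := h.pi_shift hk hc n 1 0
  have h01 := h.pi_shift hk hc n 0 1
  simp only [h.dnum_hp hk hc] at h00 h10 h01
  push_cast at h00 h10 h01
  refine ⟨?_, ?_, ?_⟩
  · linear_combination h10 - h00
  · linear_combination h01 - h00
  · linear_combination h00

theorem DReady.dnum_S (hk : Good k) (hc : IsCoord k x y) (h : G.DReady p W) (n : ℕ) :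
    ∃ S : PSh k x y V, S ≤ G.Y W (n + 1) ∧ S.rk = (G.Y W (n + 1)).rk ∧
      S.alp = (G.Y W (n + 2)).alp + ((G.Y W n).alp - (G.Y W (n + 1)).alp) ∧
      S.bet = (G.Y W (n + 2)).bet + ((G.Y W n).bet - (G.Y W (n + 1)).bet) ∧
      S.gam = (G.Y W (n + 2)).gam + ((G.Y W n).gam - (G.Y W (n + 1)).gam) -
        (3 * m4 * ((G.Y W n).alp - (G.Y W (n + 1)).alp) +
          3 * ((G.Y W n).bet - (G.Y W (n + 1)).bet)) := by
  have hS := ((h.dnum_fg n).mul G.wt (3 * m4) 3).sup (h.dnum_fg (n + 2))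
  refine ⟨(G.Y W n).mul G.wt (3 * m4) 3 ⊔ G.Y W (n + 2),
    sup_le (wt_le W n) (h.dnum_succ_le hk hc (n + 1)), ?_⟩
  have key := PSh.coeff_eq_of_hp hc hS (r := W.rk)
    (a := (G.Y W (n + 2)).alp + ((G.Y W n).alp - (G.Y W (n + 1)).alp))
    (b := (G.Y W (n + 2)).bet + ((G.Y W n).bet - (G.Y W (n + 1)).bet))
    (c := (G.Y W (n + 2)).gam + ((G.Y W n).gam - (G.Y W (n + 1)).gam) -
        (3 * m4 * ((G.Y W n).alp - (G.Y W (n + 1)).alp) +
          3 * ((G.Y W n).bet - (G.Y W (n + 1)).bet))) (fun i j => by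
      have e1 := PSh.hp_modular hc ((h.dnum_fg n).mul G.wt (3 * m4) 3) (h.dnum_fg (n + 2)) i j
      rw [h.wt_inf hk hc n, PSh.hp_mul _ (isUnit_wt hk hc G), PSh.hp_mul _ (isUnit_wt hk hc G)]
        at e1
      simp only [h.dnum_hp hk hc] at e1
      push_cast at e1
      linear_combination e1)
  refine ⟨?_, key.2⟩
  rw [h.dnum_rk hk hc]
  exact_mod_cast key.1

/-- the Hilbert polynomials of the graded pieces -/
theorem DReady.pi_form (hk : Good k) (hc : IsCoord k x y) (h : G.DReady p W) :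
    ∃ (l1 l2 c0 c1 : ℤ), 0 ≤ l2 ∧ c0 - (3 * m4 * l1 + 3 * l2) ≤ c1 ∧
      (∀ (n : ℕ) (i j : ℤ), (G.Y W (2 * n)).hp i j - (G.Y W (2 * n + 1)).hp i j =
        l1 * i + l2 * j + (c0 + n * (2 * m4 * l1 + 2 * l2))) ∧
      ∀ (n : ℕ) (i j : ℤ), (G.Y W (2 * n + 1)).hp i j - (G.Y W (2 * n + 2)).hp i j =
        l1 * i + l2 * j + (c1 + n * (2 * m4 * l1 + 2 * l2)) := by
  obtain ⟨S0, s0, r0, a0, b0, c0⟩ := h.dnum_S hk hc 0
  obtain ⟨S1, s1, r1, a1, b1, -⟩ := h.dnum_S hk hc 1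
  have ha0 := PSh.alp_mono hc (h.dnum_fg _) s0 r0
  have hb0 := PSh.bet_mono hc (h.dnum_fg _) s0 r0
  have ha1 := PSh.alp_mono hc (h.dnum_fg _) s1 r1
  have hb1 := PSh.bet_mono hc (h.dnum_fg _) s1 r1
  obtain ⟨ta, tb, -⟩ := h.dnum_shift hk hc 0
  simp only [zero_add, Nat.reduceAdd] at a0 b0 c0 a1 b1 ha0 hb0 ha1 hb1 ta tb s0 r0
  have hc0 := PSh.gam_mono hc (h.dnum_fg _) s0 r0 (by linarith) (by linarith)
  have hl2 := PSh.bet_mono hc (h.dnum_fg 0) (h.dnum_succ_le hk hc 0)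
    (by rw [h.dnum_rk hk hc, h.dnum_rk hk hc])
  simp only [zero_add] at hl2
  have ea : (G.Y W 1).alp - (G.Y W 2).alp = (G.Y W 0).alp - (G.Y W 1).alp := by linarith
  have eb : (G.Y W 1).bet - (G.Y W 2).bet = (G.Y W 0).bet - (G.Y W 1).bet := by linarith
  have key : ∀ m n : ℕ,
      (G.Y W (2 * n + m)).alp - (G.Y W (2 * n + m + 1)).alp =
        (G.Y W m).alp - (G.Y W (m + 1)).alp ∧
      (G.Y W (2 * n + m)).bet - (G.Y W (2 * n + m + 1)).bet =
        (G.Y W m).bet - (G.Y W (m + 1)).bet ∧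
      (G.Y W (2 * n + m)).gam - (G.Y W (2 * n + m + 1)).gam =
        (G.Y W m).gam - (G.Y W (m + 1)).gam +
          n * (2 * m4 * ((G.Y W m).alp - (G.Y W (m + 1)).alp) +
            2 * ((G.Y W m).bet - (G.Y W (m + 1)).bet)) := by
    intro m n
    induction n with
    | zero => simp
    | succ n ih =>
      obtain ⟨i1, i2, i3⟩ := ih
      obtain ⟨j1, j2, j3⟩ := h.dnum_shift hk hc (2 * n + m)
      rw [show 2 * (n + 1) + m = 2 * n + m + 2 by ring, show 2 * n + m + 2 + 1 = 2 * n + m + 3 by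
        ring]
      refine ⟨j1.trans i1, j2.trans i2, ?_⟩
      rw [j3, i1, i2, i3]
      push_cast
      ring
  refine ⟨(G.Y W 0).alp - (G.Y W 1).alp, (G.Y W 0).bet - (G.Y W 1).bet,
    (G.Y W 0).gam - (G.Y W 1).gam, (G.Y W 1).gam - (G.Y W 2).gam, by linarith, by linarith,
    fun n i j => ?_, fun n i j => ?_⟩
  · obtain ⟨i1, i2, i3⟩ := key 0 n
    simp only [add_zero, zero_add] at i1 i2 i3
    rw [h.dnum_hp hk hc, h.dnum_hp hk hc]
    linear_combination i * i1 + j * i2 + i3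
  · obtain ⟨i1, i2, i3⟩ := key 1 n
    simp only [add_assoc, Nat.reduceAdd] at i1 i2 i3
    rw [ea] at i1 i3
    rw [eb] at i2 i3
    rw [h.dnum_hp hk hc, h.dnum_hp hk hc]
    linear_combination i * i1 + j * i2 + i3

theorem DReady.dnum_diff (hk : Good k) (hc : IsCoord k x y) (h : G.DReady p W) :
    ∃ (l1 l2 c0 : ℤ) (c : ℕ → ℤ), 0 ≤ l2 ∧ (G.Y W 0).alp - (G.Y W 2).alp = 2 * l1 ∧
      (0 ≤ l1 → ∀ v : ℕ, 2 * c0 + ((v : ℤ) - 4) * (2 * m4 * l1 + 2 * l2) ≤ 2 * c v) ∧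
      ∀ i j, (G.Y W ((p - 1) / 2)).hp i j = W.hp i j +
        ∑ v ∈ Finset.range ((p - 1) / 2),
          (c ((p - 1) / 2 + v) - (c0 + v * (2 * m4 * l1 + 2 * l2))) := by
  obtain ⟨l1, l2, c0, c1, hl2, hc1, he, ho⟩ := h.pi_form hk hc
  have hall : ∀ v : ℕ, ∀ i j, (G.Y W v).hp i j - (G.Y W (v + 1)).hp i j =
      l1 * i + l2 * j + ((G.Y W v).gam - (G.Y W (v + 1)).gam) := by
    intro v i j
    rcases Nat.even_or_odd' v with ⟨n, rfl | rfl⟩
    · have := he n 0 0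
      rw [he n i j]
      simp only [PSh.gam]
      linarith
    · have := ho n 0 0
      rw [ho n i j]
      simp only [PSh.gam]
      linarith
  refine ⟨l1, l2, c0, fun v => (G.Y W v).gam - (G.Y W (v + 1)).gam, hl2, ?_, fun hl1 v => ?_,
    fun i j => ?_⟩
  · have h1 := hall 0 1 0
    have h2 := hall 1 1 0
    simp only [PSh.alp, PSh.gam, zero_add, Nat.reduceAdd] at h1 h2 ⊢
    linarith
  · have hm : (0 : ℤ) ≤ m4 * l1 := mul_nonneg (Nat.cast_nonneg _) hl1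
    rcases Nat.even_or_odd' v with ⟨n, rfl | rfl⟩
    · have := he n 0 0
      simp only [PSh.gam]
      rw [this]
      push_cast
      nlinarith
    · have := ho n 0 0
      simp only [PSh.gam]
      rw [this]
      push_cast
      nlinarith
  · have hp2 := dnum_ne_two (p := p) hk
    obtain ⟨t, ht⟩ := (Fact.out : p.Prime).odd_of_ne_two hp2
    have hp1 : p - 1 = 2 * t := by omega
    rw [PSh.step hc p hp2 h.fg (h.h2 hk hc) (h.covered hk hc) i j, hp1,
      show 2 * t / 2 = t by omega]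
    have tel : ∀ m : ℕ, (G.Y W t).hp i j = (G.Y W (t + m)).hp i j +
        ∑ v ∈ Finset.range m,
          (l1 * i + l2 * j + ((G.Y W (t + v)).gam - (G.Y W (t + v + 1)).gam)) := by
      intro m
      induction m with
      | zero => simp
      | succ m ih =>
        rw [Finset.sum_range_succ, ih, ← hall (t + m) i j, ← add_assoc t m 1]
        ring
    rw [tel t, ← two_mul, add_assoc, ← Finset.sum_add_distrib]
    congr 1
    refine Finset.sum_congr rfl fun v _ => ?_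
    rw [he v i j]
    ring

theorem DReady.dstep_lin (hk : Good k) (hc : IsCoord k x y) (h : G.DReady p W) :
    (G.Y W ((p - 1) / 2)).rk = W.rk ∧ (G.Y W ((p - 1) / 2)).alp = W.alp ∧
      (G.Y W ((p - 1) / 2)).bet = W.bet := by
  obtain ⟨l1, l2, c0, c, -, -, -, he⟩ := h.dnum_diff hk hc
  refine ⟨h.dnum_rk hk hc _, ?_, ?_⟩
  · simp only [PSh.alp, he]
    ring
  · simp only [PSh.bet, he]
    ring

theorem DReady.dstep_gam (hk : Good k) (hc : IsCoord k x y) (h : G.DReady p W) (hp : 15 < p)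
    (hr : 4 * W.rk < p) :
    32 * W.gam + 4 * m4 * W.rk * (((p : ℤ) - 1) * (p - 15)) ≤
      32 * (G.Y W ((p - 1) / 2)).gam := by
  obtain ⟨l1, l2, c0, c, hl2, hl1, hv, he⟩ := h.dnum_diff hk hc
  have htr := trace_bound hk hc G (h.dnum_fg 0) (h.full.YY (G.isUnit_ww hk hc) (3 * m4) 3 0)
    (fun i => (h.s i).YY _ _ _ 0) (fun i => (h.t i).YY _ _ _ 0) (h.dl_le hk hc 0)
    ((h.dnum_succ_le hk hc 1).trans (h.dnum_succ_le hk hc 0)) (fun v hv => h.vt_sub hk hc hv)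
    (fun n hn hn' h0 => by
      rw [h.dnum_rk hk hc] at hn'
      exact absurd (Nat.le_of_dvd hn ((CharP.cast_eq_zero_iff k p _).mp h0)) (by omega))
  rw [h.dnum_rk hk hc] at htr
  simp only [zero_add] at htr
  have hrk : (W.rk : ℤ) ≤ l1 := by linarith
  have hl1' : 0 ≤ l1 := (Nat.cast_nonneg _).trans hrk
  obtain ⟨t, ht⟩ := (Fact.out : p.Prime).odd_of_ne_two (dnum_ne_two (p := p) hk)
  have hp1 : (p - 1) / 2 = t := by omega
  have e0 := he 0 0
  rw [hp1] at e0 ⊢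
  generalize hκ : 2 * (m4 : ℤ) * l1 + 2 * l2 = κ at hv e0
  have hκ' : 2 * (m4 : ℤ) * W.rk ≤ κ := by
    have : (m4 : ℤ) * W.rk ≤ m4 * l1 := mul_le_mul_of_nonneg_left hrk (Nat.cast_nonneg _)
    linarith
  have hsum : ∀ m : ℕ, κ * (2 * m * ((t : ℤ) - 4) - m * (m - 1)) ≤
      4 * ∑ v ∈ Finset.range m, (c (t + v) - (c0 + v * κ)) := by
    intro m
    induction m with
    | zero => simp
    | succ m ih =>
      have := hv hl1' (t + m)
      rw [Finset.sum_range_succ]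
      push_cast at this ⊢
      linarith
  have h1 := hsum t
  have ht7 : (0 : ℤ) ≤ t * (t - 7) := by
    have : (7 : ℤ) ≤ t := by omega
    nlinarith
  have h2 := mul_le_mul_of_nonneg_right hκ' ht7
  have hpt : (p : ℤ) = 2 * t + 1 := by exact_mod_cast ht
  simp only [PSh.gam]
  rw [e0, hpt]
  linarith

theorem DReady.dstep_X0 (hk : Good k) (hc : IsCoord k x y) (h : G.DReady p W) {i : ℤ}
    (hX : W.X0 i) (n : ℕ) : (G.Y W n).X0 (i - ((p - 1) * (3 * m4) : ℕ)) := by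
  have hp2 := dnum_ne_two (p := p) hk
  have key : ∀ (E : PSh k x y V) (m : ℕ),
      E.mul (G.ww none ^ m) (m * (3 * m4)) (m * 3) ≤ PSh.NN G.ww (3 * m4) 3 m E := by
    intro E m
    induction m with
    | zero => simp [PSh.stepB_mul_one]
    | succ m ih =>
      rw [PSh.NN_succ, pow_succ', show (m + 1) * (3 * m4) = 3 * m4 + m * (3 * m4) by ring,
        show (m + 1) * 3 = 3 + m * 3 by ring, ← PSh.mul_mul]
      exact (PSh.mul_mono ih _ _ _).trans (PSh.stepB_mul_le_mulF _ _ _ _ _)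
  refine PSh.X0.of_mul_le ((G.isUnit_ww hk hc none).pow (p - 1)) (e := (p - 1) * 3) ?_ hX
  exact ((PSh.mul_mono (PSh.stepB_YY_anti (h.h2 hk hc) (Nat.zero_le n)) _ _ _).trans
    (key _ _)).trans (PSh.step_le p hp2 (h.h2 hk hc) (h.covered hk hc))

theorem DReady.stab_Y (hk : Good k) (hc : IsCoord k x y) (h : G.DReady p W) (n : ℕ) :
    G.Stab (G.Y W n) ∧ (G.Y W n).FG ∧ (G.Y W n).Full := by
  exact ⟨⟨fun i => (h.s i).YY _ _ _ n, fun i => (h.t i).YY _ _ _ n,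
    PSh.stable_YY (h.h2 hk hc) n⟩, h.dnum_fg n, h.full.YY (G.isUnit_ww hk hc) _ _ n⟩

end Geo
end Vale.Agent.P190
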