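import Vale.Agent.P190.SurfBasic

/-! Auxiliary results for `SurfChi.lean`: Cech complexes of subsheaves and images, finiteness of
the second cohomology, the line bundles `O(-n,-n)` and finiteness of the first cohomology. -/

namespace Vale.Agent.P190

section rdim
variable {k : Type} [Field k] {W W' : Type} [AddCommGroup W] [Module k W]
  [AddCommGroup W'] [Module k W']

theorem rdim_map_map_of_inj (f : W →ₗ[k] W') (hf : Function.Injective f) (P Q : Submodule k W) :
    rdim k (P.map f) (Q.map f) = rdim k P Q := by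
  rw [rdim_map, Submodule.comap_map_eq_of_injective hf]

theorem rdim_ne_top_of_le {P Q S : Submodule k W} (hS : S.FG) (h : P ≤ S ⊔ Q) :
    rdim k P Q ≠ ⊤ := by
  have h1 : rdim k P Q ≤ rdim k S Q := by
    rw [← rdim_sup S Q]
    exact rdim_mono_left Q h
  refine ne_top_of_le_ne_top ?_ h1
  unfold rdim
  rw [Cardinal.toENat_ne_top, Module.rank_lt_aleph0_iff]
  exact Module.Finite.iff_fg.2 (hS.map _)

end rdim

namespace PSh
variable {k : Type} [Field k] {L : Type} [Field L] [Algebra k L] {x y : Lˣ}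
  {V : Type} [AddCommGroup V] [Module L V] [Module k V] [IsScalarTower k L V]
  {V' : Type} [AddCommGroup V'] [Module L V'] [Module k V'] [IsScalarTower k L V']

theorem loc_inf (u : Lˣ) (Q : Submodule k V) (U : Submodule L V) :
    loc u (Q ⊓ U.restrictScalars k) = loc u Q ⊓ U.restrictScalars k := by
  ext v
  constructor
  · rintro ⟨n, hn⟩
    refine ⟨⟨n, fun m hm => (hn m hm).1⟩, ?_⟩
    have h1 : u ^ n • v ∈ U := (hn n le_rfl).2
    have h2 : (u ^ n)⁻¹ • u ^ n • v ∈ U := U.smul_mem _ h1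
    rw [inv_smul_smul] at h2
    exact h2
  · rintro ⟨⟨n, hn⟩, hv⟩
    exact ⟨n, fun m hm => ⟨hn m hm, U.smul_mem _ hv⟩⟩

theorem loc_map (u : Lˣ) {Q : Submodule k V} (hQ : ∀ v ∈ Q, u • v ∈ Q) (φ : V →ₗ[L] V') :
    loc u (Q.map (φ.restrictScalars k)) = (loc u Q).map (φ.restrictScalars k) := by
  ext v
  constructor
  · rintro ⟨n, hn⟩
    obtain ⟨w, hw, hw'⟩ := hn n le_rfl
    refine ⟨(u ^ n)⁻¹ • w, (mem_loc hQ).2 ⟨n, by rw [smul_inv_smul]; exact hw⟩, ?_⟩
    have h1 : φ w = u ^ n • v := hw'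
    change φ ((u ^ n)⁻¹ • w) = v
    rw [Units.smul_def, map_smul, h1, ← Units.smul_def, inv_smul_smul]
  · rintro ⟨w, ⟨n, hn⟩, rfl⟩
    refine ⟨n, fun m hm => ⟨_, hn m hm, ?_⟩⟩
    change φ (u ^ m • w) = u ^ m • φ w
    rw [Units.smul_def, map_smul, ← Units.smul_def]

theorem lx_inf (E : PSh k x y V) (U : Submodule L V) (b : Bool) :
    (E.inf U).lx b = E.lx b ⊓ U.restrictScalars k := loc_inf _ _ _

theorem ly_inf (E : PSh k x y V) (U : Submodule L V) (a : Bool) :
    (E.inf U).ly a = E.ly a ⊓ U.restrictScalars k := loc_inf _ _ _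

theorem lxy_inf (E : PSh k x y V) (U : Submodule L V) :
    (E.inf U).lxy = E.lxy ⊓ U.restrictScalars k := loc_inf _ _ _

theorem lx_map (E : PSh k x y V) (φ : V →ₗ[L] V') (b : Bool) :
    (E.map φ).lx b = (E.lx b).map (φ.restrictScalars k) := loc_map _ (E.smul_x false b) _

theorem ly_map (E : PSh k x y V) (φ : V →ₗ[L] V') (a : Bool) :
    (E.map φ).ly a = (E.ly a).map (φ.restrictScalars k) := loc_map _ (E.smul_y a false) _

theorem lxy_map (E : PSh k x y V) (φ : V →ₗ[L] V') :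
    (E.map φ).lxy = E.lxy.map (φ.restrictScalars k) :=
  loc_map _ (fun v hv => by
    rw [mul_smul]; exact E.smul_x false false _ (E.smul_y false false _ hv)) _

theorem mem_C0 {E : PSh k x y V} {γ : Bool × Bool → V} :
    γ ∈ E.C0 ↔ ∀ a b, γ (a, b) ∈ E.ch a b :=
  ⟨fun h a b => h (a, b) trivial, fun h ab _ => h ab.1 ab.2⟩

theorem mem_C1 {E : PSh k x y V} {c : (Bool → V) × (Bool → V)} :
    c ∈ E.C1 ↔ (∀ b, c.1 b ∈ E.lx b) ∧ ∀ a, c.2 a ∈ E.ly a :=
  ⟨fun h => ⟨fun b => h.1 b trivial, fun a => h.2 a trivial⟩,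
    fun h => ⟨fun b _ => h.1 b, fun a _ => h.2 a⟩⟩

theorem d0_apply (γ : Bool × Bool → V) :
    d0 k V γ = (fun b => γ (false, b) - γ (true, b), fun a => γ (a, false) - γ (a, true)) := rfl

theorem d1_apply (c : (Bool → V) × (Bool → V)) :
    d1 k V c = c.1 false - c.1 true - (c.2 false - c.2 true) := rfl

theorem d1_d0 (γ : Bool × Bool → V) : d1 k V (d0 k V γ) = 0 := by
  rw [d1_apply, d0_apply]
  dsimp only
  abel

theorem C0_map_le (E : PSh k x y V) : E.C0.map (d0 k V) ≤ E.C1 := by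
  rintro _ ⟨γ, hγ, rfl⟩
  have h := mem_C0.1 hγ
  exact mem_C1.2 ⟨fun b => Submodule.sub_mem _ (E.ch_le_lx _ _ (h _ _)) (E.ch_le_lx _ _ (h _ _)),
    fun a => Submodule.sub_mem _ (E.ch_le_ly _ _ (h _ _)) (E.ch_le_ly _ _ (h _ _))⟩

theorem C1_map (E : PSh k x y V) :
    E.C1.map (d1 k V) = (E.lx false ⊔ E.lx true) ⊔ (E.ly false ⊔ E.ly true) := by
  apply le_antisymm
  · rintro _ ⟨c, hc, rfl⟩
    obtain ⟨h1, h2⟩ := mem_C1.1 hc
    rw [d1_apply]
    exact Submodule.sub_mem _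
      (Submodule.mem_sup_left (Submodule.sub_mem _ (Submodule.mem_sup_left (h1 _))
        (Submodule.mem_sup_right (h1 _))))
      (Submodule.mem_sup_right (Submodule.sub_mem _ (Submodule.mem_sup_left (h2 _))
        (Submodule.mem_sup_right (h2 _))))
  · intro v hv
    obtain ⟨u, hu, w, hw, rfl⟩ := Submodule.mem_sup.1 hv
    obtain ⟨u1, hu1, u2, hu2, rfl⟩ := Submodule.mem_sup.1 hu
    obtain ⟨w1, hw1, w2, hw2, rfl⟩ := Submodule.mem_sup.1 hw
    refine ⟨(fun b => bif b then -u2 else u1, fun a => bif a then w2 else -w1), mem_C1.2 ⟨?_, ?_⟩,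
      ?_⟩
    · rintro (_ | _)
      · exact hu1
      · exact Submodule.neg_mem _ hu2
    · rintro (_ | _)
      · exact Submodule.neg_mem _ hw1
      · exact hw2
    · rw [d1_apply]
      simp only [cond_true, cond_false]
      abel

theorem C1_map_le (E : PSh k x y V) : E.C1.map (d1 k V) ≤ E.lxy := by
  rw [C1_map]
  exact sup_le (sup_le (E.lx_le_lxy _) (E.lx_le_lxy _)) (sup_le (E.ly_le_lxy _) (E.ly_le_lxy _))

theorem h0_eq_rdim (E : PSh k x y V) : E.h0 = rdim k (E.C0 ⊓ LinearMap.ker (d0 k V)) ⊥ := by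
  let δ : V →ₗ[k] (Bool × Bool → V) := LinearMap.pi fun _ => LinearMap.id
  have hδ : Function.Injective δ := fun v w h => congrFun h (false, false)
  have h1 : E.C0 ⊓ LinearMap.ker (d0 k V) = E.H0.map δ := by
    ext γ
    constructor
    · rintro ⟨hγ, h0⟩
      have h0' : d0 k V γ = 0 := h0
      rw [d0_apply] at h0'
      have e1 : ∀ b, γ (false, b) = γ (true, b) := fun b =>
        sub_eq_zero.1 (congrFun (congrArg Prod.fst h0') b)
      have e2 : ∀ a, γ (a, false) = γ (a, true) := fun a =>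
        sub_eq_zero.1 (congrFun (congrArg Prod.snd h0') a)
      have e3 : ∀ a b, γ (false, false) = γ (a, b) := by
        rintro (_ | _) (_ | _)
        · rfl
        · exact e2 _
        · exact e1 _
        · exact (e1 _).trans (e2 _)
      refine ⟨γ (false, false), mem_H0.2 fun a b => ?_, funext fun ab => e3 ab.1 ab.2⟩
      rw [e3 a b]
      exact mem_C0.1 hγ a b
    · rintro ⟨v, hv, rfl⟩
      refine ⟨mem_C0.2 fun a b => mem_H0.1 hv a b, ?_⟩
      change d0 k V (δ v) = 0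
      rw [d0_apply]
      ext <;> simp [δ]
  rw [h1, ← Submodule.map_bot δ, rdim_map_map_of_inj δ hδ]
  rfl

theorem les2_aux (E : PSh k x y V) (φ : V →ₗ[L] V') :
    ∃ b c e f g i : ℕ∞,
      E.h0 = (E.inf (LinearMap.ker φ)).h0 + b ∧ (E.map φ).h0 = b + c ∧
      (E.inf (LinearMap.ker φ)).h1 = c + e ∧ E.h1 = e + f ∧ (E.map φ).h1 = f + g ∧
      (E.inf (LinearMap.ker φ)).h2 = g + i ∧ E.h2 = i + (E.map φ).h2 := by
  let f2 : V →ₗ[k] V' := φ.restrictScalars k
  let f0 : (Bool × Bool → V) →ₗ[k] (Bool × Bool → V') := f2.compLeft _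
  let f1 : (Bool → V) × (Bool → V) →ₗ[k] (Bool → V') × (Bool → V') :=
    (f2.compLeft _).prodMap (f2.compLeft _)
  have a0 : (E.inf (LinearMap.ker φ)).C0 = E.C0 ⊓ LinearMap.ker f0 := by
    ext γ
    constructor
    · intro h
      exact ⟨mem_C0.2 fun a b => (mem_C0.1 h a b).1, funext fun ab => (mem_C0.1 h ab.1 ab.2).2⟩
    · rintro ⟨h, h'⟩
      exact mem_C0.2 fun a b => ⟨mem_C0.1 h a b, congrFun (LinearMap.mem_ker.1 h') (a, b)⟩
  have a1 : (E.inf (LinearMap.ker φ)).C1 = E.C1 ⊓ LinearMap.ker f1 := by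
    ext c
    rw [Submodule.mem_inf, mem_C1, mem_C1]
    simp only [lx_inf, ly_inf]
    constructor
    · rintro ⟨h1, h2⟩
      exact ⟨⟨fun b => (h1 b).1, fun a => (h2 a).1⟩,
        Prod.ext (funext fun b => (h1 b).2) (funext fun a => (h2 a).2)⟩
    · rintro ⟨⟨h1, h2⟩, h⟩
      have h' : f1 c = 0 := h
      exact ⟨fun b => ⟨h1 b, congrFun (congrArg Prod.fst h') b⟩,
        fun a => ⟨h2 a, congrFun (congrArg Prod.snd h') a⟩⟩
  have a2 : (E.inf (LinearMap.ker φ)).lxy = E.lxy ⊓ LinearMap.ker f2 := lxy_inf _ _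
  have m0 : (E.map φ).C0 = E.C0.map f0 := by
    ext γ
    constructor
    · intro h
      choose δ hδ hδ' using fun ab : Bool × Bool => mem_C0.1 h ab.1 ab.2
      exact ⟨δ, mem_C0.2 fun a b => hδ (a, b), funext hδ'⟩
    · rintro ⟨δ, hδ, rfl⟩
      exact mem_C0.2 fun a b => ⟨_, mem_C0.1 hδ a b, rfl⟩
  have m1 : (E.map φ).C1 = E.C1.map f1 := by
    ext c
    rw [mem_C1]
    simp only [lx_map, ly_map]
    constructor
    · rintro ⟨h1, h2⟩
      choose α hα hα' using h1
      choose β hβ hβ' using h2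
      exact ⟨(α, β), mem_C1.2 ⟨hα, hβ⟩, Prod.ext (funext hα') (funext hβ')⟩
    · rintro ⟨c', hc', rfl⟩
      obtain ⟨h1, h2⟩ := mem_C1.1 hc'
      exact ⟨fun b => ⟨_, h1 b, rfl⟩, fun a => ⟨_, h2 a, rfl⟩⟩
  have m2 : (E.map φ).lxy = E.lxy.map f2 := lxy_map _ _
  have c0 : ∀ v, f1 (d0 k V v) = d0 k V' (f0 v) := fun v => by
    rw [d0_apply, d0_apply]
    ext <;> simp [f0, f1]
  have c1 : ∀ v, f2 (d1 k V v) = d1 k V' (f1 v) := fun v => by
    rw [d1_apply, d1_apply]
    simp [f1]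
  simp only [h0_eq_rdim, h1, h2, a0, a1, a2, m0, m1, m2]
  exact les (d0 k V) (d1 k V) (d0 k V') (d1 k V') d1_d0 f0 f1 f2 c0 c1 E.C0 E.C1 E.lxy
    E.C0_map_le E.C1_map_le

theorem h_swap_aux (E : PSh k x y V) :
    E.swap.h0 = E.h0 ∧ E.swap.h1 = E.h1 ∧ E.swap.h2 = E.h2 := by
  refine ⟨?_, ?_, ?_⟩
  · have : E.swap.H0 = E.H0 := by
      ext v
      rw [mem_H0, mem_H0]
      exact ⟨fun h a b => h b a, fun h a b => h b a⟩
    unfold h0
    rw [this]
  · let e1 : (Bool → V) × (Bool → V) →ₗ[k] (Bool → V) × (Bool → V) :=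
      (LinearEquiv.prodComm k _ _).toLinearMap
    have he1 : Function.Injective e1 := (LinearEquiv.prodComm k _ _).injective
    have q1 : E.swap.C1 ⊓ LinearMap.ker (d1 k V) = (E.C1 ⊓ LinearMap.ker (d1 k V)).map e1 := by
      ext c
      constructor
      · rintro ⟨hc, h0⟩
        obtain ⟨h1, h2⟩ := mem_C1.1 hc
        refine ⟨c.swap, ⟨mem_C1.2 ⟨h2, h1⟩, ?_⟩, rfl⟩
        have h0' : d1 k V c = 0 := h0
        change d1 k V c.swap = 0
        rw [d1_apply] at h0' ⊢
        rw [← neg_sub, neg_eq_zero]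
        exact h0'
      · rintro ⟨c, ⟨hc, h0⟩, rfl⟩
        obtain ⟨h1, h2⟩ := mem_C1.1 hc
        refine ⟨mem_C1.2 ⟨h2, h1⟩, ?_⟩
        have h0' : d1 k V c = 0 := h0
        change d1 k V c.swap = 0
        rw [d1_apply] at h0' ⊢
        rw [← neg_sub, neg_eq_zero]
        exact h0'
    have q0 : E.swap.C0.map (d0 k V) = (E.C0.map (d0 k V)).map e1 := by
      ext c
      constructor
      · rintro ⟨γ, hγ, rfl⟩
        exact ⟨_, ⟨fun ab => γ ab.swap, mem_C0.2 fun a b => mem_C0.1 hγ b a, rfl⟩, rfl⟩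
      · rintro ⟨_, ⟨γ, hγ, rfl⟩, rfl⟩
        exact ⟨fun ab => γ ab.swap, mem_C0.2 fun a b => mem_C0.1 hγ b a, rfl⟩
    unfold h1
    rw [q1, q0, rdim_map_map_of_inj e1 he1]
  · have q2 : E.swap.lxy = E.lxy := by
      unfold lxy
      rw [mul_comm]
      rfl
    unfold h2
    rw [q2, C1_map, C1_map, sup_comm]
    rfl

theorem h_bot : (⊥ : PSh k x y V).h0 = 0 ∧ (⊥ : PSh k x y V).h1 = 0 ∧ (⊥ : PSh k x y V).h2 = 0 := by
  have hz : ∀ (u : Lˣ) (v : V), v ∈ loc u (⊥ : Submodule k V) → v = 0 := by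
    rintro u v ⟨n, hn⟩
    have h1 : u ^ n • v = 0 := hn n le_rfl
    rw [← inv_smul_smul (u ^ n) v, h1, smul_zero]
  refine ⟨rdim_eq_zero_iff.2 fun v hv => mem_H0.1 hv false false, rdim_eq_zero_iff.2 ?_,
    rdim_eq_zero_iff.2 fun v hv => ?_⟩
  · rintro c ⟨hc, -⟩
    obtain ⟨h1, h2⟩ := mem_C1.1 hc
    have : c = 0 := Prod.ext (funext fun b => hz _ _ (h1 b)) (funext fun a => hz _ _ (h2 a))
    rw [this]
    exact Submodule.zero_mem _
  · rw [hz _ _ hv]
    exact Submodule.zero_mem _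

omit [Module k V'] [IsScalarTower k L V'] in
theorem inf_ker_eq_bot (E : PSh k x y V) (φ : V →ₗ[L] V')
    (hf : ∀ v ∈ E.ch false false, φ v = 0 → v = 0) : E.inf (LinearMap.ker φ) = ⊥ := by
  refine le_bot_iff.1 fun a b v hv => ?_
  obtain ⟨n, hn⟩ := mem_lxy.1 (E.lx_le_lxy b (E.ch_le_lx a b hv.1))
  have h0 : φ v = 0 := hv.2
  have h1 := hf _ hn (by rw [Units.smul_def, map_smul, h0, smul_zero])
  change v = 0
  rw [← inv_smul_smul ((x * y) ^ n) v, h1, smul_zero]

/-! ### finiteness of the second cohomology -/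

theorem zpow_smul_mem_lx {E : PSh k x y V} {b : Bool} (m : ℤ) {v : V} (hv : v ∈ E.lx b) :
    x ^ m • v ∈ E.lx b := by
  obtain ⟨n, hn⟩ := mem_lx.1 hv
  refine mem_lx.2 ⟨n + m.natAbs, ?_⟩
  have h : x ^ (n + m.natAbs) * x ^ m = x ^ ((m.natAbs : ℤ) + m).toNat * x ^ n := by
    have h' : ((((m.natAbs : ℤ) + m).toNat : ℕ) : ℤ) = m.natAbs + m := by omega
    rw [← zpow_natCast, ← zpow_natCast, ← zpow_natCast, ← zpow_add, ← zpow_add, h']
    congr 1
    push_cast
    ring
  rw [← mul_smul, h, mul_smul]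
  exact pow_smul_mem (E.smul_x false b) _ hn

theorem mon_mem_lx (E : PSh k x y V) {s : V} (hs : s ∈ E.ch false false) :
    ∃ n : ℕ, ∀ m l : ℤ, (0 ≤ l ∨ l ≤ -n) → (x ^ m * y ^ l) • s ∈ E.lx false ⊔ E.lx true := by
  obtain ⟨n, hn⟩ := E.glue_y false false s hs
  refine ⟨n, fun m l hl => ?_⟩
  rw [mul_smul]
  rcases hl with hl | hl
  · refine Submodule.mem_sup_left (zpow_smul_mem_lx m (E.ch_le_lx false false ?_))
    obtain ⟨l, rfl⟩ := Int.eq_ofNat_of_zero_le hl
    rw [zpow_natCast]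
    exact pow_smul_mem (E.smul_y false false) _ hs
  · refine Submodule.mem_sup_right (zpow_smul_mem_lx m (E.ch_le_lx false true ?_))
    have h : y ^ l = cs y true ^ (-l).toNat := by
      have h' : (((-l).toNat : ℕ) : ℤ) = -l := by omega
      rw [cs_true, ← zpow_natCast, h', inv_zpow', neg_neg]
    rw [h]
    exact pow_smul_mem_of_le (E.smul_y false true) (by omega) hn

theorem FG.h2_ne_top {E : PSh k x y V} (hE : E.FG) : E.h2 ≠ ⊤ := by
  classical
  obtain ⟨s, hs, hgen⟩ := hE.exists_gens false false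
  choose n hn using fun v : s => E.mon_mem_lx (hs v.2)
  choose n' hn' using fun v : s => E.swap.mon_mem_lx (s := v) (hs v.2)
  let T : Set V := ⋃ v : s, (fun p : ℤ × ℤ => (x ^ p.1 * y ^ p.2) • (v : V)) ''
    (Set.Icc (-(n' v : ℤ)) 0 ×ˢ Set.Icc (-(n v : ℤ)) 0)
  have hT : T.Finite :=
    Set.finite_iUnion fun v => ((Set.finite_Icc _ _).prod (Set.finite_Icc _ _)).image _
  refine rdim_ne_top_of_le (S := Submodule.span k T) (Submodule.fg_span hT) ?_
  rw [C1_map]
  set N := Submodule.span k T ⊔ ((E.lx false ⊔ E.lx true) ⊔ (E.ly false ⊔ E.ly true)) with hN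
  have hmon : ∀ (v : s) (m l : ℤ), (x ^ m * y ^ l) • (v : V) ∈ N := by
    intro v m l
    by_cases h1 : 0 ≤ l ∨ l ≤ -n v
    · exact Submodule.mem_sup_right (Submodule.mem_sup_left (hn v m l h1))
    by_cases h2 : 0 ≤ m ∨ m ≤ -n' v
    · rw [mul_comm]
      exact Submodule.mem_sup_right (Submodule.mem_sup_right (hn' v l m h2))
    refine Submodule.mem_sup_left (Submodule.subset_span (Set.mem_iUnion.2 ⟨v, (m, l), ?_, rfl⟩))
    simp only [Set.mem_prod, Set.mem_Icc]
    omega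
  have hq : ∀ (v : s) (q : L), q ∈ chartRing k x y false false → ∀ m l : ℤ,
      (x ^ m * y ^ l) • q • (v : V) ∈ N := by
    intro v q hq m l
    have hq' := mem_adjoin_pair_iff.1 hq
    clear hq
    induction hq' using Submodule.span_induction with
    | mem q hq =>
      obtain ⟨p, rfl⟩ := hq
      have h := hmon v (m + p.1) (l + p.2)
      have e : x ^ (m + p.1) * y ^ (l + p.2) = x ^ m * y ^ l * (x ^ p.1 * y ^ p.2) := by
        rw [zpow_add, zpow_add, zpow_natCast, zpow_natCast, mul_mul_mul_comm]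
      rw [e, mul_smul] at h
      simpa [Units.smul_def] using h
    | zero => simp
    | add u w _ _ hu hw =>
      rw [add_smul, smul_add]
      exact N.add_mem hu hw
    | smul c u _ hu =>
      rw [smul_assoc, smul_comm]
      exact N.smul_mem c hu
  have hspan : ∀ w ∈ Submodule.span (chartRing k x y false false) (s : Set V), ∀ q : L,
      q ∈ chartRing k x y false false → ∀ m l : ℤ, (x ^ m * y ^ l) • q • w ∈ N := by
    intro w hw
    induction hw using Submodule.span_induction with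
    | mem w hw => exact hq ⟨w, hw⟩
    | zero => simp
    | add u w _ _ hu hw =>
      intro q hq m l
      rw [smul_add, smul_add]
      exact N.add_mem (hu q hq m l) (hw q hq m l)
    | smul c u _ hu =>
      intro q hq m l
      rw [Subalgebra.smul_def, smul_smul q]
      exact hu _ (Subalgebra.mul_mem _ hq c.2) m l
  intro v hv
  obtain ⟨r, hr⟩ := mem_lxy.1 hv
  have h := hspan _ (hgen _ hr) 1 (Subalgebra.one_mem _) (-r) (-r)
  rw [one_smul, ← mul_zpow, zpow_neg, zpow_natCast, inv_smul_smul] at h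
  exact h

/-! ### the line bundles `O(-n, -n)` -/

variable (x y) in
/-- Laurent monomials -/
def mon (p : ℤ × ℤ) : L := ((x ^ p.1 * y ^ p.2 : Lˣ) : L)

/-- exponents allowed on the chart `a` of `O(-n)` -/
def expo (n : ℕ) : Bool → Set ℤ
  | false => {i | 0 ≤ i}
  | true => {i | i ≤ -n}

theorem smul_mon (q p : ℤ × ℤ) : (x ^ q.1 * y ^ q.2) • mon x y p = mon x y (q + p) := by
  unfold mon
  rw [Units.smul_def, smul_eq_mul, ← Units.val_mul, Prod.fst_add, Prod.snd_add, zpow_add, zpow_add,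
    mul_mul_mul_comm]

theorem smul_mem_span_mon {S T : Set (ℤ × ℤ)} (q : ℤ × ℤ) (h : ∀ p ∈ S, q + p ∈ T) {v : L}
    (hv : v ∈ Submodule.span k (mon x y '' S)) :
    (x ^ q.1 * y ^ q.2) • v ∈ Submodule.span k (mon x y '' T) := by
  have : Submodule.span k (mon x y '' S) ≤
      pre (x ^ q.1 * y ^ q.2) (Submodule.span k (mon x y '' T)) := by
    rw [Submodule.span_le]
    rintro _ ⟨p, hp, rfl⟩
    change (x ^ q.1 * y ^ q.2) • mon x y p ∈ Submodule.span k (mon x y '' T)
    rw [smul_mon]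
    exact Submodule.subset_span ⟨_, h p hp, rfl⟩
  exact this hv

/-- the sign of the chart coordinate -/
def sg : Bool → ℤ
  | false => 1
  | true => -1

theorem cs_eq_zpow (x : Lˣ) (a : Bool) : cs x a = x ^ sg a := by cases a <;> simp [sg]

theorem cs_pow_eq_zpow (x : Lˣ) (a : Bool) (m : ℕ) : cs x a ^ m = x ^ (sg a * m) := by
  rw [cs_eq_zpow, zpow_mul, zpow_natCast]

theorem sg_add_mem_expo {n : ℕ} {a : Bool} {i : ℤ} (h : i ∈ expo n a) : sg a + i ∈ expo n a := by
  cases a <;> simp only [expo, sg, Set.mem_ofPred_eq] at h ⊢ <;> omega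

theorem exists_add_mem_expo (n : ℕ) (a : Bool) (i : ℤ) :
    ∃ r : ℕ, ∀ m ≥ r, sg a * (m : ℕ) + i ∈ expo n a := by
  refine ⟨i.natAbs + n, fun m hm => ?_⟩
  cases a <;> simp only [expo, sg, Set.mem_ofPred_eq] <;> omega

variable (k x y) in
/-- the line bundle `O(-n, -n)` -/
def lb (n : ℕ) : PSh k x y L where
  ch a b := Submodule.span k (mon x y '' (expo n a ×ˢ expo n b))
  smul_x a b v hv := by
    have := smul_mem_span_mon (T := expo n a ×ˢ expo n b) (sg a, 0)
      (fun p hp => ⟨sg_add_mem_expo hp.1, by simpa using hp.2⟩) hv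
    rw [cs_eq_zpow]
    simpa using this
  smul_y a b v hv := by
    have := smul_mem_span_mon (T := expo n a ×ˢ expo n b) (0, sg b)
      (fun p hp => ⟨by simpa using hp.1, sg_add_mem_expo hp.2⟩) hv
    rw [cs_eq_zpow]
    simpa using this
  glue_x a b v hv := by
    have : Submodule.span k (mon x y '' (expo n a ×ˢ expo n b)) ≤
        loc (cs x (!a)) (Submodule.span k (mon x y '' (expo n (!a) ×ˢ expo n b))) := by
      rw [Submodule.span_le]
      rintro _ ⟨p, hp, rfl⟩
      obtain ⟨r, hr⟩ := exists_add_mem_expo n (!a) p.1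
      refine ⟨r, fun m hm => ?_⟩
      have e := smul_mon (x := x) (y := y) (sg (!a) * m, 0) p
      rw [zpow_zero, mul_one] at e
      rw [cs_pow_eq_zpow, e]
      exact Submodule.subset_span ⟨_, ⟨hr m hm, by simpa using hp.2⟩, rfl⟩
    obtain ⟨r, hr⟩ := this hv
    exact ⟨r, hr r le_rfl⟩
  glue_y a b v hv := by
    have : Submodule.span k (mon x y '' (expo n a ×ˢ expo n b)) ≤
        loc (cs y (!b)) (Submodule.span k (mon x y '' (expo n a ×ˢ expo n (!b)))) := by
      rw [Submodule.span_le]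
      rintro _ ⟨p, hp, rfl⟩
      obtain ⟨r, hr⟩ := exists_add_mem_expo n (!b) p.2
      refine ⟨r, fun m hm => ?_⟩
      have e := smul_mon (x := x) (y := y) (0, sg (!b) * m) p
      rw [zpow_zero, one_mul] at e
      rw [cs_pow_eq_zpow, e]
      exact Submodule.subset_span ⟨_, ⟨by simpa using hp.1, hr m hm⟩, rfl⟩
    obtain ⟨r, hr⟩ := this hv
    exact ⟨r, hr r le_rfl⟩

theorem tu_mul_zpow (x : Lˣ) {n : ℕ} {a : Bool} {i : ℤ} (h : i ∈ expo n a) :
    ∃ m : ℕ, tu x n a * x ^ i = cs x a ^ m := by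
  cases a
  · obtain ⟨m, rfl⟩ := Int.eq_ofNat_of_zero_le (show 0 ≤ i from h)
    exact ⟨m, by simp⟩
  · have h' : i ≤ -n := h
    refine ⟨(-(n + i)).toNat, ?_⟩
    have e : (((-(n + i)).toNat : ℕ) : ℤ) = -(n + i) := by omega
    rw [tu_true, cs_true, ← zpow_add, ← zpow_natCast, e, inv_zpow', neg_neg]

theorem lb_smul_mem_chartRing {n : ℕ} {a b : Bool} {c : L} (hc : c ∈ (lb k x y n).ch a b) :
    (tu x n a * tu y n b) • c ∈ chartRing k x y a b := by
  have : (lb k x y n).ch a b ≤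
      pre (tu x n a * tu y n b) (Subalgebra.toSubmodule (chartRing k x y a b)) := by
    refine Submodule.span_le.2 ?_
    rintro _ ⟨p, hp, rfl⟩
    obtain ⟨m, hm⟩ := tu_mul_zpow x hp.1
    obtain ⟨l, hl⟩ := tu_mul_zpow y hp.2
    have e : (tu x n a * tu y n b) • mon x y p =
        ((cs x a : Lˣ) : L) ^ m * ((cs y b : Lˣ) : L) ^ l := by
      unfold mon
      rw [Units.smul_def, smul_eq_mul, ← Units.val_mul, mul_mul_mul_comm, hm, hl, Units.val_mul,
        Units.val_pow_eq_pow_val, Units.val_pow_eq_pow_val]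
    have h1 : ((cs x a : Lˣ) : L) ∈ chartRing k x y a b :=
      Algebra.subset_adjoin (Set.mem_insert _ _)
    have h2 : ((cs y b : Lˣ) : L) ∈ chartRing k x y a b :=
      Algebra.subset_adjoin (Set.mem_insert_of_mem _ rfl)
    have h3 := Subalgebra.mul_mem _ (Subalgebra.pow_mem _ h1 m) (Subalgebra.pow_mem _ h2 l)
    rw [← e] at h3
    exact h3
  exact this hc

theorem gen_mem_lb (n : ℕ) (a b : Bool) :
    (((tu x n a * tu y n b)⁻¹ : Lˣ) : L) ∈ (lb k x y n).ch a b := by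
  have key : ∀ (z : Lˣ) (a : Bool), ∃ i ∈ expo n a, (tu z n a)⁻¹ = z ^ i := fun z a => by
    cases a
    · exact ⟨0, le_refl (0 : ℤ), by simp⟩
    · exact ⟨-n, le_refl (-n : ℤ), by simp⟩
  obtain ⟨i, hi, hi'⟩ := key x a
  obtain ⟨j, hj, hj'⟩ := key y b
  rw [mul_inv, hi', hj']
  exact Submodule.subset_span ⟨(i, j), ⟨hi, hj⟩, rfl⟩

theorem lb_lx_le (n : ℕ) (b : Bool) :
    (lb k x y n).lx b ≤ Submodule.span k (mon x y '' (Set.univ ×ˢ expo n b)) := by
  intro v hv
  obtain ⟨m, hm⟩ := mem_lx.1 hv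
  have := smul_mem_span_mon (T := Set.univ ×ˢ expo n b) (-m, 0)
    (fun p hp => ⟨trivial, by simpa using hp.2⟩) hm
  simpa using this

theorem lb_ly_le (n : ℕ) (a : Bool) :
    (lb k x y n).ly a ≤ Submodule.span k (mon x y '' (expo n a ×ˢ Set.univ)) := by
  intro v hv
  obtain ⟨m, hm⟩ := mem_ly.1 hv
  have := smul_mem_span_mon (T := expo n a ×ˢ Set.univ) (0, -m)
    (fun p hp => ⟨by simpa using hp.1, trivial⟩) hm
  simpa using this

theorem lb_H1Z (hc : IsCoord k x y) {n : ℕ} (hn : 1 ≤ n) : (lb k x y n).H1Z := by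
  classical
  intro α β hα hβ hcoc
  let lc : (ℤ × ℤ →₀ k) →ₗ[k] L := Finsupp.linearCombination k (mon x y)
  have hlc : Function.Injective lc := hc.indep
  have hsp : ∀ (S : Set (ℤ × ℤ)) (v : L), v ∈ Submodule.span k (mon x y '' S) ↔
      ∃ f : ℤ × ℤ →₀ k, (∀ p, p ∉ S → f p = 0) ∧ lc f = v := by
    intro S v
    rw [Finsupp.span_image_eq_map_linearCombination, Submodule.mem_map]
    simp only [Finsupp.mem_supported', lc]
  choose A hA hA' using fun b => (hsp _ _).1 (lb_lx_le n b (hα b))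
  choose C hC hC' using fun a => (hsp _ _).1 (lb_ly_le n a (hβ a))
  have hAC : A false - A true = C false - C true := hlc (by simp only [map_sub, hA', hC', hcoc])
  have hAC' : ∀ p, A false p - A true p = C false p - C true p := fun p => by
    simpa using DFunLike.congr_fun hAC p
  have A0 : ∀ p : ℤ × ℤ, p.2 < 0 → A false p = 0 := fun p hp =>
    hA false p fun h => absurd (show 0 ≤ p.2 from h.2) (by omega)
  have A1 : ∀ p : ℤ × ℤ, -(n : ℤ) < p.2 → A true p = 0 := fun p hp =>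
    hA true p fun h => absurd (show p.2 ≤ -n from h.2) (by omega)
  have C0 : ∀ p : ℤ × ℤ, p.1 < 0 → C false p = 0 := fun p hp =>
    hC false p fun h => absurd (show 0 ≤ p.1 from h.1) (by omega)
  have C1 : ∀ p : ℤ × ℤ, -(n : ℤ) < p.1 → C true p = 0 := fun p hp =>
    hC true p fun h => absurd (show p.1 ≤ -n from h.1) (by omega)
  have mid : ∀ b (p : ℤ × ℤ), p.1 < 0 → -(n : ℤ) < p.1 → A b p = 0 := by
    intro b p h1 h2
    have h := hAC' p
    rw [C0 p h1, C1 p h2, sub_zero, sub_eq_zero] at h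
    by_cases h3 : p.2 < 0
    · cases b
      · exact A0 p h3
      · rw [← h]; exact A0 p h3
    · cases b
      · rw [h]; exact A1 p (by omega)
      · exact A1 p (by omega)
  refine ⟨fun a b => bif a then -lc ((A b).filter fun p => ¬ 0 ≤ p.1)
    else lc ((A b).filter fun p => 0 ≤ p.1), ?_, ?_, ?_⟩
  · rintro (_ | _) b
    · refine (hsp _ _).2 ⟨_, fun p hp => ?_, rfl⟩
      rw [Finsupp.filter_apply]
      split_ifs with h
      · exact hA b p fun h' => hp ⟨h, h'.2⟩
      · rfl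
    · refine Submodule.neg_mem _ ((hsp _ _).2 ⟨_, fun p hp => ?_, rfl⟩)
      rw [Finsupp.filter_apply]
      split_ifs with h
      · rfl
      · by_cases h2 : p.1 ≤ -n
        · exact hA b p fun h' => hp ⟨h2, h'.2⟩
        · exact mid b p (by omega) (by omega)
  · intro b
    simp only [cond_true, cond_false]
    rw [sub_neg_eq_add, ← map_add, Finsupp.filter_add_filter_not, hA']
  · rintro (_ | _)
    · simp only [cond_false]
      rw [← map_sub, ← hC']
      congr 1
      ext p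
      simp only [Finsupp.coe_sub, Pi.sub_apply, Finsupp.filter_apply]
      split_ifs with h
      · rw [hAC', C1 p (by omega), sub_zero]
      · rw [C0 p (by omega), sub_zero]
    · simp only [cond_true]
      rw [neg_sub_neg, ← map_sub, ← hC']
      congr 1
      ext p
      simp only [Finsupp.coe_sub, Pi.sub_apply, Finsupp.filter_apply]
      split_ifs with h
      · rw [C1 p (by omega), sub_zero]
      · rw [← neg_sub, hAC', C0 p (by omega), zero_sub, neg_neg]

/-- direct sum of copies -/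
def piS (E : PSh k x y V) (ι : Type) [Finite ι] : PSh k x y (ι → V) where
  ch a b := Submodule.pi Set.univ fun _ => E.ch a b
  smul_x a b := ((E.row b).pi ι).smul_mem a
  smul_y a b := ((E.col a).pi ι).smul_mem b
  glue_x a b := ((E.row b).pi ι).glue a
  glue_y a b := ((E.col a).pi ι).glue b

theorem H1Z.piS {E : PSh k x y V} (h : E.H1Z) (ι : Type) [Finite ι] : (E.piS ι).H1Z := by
  intro α β hα hβ hcoc
  have h1 : ∀ i b, α b i ∈ E.lx b := fun i b => by
    obtain ⟨n, hn⟩ := mem_lx.1 (hα b)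
    exact mem_lx.2 ⟨n, hn i trivial⟩
  have h2 : ∀ i a, β a i ∈ E.ly a := fun i a => by
    obtain ⟨n, hn⟩ := mem_ly.1 (hβ a)
    exact mem_ly.2 ⟨n, hn i trivial⟩
  choose γ hγ hγ1 hγ2 using fun i => h (fun b => α b i) (fun a => β a i) (h1 i) (h2 i)
    (congrFun hcoc i)
  exact ⟨fun a b i => γ i a b, fun a b i _ => hγ i a b, fun b => funext fun i => hγ1 i b,
    fun a => funext fun i => hγ2 i a⟩

theorem lb_piS_FG (n : ℕ) (ι : Type) [Finite ι] : ((lb k x y n).piS ι).FG := by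
  classical
  have := Fintype.ofFinite ι
  intro a b
  refine ⟨Finset.univ.image fun i : ι =>
    (Pi.single i (((tu x n a * tu y n b)⁻¹ : Lˣ) : L) : ι → L), fun c hc => ?_⟩
  rw [← Finset.univ_sum_single c]
  refine Submodule.sum_mem _ fun i _ => ?_
  have e : (Pi.single i (c i) : ι → L) =
      (⟨_, lb_smul_mem_chartRing (hc i trivial)⟩ : chartRing k x y a b) •
        (Pi.single i (((tu x n a * tu y n b)⁻¹ : Lˣ) : L) : ι → L) := by
    rw [Subalgebra.smul_def, ← Pi.single_smul]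
    congr 1
    change c i = (((tu x n a * tu y n b : Lˣ) : L) * c i) * _
    rw [mul_comm, ← mul_assoc, Units.inv_mul, one_mul]
  rw [e]
  exact Submodule.smul_mem _ _ (Submodule.subset_span (by simp))

theorem exists_global (E : PSh k x y V) (a b : Bool) {v : V} (hv : v ∈ E.ch a b) :
    ∃ r : ℕ, ∀ n ≥ r, ∀ a' b', (tu x n a' * tu y n b')⁻¹ • (tu x n a * tu y n b) • v ∈
      E.ch a' b' := by
  have key : ∀ (z : Lˣ) (n : ℕ) (a : Bool), (tu z n (!a))⁻¹ * tu z n a = cs z (!a) ^ n := by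
    intro z n a
    cases a <;> simp
  obtain ⟨r1, h1⟩ := E.glue_x a b v hv
  obtain ⟨r2, h2⟩ := E.glue_y a b v hv
  obtain ⟨r3, h3⟩ := E.glue_y _ b _ h1
  refine ⟨max r1 (max r2 r3), fun n hn a' b' => ?_⟩
  have n1 : r1 ≤ n := le_of_max_le_left hn
  have n2 : r2 ≤ n := le_of_max_le_left (le_of_max_le_right hn)
  have n3 : r3 ≤ n := le_of_max_le_right (le_of_max_le_right hn)
  rw [← mul_smul, mul_inv, mul_mul_mul_comm]
  rcases Bool.eq_or_eq_not a' a with rfl | rfl <;> rcases Bool.eq_or_eq_not b' b with rfl | rfl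
  · simpa using hv
  · rw [key, inv_mul_cancel, one_mul]
    exact pow_smul_mem_of_le (E.smul_y _ _) n2 h2
  · rw [key, inv_mul_cancel, mul_one]
    exact pow_smul_mem_of_le (E.smul_x _ _) n1 h1
  · rw [key, key, mul_smul]
    refine pow_smul_mem_of_le (E.smul_x _ _) n1 ?_
    rw [smul_comm]
    exact pow_smul_mem_of_le (E.smul_y _ _) n3 h3

theorem FG.exists_cover {E : PSh k x y V} (hE : E.FG) :
    ∃ (n : ℕ) (_ : 1 ≤ n) (ι : Type) (_ : Finite ι) (φ : (ι → L) →ₗ[L] V),
      ((lb k x y n).piS ι).map φ = E := by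
  classical
  choose s hs hgen using hE.exists_gens
  let ι : Type := Σ ab : Bool × Bool, s ab.1 ab.2
  choose r hr using fun i : ι => E.exists_global i.1.1 i.1.2 (hs _ _ i.2.2)
  obtain ⟨N, hN⟩ := (Set.finite_range r).bddAbove
  let n := N + 1
  let w : ι → V := fun i => (tu x n i.1.1 * tu y n i.1.2) • (i.2 : V)
  have hw : ∀ i a b, (tu x n a * tu y n b)⁻¹ • w i ∈ E.ch a b := fun i =>
    hr i n ((hN ⟨i, rfl⟩).trans (Nat.le_succ N))
  refine ⟨n, Nat.le_add_left 1 N, ι, inferInstance, Fintype.linearCombination L w, ?_⟩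
  ext a b v
  constructor
  · rintro ⟨c, hc, rfl⟩
    change Fintype.linearCombination L w c ∈ E.ch a b
    rw [Fintype.linearCombination_apply]
    refine Submodule.sum_mem _ fun i _ => ?_
    have h := E.chartRing_smul_mem a b (lb_smul_mem_chartRing (hc i trivial)) (hw i a b)
    rwa [smul_assoc, smul_comm, smul_inv_smul] at h
  · intro hv
    have hsub : ∀ u ∈ Submodule.span (chartRing k x y a b) (s a b : Set V),
        u ∈ (((lb k x y n).piS ι).map (Fintype.linearCombination L w)).ch a b := by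
      intro u hu
      induction hu using Submodule.span_induction with
      | mem u hu =>
        refine ⟨Pi.single ⟨(a, b), u, hu⟩ (((tu x n a * tu y n b)⁻¹ : Lˣ) : L), fun i _ => ?_, ?_⟩
        · by_cases h : i = ⟨(a, b), u, hu⟩
          · subst h
            rw [Pi.single_eq_same]
            exact gen_mem_lb n a b
          · rw [Pi.single_eq_of_ne h]
            exact Submodule.zero_mem _
        · change Fintype.linearCombination L w _ = u
          rw [Fintype.linearCombination_apply_single, ← Units.smul_def]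
          exact inv_smul_smul _ _
      | zero => exact Submodule.zero_mem _
      | add u u' _ _ hu hu' => exact Submodule.add_mem _ hu hu'
      | smul c u _ hu => exact chartRing_smul_mem _ a b c.2 hu
    exact hsub v (hgen a b v hv)

theorem h1_eq_zero_iff_aux {E : PSh k x y V} : E.h1 = 0 ↔ E.H1Z := by
  refine rdim_eq_zero_iff.trans ⟨fun h α β hα hβ hc => ?_, fun h => ?_⟩
  · obtain ⟨γ, hγ, hγ'⟩ := h (x := (α, β)) ⟨mem_C1.2 ⟨hα, hβ⟩, sub_eq_zero.2 hc⟩
    exact ⟨fun a b => γ (a, b), mem_C0.1 hγ, fun b => congrFun (congrArg Prod.fst hγ') b,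
      fun a => congrFun (congrArg Prod.snd hγ') a⟩
  · rintro c ⟨hc, h0⟩
    obtain ⟨h1, h2⟩ := mem_C1.1 hc
    obtain ⟨γ, hγ, hγ1, hγ2⟩ := h c.1 c.2 h1 h2 (sub_eq_zero.1 h0)
    exact ⟨fun ab => γ ab.1 ab.2, mem_C0.2 hγ, Prod.ext (funext hγ1) (funext hγ2)⟩

theorem FG.h1_ne_top (hc : IsCoord k x y) {E : PSh k x y V} (hE : E.FG) : E.h1 ≠ ⊤ := by
  obtain ⟨n, hn, ι, _, φ, rfl⟩ := hE.exists_cover
  obtain ⟨b, c, e, f, g, i, -, -, -, h4, h5, h6, -⟩ := ((lb k x y n).piS ι).les2_aux φ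
  have z1 := h1_eq_zero_iff_aux.2 ((lb_H1Z hc hn).piS ι)
  have z2 := ((lb_piS_FG (k := k) (x := x) (y := y) n ι).inf (LinearMap.ker φ)).h2_ne_top
  rw [z1] at h4
  rw [h6] at z2
  rw [h5, (add_eq_zero.1 h4.symm).2, zero_add]
  exact fun hg => z2 (by rw [hg, top_add])

end PSh
end Vale.Agent.P190
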