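import Vale.Agent.P190.SurfBasic
import Vale.Agent.P190.SurfChiAux

/-! Euler characteristics and Hilbert polynomials on the product of two projective lines. -/

namespace Vale.Agent.P190

/-- a bi-affine function vanishing on a Serre region vanishes identically -/
theorem biaffine_ext {A B C D : ℤ}
    (h : ∃ j0 : ℤ, ∀ j ≥ j0, ∃ i0 : ℤ, ∀ i ≥ i0, A * i * j + B * i + C * j + D = 0) :
    A = 0 ∧ B = 0 ∧ C = 0 ∧ D = 0 := by
  obtain ⟨j0, h⟩ := h
  have key : ∀ j ≥ j0, A * j + B = 0 ∧ C * j + D = 0 := fun j hj => by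
    obtain ⟨i0, hi⟩ := h j hj
    have h1 := hi i0 le_rfl
    have h2 := hi (i0 + 1) (by omega)
    have h3 : A * j + B = 0 := by linear_combination h2 - h1
    exact ⟨h3, by linear_combination h1 - i0 * h3⟩
  obtain ⟨a1, c1⟩ := key j0 le_rfl
  obtain ⟨a2, c2⟩ := key (j0 + 1) (by omega)
  have hA : A = 0 := by linear_combination a2 - a1
  have hC : C = 0 := by linear_combination c2 - c1
  exact ⟨hA, by linear_combination a1 - j0 * hA, hC, by linear_combination c1 - j0 * hC⟩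

namespace PSh
variable {k : Type} [Field k] {L : Type} [Field L] [Algebra k L] {x y : Lˣ}
  {V : Type} [AddCommGroup V] [Module L V] [Module k V] [IsScalarTower k L V]
  {V' : Type} [AddCommGroup V'] [Module L V'] [Module k V'] [IsScalarTower k L V']

theorem h0_eq_zero_iff {E : PSh k x y V} : E.h0 = 0 ↔ E.H0 = ⊥ :=
  rdim_eq_zero_iff.trans le_bot_iff

theorem h1_eq_zero_iff {E : PSh k x y V} : E.h1 = 0 ↔ E.H1Z :=
  h1_eq_zero_iff_aux

theorem h2_eq_zero_iff {E : PSh k x y V} : E.h2 = 0 ↔ E.H2Z := by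
  unfold h2 H2Z
  rw [rdim_eq_zero_iff, C1_map]

/-- the long exact sequence in numerical form (no coherence needed) -/
theorem les2 (E : PSh k x y V) (φ : V →ₗ[L] V') :
    ∃ b c e f g i : ℕ∞,
      E.h0 = (E.inf (LinearMap.ker φ)).h0 + b ∧ (E.map φ).h0 = b + c ∧
      (E.inf (LinearMap.ker φ)).h1 = c + e ∧ E.h1 = e + f ∧ (E.map φ).h1 = f + g ∧
      (E.inf (LinearMap.ker φ)).h2 = g + i ∧ E.h2 = i + (E.map φ).h2 :=
  E.les2_aux φ

theorem h_swap (E : PSh k x y V) : E.swap.h0 = E.h0 ∧ E.swap.h1 = E.h1 ∧ E.swap.h2 = E.h2 :=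
  E.h_swap_aux

/-- a map that is injective on the sheaf does not change cohomology -/
theorem h_map_of_inj (E : PSh k x y V) (φ : V →ₗ[L] V')
    (hf : ∀ v ∈ E.ch false false, φ v = 0 → v = 0) :
    (E.map φ).h0 = E.h0 ∧ (E.map φ).h1 = E.h1 ∧ (E.map φ).h2 = E.h2 := by
  obtain ⟨b, c, e, f, g, i, h1, h2, h3, h4, h5, h6, h7⟩ := E.les2 φ
  rw [E.inf_ker_eq_bot φ hf] at h1 h3 h6
  obtain ⟨z0, z1, z2⟩ := h_bot (k := k) (x := x) (y := y) (V := V)
  rw [z0, zero_add] at h1
  rw [z1] at h3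
  rw [z2] at h6
  obtain ⟨rfl, rfl⟩ := add_eq_zero.1 h3.symm
  obtain ⟨rfl, rfl⟩ := add_eq_zero.1 h6.symm
  refine ⟨by rw [h2, h1, add_zero], by rw [h5, h4, add_zero, zero_add], by rw [h7, zero_add]⟩

theorem FG.finite (hc : IsCoord k x y) {E : PSh k x y V} (hE : E.FG) :
    E.h0 ≠ ⊤ ∧ E.h1 ≠ ⊤ ∧ E.h2 ≠ ⊤ :=
  ⟨rdim_bot_ne_top_iff.2 (Module.Finite.iff_fg.2 (hE.H0_fg hc)), hE.h1_ne_top hc, hE.h2_ne_top⟩

theorem chi_add (hc : IsCoord k x y) {E : PSh k x y V} (hE : E.FG) (φ : V →ₗ[L] V') :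
    E.chi = (E.inf (LinearMap.ker φ)).chi + (E.map φ).chi := by
  obtain ⟨b, c, e, f, g, i, h1, h2, h3, h4, h5, h6, h7⟩ := E.les2 φ
  obtain ⟨p0, p1, p2⟩ := (hE.inf (LinearMap.ker φ)).finite hc
  obtain ⟨q0, q1, q2⟩ := (hE.map φ).finite hc
  rw [h2] at q0
  rw [h3] at p1
  rw [h5] at q1
  rw [h6] at p2
  obtain ⟨hb, hc'⟩ := WithTop.add_ne_top.1 q0
  obtain ⟨-, he⟩ := WithTop.add_ne_top.1 p1
  obtain ⟨hf, hg⟩ := WithTop.add_ne_top.1 q1
  obtain ⟨-, hi⟩ := WithTop.add_ne_top.1 p2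
  unfold chi
  rw [h1, h2, h3, h4, h5, h6, h7, ENat.toNat_add p0 hb, ENat.toNat_add hb hc',
    ENat.toNat_add hc' he, ENat.toNat_add he hf, ENat.toNat_add hf hg, ENat.toNat_add hg hi,
    ENat.toNat_add hi q2]
  push_cast
  ring

theorem hp_add (hc : IsCoord k x y) {E : PSh k x y V} (hE : E.FG) (φ : V →ₗ[L] V') (i j : ℤ) :
    E.hp i j = (E.inf (LinearMap.ker φ)).hp i j + (E.map φ).hp i j := by
  unfold hp
  rw [inf_tw, map_tw]
  exact chi_add hc (hE.tw i j) φ

theorem hp_map_of_inj (E : PSh k x y V) (φ : V →ₗ[L] V')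
    (hf : ∀ v ∈ E.ch false false, φ v = 0 → v = 0) (i j : ℤ) :
    (E.map φ).hp i j = E.hp i j := by
  have h := (E.tw i j).h_map_of_inj φ fun v hv => hf v (by simpa using mem_tw.1 hv)
  unfold hp chi
  rw [map_tw, h.1, h.2.1, h.2.2]

theorem hp_bot (i j : ℤ) : (⊥ : PSh k x y V).hp i j = 0 := by
  have h : (⊥ : PSh k x y V).tw i j = ⊥ := by
    refine le_bot_iff.1 fun a b v hv => ?_
    have h1 : (tu x i a * tu y j b)⁻¹ • v = 0 := hv
    change v = 0
    rw [← smul_inv_smul (tu x i a * tu y j b) v, h1, smul_zero]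
  obtain ⟨z0, z1, z2⟩ := h_bot (k := k) (x := x) (y := y) (V := V)
  unfold hp chi
  rw [h, z0, z1, z2]
  simp

theorem hp_modular (hc : IsCoord k x y) {E E' : PSh k x y V} (hE : E.FG) (hE' : E'.FG)
    (i j : ℤ) : (E ⊔ E').hp i j + (E ⊓ E').hp i j = E.hp i j + E'.hp i j := by
  have h1 := hp_add hc (hE.prod hE') (LinearMap.fst L V V + LinearMap.snd L V V) i j
  have h2 := hp_add hc (hE.prod hE') (LinearMap.fst L V V) i j
  have e1 : (E.prod E').map (LinearMap.fst L V V + LinearMap.snd L V V) = E ⊔ E' := by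
    ext a b v
    constructor
    · rintro ⟨u, hu, rfl⟩
      exact Submodule.add_mem_sup hu.1 hu.2
    · intro hv
      obtain ⟨u, hu, u', hu', rfl⟩ := Submodule.mem_sup.1 hv
      exact ⟨(u, u'), ⟨hu, hu'⟩, rfl⟩
  have e2 : (E.prod E').inf (LinearMap.ker (LinearMap.fst L V V + LinearMap.snd L V V)) =
      (E ⊓ E').map (LinearMap.inl L V V - LinearMap.inr L V V) := by
    ext a b v
    constructor
    · rintro ⟨hv, h0⟩
      have h0' : v.1 + v.2 = 0 := h0
      have h3 : v.2 = -v.1 := (neg_eq_of_add_eq_zero_right h0').symm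
      have h4 : v.2 ∈ E'.ch a b := hv.2
      refine ⟨v.1, ⟨hv.1, ?_⟩, ?_⟩
      · rw [h3] at h4
        exact (Submodule.neg_mem_iff _).1 h4
      · ext <;> simp [h3]
    · rintro ⟨u, hu, rfl⟩
      refine ⟨⟨?_, ?_⟩, ?_⟩
      · simpa [comap] using hu.1
      · simpa [comap] using hu.2
      · simp
  have e3 : (E.prod E').map (LinearMap.fst L V V) = E := by
    ext a b v
    constructor
    · rintro ⟨u, hu, rfl⟩
      exact hu.1
    · intro hv
      exact ⟨(v, 0), ⟨hv, (E'.ch a b).zero_mem⟩, rfl⟩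
  have e4 : (E.prod E').inf (LinearMap.ker (LinearMap.fst L V V)) =
      E'.map (LinearMap.inr L V V) := by
    ext a b v
    constructor
    · rintro ⟨hv, h0⟩
      have h0' : v.1 = 0 := h0
      exact ⟨v.2, hv.2, Prod.ext h0'.symm rfl⟩
    · rintro ⟨u, hu, rfl⟩
      exact ⟨⟨(E.ch a b).zero_mem, hu⟩, rfl⟩
  rw [e1, e2, hp_map_of_inj _ _ fun v _ hv => by simpa using congrArg Prod.fst hv] at h1
  rw [e3, e4, hp_map_of_inj _ _ fun v _ hv => congrArg Prod.snd hv] at h2
  omega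

theorem hp_swap (E : PSh k x y V) (i j : ℤ) : E.swap.hp j i = E.hp i j := by
  have h := (E.tw i j).h_swap
  unfold hp chi
  rw [← swap_tw, h.1, h.2.1, h.2.2]

theorem hp_tw (E : PSh k x y V) (i j i' j' : ℤ) :
    (E.tw i j).hp i' j' = E.hp (i + i') (j + j') := by
  unfold hp
  rw [tw_tw]

theorem gam_eq_chi (E : PSh k x y V) : E.gam = E.chi := by
  unfold gam hp
  rw [tw_zero]

theorem chi_nonneg_of_H1Z {E : PSh k x y V} (h : E.H1Z) : 0 ≤ E.chi := by
  unfold chi
  rw [h1_eq_zero_iff.2 h]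
  simp only [ENat.toNat_zero]
  omega

theorem chi_nonpos {E : PSh k x y V} (h0 : E.H0 = ⊥) (h2 : E.H2Z) : E.chi ≤ 0 := by
  unfold chi
  rw [h0_eq_zero_iff.2 h0, h2_eq_zero_iff.2 h2]
  simp only [ENat.toNat_zero]
  omega

theorem hp_eq_finrank (hc : IsCoord k x y) {E : PSh k x y V} (hE : E.FG) :
    ∃ j0 : ℤ, ∀ j ≥ j0, ∃ i0 : ℤ, ∀ i ≥ i0,
      E.hp i j = Module.finrank k (E.tw i j).H0 := by
  obtain ⟨j0, h⟩ := hE.serre hc
  refine ⟨j0, fun j hj => ?_⟩
  obtain ⟨i0, h⟩ := h j hj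
  refine ⟨i0, fun i hi => ?_⟩
  obtain ⟨h1, h2⟩ := h i hi
  unfold hp chi
  rw [h1_eq_zero_iff.2 h1, h2_eq_zero_iff.2 h2, ← rdim_bot_toNat]
  simp [h0]

/-! ### the generic fibre -/

theorem adjoin_le_chartRing_x (a b : Bool) {z : L}
    (hz : z ∈ Algebra.adjoin k {((cs x a : Lˣ) : L)}) : z ∈ chartRing k x y a b :=
  Algebra.adjoin_mono (Set.singleton_subset_iff.2 (Set.mem_insert _ _)) hz

theorem pow_cs_mem (a : Bool) (n : ℕ) :
    ((cs x a ^ n : Lˣ) : L) ∈ Algebra.adjoin k {((cs x a : Lˣ) : L)} := by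
  rw [Units.val_pow_eq_pow_val]
  exact Subalgebra.pow_mem _ (Algebra.self_mem_adjoin_singleton k _) n

theorem mem_fib {E : PSh k x y V} (a b : Bool) {v : V} :
    v ∈ E.fib.ch b ↔
      ∃ z ∈ Algebra.adjoin k {((cs x a : Lˣ) : L)}, z ≠ 0 ∧ z • v ∈ E.ch a b := by
  constructor
  · intro hv
    change v ∈ Submodule.span (Kx k x) (E.ch false b : Set V) at hv
    induction hv using Submodule.span_induction with
    | mem v hv =>
      obtain ⟨n, hn⟩ := (mem_lx' a).1 (E.ch_le_lx false b hv)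
      exact ⟨_, pow_cs_mem a n, Units.ne_zero _, hn⟩
    | zero => exact ⟨1, Subalgebra.one_mem _, one_ne_zero, by simp⟩
    | add u v _ _ hu hv =>
      obtain ⟨z, hz, hz0, hu⟩ := hu
      obtain ⟨z', hz', hz0', hv⟩ := hv
      refine ⟨z * z', Subalgebra.mul_mem _ hz hz', mul_ne_zero hz0 hz0', ?_⟩
      rw [smul_add]
      refine Submodule.add_mem _ ?_ ?_
      · rw [mul_comm, mul_smul]
        exact E.chartRing_smul_mem a b (adjoin_le_chartRing_x a b hz') hu
      · rw [mul_smul]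
        exact E.chartRing_smul_mem a b (adjoin_le_chartRing_x a b hz) hv
    | smul c v _ hv =>
      obtain ⟨z, hz, hz0, hv⟩ := hv
      obtain ⟨z', hz', hz0', hc⟩ := exists_den_Kx a c
      refine ⟨z' * z, Subalgebra.mul_mem _ hz' hz, mul_ne_zero hz0' hz0, ?_⟩
      have : (z' * z) • c • v = ((c : L) * z') • z • v := by
        change (z' * z) • (c : L) • v = _
        rw [smul_smul, smul_smul]; congr 1; ring
      rw [this]
      exact E.chartRing_smul_mem a b (adjoin_le_chartRing_x a b hc) hv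
  · rintro ⟨z, hz, hz0, hv⟩
    obtain ⟨n, hn⟩ := (mem_lx' false).1 (E.ch_le_lx a b hv)
    have hq : ((cs x false ^ n : Lˣ) : L) * z ∈ Kx k x :=
      mul_mem (adjoin_cs_le_Kx false (pow_cs_mem false n)) (adjoin_cs_le_Kx a hz)
    have hq0 : ((cs x false ^ n : Lˣ) : L) * z ≠ 0 := mul_ne_zero (Units.ne_zero _) hz0
    have h1 : (((cs x false ^ n : Lˣ) : L) * z) • v ∈
        Submodule.span (Kx k x) (E.ch false b : Set V) := by
      rw [mul_smul]; exact Submodule.subset_span hn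
    have h2 := Submodule.smul_mem _ (⟨_, inv_mem hq⟩ : Kx k x) h1
    change (((cs x false ^ n : Lˣ) : L) * z)⁻¹ • (((cs x false ^ n : Lˣ) : L) * z) • v ∈ _ at h2
    rwa [inv_smul_smul₀ hq0] at h2

theorem ch_le_fib (E : PSh k x y V) (a b : Bool) {v : V} (hv : v ∈ E.ch a b) : v ∈ E.fib.ch b :=
  (mem_fib a b).2 ⟨1, Subalgebra.one_mem _, one_ne_zero, by simpa using hv⟩

theorem FG.fib {E : PSh k x y V} (hE : E.FG) : E.fib.FG := by
  intro b
  obtain ⟨s, hs⟩ := hE false b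
  refine ⟨s, fun v hv => ?_⟩
  have hle : ∀ q ∈ chartRing k x y false b,
      q ∈ Algebra.adjoin (Kx k x) {((cs y b : Lˣ) : L)} := by
    intro q hq
    have : chartRing k x y false b ≤
        (Algebra.adjoin (Kx k x) {((cs y b : Lˣ) : L)}).restrictScalars k := by
      refine Algebra.adjoin_le ?_
      rintro _ (rfl | rfl)
      · exact Subalgebra.algebraMap_mem (Algebra.adjoin (Kx k x) {((cs y b : Lˣ) : L)})
          (⟨_, adjoin_cs_le_Kx false (Algebra.self_mem_adjoin_singleton k _)⟩ : Kx k x)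
      · exact Algebra.self_mem_adjoin_singleton (Kx k x) _
    exact this hq
  change v ∈ Submodule.span (Kx k x) (E.ch false b : Set V) at hv
  induction hv using Submodule.span_induction with
  | mem v hv =>
    have := hs v hv
    clear hv
    induction this using Submodule.span_induction with
    | mem v hv => exact Submodule.subset_span hv
    | zero => exact Submodule.zero_mem _
    | add u v _ _ hu hv => exact Submodule.add_mem _ hu hv
    | smul c v _ hv => exact Submodule.smul_mem _ ⟨c, hle c c.2⟩ hv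
  | zero => exact Submodule.zero_mem _
  | add u v _ _ hu hv => exact Submodule.add_mem _ hu hv
  | smul c v _ hv =>
    exact Submodule.smul_mem _ ⟨(c : L), Subalgebra.algebraMap_mem
      (Algebra.adjoin (Kx k x) {((cs y b : Lˣ) : L)}) c⟩ hv

theorem fib_tw (E : PSh k x y V) (i j : ℤ) : (E.tw i j).fib = E.fib.tw j := by
  ext b v
  rw [P1.mem_tw, mem_fib false, mem_fib false]
  simp only [mem_tw, tu_false, one_mul, smul_comm (tu y j b)⁻¹]

theorem fib_inf (E : PSh k x y V) (U : Submodule L V) : (E.inf U).fib = E.fib.inf U := by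
  ext b v
  constructor
  · intro hv
    obtain ⟨z, hz, hz0, h1, h2⟩ := (mem_fib false b).1 hv
    exact ⟨(mem_fib false b).2 ⟨z, hz, hz0, h1⟩, (U.smul_mem_iff hz0).1 h2⟩
  · rintro ⟨h1, h2⟩
    obtain ⟨z, hz, hz0, h1⟩ := (mem_fib false b).1 h1
    exact (mem_fib false b).2 ⟨z, hz, hz0, h1, U.smul_mem z h2⟩

theorem fib_map (E : PSh k x y V) (φ : V →ₗ[L] V') : (E.map φ).fib = E.fib.map φ := by
  ext1
  funext b
  exact (Submodule.map_span (φ.restrictScalars (Kx k x)) (E.ch false b : Set V)).symm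

theorem fib_mono {E E' : PSh k x y V} (h : E' ≤ E) : E'.fib ≤ E.fib :=
  fun b => Submodule.span_mono (h false b)

theorem fib_sup_ch (E E' : PSh k x y V) (b : Bool) :
    (E ⊔ E').fib.ch b = E.fib.ch b ⊔ E'.fib.ch b := by
  refine le_antisymm (Submodule.span_le.2 fun v hv => ?_)
    (sup_le (fib_mono le_sup_left b) (fib_mono le_sup_right b))
  obtain ⟨u, hu, u', hu', rfl⟩ := Submodule.mem_sup.1 hv
  exact Submodule.add_mem_sup (E.ch_le_fib false b hu) (E'.ch_le_fib false b hu')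

theorem span_fib (E : PSh k x y V) :
    Submodule.span L (E.fib.ch false : Set V) = Submodule.span L (E.ch false false : Set V) :=
  Submodule.span_span_of_tower (Kx k x) L _

theorem rk_fib (E : PSh k x y V) : E.fib.rk = E.rk := by
  unfold P1.rk rk
  rw [span_fib]

theorem H0_eq_bot_of_fib {E : PSh k x y V} (h : E.fib.h0 = 0) : E.H0 = ⊥ := by
  rw [P1.h0_eq_zero_iff] at h
  rw [eq_bot_iff]
  intro v hv
  rw [mem_H0] at hv
  have : v ∈ E.fib.ch false ⊓ E.fib.ch true :=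
    ⟨E.ch_le_fib false false (hv _ _), E.ch_le_fib false true (hv _ _)⟩
  rw [h] at this
  exact this

theorem poly_smul_mem_lx (E : PSh k x y V) (b : Bool) {z : L}
    (hz : z ∈ Algebra.adjoin k {(x : L)}) {v : V} (hv : v ∈ E.lx b) : z • v ∈ E.lx b := by
  obtain ⟨n, hn⟩ := mem_lx.1 hv
  refine mem_lx.2 ⟨n, ?_⟩
  rw [smul_comm]
  exact E.chartRing_smul_mem false b (adjoin_le_chartRing_x false b hz) hn

theorem mem_lx_of_pow_smul (E : PSh k x y V) (b : Bool) (m : ℕ) {v : V} (hv : x ^ m • v ∈ E.lx b) :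
    v ∈ E.lx b := by
  obtain ⟨n, hn⟩ := mem_lx.1 hv
  exact mem_lx.2 ⟨n + m, by rwa [pow_add, mul_smul]⟩

theorem H2Z_of_fib {E : PSh k x y V} (h : E.fib.h1 = 0) : E.H2Z := by
  rw [P1.h1_eq_zero_iff] at h
  intro v hv
  obtain ⟨n, hn⟩ := mem_lxy.1 hv
  have h1 : v ∈ E.fib.ov := by
    refine P1.mem_ov.2 ⟨n, (mem_fib false false).2 ⟨_, pow_cs_mem false n, Units.ne_zero _, ?_⟩⟩
    rw [mul_pow, mul_smul] at hn
    exact hn
  obtain ⟨v0, hv0, v1, hv1, rfl⟩ := Submodule.mem_sup.1 (h h1)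
  obtain ⟨z0, hz0, hz00, hv0⟩ := (mem_fib false false).1 hv0
  obtain ⟨z1, hz1, hz10, hv1⟩ := (mem_fib false true).1 hv1
  have hz : z0 * z1 ∈ Algebra.adjoin k {(x : L)} := Subalgebra.mul_mem _ hz0 hz1
  rw [Algebra.adjoin_singleton_eq_range_aeval] at hz
  obtain ⟨p, hp⟩ := hz
  have hp' : Polynomial.aeval (x : L) p = z0 * z1 := hp
  have hp0 : p ≠ 0 := by
    rintro rfl
    exact mul_ne_zero hz00 hz10 (by simpa using hp'.symm)
  obtain ⟨q, hq, hnd⟩ := Polynomial.exists_eq_pow_rootMultiplicity_mul_and_not_dvd p hp0 0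
  obtain ⟨α, β, hαβ⟩ :=
    (((Polynomial.irreducible_X_sub_C (0 : k)).coprime_iff_not_dvd.2 hnd).pow_left (m := n))
  set m := p.rootMultiplicity 0
  simp only [map_zero, sub_zero] at hq hαβ
  have e1 : z0 * z1 = (x : L) ^ m * Polynomial.aeval (x : L) q := by
    rw [← hp', hq]; simp
  have e2 : Polynomial.aeval (x : L) α * (x : L) ^ n +
      Polynomial.aeval (x : L) β * Polynomial.aeval (x : L) q = 1 := by
    simpa using congrArg (Polynomial.aeval (x : L)) hαβ
  have hx0 : (x : L) ^ m ≠ 0 := pow_ne_zero _ x.ne_zero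
  have e3 : v0 + v1 = Polynomial.aeval (x : L) α • (x : L) ^ n • (v0 + v1) +
      (Polynomial.aeval (x : L) β • ((x : L) ^ m)⁻¹ • z1 • z0 • v0 +
        Polynomial.aeval (x : L) β • ((x : L) ^ m)⁻¹ • z0 • z1 • v1) := by
    have e4 : Polynomial.aeval (x : L) q = ((x : L) ^ m)⁻¹ * (z0 * z1) := by
      rw [e1, inv_mul_cancel_left₀ hx0]
    conv_lhs => rw [← one_smul L (v0 + v1), ← e2, e4]
    simp only [smul_smul, add_smul, smul_add]
    rw [mul_comm z1 z0]
    abel
  have key : ∀ b {w : V}, w ∈ E.ch false b → ∀ {z : L}, z ∈ Algebra.adjoin k {(x : L)} →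
      Polynomial.aeval (x : L) β • ((x : L) ^ m)⁻¹ • z • w ∈ E.lx b := by
    intro b w hw z hz
    refine E.poly_smul_mem_lx b (Polynomial.aeval_mem_adjoin_singleton k _) ?_
    refine E.mem_lx_of_pow_smul b m ?_
    rw [Units.smul_def, Units.val_pow_eq_pow_val, smul_inv_smul₀ hx0]
    exact E.poly_smul_mem_lx b hz (E.ch_le_lx false b hw)
  rw [e3, add_comm]
  refine Submodule.add_mem_sup (Submodule.add_mem_sup (key false hv0 hz1) (key true hv1 hz0))
    (Submodule.mem_sup_left (mem_ly.2 ⟨n, ?_⟩))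
  rw [smul_comm]
  refine E.chartRing_smul_mem false false
    (adjoin_le_chartRing_x false false (Polynomial.aeval_mem_adjoin_singleton k _)) ?_
  rw [mul_comm, mul_pow, mul_smul] at hn
  simpa [Units.smul_def] using hn

theorem affine_of_second_diff {f : ℤ → ℤ} (h : ∀ i, f i + f (i - 2) = 2 * f (i - 1)) (i : ℤ) :
    f i = f 0 + (f 1 - f 0) * i := by
  have h1 : ∀ i, f (i + 1) - f i = f 1 - f 0 := by
    intro i
    induction i using Int.induction_on with
    | zero => simp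
    | succ n ih =>
      have := h (n + 2)
      rw [show (n : ℤ) + 2 - 2 = n by ring, show (n : ℤ) + 2 - 1 = n + 1 by ring] at this
      rw [show (n : ℤ) + 1 + 1 = n + 2 by ring]
      linarith
    | pred n ih =>
      have := h (-n + 1)
      rw [show -(n : ℤ) + 1 - 2 = -n - 1 by ring, show -(n : ℤ) + 1 - 1 = -n by ring] at this
      rw [show -(n : ℤ) - 1 + 1 = -n by ring]
      linarith
  induction i using Int.induction_on with
  | zero => simp
  | succ n ih => have := h1 n; linarith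
  | pred n ih =>
    have := h1 (-n - 1)
    rw [show -(n : ℤ) - 1 + 1 = -n by ring] at this
    linarith

theorem hp_second_diff (hc : IsCoord k x y) {E : PSh k x y V} (hE : E.FG) (i j : ℤ) :
    E.hp i j + E.hp (i - 2) j = 2 * E.hp (i - 1) j := by
  set X : V →ₗ[L] V := (x : L) • LinearMap.id with hX
  have hXi : ∀ v, X v = 0 → v = 0 := fun v hv => by
    simpa [hX] using hv
  have hmem : ∀ (G : PSh k x y V) (a b : Bool) (v : V),
      v ∈ (G.map X).ch a b ↔ x⁻¹ • v ∈ G.ch a b := by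
    intro G a b v
    constructor
    · rintro ⟨u, hu, rfl⟩
      have : x⁻¹ • X u = u := inv_smul_smul x u
      exact this.symm ▸ hu
    · intro hv
      exact ⟨_, hv, smul_inv_smul x v⟩
  have hA : E.tw (-1) 0 ⊔ (E.tw (-1) 0).map X = E := by
    refine le_antisymm (sup_le ?_ ?_) ?_
    · intro a b v hv
      rw [mem_tw] at hv
      cases a
      · simpa using hv
      · have := E.smul_x true b _ hv
        simpa using this
    · intro a b v hv
      rw [hmem, mem_tw] at hv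
      cases a
      · have := E.smul_x false b _ hv
        simpa using this
      · simpa using hv
    · intro a b v hv
      cases a
      · refine (le_sup_left : E.tw (-1) 0 ≤ _) false b ?_
        rw [mem_tw]; simpa using hv
      · refine (le_sup_right : (E.tw (-1) 0).map X ≤ _) true b ?_
        rw [hmem, mem_tw]; simpa using hv
  have hB : E.tw (-1) 0 ⊓ (E.tw (-1) 0).map X = (E.tw (-2) 0).map X := by
    ext a b v
    change v ∈ (E.tw (-1) 0).ch a b ∧ v ∈ ((E.tw (-1) 0).map X).ch a b ↔ _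
    rw [hmem, hmem, mem_tw, mem_tw, mem_tw]
    cases a
    · simp only [tu_false, tu_zero, mul_one, inv_one, one_smul]
      exact ⟨fun h => h.2, fun h => ⟨by simpa using E.smul_x false b _ h, h⟩⟩
    · have e : (x ^ (-2 : ℤ))⁻¹ • x⁻¹ • v = x • v := by
        rw [smul_smul]; congr 1; group
      simp only [tu_true, tu_zero, mul_one, e, zpow_neg_one, inv_inv, smul_inv_smul]
      exact ⟨fun h => h.1, fun h => ⟨h, by simpa using E.smul_x true b _ h⟩⟩
  have := hp_modular hc (hE.tw (-1) 0) ((hE.tw (-1) 0).map X) i j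
  rw [hA, hB, hp_map_of_inj _ X fun v _ => hXi v, hp_map_of_inj _ X fun v _ => hXi v, hp_tw,
    hp_tw] at this
  rw [show i - 2 = -2 + i by ring, show i - 1 = -1 + i by ring]
  simp only [zero_add] at this
  linarith

theorem hp_biaffine (hc : IsCoord k x y) {E : PSh k x y V} (hE : E.FG) :
    ∃ A : ℤ, ∀ i j, E.hp i j = A * i * j + E.alp * i + E.bet * j + E.gam := by
  refine ⟨E.hp 1 1 - E.hp 1 0 - E.hp 0 1 + E.hp 0 0, fun i j => ?_⟩
  have h1 := affine_of_second_diff (f := fun i => E.hp i j) (fun i => hp_second_diff hc hE i j) i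
  have h2 : ∀ i, E.hp i j = E.hp i 0 + (E.hp i 1 - E.hp i 0) * j := fun i =>
    affine_of_second_diff (f := fun j => E.hp i j) (fun j => by
      simpa only [hp_swap] using hp_second_diff hc.swap hE.swap j i) j
  rw [h1, h2 0, h2 1, alp, bet, gam]
  ring

section toK

theorem towerKx : IsScalarTower k (Kx k x) V := ⟨fun c q v => smul_assoc c (q : L) v⟩

attribute [local instance] towerKx

omit [Module k V] [IsScalarTower k L V] in
theorem xK_zpow_smul (n : ℤ) (v : V) : xK k x ^ n • v = x ^ n • v := by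
  rw [Units.smul_def, Units.smul_def, Units.val_zpow_eq_zpow_val, Units.val_zpow_eq_zpow_val]
  change (((xK k x : Kx k x) ^ n : Kx k x) : L) • v = _
  exact congrArg (· • v) (map_zpow₀ (Kx k x).val (xK k x : Kx k x) n)

theorem cs_xK_coe (a : Bool) : (((cs (xK k x) a : (Kx k x)ˣ) : Kx k x) : L) = (cs x a : Lˣ) := by
  cases a
  · rfl
  · simp only [cs_true, Units.val_inv_eq_inv_val]
    rfl

omit [Module k V] [IsScalarTower k L V] in
theorem cs_xK_pow_smul (a : Bool) (n : ℕ) (v : V) : cs (xK k x) a ^ n • v = cs x a ^ n • v := by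
  rw [Units.smul_def, Units.smul_def, Units.val_pow_eq_pow_val, Units.val_pow_eq_pow_val,
    ← cs_xK_coe (k := k) (x := x)]
  rfl

/-- a sheaf on the `x`-line regarded over the function field of the line -/
def toK (D : P1 k x V) : P1 k (xK k x) V where
  ch := D.ch
  smul_mem a v hv := by
    have := cs_xK_pow_smul (k := k) (x := x) a 1 v
    rw [pow_one, pow_one] at this
    rw [this]; exact D.smul_mem a v hv
  glue a v hv := by
    simp only [cs_xK_pow_smul]; exact D.glue a v hv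

theorem toK_fg {D : P1 k x V} (hD : D.FG) : (toK D).FG := by
  intro a
  obtain ⟨s, hs⟩ := hD a
  refine ⟨s, fun v hv => ?_⟩
  have := hs v hv
  clear hv
  induction this using Submodule.span_induction with
  | mem v hv => exact Submodule.subset_span hv
  | zero => exact Submodule.zero_mem _
  | add u v _ _ hu hv => exact Submodule.add_mem _ hu hv
  | smul c v _ hv =>
    have h1 : (c : L) ∈ (Algebra.adjoin k {((cs (xK k x) a : (Kx k x)ˣ) : Kx k x)}).map
        (Kx k x).val := by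
      rw [AlgHom.map_adjoin, Set.image_singleton]
      have := cs_xK_coe (k := k) (x := x) a
      change (Kx k x).val _ = _ at this
      rw [this]
      exact c.2
    obtain ⟨q, hq, hqc⟩ := h1
    have h2 := Submodule.smul_mem _ ⟨q, hq⟩ hv
    have h3 : (q : L) = c := hqc
    change (q : L) • v ∈ _ at h2
    rw [h3] at h2
    exact h2

theorem mem_toK_tw (D : P1 k x V) (i : ℤ) (a : Bool) (v : V) :
    v ∈ ((toK D).tw i).ch a ↔ (tu x i a)⁻¹ • v ∈ D.ch a := by
  rw [P1.mem_tw]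
  cases a
  · simp only [tu_false, inv_one, one_smul]; rfl
  · simp only [tu_true, ← zpow_neg, xK_zpow_smul]; rfl

theorem H0_tw_eq (E : PSh k x y V) (i j : ℤ) :
    (E.tw i j).H0 = ((toK (E.tw 0 j).dirx).tw i).ch false ⊓ ((toK (E.tw 0 j).dirx).tw i).ch true := by
  ext v
  have key : ∀ a b, (tu x i a)⁻¹ • v ∈ (E.tw 0 j).ch a b ↔ v ∈ (E.tw i j).ch a b := by
    intro a b
    rw [mem_tw, mem_tw, tu_zero, one_mul, smul_smul, mul_inv, mul_comm]
  rw [mem_H0, Submodule.mem_inf, mem_toK_tw, mem_toK_tw]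
  constructor
  · intro h
    exact ⟨⟨(key _ _).2 (h _ _), (key _ _).2 (h _ _)⟩, (key _ _).2 (h _ _), (key _ _).2 (h _ _)⟩
  · rintro ⟨⟨h1, h2⟩, h3, h4⟩ a b
    cases a <;> cases b <;> rw [← key] <;> assumption

theorem rk_toK_dirx (E : PSh k x y V) : (toK E.dirx).rk = E.fib.h0.toNat := by
  have : Submodule.span (Kx k x) ((toK E.dirx).ch false : Set V) =
      E.fib.ch false ⊓ E.fib.ch true := by
    refine le_antisymm (Submodule.span_le.2 fun v hv =>
      ⟨E.ch_le_fib false false hv.1, E.ch_le_fib false true hv.2⟩) ?_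
    rintro v ⟨h0, h1⟩
    obtain ⟨z0, hz0, hz00, h0⟩ := (mem_fib false false).1 h0
    obtain ⟨z1, hz1, hz10, h1⟩ := (mem_fib false true).1 h1
    have hq : z0 * z1 ∈ Kx k x := mul_mem (adjoin_cs_le_Kx false hz0) (adjoin_cs_le_Kx false hz1)
    have h2 : (z0 * z1) • v ∈ Submodule.span (Kx k x) ((toK E.dirx).ch false : Set V) := by
      refine Submodule.subset_span ⟨?_, ?_⟩
      · rw [mul_comm, mul_smul]
        exact E.chartRing_smul_mem false false (adjoin_le_chartRing_x false false hz1) h0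
      · rw [mul_smul]
        exact E.chartRing_smul_mem false true (adjoin_le_chartRing_x false true hz0) h1
    have h3 := Submodule.smul_mem _ (⟨_, inv_mem hq⟩ : Kx k x) h2
    change (z0 * z1)⁻¹ • (z0 * z1) • v ∈ _ at h3
    rwa [inv_smul_smul₀ (mul_ne_zero hz00 hz10)] at h3
  rw [P1.rk, this, P1.h0, rdim_bot_toNat]

theorem deg_tw_eq_h0 {k F V : Type} [Field k] [Field F] [Algebra k F] {t : Fˣ} [AddCommGroup V]
    [Module F V] [Module k V] [IsScalarTower k F V] {D : P1 k t V} (hD : D.FG) :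
    ∃ j0 : ℤ, ∀ j ≥ j0, (D.tw j).deg = (D.tw j).h0.toNat := by
  obtain ⟨j0, hj0⟩ := hD.exists_ov_le
  refine ⟨j0, fun j hj => ?_⟩
  have : (D.tw j).h1 = 0 := P1.h1_eq_zero_iff.2 (by rw [P1.tw_ov]; exact hj0 j hj)
  simp [P1.deg, this]

theorem linear_eq_zero {a b : ℤ} (h : ∃ j0 : ℤ, ∀ j ≥ j0, a * j + b = 0) : a = 0 ∧ b = 0 := by
  obtain ⟨j0, h⟩ := h
  have h1 := h j0 le_rfl
  have h2 := h (j0 + 1) (by omega)
  have : a = 0 := by linarith
  subst this
  exact ⟨rfl, by simpa using h1⟩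

theorem coeffs_aux (hc : IsCoord k x y) {E : PSh k x y V} (hE : E.FG) {A : ℤ}
    (hA : ∀ i j, E.hp i j = A * i * j + E.alp * i + E.bet * j + E.gam) :
    A = E.rk ∧ E.alp = E.fib.deg := by
  obtain ⟨j0, hj0⟩ := hp_eq_finrank hc hE
  obtain ⟨j1, hj1⟩ := deg_tw_eq_h0 hE.fib
  have := linear_eq_zero (a := A - E.rk) (b := E.alp - E.fib.deg) ⟨max j0 j1, fun j hj => ?_⟩
  · exact ⟨by linarith [this.1], by linarith [this.2]⟩
  obtain ⟨i0, hi0⟩ := hj0 j (le_of_max_le_left hj)
  have hD : (toK (E.tw 0 j).dirx).FG := toK_fg ((hE.tw 0 j).dirx hc)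
  obtain ⟨i1, hi1⟩ := deg_tw_eq_h0 hD
  have h1 := linear_eq_zero (a := A * j + E.alp - (toK (E.tw 0 j).dirx).rk)
    (b := E.bet * j + E.gam - (toK (E.tw 0 j).dirx).deg) ⟨max i0 i1, fun i hi => by
      have h2 := hi0 i (le_of_max_le_left hi)
      have h3 := hi1 i (le_of_max_le_right hi)
      rw [P1.deg_tw hc.base hD, P1.h0, rdim_bot_toNat, ← H0_tw_eq, ← h2, hA] at h3
      linarith⟩
  have h4 := hj1 j (le_of_max_le_right hj)
  rw [P1.deg_tw hc.fib hE.fib, rk_fib, ← fib_tw E 0 j, ← rk_toK_dirx] at h4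
  linarith [h1.1]

end toK

/-- the Hilbert polynomial is bi-affine with leading coefficient the rank -/
theorem hp_eq (hc : IsCoord k x y) {E : PSh k x y V} (hE : E.FG) (i j : ℤ) :
    E.hp i j = E.rk * i * j + E.alp * i + E.bet * j + E.gam := by
  obtain ⟨A, hA⟩ := hp_biaffine hc hE
  rw [← (coeffs_aux hc hE hA).1, hA]

theorem alp_eq_deg (hc : IsCoord k x y) {E : PSh k x y V} (hE : E.FG) : E.alp = E.fib.deg := by
  obtain ⟨A, hA⟩ := hp_biaffine hc hE
  exact (coeffs_aux hc hE hA).2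

theorem alp_swap (E : PSh k x y V) : E.swap.alp = E.bet := by
  simp only [alp, bet, hp_swap]

theorem bet_swap (E : PSh k x y V) : E.swap.bet = E.alp := by
  simp only [alp, bet, hp_swap]

theorem rk_swap (E : PSh k x y V) : E.swap.rk = E.rk := rfl

theorem rk_add (hc : IsCoord k x y) {E : PSh k x y V} (hE : E.FG) (φ : V →ₗ[L] V') :
    E.rk = (E.inf (LinearMap.ker φ)).rk + (E.map φ).rk := by
  rw [← rk_fib, ← rk_fib, ← rk_fib, fib_inf, fib_map]
  exact P1.rk_add hc.fib hE.fib φ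

theorem alp_add (hc : IsCoord k x y) {E : PSh k x y V} (hE : E.FG) (φ : V →ₗ[L] V') :
    E.alp = (E.inf (LinearMap.ker φ)).alp + (E.map φ).alp := by
  simp only [alp]
  rw [hp_add hc hE φ, hp_add hc hE φ 0 0]
  ring

theorem alp_tw (hc : IsCoord k x y) {E : PSh k x y V} (hE : E.FG) (i j : ℤ) :
    (E.tw i j).alp = E.alp + E.rk * j := by
  rw [alp, hp_tw, hp_tw, hp_eq hc hE, hp_eq hc hE]
  ring

/-- to identify all four coefficients it suffices to know the polynomial -/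
theorem coeff_eq_of_hp (hc : IsCoord k x y) {E : PSh k x y V} (hE : E.FG) {r a b c : ℤ}
    (h : ∀ i j, E.hp i j = r * i * j + a * i + b * j + c) :
    (E.rk : ℤ) = r ∧ E.alp = a ∧ E.bet = b ∧ E.gam = c := by
  have h00 := (hp_eq hc hE 0 0).symm.trans (h 0 0)
  have h10 := (hp_eq hc hE 1 0).symm.trans (h 1 0)
  have h01 := (hp_eq hc hE 0 1).symm.trans (h 0 1)
  have h11 := (hp_eq hc hE 1 1).symm.trans (h 1 1)
  refine ⟨?_, ?_, ?_, ?_⟩ <;> linarith

theorem alp_mono (hc : IsCoord k x y) {E E' : PSh k x y V} (hE : E.FG) (h : E' ≤ E)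
    (hr : E'.rk = E.rk) : E'.alp ≤ E.alp := by
  rw [alp_eq_deg hc hE, alp_eq_deg hc (hE.of_le h)]
  exact P1.deg_mono hc.fib hE.fib (fib_mono h) (by rw [rk_fib, rk_fib, hr])

theorem bet_mono (hc : IsCoord k x y) {E E' : PSh k x y V} (hE : E.FG) (h : E' ≤ E)
    (hr : E'.rk = E.rk) : E'.bet ≤ E.bet := by
  rw [← alp_swap, ← alp_swap]
  exact alp_mono hc.swap hE.swap (fun a b => h b a) hr

theorem gam_mono (hc : IsCoord k x y) {E E' : PSh k x y V} (hE : E.FG) (h : E' ≤ E)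
    (hr : E'.rk = E.rk) (ha : E'.alp = E.alp) (hb : E'.bet = E.bet) : E'.gam ≤ E.gam := by
  obtain ⟨j0, hj0⟩ := hp_eq_finrank hc hE
  obtain ⟨j1, hj1⟩ := hp_eq_finrank hc (hE.of_le h)
  obtain ⟨i0, hi0⟩ := hj0 (max j0 j1) (le_max_left _ _)
  obtain ⟨i1, hi1⟩ := hj1 (max j0 j1) (le_max_right _ _)
  have h0 := hi0 (max i0 i1) (le_max_left _ _)
  have h1 := hi1 (max i0 i1) (le_max_right _ _)
  rw [hp_eq hc hE] at h0
  rw [hp_eq hc (hE.of_le h), hr, ha, hb] at h1
  have hfin : Module.Finite k (E.tw (max i0 i1) (max j0 j1)).H0 :=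
    Module.Finite.iff_fg.2 ((hE.tw _ _).H0_fg hc)
  have hle : (E'.tw (max i0 i1) (max j0 j1)).H0 ≤ (E.tw (max i0 i1) (max j0 j1)).H0 :=
    fun v hv => mem_H0.2 fun a b => tw_mono h _ _ a b (mem_H0.1 hv a b)
  have := Submodule.finrank_mono hle
  omega

section ops
variable {A : Type} [CommRing A] [Algebra L A] [Module A V] [IsScalarTower L A V]

theorem hp_mul (E : PSh k x y V) {g : A} (hg : IsUnit g) (d e : ℕ) (i j : ℤ) :
    (E.mul g d e).hp i j = E.hp (i - d) (j - e) := by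
  rw [mul, hp_map_of_inj _ _ fun v _ hv => (hg.smul_eq_zero).1 hv, hp_tw]
  congr 1 <;> ring

theorem Stable.fib {E : PSh k x y V} {g : A} {d e : ℕ} (h : E.Stable g d e) :
    E.fib.OpStable g e := by
  intro b v hv
  obtain ⟨z, hz, hz0, hv⟩ := (mem_fib false b).1 hv
  refine (mem_fib false b).2 ⟨z, hz, hz0, ?_⟩
  have := h false b _ hv
  rw [chop, tu_false, one_mul, smul_assoc, smul_comm g z, smul_comm _ z] at this
  exact this

end ops

end PSh
end Vale.Agent.P190
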