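import Vale.Agent.P190.GeoDefs
import Vale.Agent.P190.SurfChi

/-! Algebraic properties of the explicit surface. -/

namespace Vale.Agent.P190

/-- pointwise form of the Nullstellensatz: an element vanishing at all field valued points of
the zero set of `I` has a power in `I` -/
theorem exists_pow_mem_of_points {C : Type} [CommRing C] (I : Ideal C) (g : C)
    (h : ∀ (K : Type) [Field K] (φ : C →+* K), (∀ c ∈ I, φ c = 0) → φ g = 0) :
    ∃ n : ℕ, g ^ n ∈ I := by
  have : g ∈ I.radical := by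
    rw [Ideal.radical_eq_sInf, Submodule.mem_sInf]
    rintro P ⟨hIP, hP⟩
    have := hP
    have h1 := h (FractionRing (C ⧸ P))
      ((algebraMap (C ⧸ P) (FractionRing (C ⧸ P))).comp (Ideal.Quotient.mk P)) (fun c hc => by
        rw [RingHom.comp_apply, Ideal.Quotient.eq_zero_iff_mem.2 (hIP hc), map_zero])
    rw [RingHom.comp_apply,
      map_eq_zero_iff _ (IsFractionRing.injective (C ⧸ P) (FractionRing (C ⧸ P))),
      Ideal.Quotient.eq_zero_iff_mem] at h1
    exact h1
  exact this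

theorem Good.intCast_ne_zero {k : Type} [Field k] (hk : Good k) {n : ℤ} (h0 : n ≠ 0)
    (hn : |n| ≤ 11) : (n : k) ≠ 0 := by
  have h1 := hk n.natAbs (Int.natAbs_pos.2 h0) (by
    have : (n.natAbs : ℤ) = |n| := Int.natCast_natAbs n
    omega)
  intro h2
  apply h1
  rcases Int.natAbs_eq n with h | h
  · rw [← Int.cast_natCast, ← h, h2]
  · have h3 : (n.natAbs : ℤ) = -n := by omega
    rw [← Int.cast_natCast, h3, Int.cast_neg, h2, neg_zero]

theorem Good.m4_ne_zero {k : Type} [Field k] (hk : Good k) : ((4 * m4 : ℕ) : k) ≠ 0 := by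
  have h2 : ((2 : ℕ) : k) ≠ 0 := hk 2 (by norm_num) (by norm_num)
  have h3 : 4 * m4 = 2 ^ 14 := by unfold m4; norm_num
  rw [h3, Nat.cast_pow]
  exact pow_ne_zero _ h2

theorem good_rat : Good ℚ := by
  intro n hn _
  exact Nat.cast_ne_zero.2 hn.ne'

theorem good_zmod (p : ℕ) [Fact p.Prime] (hp : 11 < p) : Good (ZMod p) := by
  intro n hn hn' h
  rw [ZMod.natCast_eq_zero_iff] at h
  have := Nat.le_of_dvd hn h
  omega

theorem m4_pos : 0 < m4 := by unfold m4; norm_num

theorem av_bounds (i : Ix) : 0 ≤ av i ∧ av i ≤ 5 := by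
  obtain ⟨e, f⟩ := i
  have := e.2
  cases f <;> simp only [av] <;> constructor <;> simp <;> omega

theorem av_inj {i j : Ix} (h : av i = av j) : i = j := by
  revert i j
  decide

theorem cX_bounds (a : Bool) : 6 ≤ cX a ∧ cX a ≤ 7 := by cases a <;> simp [cX]

theorem cY_bounds (a : Bool) : 8 ≤ cY a ∧ cY a ≤ 9 := by cases a <;> simp [cY]

theorem cX_sub (a : Bool) : cX a - cX (!a) = 1 ∨ cX a - cX (!a) = -1 := by
  cases a <;> simp [cX]

theorem cY_sub (a : Bool) : cY a - cY (!a) = 1 ∨ cY a - cY (!a) = -1 := by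
  cases a <;> simp [cY]

section coord
variable {k : Type} [Field k] {L : Type} [Field L] [Algebra k L] {x y : Lˣ} {a b : Bool}

/-- a combination of `1, x ^ N, y ^ M, x ^ N y ^ M` with nonzero constant term is nonzero -/
theorem IsCoord.four_ne_zero (hc : IsCoord k x y) {N M : ℕ} (hN : 0 < N) (hM : 0 < M)
    {c0 c1 c2 c3 : ℤ} (h0 : (c0 : k) ≠ 0) :
    (c0 : L) + (c1 : L) * (x : L) ^ N + (c2 : L) * (y : L) ^ M +
      (c3 : L) * ((x : L) ^ N * (y : L) ^ M) ≠ 0 := by
  intro h
  let f : Fin 4 → ℤ × ℤ := ![(0, 0), (N, 0), (0, M), (N, M)]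
  have hf : Function.Injective f := by
    intro i j hij
    fin_cases i <;> fin_cases j <;> simp [f] at hij ⊢ <;> omega
  have hl := hc.indep.comp f hf
  rw [Fintype.linearIndependent_iff] at hl
  have := hl ![(c0 : k), (c1 : k), (c2 : k), (c3 : k)] (by
    rw [← h]
    simp [Fin.sum_univ_four, f, Algebra.smul_def]) 0
  exact h0 this

theorem Px_ne_zero (hk : Good k) (hc : IsCoord k x y) (a : Bool) (i : Ix) :
    Px a (x : L) i ≠ 0 := by
  have h1 := av_bounds i
  have h2 := cX_bounds a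
  have := hc.four_ne_zero (N := 4 * m4) (M := 1) (by have := m4_pos; omega) one_pos
    (c0 := cX a - av i) (c1 := cX (!a) - av i) (c2 := 0) (c3 := 0)
    (hk.intCast_ne_zero (by omega) (by rw [abs_le]; omega))
  simpa only [Px, Int.cast_zero, zero_mul, add_zero] using this

theorem Py_ne_zero (hk : Good k) (hc : IsCoord k x y) (b : Bool) (i : Ix) :
    Py b (y : L) i ≠ 0 := by
  have h1 := av_bounds i
  have h2 := cY_bounds b
  have := hc.four_ne_zero (N := 1) (M := 4) one_pos (by norm_num)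
    (c0 := cY b - av i) (c1 := 0) (c2 := cY (!b) - av i) (c3 := 0)
    (hk.intCast_ne_zero (by omega) (by rw [abs_le]; omega))
  simpa only [Py, Int.cast_zero, zero_mul, add_zero] using this

theorem del_ne_zero (hk : Good k) (hc : IsCoord k x y) (a b : Bool) :
    del a b (x : L) (y : L) ≠ 0 := by
  have h1 := cX_bounds a
  have h2 := cY_bounds b
  exact hc.four_ne_zero (N := 4 * m4) (M := 4) (by have := m4_pos; omega) (by norm_num)
    (hk.intCast_ne_zero (by omega) (by rw [abs_le]; omega))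

theorem Px_chart (a : Bool) (i : Ix) :
    Px a ((cs x a : Lˣ) : L) i =
      (((tu x (4 * m4 : ℕ) a)⁻¹ : Lˣ) : L) * Px false (x : L) i := by
  cases a
  · simp
  · simp only [Px, cs_true, tu_true, zpow_natCast, Units.val_inv_eq_inv_val, Units.val_pow_eq_pow_val,
      inv_pow, Bool.not_true, Bool.not_false]
    have hX : (x : L) ^ (4 * m4) ≠ 0 := pow_ne_zero _ x.ne_zero
    generalize (x : L) ^ (4 * m4) = X at hX
    field_simp
    ring

theorem Py_chart (b : Bool) (i : Ix) :
    Py b ((cs y b : Lˣ) : L) i = (((tu y (4 : ℕ) b)⁻¹ : Lˣ) : L) * Py false (y : L) i := by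
  cases b
  · simp
  · simp only [Py, cs_true, tu_true, zpow_natCast, Units.val_inv_eq_inv_val, Units.val_pow_eq_pow_val,
      inv_pow, Bool.not_true, Bool.not_false]
    have hX : (y : L) ^ 4 ≠ 0 := pow_ne_zero _ y.ne_zero
    generalize (y : L) ^ 4 = X at hX
    field_simp
    ring

theorem del_chart (a b : Bool) :
    del a b ((cs x a : Lˣ) : L) ((cs y b : Lˣ) : L) =
      (((tu x (4 * m4 : ℕ) a * tu y (4 : ℕ) b)⁻¹ : Lˣ) : L) * del false false (x : L) (y : L) := by
  have h1 := Px_mul_Py_sub a b ((cs x a : Lˣ) : L) ((cs y b : Lˣ) : L) (0, true) (0, false)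
  have h2 := Px_mul_Py_sub false false (x : L) (y : L) (0, true) (0, false)
  have h3 : av (0, true) - av (0, false) = 1 := by decide
  rw [h3, Int.cast_one, one_mul] at h1 h2
  rw [← h1, ← h2, Px_chart a, Px_chart a, Py_chart b, Py_chart b, mul_inv, Units.val_mul]
  ring

end coord

section bezout
variable {k : Type} [Field k] {R : Type} [CommRing R] [Algebra k R]

theorem bezout_aux {p q p' q' : ℤ} (h : ((p * q' - p' * q : ℤ) : k) ≠ 0) (X : R) :
    ∃ c c' : k, c • ((p : R) + (q : R) * X) + c' • ((p' : R) + (q' : R) * X) = 1 := by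
  refine ⟨((p * q' - p' * q : ℤ) : k)⁻¹ * (q' : k), -(((p * q' - p' * q : ℤ) : k)⁻¹ * (q : k)), ?_⟩
  have h1 : algebraMap k R (((p * q' - p' * q : ℤ) : k)⁻¹) * ((p * q' - p' * q : ℤ) : R) = 1 := by
    rw [← map_intCast (algebraMap k R), ← map_mul, inv_mul_cancel₀ h, map_one]
  simp only [Algebra.smul_def, map_mul, map_neg, map_intCast]
  rw [← h1]
  generalize algebraMap k R (((p * q' - p' * q : ℤ) : k)⁻¹) = u
  push_cast
  ring

/-- distinct branch polynomials generate the unit ideal, with constant coefficients -/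
theorem Px_bezout (hk : Good k) (a : Bool) (x : R) {i j : Ix} (hij : i ≠ j) :
    ∃ c c' : k, c • Px a x i + c' • Px a x j = 1 := by
  have h1 := av_bounds i
  have h2 := av_bounds j
  have h3 : av i ≠ av j := fun h => hij (av_inj h)
  have h4 : (cX a - av i) * (cX (!a) - av j) - (cX a - av j) * (cX (!a) - av i) =
      (cX a - cX (!a)) * (av i - av j) := by ring
  refine bezout_aux ?_ _
  rw [h4]
  rcases cX_sub a with h | h <;> rw [h] <;>
    exact hk.intCast_ne_zero (by omega) (by rw [abs_le]; omega)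

theorem Py_bezout (hk : Good k) (b : Bool) (y : R) {i j : Ix} (hij : i ≠ j) :
    ∃ c c' : k, c • Py b y i + c' • Py b y j = 1 := by
  have h1 := av_bounds i
  have h2 := av_bounds j
  have h3 : av i ≠ av j := fun h => hij (av_inj h)
  have h4 : (cY b - av i) * (cY (!b) - av j) - (cY b - av j) * (cY (!b) - av i) =
      (cY b - cY (!b)) * (av i - av j) := by ring
  refine bezout_aux ?_ _
  rw [h4]
  rcases cY_sub b with h | h <;> rw [h] <;>
    exact hk.intCast_ne_zero (by omega) (by rw [abs_le]; omega)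

theorem sep_aux {p q : ℤ} {N : ℕ} (hp : (p : k) ≠ 0) (hN : (N : k) ≠ 0) (X : R) :
    ∃ c c' : k, c • ((p : R) + (q : R) * X) + c' • ((q : R) * ((N : R) * X)) = 1 := by
  refine ⟨(p : k)⁻¹, -((p : k)⁻¹ * (N : k)⁻¹), ?_⟩
  have h1 : algebraMap k R ((p : k)⁻¹) * (p : R) = 1 := by
    rw [← map_intCast (algebraMap k R), ← map_mul, inv_mul_cancel₀ hp, map_one]
  have h2 : algebraMap k R ((N : k)⁻¹) * (N : R) = 1 := by
    rw [← map_natCast (algebraMap k R), ← map_mul, inv_mul_cancel₀ hN, map_one]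
  simp only [Algebra.smul_def, map_mul, map_neg]
  generalize algebraMap k R ((p : k)⁻¹) = u at h1
  generalize algebraMap k R ((N : k)⁻¹) = v at h2
  linear_combination h1 - u * q * X * h2

/-- the branch polynomials are separable -/
theorem Px_sep (hk : Good k) (a : Bool) (x : R) (i : Ix) :
    ∃ c c' : k, c • Px a x i +
      c' • (x * (((cX (!a) - av i : ℤ) : R) * (((4 * m4 : ℕ) : R) * x ^ (4 * m4 - 1)))) = 1 := by
  have h1 := av_bounds i
  have h2 := cX_bounds a
  obtain ⟨c, c', h⟩ := sep_aux (k := k) (p := cX a - av i) (q := cX (!a) - av i) (N := 4 * m4)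
    (hk.intCast_ne_zero (by omega) (by rw [abs_le]; omega)) hk.m4_ne_zero (x ^ (4 * m4))
  refine ⟨c, c', ?_⟩
  rw [← h, Px]
  have h3 : x ^ (4 * m4) = x * x ^ (4 * m4 - 1) := by
    rw [← pow_succ', Nat.sub_add_cancel (by have := m4_pos; omega)]
  rw [h3]
  generalize x ^ (4 * m4 - 1) = X
  generalize ((4 * m4 : ℕ) : R) = N
  generalize ((cX (!a) - av i : ℤ) : R) = q
  rw [show x * (q * (N * X)) = q * (N * (x * X)) by ring]

theorem Py_sep (hk : Good k) (b : Bool) (y : R) (i : Ix) :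
    ∃ c c' : k, c • Py b y i + c' • (y * (((cY (!b) - av i : ℤ) : R) * (4 * y ^ 3))) = 1 := by
  have h1 := av_bounds i
  have h2 := cY_bounds b
  obtain ⟨c, c', h⟩ := sep_aux (k := k) (p := cY b - av i) (q := cY (!b) - av i) (N := 4)
    (hk.intCast_ne_zero (by omega) (by rw [abs_le]; omega)) (hk 4 (by norm_num) (by norm_num))
    (y ^ 4)
  refine ⟨c, c', ?_⟩
  rw [← h, Py]
  generalize ((cY (!b) - av i : ℤ) : R) = q
  rw [show y * (q * (4 * y ^ 3)) = q * (((4 : ℕ) : R) * y ^ 4) by push_cast; ring]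

end bezout

namespace Geo
variable {k : Type} [Field k] {L : Type} [Field L] [Algebra k L] {a b : Bool} {x y : Lˣ}
  {A : Type} [CommRing A] [Algebra L A]

theorem h_mul (G : Geo a b x y A) (e : Fin 3) (σ : Bool) :
    G.h e σ * G.h e (!σ) = - algebraMap L A (del a b (x : L) (y : L)) := by
  have h1 := Px_mul_Py_sub a b (x : L) (y : L) (e, false) (e, true)
  have h3 : av (e, false) - av (e, true) = -1 := by simp [av]
  rw [h3] at h1
  have h2 := congrArg (algebraMap L A) h1
  rw [map_sub, map_mul, map_mul, map_mul, ← G.s_sq, ← G.s_sq, ← G.t_sq, ← G.t_sq, map_intCast] at h2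
  cases σ <;> simp only [h, hh, Bool.not_true, Bool.not_false] <;> push_cast at h2 <;>
    linear_combination h2

theorem isUnit_s (hk : Good k) (hc : IsCoord k x y) (G : Geo a b x y A) (i : Ix) :
    IsUnit (G.s i) := by
  rw [← isUnit_pow_iff two_ne_zero, G.s_sq]
  exact (Px_ne_zero hk hc a i).isUnit.map _

theorem isUnit_t (hk : Good k) (hc : IsCoord k x y) (G : Geo a b x y A) (i : Ix) :
    IsUnit (G.t i) := by
  rw [← isUnit_pow_iff two_ne_zero, G.t_sq]
  exact (Py_ne_zero hk hc b i).isUnit.map _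

theorem isUnit_h (hk : Good k) (hc : IsCoord k x y) (G : Geo a b x y A) (e : Fin 3) (σ : Bool) :
    IsUnit (G.h e σ) := by
  refine isUnit_of_mul_isUnit_left (y := G.h e (!σ)) ?_
  rw [G.h_mul]
  exact ((del_ne_zero hk hc a b).isUnit.map _).neg

theorem ww_aux (hk : Good k) (hc : IsCoord k x y) (G : Geo a b x y A) :
    ∃ D D' : A, D = algebraMap L A (del a b (x : L) (y : L)) ∧ D' * D = 1 ∧
      (∀ e, G.ww (some e) = D' * (G.w * G.h (e + 1) false * G.h (e + 2) false)) ∧
      (∀ e, G.h e true * G.h e false = -D) ∧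
      G.w ^ 2 = G.h 0 true * G.h 1 true * G.h 2 true := by
  refine ⟨_, algebraMap L A (del a b (x : L) (y : L))⁻¹, rfl, ?_, fun e => ?_, fun e => ?_, G.w_sq⟩
  · rw [← map_mul, inv_mul_cancel₀ (del_ne_zero hk hc a b), map_one]
  · rw [ww, Algebra.smul_def]
  · exact G.h_mul e true

theorem ww_sq (hk : Good k) (hc : IsCoord k x y) (G : Geo a b x y A) (ε : Eps) :
    G.ww ε ^ 2 = G.h 0 (sg ε 0) * G.h 1 (sg ε 1) * G.h 2 (sg ε 2) := by
  obtain ⟨D, D', -, hD, hw, hh, hs⟩ := G.ww_aux hk hc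
  have h0 := hh 0
  have h1 := hh 1
  have h2 := hh 2
  rcases ε with _ | e
  · exact hs
  · rw [hw]
    have key : ∀ p0 p1 p2 m1 m2 : A, G.w ^ 2 = p0 * p1 * p2 → p1 * m1 = -D → p2 * m2 = -D →
        (D' * (G.w * m1 * m2)) ^ 2 = p0 * m1 * m2 := by
      intro p0 p1 p2 m1 m2 e0 e1 e2
      have e3 : (D' * (G.w * m1 * m2)) ^ 2 = D' ^ 2 * p0 * (p1 * m1) * (p2 * m2) * m1 * m2 := by
        rw [mul_pow, mul_pow, mul_pow, e0]; ring
      rw [e3, e1, e2]
      linear_combination (p0 * m1 * m2 * (D' * D + 1)) * hD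
    fin_cases e
    · exact key _ _ _ _ _ hs h1 h2
    · have := key (G.h 1 true) (G.h 2 true) (G.h 0 true) _ _ (by rw [hs]; ring) h2 h0
      refine this.trans ?_
      show G.h 1 true * G.h 2 false * G.h 0 false = G.h 0 false * G.h 1 true * G.h 2 false
      ring
    · have := key (G.h 2 true) (G.h 0 true) (G.h 1 true) _ _ (by rw [hs]; ring) h0 h1
      refine this.trans ?_
      show G.h 2 true * G.h 0 false * G.h 1 false = G.h 0 false * G.h 1 false * G.h 2 true
      ring

theorem ww_sq' (hk : Good k) (hc : IsCoord k x y) (G : Geo a b x y A) (ε : Eps) (e : Fin 3) :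
    G.ww ε ^ 2 = G.gg ε e * G.h e (sg ε e) := by
  rw [G.ww_sq hk hc, gg]
  fin_cases e
  · show _ = G.h 1 (sg ε 1) * G.h 2 (sg ε 2) * G.h 0 (sg ε 0)
    ring
  · show _ = G.h 2 (sg ε 2) * G.h 0 (sg ε 0) * G.h 1 (sg ε 1)
    ring
  · show _ = G.h 0 (sg ε 0) * G.h 1 (sg ε 1) * G.h 2 (sg ε 2)
    ring

theorem isUnit_ww (hk : Good k) (hc : IsCoord k x y) (G : Geo a b x y A) (ε : Eps) :
    IsUnit (G.ww ε) := by
  rw [← isUnit_pow_iff two_ne_zero, G.ww_sq hk hc]
  exact ((G.isUnit_h hk hc _ _).mul (G.isUnit_h hk hc _ _)).mul (G.isUnit_h hk hc _ _)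

theorem isUnit_gg (hk : Good k) (hc : IsCoord k x y) (G : Geo a b x y A) (ε : Eps) (e : Fin 3) :
    IsUnit (G.gg ε e) :=
  (G.isUnit_h hk hc _ _).mul (G.isUnit_h hk hc _ _)

/-- the product of two different generators is `± δ h` for the edge where the signs agree -/
theorem ww_mul_ww (hk : Good k) (hc : IsCoord k x y) (G : Geo a b x y A) {ε ε' : Eps}
    (hne : ε ≠ ε') : ∃ (e : Fin 3) (σ : Bool) (c : ℤ),
      G.ww ε * G.ww ε' = c • (algebraMap L A (del a b (x : L) (y : L)) * G.h e σ) := by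
  obtain ⟨D, D', hD0, hD, hw, hh, hs⟩ := G.ww_aux hk hc
  rw [← hD0]
  have h0 := hh 0
  have h1 := hh 1
  have h2 := hh 2
  have key1 : ∀ p0 p1 p2 m1 m2 : A, G.w ^ 2 = p0 * p1 * p2 → p1 * m1 = -D → p2 * m2 = -D →
      G.w * (D' * (G.w * m1 * m2)) = (1 : ℤ) • (D * p0) := by
    intro p0 p1 p2 m1 m2 e0 e1 e2
    have e3 : G.w * (D' * (G.w * m1 * m2)) = D' * G.w ^ 2 * m1 * m2 := by ring
    have e4 : D' * (p0 * p1 * p2) * m1 * m2 = D' * p0 * (p1 * m1) * (p2 * m2) := by ring
    rw [e3, e0, e4, e1, e2, one_smul]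
    linear_combination (p0 * D) * hD
  have key2 : ∀ p0 p1 p2 m0 m1 m2 : A, G.w ^ 2 = p0 * p1 * p2 → p0 * m0 = -D → p1 * m1 = -D →
      p2 * m2 = -D →
      D' * (G.w * m1 * m2) * (D' * (G.w * m2 * m0)) = (-1 : ℤ) • (D * m2) := by
    intro p0 p1 p2 m0 m1 m2 e e0 e1 e2
    have e3 : D' * (G.w * m1 * m2) * (D' * (G.w * m2 * m0)) =
      D' ^ 2 * G.w ^ 2 * m0 * m1 * m2 * m2 := by ring
    have e4 : D' ^ 2 * (p0 * p1 * p2) * m0 * m1 * m2 * m2 =
      D' ^ 2 * (p0 * m0) * (p1 * m1) * (p2 * m2) * m2 := by ring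
    rw [e3, e, e4, e0, e1, e2, neg_smul, one_smul]
    linear_combination (-(m2 * D * (D' * D + 1))) * hD
  have s1 : G.w ^ 2 = G.h 1 true * G.h 2 true * G.h 0 true := by rw [hs]; ring
  have s2 : G.w ^ 2 = G.h 2 true * G.h 0 true * G.h 1 true := by rw [hs]; ring
  have n1 : ∀ e, ∃ (e' : Fin 3) (σ : Bool) (c : ℤ),
      G.ww none * G.ww (some e) = c • (D * G.h e' σ) := by
    intro e
    rw [hw]
    fin_cases e
    · exact ⟨_, _, _, key1 _ _ _ _ _ hs h1 h2⟩
    · exact ⟨_, _, _, key1 _ _ _ _ _ s1 h2 h0⟩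
    · exact ⟨_, _, _, key1 _ _ _ _ _ s2 h0 h1⟩
  have n2 : ∀ e, ∃ (e' : Fin 3) (σ : Bool) (c : ℤ),
      G.ww (some e) * G.ww (some (e + 1)) = c • (D * G.h e' σ) := by
    intro e
    rw [hw, hw]
    fin_cases e
    · exact ⟨_, _, _, key2 _ _ _ _ _ _ hs h0 h1 h2⟩
    · exact ⟨_, _, _, key2 _ _ _ _ _ _ s1 h1 h2 h0⟩
    · exact ⟨_, _, _, key2 _ _ _ _ _ _ s2 h2 h0 h1⟩
  rcases ε with _ | e <;> rcases ε' with _ | e'
  · exact absurd rfl hne
  · exact n1 e'
  · rw [mul_comm]; exact n1 e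
  · have : e' = e + 1 ∨ e = e' + 1 := by
      have hne' : e ≠ e' := fun h => hne (by rw [h])
      clear hne
      revert e e'
      decide
    rcases this with rfl | rfl
    · exact n2 e
    · rw [mul_comm]; exact n2 e'

theorem chop_hh (s t : Ix → A) (a b : Bool) (e : Fin 3) (σ : Bool) :
    hh (fun i => PSh.chop x y a b (s i) (2 * m4) 0) (fun i => PSh.chop x y a b (t i) 0 2) e σ =
      PSh.chop x y a b (hh s t e σ) (2 * m4) 2 := by
  have h1 : ∀ i j, PSh.chop x y a b (s i) (2 * m4) 0 * PSh.chop x y a b (t j) 0 2 =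
      PSh.chop x y a b (s i * t j) (2 * m4) 2 := fun i j => (PSh.chop_mul a b _ _ _ _ _ _).symm
  cases σ <;> simp only [hh, h1] <;> simp only [PSh.chop, smul_add, smul_sub]

/-- the surface read on the chart `(a, b)` -/
noncomputable def chart (G : Geo false false x y A) (a b : Bool) :
    Geo a b (cs x a) (cs y b) A where
  s i := PSh.chop x y a b (G.s i) (2 * m4) 0
  t i := PSh.chop x y a b (G.t i) 0 2
  w := PSh.chop x y a b G.w (3 * m4) 3
  s_sq := by
    intro i
    rw [← PSh.chop_pow, G.s_sq, Px_chart, map_mul, ← Algebra.smul_def, PSh.chop,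
      show 2 * (2 * m4) = 4 * m4 by ring, mul_zero, Nat.cast_zero, tu_zero, mul_one]
  t_sq := by
    intro i
    rw [← PSh.chop_pow, G.t_sq, Py_chart, map_mul, ← Algebra.smul_def, PSh.chop,
      show 2 * 2 = 4 by ring, mul_zero, Nat.cast_zero, tu_zero, one_mul]
  w_sq := by
    rw [chop_hh, chop_hh, chop_hh, ← PSh.chop_mul, ← PSh.chop_mul, ← PSh.chop_pow, G.w_sq,
      show 2 * (3 * m4) = 2 * m4 + 2 * m4 + 2 * m4 by ring]
  gen := by
    rw [eq_top_iff, ← G.gen, Algebra.adjoin_le_iff]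
    have key : ∀ (S : Subalgebra L A) (g : A) (d e : ℕ), PSh.chop x y a b g d e ∈ S → g ∈ S := by
      intro S g d e h
      have := S.smul_mem h ((tu x d a * tu y e b : Lˣ) : L)
      rwa [PSh.chop, smul_smul, ← Units.val_mul, mul_inv_cancel, Units.val_one, one_smul] at this
    rintro g ((⟨i, rfl⟩ | ⟨i, rfl⟩) | rfl)
    · exact key _ _ _ _ (Algebra.subset_adjoin (Or.inl (Or.inl ⟨i, rfl⟩)))
    · exact key _ _ _ _ (Algebra.subset_adjoin (Or.inl (Or.inr ⟨i, rfl⟩)))
    · exact key _ _ _ _ (Algebra.subset_adjoin (Or.inr rfl))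

theorem chart_h (G : Geo false false x y A) (a b : Bool) (e : Fin 3) (σ : Bool) :
    (G.chart a b).h e σ = PSh.chop x y a b (G.h e σ) (2 * m4) 2 :=
  chop_hh G.s G.t a b e σ

theorem chart_ww (G : Geo false false x y A) (a b : Bool) (ε : Eps) :
    (G.chart a b).ww ε = PSh.chop x y a b (G.ww ε) (3 * m4) 3 := by
  rcases ε with _ | e
  · rfl
  · have hw : (G.chart a b).w = PSh.chop x y a b G.w (3 * m4) 3 := rfl
    rw [ww, ww, chart_h, chart_h, hw, ← PSh.chop_mul, ← PSh.chop_mul, del_chart, PSh.chop,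
      PSh.chop, smul_smul, smul_smul]
    have h1 : tu x ((3 * m4 + 2 * m4 + 2 * m4 : ℕ) : ℤ) a =
        tu x ((3 * m4 : ℕ) : ℤ) a * tu x ((4 * m4 : ℕ) : ℤ) a := by
      rw [← tu_add, ← Nat.cast_add, show 3 * m4 + 2 * m4 + 2 * m4 = 3 * m4 + 4 * m4 by ring]
    have h2 : tu y ((3 + 2 + 2 : ℕ) : ℤ) b = tu y ((3 : ℕ) : ℤ) b * tu y ((4 : ℕ) : ℤ) b := by
      rw [← tu_add, ← Nat.cast_add]
    rw [h1, h2]
    generalize tu x ((3 * m4 : ℕ) : ℤ) a = u1
    generalize tu x ((4 * m4 : ℕ) : ℤ) a = u2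
    generalize tu y ((3 : ℕ) : ℤ) b = v1
    generalize tu y ((4 : ℕ) : ℤ) b = v2
    generalize del false false (x : L) (y : L) = D
    have h3 : (((u2 * v2)⁻¹ : Lˣ) * D : L)⁻¹ * ((u1 * u2 * (v1 * v2))⁻¹ : Lˣ) =
        ((u1 * v1)⁻¹ : Lˣ) * D⁻¹ := by
      simp only [mul_inv, Units.val_mul, Units.val_inv_eq_inv_val, inv_inv]
      field_simp
    rw [h3]

theorem mul_prod_mem_span {s : Ix → A} {p : Ix → L} (hs : ∀ i, s i ^ 2 = algebraMap L A (p i))
    (i : Ix) (T : Finset Ix) :
    ∃ (c : L) (T' : Finset Ix), s i * ∏ j ∈ T, s j = c • ∏ j ∈ T', s j := by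
  by_cases hi : i ∈ T
  · refine ⟨p i, T.erase i, ?_⟩
    rw [← Finset.mul_prod_erase T s hi, ← mul_assoc, ← sq, hs, Algebra.smul_def]
  · exact ⟨1, insert i T, by rw [Finset.prod_insert hi, one_smul]⟩

/-- `A` is spanned over `L` by the reduced monomials -/
theorem span_monomials (G : Geo a b x y A) :
    Submodule.span L (Set.range fun c : Finset Ix × Finset Ix × Bool =>
      (∏ i ∈ c.1, G.s i) * (∏ i ∈ c.2.1, G.t i) * (if c.2.2 then G.w else 1)) = ⊤ := by
  set M := Submodule.span L (Set.range fun c : Finset Ix × Finset Ix × Bool =>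
      (∏ i ∈ c.1, G.s i) * (∏ i ∈ c.2.1, G.t i) * (if c.2.2 then G.w else 1)) with hM
  have hmem : ∀ (S T : Finset Ix) (β : Bool),
      (∏ i ∈ S, G.s i) * (∏ i ∈ T, G.t i) * (if β then G.w else 1) ∈ M :=
    fun S T β => Submodule.subset_span ⟨(S, T, β), rfl⟩
  have stab : ∀ g : A, (∀ (S T : Finset Ix) (β : Bool),
      g * ((∏ i ∈ S, G.s i) * (∏ i ∈ T, G.t i) * (if β then G.w else 1)) ∈ M) →
      ∀ v ∈ M, g * v ∈ M := by
    intro g hg v hv
    induction hv using Submodule.span_induction with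
    | mem v hv => obtain ⟨c, rfl⟩ := hv; exact hg _ _ _
    | zero => simp
    | add u v _ _ hu hv => rw [mul_add]; exact M.add_mem hu hv
    | smul c v _ hv => rw [mul_smul_comm]; exact M.smul_mem c hv
  have hs : ∀ i, ∀ v ∈ M, G.s i * v ∈ M := fun i => stab _ fun S T β => by
    obtain ⟨c, S', h⟩ := mul_prod_mem_span G.s_sq i S
    rw [mul_assoc, ← mul_assoc, h, smul_mul_assoc, ← mul_assoc]
    exact M.smul_mem c (hmem _ _ _)
  have ht : ∀ i, ∀ v ∈ M, G.t i * v ∈ M := fun i => stab _ fun S T β => by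
    obtain ⟨c, T', h⟩ := mul_prod_mem_span G.t_sq i T
    rw [← mul_assoc, mul_left_comm, h, mul_smul_comm, smul_mul_assoc]
    exact M.smul_mem c (hmem _ _ _)
  have hhh : ∀ e, ∀ v ∈ M, hh G.s G.t e true * v ∈ M := fun e v hv => by
    rw [hh, add_mul, mul_assoc, mul_assoc]
    exact M.add_mem (hs _ _ (ht _ _ hv)) (hs _ _ (ht _ _ hv))
  have hw : ∀ v ∈ M, G.w * v ∈ M := stab _ fun S T β => by
    cases β
    · have := hmem S T true
      simp only [if_true, Bool.false_eq_true, if_false, mul_one] at this ⊢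
      rwa [mul_comm]
    · have := hmem S T false
      simp only [if_true, Bool.false_eq_true, if_false, mul_one] at this ⊢
      rw [mul_comm _ G.w, ← mul_assoc, ← sq, G.w_sq, mul_assoc, mul_assoc]
      exact hhh _ _ (hhh _ _ (hhh _ _ this))
  have hall : ∀ g ∈ Algebra.adjoin L (Set.range G.s ∪ Set.range G.t ∪ {G.w}),
      ∀ v ∈ M, g * v ∈ M := by
    intro g hg
    induction hg using Algebra.adjoin_induction with
    | mem g hg =>
      rcases hg with (⟨i, rfl⟩ | ⟨i, rfl⟩) | rfl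
      · exact hs i
      · exact ht i
      · exact hw
    | algebraMap c => intro v hv; rw [← Algebra.smul_def]; exact M.smul_mem c hv
    | add g g' _ _ hg hg' => intro v hv; rw [add_mul]; exact M.add_mem (hg v hv) (hg' v hv)
    | mul g g' _ _ hg hg' => intro v hv; rw [mul_assoc]; exact hg _ (hg' v hv)
  rw [eq_top_iff]
  intro g _
  have h1 : (1 : A) ∈ M := by simpa using hmem ∅ ∅ false
  simpa using hall g (by rw [G.gen]; trivial) 1 h1

/-- an `L`-subspace stable under the generators is an `A`-submodule -/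
theorem exists_submodule (G : Geo a b x y A) {V : Type} [AddCommGroup V] [Module L V] [Module A V]
    [IsScalarTower L A V] (U : Submodule L V) (hs : ∀ i, ∀ v ∈ U, G.s i • v ∈ U)
    (ht : ∀ i, ∀ v ∈ U, G.t i • v ∈ U) (hw : ∀ v ∈ U, G.w • v ∈ U) :
    ∃ U' : Submodule A V, U'.restrictScalars L = U := by
  have hall : ∀ g ∈ Algebra.adjoin L (Set.range G.s ∪ Set.range G.t ∪ {G.w}),
      ∀ v ∈ U, g • v ∈ U := by
    intro g hg
    induction hg using Algebra.adjoin_induction with
    | mem g hg =>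
      rcases hg with (⟨i, rfl⟩ | ⟨i, rfl⟩) | rfl
      · exact hs i
      · exact ht i
      · exact hw
    | algebraMap c => intro v hv; rw [algebraMap_smul]; exact U.smul_mem c hv
    | add g g' _ _ hg hg' => intro v hv; rw [add_smul]; exact U.add_mem (hg v hv) (hg' v hv)
    | mul g g' _ _ hg hg' => intro v hv; rw [mul_smul]; exact hg _ (hg' v hv)
  exact ⟨{ carrier := U
           add_mem' := U.add_mem
           zero_mem' := U.zero_mem
           smul_mem' := fun g v hv => hall g (by rw [G.gen]; trivial) v hv }, rfl⟩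

section points

theorem map_Px {R S : Type} [CommRing R] [CommRing S] (f : R →+* S) (a : Bool) (x : R) (i : Ix) :
    f (Px a x i) = Px a (f x) i := by
  simp only [Px, map_add, map_mul, map_pow, map_intCast]

theorem map_Py {R S : Type} [CommRing R] [CommRing S] (f : R →+* S) (b : Bool) (y : R) (i : Ix) :
    f (Py b y i) = Py b (f y) i := by
  simp only [Py, map_add, map_mul, map_pow, map_intCast]

theorem map_del {R S : Type} [CommRing R] [CommRing S] (f : R →+* S) (a b : Bool) (x y : R) :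
    f (del a b x y) = del a b (f x) (f y) := by
  simp only [del, map_add, map_mul, map_pow, map_intCast]

theorem map_hh {R S : Type} [CommRing R] [CommRing S] (f : R →+* S) (s t : Ix → R) (e : Fin 3)
    (σ : Bool) : f (hh s t e σ) = hh (fun i => f (s i)) (fun i => f (t i)) e σ := by
  cases σ <;> simp only [hh, map_add, map_sub, map_mul]

theorem hh_eq {R : Type} [CommRing R] (s t : Ix → R) (e : Fin 3) (σ : Bool) :
    hh s t e σ = s (e, false) * t (e, true) +
      (if σ then 1 else -1) * (s (e, true) * t (e, false)) := by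
  cases σ <;> simp [hh, sub_eq_add_neg]

theorem good_of_ringHom {K : Type} [Field K] (hk : Good k) (f : k →+* K) : Good K := by
  intro n h0 hn h
  apply hk n h0 hn
  apply f.injective
  rw [map_natCast, h, map_zero]

variable {K : Type} [Field K] {X Y : K} {S T : Ix → K}

theorem pt_S (hK : Good K) (hS : ∀ i, S i ^ 2 = Px a X i) {i j : Ix} (hij : i ≠ j) (hi : S i = 0) :
    S j ≠ 0 := by
  intro hj
  obtain ⟨c, c', h⟩ := Px_bezout hK a X hij
  rw [← hS, ← hS, hi, hj] at h
  simp at h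

theorem pt_T (hK : Good K) (hT : ∀ i, T i ^ 2 = Py b Y i) {i j : Ix} (hij : i ≠ j) (hi : T i = 0) :
    T j ≠ 0 := by
  intro hj
  obtain ⟨c, c', h⟩ := Py_bezout hK b Y hij
  rw [← hT, ← hT, hi, hj] at h
  simp at h

theorem pt_edge (hK : Good K) (hT : ∀ i, T i ^ 2 = Py b Y i) {e : Fin 3}
    (h1 : hh S T e true = 0) (h2 : hh S T e false = 0) : ∃ σ, S (e, σ) = 0 := by
  have two : (2 : K) ≠ 0 := by exact_mod_cast hK 2 (by norm_num) (by norm_num)
  simp only [hh] at h1 h2
  have h3 : S (e, false) * T (e, true) = 0 :=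
    (mul_eq_zero.mp (show 2 * (S (e, false) * T (e, true)) = 0 by
      linear_combination h1 + h2)).resolve_left two
  have h4 : S (e, true) * T (e, false) = 0 := by linear_combination h1 - h3
  rcases mul_eq_zero.mp h3 with h5 | h5
  · exact ⟨false, h5⟩
  · rcases mul_eq_zero.mp h4 with h6 | h6
    · exact ⟨true, h6⟩
    · exact absurd h6 (pt_T hK hT (by simp) h5)

theorem pt_cover (hK : Good K) (hS : ∀ i, S i ^ 2 = Px a X i) (hT : ∀ i, T i ^ 2 = Py b Y i)
    (h : ∀ ε e, hh S T (e + 1) (sg ε (e + 1)) * hh S T (e + 2) (sg ε (e + 2)) = 0) : False := by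
  have key : ∀ e : Fin 3, (∃ σ, S (e + 1, σ) = 0) ∨ ∃ σ, S (e + 2, σ) = 0 := by
    intro e
    have e1 : e + 1 ≠ e := by fin_cases e <;> decide
    have e2 : e + 2 ≠ e := by fin_cases e <;> decide
    have e3 : e + 1 ≠ e + 2 := by fin_cases e <;> decide
    have a1 := h none e
    have a2 := h (some e) e
    have a3 := h (some (e + 1)) e
    have a4 := h (some (e + 2)) e
    simp only [sg, e1, e2, e3, e3.symm, decide_true, decide_false] at a1 a2 a3 a4
    by_cases b1 : hh S T (e + 1) true = 0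
    · by_cases b2 : hh S T (e + 1) false = 0
      · exact Or.inl (pt_edge hK hT b1 b2)
      · exact Or.inr (pt_edge hK hT ((mul_eq_zero.mp a4).resolve_left b2)
          ((mul_eq_zero.mp a2).resolve_left b2))
    · exact Or.inr (pt_edge hK hT ((mul_eq_zero.mp a1).resolve_left b1)
        ((mul_eq_zero.mp a3).resolve_left b1))
  have two : ∀ {e e' : Fin 3}, e ≠ e' → (∃ σ, S (e, σ) = 0) → (∃ σ, S (e', σ) = 0) → False := by
    rintro e e' hne ⟨σ, h1⟩ ⟨σ', h2⟩
    exact pt_S hK hS (fun h => hne (congrArg Prod.fst h)) h1 h2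
  rcases key 0 with h0 | h0
  · rcases key 1 with h1 | h1
    · exact two (by decide) h0 h1
    · exact two (by decide) h0 h1
  · rcases key 2 with h1 | h1
    · exact two (by decide) h0 h1
    · exact two (by decide) h0 h1

theorem pt_core {c A1 A2 B1 B2 α1 α2 : K} (hc : c ≠ 0)
    (h1 : A2 * α1 * B2 + c * (A1 * α2 * B1) = 0) (h2 : A1 * B2 + c * (A2 * B1) = 0)
    (hD : A1 ^ 2 * α2 - A2 ^ 2 * α1 ≠ 0) : B1 = 0 ∧ B2 = 0 := by
  constructor
  · have h3 : c * (B1 * (A1 ^ 2 * α2 - A2 ^ 2 * α1)) = 0 := by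
      linear_combination A1 * h1 - A2 * α1 * h2
    exact (mul_eq_zero.mp ((mul_eq_zero.mp h3).resolve_left hc)).resolve_right hD
  · have h3 : B2 * (A1 ^ 2 * α2 - A2 ^ 2 * α1) = 0 := by
      linear_combination A1 * α2 * h2 - A2 * h1
    exact (mul_eq_zero.mp h3).resolve_right hD

theorem prod_erase_edge {R : Type} [CommRing R] (s : Ix → R) (e : Fin 3) (σ : Bool) :
    ∏ j ∈ Finset.univ.erase (e, σ), s j =
      s (e, !σ) * ∏ j ∈ Finset.univ.filter (fun j : Ix => j.1 ≠ e), s j := by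
  have h : Finset.univ.erase (e, σ) =
      insert (e, !σ) (Finset.univ.filter fun j : Ix => j.1 ≠ e) := by
    ext ⟨e', σ'⟩
    by_cases he : e' = e
    · cases σ <;> cases σ' <;> simp [he]
    · simp [he]
  rw [h, Finset.prod_insert (by simp)]

theorem pt_smooth (hK : Good K) (hS : ∀ i, S i ^ 2 = Px a X i) (hT : ∀ i, T i ^ 2 = Py b Y i)
    {u : K} (hu : u ≠ 0) {e : Fin 3} {σ : Bool}
    (hx : hh (fun i => u * ((∏ j ∈ Finset.univ.erase i, S j) *
      (((cX (!a) - av i : ℤ) : K) * (((4 * m4 : ℕ) : K) * X ^ (4 * m4 - 1))))) T e σ = 0)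
    (hy : hh S (fun i => u * ((∏ j ∈ Finset.univ.erase i, T j) *
      (((cY (!b) - av i : ℤ) : K) * (4 * Y ^ 3)))) e σ = 0)
    (h0 : hh S T e σ = 0) (σ1 σ2 : Bool) : hh S T (e + 1) σ1 * hh S T (e + 2) σ2 = 0 := by
  have hav : av (e, false) - av (e, true) = -1 := by simp [av]
  have hdel : del a b X Y = 0 := by
    have h1 := Px_mul_Py_sub a b X Y (e, false) (e, true)
    rw [hav, ← hS, ← hS, ← hT, ← hT] at h1
    have h2 : hh S T e true * hh S T e false = 0 := by
      cases σ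
      · rw [h0, mul_zero]
      · rw [h0, zero_mul]
    simp only [hh] at h2
    push_cast at h1
    linear_combination h1 - h2
  have hPP : ∀ i j, S i ^ 2 * T j ^ 2 = S j ^ 2 * T i ^ 2 := by
    intro i j
    have h1 := Px_mul_Py_sub a b X Y i j
    rw [hdel, mul_zero, ← hS, ← hS, ← hT, ← hT] at h1
    exact sub_eq_zero.mp h1
  have hST : ∀ j, S j = 0 ↔ T j = 0 := by
    intro j
    have hij : j ≠ (j.1, !j.2) := fun h => by simpa using congrArg Prod.snd h
    have h1 := hPP (j.1, !j.2) j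
    constructor
    · intro hj
      rw [hj, zero_pow two_ne_zero, zero_mul] at h1
      exact eq_zero_of_pow_eq_zero ((mul_eq_zero.mp h1).resolve_left (pow_ne_zero 2 (pt_S hK hS hij hj)))
    · intro hj
      rw [hj, zero_pow two_ne_zero, mul_zero] at h1
      exact eq_zero_of_pow_eq_zero ((mul_eq_zero.mp h1.symm).resolve_right (pow_ne_zero 2 (pt_T hK hT hij hj)))
  by_contra hgg
  have hoff : ∀ j : Ix, j.1 ≠ e → S j ≠ 0 := by
    rintro ⟨e', τ⟩ hj hs
    have ht := (hST _).mp hs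
    have hz : ∀ σ', hh S T e' σ' = 0 := by
      intro σ'
      rw [hh_eq]
      cases τ <;> simp [hs, ht]
    have he' : e' = e + 1 ∨ e' = e + 2 :=
      (by decide : ∀ e e' : Fin 3, e' ≠ e → e' = e + 1 ∨ e' = e + 2) e e' hj
    apply hgg
    rcases he' with rfl | rfl
    · rw [hz, zero_mul]
    · rw [hz, mul_zero]
  have hσ : ∏ j ∈ Finset.univ.filter (fun j : Ix => j.1 ≠ e), S j ≠ 0 :=
    Finset.prod_ne_zero_iff.mpr fun j hj => hoff j (Finset.mem_filter.mp hj).2
  have hτ : ∏ j ∈ Finset.univ.filter (fun j : Ix => j.1 ≠ e), T j ≠ 0 :=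
    Finset.prod_ne_zero_iff.mpr fun j hj h => hoff j (Finset.mem_filter.mp hj).2 ((hST j).mpr h)
  have hc : (if σ then (1 : K) else -1) ≠ 0 := by cases σ <;> simp
  rw [hh_eq] at hx hy h0
  simp only [prod_erase_edge, Bool.not_false, Bool.not_true] at hx hy
  by_cases hX : X = 0
  · have hY : Y ≠ 0 := by
      intro hY
      have h1 : ((cX a - cY b : ℤ) : K) = 0 := by
        have h2 : 4 * m4 ≠ 0 := by simp [m4]
        simpa [del, hX, hY, h2] using hdel
      exact hK.intCast_ne_zero (by cases a <;> cases b <;> decide)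
        (by cases a <;> cases b <;> decide) h1
    have four : (4 : K) ≠ 0 := by exact_mod_cast hK 4 (by norm_num) (by norm_num)
    have h1 : T (e, false) * ((cY (!b) - av (e, true) : ℤ) : K) * S (e, false) +
        (if σ then (1 : K) else -1) *
          (T (e, true) * ((cY (!b) - av (e, false) : ℤ) : K) * S (e, true)) = 0 := by
      refine (mul_eq_zero.mp ?_).resolve_left
        (mul_ne_zero (mul_ne_zero hu hτ) (mul_ne_zero four (pow_ne_zero 3 hY)))
      linear_combination hy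
    have hD : T (e, true) ^ 2 * ((cY (!b) - av (e, false) : ℤ) : K) -
        T (e, false) ^ 2 * ((cY (!b) - av (e, true) : ℤ) : K) ≠ 0 := by
      have h2 : T (e, true) ^ 2 * ((cY (!b) - av (e, false) : ℤ) : K) -
          T (e, false) ^ 2 * ((cY (!b) - av (e, true) : ℤ) : K) = ((cY b - cY (!b) : ℤ) : K) := by
        rw [hT, hT]
        simp only [Py, av]
        push_cast
        ring
      rw [h2]
      exact hK.intCast_ne_zero (by cases b <;> decide) (by cases b <;> decide)
    have h3 := pt_core hc h1 (by linear_combination h0) hD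
    exact pt_S hK hS (by simp) h3.1 h3.2
  · have h1 : S (e, true) * ((cX (!a) - av (e, false) : ℤ) : K) * T (e, true) +
        (if σ then (1 : K) else -1) *
          (S (e, false) * ((cX (!a) - av (e, true) : ℤ) : K) * T (e, false)) = 0 := by
      refine (mul_eq_zero.mp ?_).resolve_left
        (mul_ne_zero (mul_ne_zero hu hσ) (mul_ne_zero hK.m4_ne_zero (pow_ne_zero (4 * m4 - 1) hX)))
      linear_combination hx
    have hD : S (e, false) ^ 2 * ((cX (!a) - av (e, true) : ℤ) : K) -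
        S (e, true) ^ 2 * ((cX (!a) - av (e, false) : ℤ) : K) ≠ 0 := by
      have h2 : S (e, false) ^ 2 * ((cX (!a) - av (e, true) : ℤ) : K) -
          S (e, true) ^ 2 * ((cX (!a) - av (e, false) : ℤ) : K) = ((cX (!a) - cX a : ℤ) : K) := by
        rw [hS, hS]
        simp only [Px, av]
        generalize X ^ (4 * m4) = Z
        push_cast
        ring
      rw [h2]
      exact hK.intCast_ne_zero (by cases a <;> decide) (by cases a <;> decide)
    have h3 := pt_core hc h1 h0 hD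
    exact pt_T hK hT (by simp) h3.1 h3.2

end points

section ring
variable [Algebra k A] [IsScalarTower k L A]

theorem algebraMap_mem_ring (G : Geo a b x y A) {q : L}
    (hq : q ∈ Algebra.adjoin k {(x : L), (y : L)}) : algebraMap L A q ∈ G.ring k := by
  induction hq using Algebra.adjoin_induction with
  | mem z hz =>
    refine Algebra.subset_adjoin (Or.inl (Or.inl ?_))
    rcases hz with rfl | rfl
    · exact Or.inl rfl
    · exact Or.inr rfl
  | algebraMap r =>
    rw [← IsScalarTower.algebraMap_apply]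
    exact Subalgebra.algebraMap_mem _ r
  | add u v _ _ hu hv =>
    rw [map_add]
    exact add_mem hu hv
  | mul u v _ _ hu hv =>
    rw [map_mul]
    exact mul_mem hu hv

omit [Algebra k L] [IsScalarTower k L A] in
theorem s_mem_ring (G : Geo a b x y A) (i : Ix) : G.s i ∈ G.ring k :=
  Algebra.subset_adjoin (Or.inl (Or.inr ⟨i, rfl⟩))

omit [Algebra k L] [IsScalarTower k L A] in
theorem t_mem_ring (G : Geo a b x y A) (i : Ix) : G.t i ∈ G.ring k :=
  Algebra.subset_adjoin (Or.inr ⟨i, rfl⟩)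

omit [Algebra k L] [IsScalarTower k L A] in
theorem h_mem_ring (G : Geo a b x y A) (e : Fin 3) (σ : Bool) : G.h e σ ∈ G.ring k := by
  cases σ
  · exact sub_mem (mul_mem (G.s_mem_ring _) (G.t_mem_ring _))
      (mul_mem (G.s_mem_ring _) (G.t_mem_ring _))
  · exact add_mem (mul_mem (G.s_mem_ring _) (G.t_mem_ring _))
      (mul_mem (G.s_mem_ring _) (G.t_mem_ring _))

omit [Algebra k L] [IsScalarTower k L A] in
theorem gg_mem_ring (G : Geo a b x y A) (ε : Eps) (e : Fin 3) : G.gg ε e ∈ G.ring k :=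
  mul_mem (G.h_mem_ring _ _) (G.h_mem_ring _ _)

omit [Algebra k L] [IsScalarTower k L A] in
theorem del_mem_ring (G : Geo a b x y A) :
    algebraMap L A (del a b (x : L) (y : L)) ∈ G.ring k := by
  have h := G.h_mul 0 true
  rw [← neg_eq_iff_eq_neg] at h
  rw [← h]
  exact neg_mem (mul_mem (G.h_mem_ring _ _) (G.h_mem_ring _ _))

omit [IsScalarTower k L A] in
theorem ww_mul_mem_ring (hk : Good k) (hc : IsCoord k x y) (G : Geo a b x y A) (ε ε' : Eps) :
    G.ww ε * G.ww ε' ∈ G.ring k := by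
  by_cases hne : ε = ε'
  · rw [← hne, ← sq, ww_sq hk hc]
    exact mul_mem (mul_mem (G.h_mem_ring _ _) (G.h_mem_ring _ _)) (G.h_mem_ring _ _)
  · obtain ⟨e, σ, c, h⟩ := ww_mul_ww hk hc G hne
    rw [h]
    exact zsmul_mem (mul_mem G.del_mem_ring (G.h_mem_ring _ _)) c

omit [IsScalarTower k L A] in
/-- on the basic open set `gg ε e ≠ 0` the ideal is generated by `ww ε` -/
theorem gg_mul_ww (hk : Good k) (hc : IsCoord k x y) (G : Geo a b x y A) (ε : Eps) (e : Fin 3)
    (ε' : Eps) : ∃ c ∈ G.ring k, G.gg ε e * G.ww ε' = c * G.ww ε := by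
  by_cases hne : ε = ε'
  · exact ⟨G.gg ε e, G.gg_mem_ring ε e, by rw [hne]⟩
  · obtain ⟨e₀, σ₀, c, h⟩ := ww_mul_ww hk hc G hne
    refine ⟨-(c • (G.h e (!sg ε e) * G.h e₀ σ₀)),
      neg_mem (zsmul_mem (mul_mem (G.h_mem_ring _ _) (G.h_mem_ring _ _)) c), ?_⟩
    refine (isUnit_ww hk hc G ε).mul_right_cancel ?_
    have h1 := ww_sq' hk hc G ε e
    have h2 := G.h_mul e (sg ε e)
    rw [zsmul_eq_mul] at h ⊢
    linear_combination G.gg ε e * h + (c * (G.h e (!sg ε e) * G.h e₀ σ₀)) * h1 +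
      (c * G.h e₀ σ₀ * G.gg ε e) * h2

omit [Algebra k L] [IsScalarTower k L A] in
theorem x_mem_ring (G : Geo a b x y A) : algebraMap L A (x : L) ∈ G.ring k :=
  Algebra.subset_adjoin (Or.inl (Or.inl (Or.inl rfl)))

omit [Algebra k L] [IsScalarTower k L A] in
theorem y_mem_ring (G : Geo a b x y A) : algebraMap L A (y : L) ∈ G.ring k :=
  Algebra.subset_adjoin (Or.inl (Or.inl (Or.inr rfl)))

/-- `s i` as an element of the chart ring -/
def sC (G : Geo a b x y A) (k : Type) [Field k] [Algebra k A] (i : Ix) : G.ring k :=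
  ⟨G.s i, G.s_mem_ring i⟩

/-- `t i` as an element of the chart ring -/
def tC (G : Geo a b x y A) (k : Type) [Field k] [Algebra k A] (i : Ix) : G.ring k :=
  ⟨G.t i, G.t_mem_ring i⟩

/-- `x` as an element of the chart ring -/
def xC (G : Geo a b x y A) (k : Type) [Field k] [Algebra k A] : G.ring k := ⟨_, G.x_mem_ring⟩

/-- `y` as an element of the chart ring -/
def yC (G : Geo a b x y A) (k : Type) [Field k] [Algebra k A] : G.ring k := ⟨_, G.y_mem_ring⟩

omit [Algebra k L] [IsScalarTower k L A] in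
theorem coe_hh (G : Geo a b x y A) (s t : Ix → G.ring k) (e : Fin 3) (σ : Bool) :
    ((hh s t e σ : G.ring k) : A) = hh (fun i => (s i : A)) (fun i => (t i : A)) e σ :=
  map_hh (G.ring k).val.toRingHom s t e σ

omit [Algebra k L] [IsScalarTower k L A] in
theorem sC_sq (G : Geo a b x y A) {K : Type} [Field K] (φ : G.ring k →+* K) (i : Ix) :
    φ (G.sC k i) ^ 2 = Px a (φ (G.xC k)) i := by
  rw [← map_pow, ← map_Px]
  congr 1
  refine Subtype.ext ?_
  refine (G.s_sq i).trans ((map_Px _ _ _ _).trans ?_)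
  exact (map_Px (G.ring k).val.toRingHom a (G.xC k) i).symm

omit [Algebra k L] [IsScalarTower k L A] in
theorem tC_sq (G : Geo a b x y A) {K : Type} [Field K] (φ : G.ring k →+* K) (i : Ix) :
    φ (G.tC k i) ^ 2 = Py b (φ (G.yC k)) i := by
  rw [← map_pow, ← map_Py]
  congr 1
  refine Subtype.ext ?_
  refine (G.t_sq i).trans ((map_Py _ _ _ _).trans ?_)
  exact (map_Py (G.ring k).val.toRingHom b (G.yC k) i).symm

omit [Algebra k L] [IsScalarTower k L A] in
/-- the basic open sets cover the chart -/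
theorem cover (hk : Good k) (G : Geo a b x y A) (n : ℕ) :
    ∃ c : Eps × Fin 3 → A, (∀ i, c i ∈ G.ring k) ∧ ∑ i, c i * G.gg i.1 i.2 ^ n = 1 := by
  let g : Eps × Fin 3 → G.ring k := fun i =>
    hh (G.sC k) (G.tC k) (i.2 + 1) (sg i.1 (i.2 + 1)) *
      hh (G.sC k) (G.tC k) (i.2 + 2) (sg i.1 (i.2 + 2))
  have hg : ∀ i, (g i : A) = G.gg i.1 i.2 := by
    intro i
    simp only [g, Subalgebra.coe_mul, coe_hh]
    rfl
  obtain ⟨m, hm⟩ := exists_pow_mem_of_points (Ideal.span (Set.range fun i => g i ^ n)) 1 (by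
    intro K _ φ hφ
    refine (pt_cover (good_of_ringHom hk (φ.comp (algebraMap k _))) (G.sC_sq φ) (G.tC_sq φ)
      fun ε e => ?_).elim
    have h1 := hφ _ (Ideal.subset_span ⟨(ε, e), rfl⟩)
    rw [map_pow] at h1
    have h2 := eq_zero_of_pow_eq_zero h1
    simpa only [g, map_mul, map_hh] using h2)
  rw [one_pow] at hm
  obtain ⟨c, hc⟩ := Ideal.mem_span_range_iff_exists_fun.mp hm
  refine ⟨fun i => c i, fun i => (c i).2, ?_⟩
  have h1 := congrArg (G.ring k).val hc
  rw [map_sum, map_one] at h1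
  rw [← h1]
  refine Finset.sum_congr rfl fun i _ => ?_
  rw [map_mul, map_pow, ← hg]
  rfl

/-- `σ ∂_x (s i)` where `σ = ∏ s j` -/
noncomputable def ds (G : Geo a b x y A) (k : Type) [Field k] [Algebra k A] (i : Ix) : A :=
  (2⁻¹ : k) • ((∏ j ∈ Finset.univ.erase i, G.s j) *
    algebraMap L A (((cX (!a) - av i : ℤ) : L) * (((4 * m4 : ℕ) : L) * (x : L) ^ (4 * m4 - 1))))

/-- `τ ∂_y (t i)` where `τ = ∏ t j` -/
noncomputable def dt (G : Geo a b x y A) (k : Type) [Field k] [Algebra k A] (i : Ix) : A :=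
  (2⁻¹ : k) • ((∏ j ∈ Finset.univ.erase i, G.t j) *
    algebraMap L A (((cY (!b) - av i : ℤ) : L) * (4 * (y : L) ^ 3)))

/-- `ds` as an element of the chart ring -/
noncomputable def dsC (G : Geo a b x y A) (k : Type) [Field k] [Algebra k A] (i : Ix) : G.ring k :=
  algebraMap k _ 2⁻¹ * ((∏ j ∈ Finset.univ.erase i, G.sC k j) *
    (((cX (!a) - av i : ℤ) : G.ring k) * (((4 * m4 : ℕ) : G.ring k) * G.xC k ^ (4 * m4 - 1))))

/-- `dt` as an element of the chart ring -/
noncomputable def dtC (G : Geo a b x y A) (k : Type) [Field k] [Algebra k A] (i : Ix) : G.ring k :=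
  algebraMap k _ 2⁻¹ * ((∏ j ∈ Finset.univ.erase i, G.tC k j) *
    (((cY (!b) - av i : ℤ) : G.ring k) * (4 * G.yC k ^ 3)))

omit [Algebra k L] [IsScalarTower k L A] in
theorem coe_dsC (G : Geo a b x y A) (i : Ix) : (G.dsC k i : A) = G.ds k i := by
  change (G.ring k).val (G.dsC k i) = _
  simp only [dsC, ds, map_mul, map_prod, map_pow, map_intCast, map_natCast, AlgHom.commutes,
    Algebra.smul_def]
  rfl

omit [Algebra k L] [IsScalarTower k L A] in
theorem coe_dtC (G : Geo a b x y A) (i : Ix) : (G.dtC k i : A) = G.dt k i := by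
  change (G.ring k).val (G.dtC k i) = _
  simp only [dtC, dt, map_mul, map_prod, map_pow, map_intCast, map_ofNat, AlgHom.commutes,
    Algebra.smul_def]
  rfl

omit [Algebra k L] [IsScalarTower k L A] in
theorem ds_mem_ring (G : Geo a b x y A) (i : Ix) : G.ds k i ∈ G.ring k :=
  G.coe_dsC (k := k) i ▸ (G.dsC k i).2

omit [Algebra k L] [IsScalarTower k L A] in
theorem dt_mem_ring (G : Geo a b x y A) (i : Ix) : G.dt k i ∈ G.ring k :=
  G.coe_dtC (k := k) i ▸ (G.dtC k i).2

omit [Algebra k L] [IsScalarTower k L A] in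
/-- smoothness of the branch curve: on the basic open set, `h` and its two derivatives
`hh (ds) t`, `hh s (dt)` have no common zero -/
theorem smooth (hk : Good k) (G : Geo a b x y A) (ε : Eps) (e : Fin 3) :
    ∃ (n : ℕ) (c1 c2 c3 : A), c1 ∈ G.ring k ∧ c2 ∈ G.ring k ∧ c3 ∈ G.ring k ∧
      c1 * hh (G.ds k) G.t e (sg ε e) + c2 * hh G.s (G.dt k) e (sg ε e) + c3 * G.h e (sg ε e) =
        G.gg ε e ^ n := by
  let v : Fin 3 → G.ring k := ![hh (G.dsC k) (G.tC k) e (sg ε e), hh (G.sC k) (G.dtC k) e (sg ε e),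
    hh (G.sC k) (G.tC k) e (sg ε e)]
  obtain ⟨n, hn⟩ := exists_pow_mem_of_points (Ideal.span (Set.range v))
    (hh (G.sC k) (G.tC k) (e + 1) (sg ε (e + 1)) * hh (G.sC k) (G.tC k) (e + 2) (sg ε (e + 2))) (by
    intro K _ φ hφ
    have h0 := hφ _ (Ideal.subset_span ⟨0, rfl⟩)
    have h1 := hφ _ (Ideal.subset_span ⟨1, rfl⟩)
    have h2 := hφ _ (Ideal.subset_span ⟨2, rfl⟩)
    have two : (2 : k) ≠ 0 := by exact_mod_cast hk 2 (by norm_num) (by norm_num)
    have hu : φ (algebraMap k _ 2⁻¹) ≠ 0 :=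
      (map_ne_zero (φ.comp (algebraMap k (G.ring k)))).mpr (inv_ne_zero two)
    rw [map_mul, map_hh, map_hh]
    refine pt_smooth (good_of_ringHom hk (φ.comp (algebraMap k _))) (G.sC_sq φ) (G.tC_sq φ) hu
      (σ := sg ε e) ?_ ?_ ?_ _ _
    · rw [← h0]
      change _ = φ (hh (G.dsC k) (G.tC k) e (sg ε e))
      simp only [map_hh, dsC, map_mul, map_prod, map_pow, map_intCast, map_natCast]
    · rw [← h1]
      change _ = φ (hh (G.sC k) (G.dtC k) e (sg ε e))
      simp only [map_hh, dtC, map_mul, map_prod, map_pow, map_intCast, map_ofNat]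
    · rw [← h2]
      exact (map_hh φ _ _ _ _).symm)
  obtain ⟨c, hc⟩ := Ideal.mem_span_range_iff_exists_fun.mp hn
  refine ⟨n, c 0, c 1, c 2, (c 0).2, (c 1).2, (c 2).2, ?_⟩
  have h1 := congrArg Subtype.val hc
  rw [Fin.sum_univ_three] at h1
  simp only [v, Matrix.cons_val_zero, Matrix.cons_val_one, Matrix.cons_val, Subalgebra.coe_add,
    Subalgebra.coe_mul, Subalgebra.coe_pow, coe_hh, coe_dsC, coe_dtC] at h1
  exact h1

end ring

section sheaf
variable {V : Type} [AddCommGroup V] [Module L V] [Module k V] [IsScalarTower k L V] [Module A V]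
  [IsScalarTower L A V]
  {V' : Type} [AddCommGroup V'] [Module L V'] [Module k V'] [IsScalarTower k L V'] [Module A V']
  [IsScalarTower L A V'] {G : Geo false false x y A}

omit [IsScalarTower L A V] in
theorem stable_one (E : PSh k x y V) : E.Stable (1 : A) 0 0 := by
  intro a b v hv
  simpa [PSh.chop] using hv

theorem stable_prod {E : PSh k x y V} {g : Ix → A} {d e : ℕ} (h : ∀ i, E.Stable (g i) d e)
    (c : Finset Ix) : E.Stable (∏ i ∈ c, g i) (c.card * d) (c.card * e) := by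
  induction c using Finset.induction_on with
  | empty => simpa using stable_one E
  | insert i c hi ih =>
    rw [Finset.prod_insert hi, Finset.card_insert_of_notMem hi, add_mul, add_mul, one_mul, one_mul,
      mul_comm (g i)]
    exact ih.mul (h i)

theorem ops_of_range {E : PSh k x y V} {ι : Type} [Finite ι] {g : ι → A} {e : ℕ}
    (h1 : Submodule.span L (Set.range g) = ⊤) (h2 : ∀ i, E.fib.OpStable (g i) e) :
    E.fib.Ops A e := by
  refine ⟨(Set.finite_range g).toFinset, by rw [Set.Finite.coe_toFinset, h1], fun a ha => ?_⟩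
  obtain ⟨i, rfl⟩ := (Set.Finite.mem_toFinset _).mp ha
  exact h2 i

theorem Stab.ops {E : PSh k x y V} (h : G.Stab E) : E.fib.Ops A 15 := by
  refine ops_of_range G.span_monomials fun c => ?_
  have h1 : E.Stable (if c.2.2 then G.w else 1) (3 * m4) 3 := by
    split_ifs
    · exact h.w none
    · exact (stable_one E).mono (Nat.zero_le _) (Nat.zero_le _)
  have h2 : c.2.1.card ≤ 6 := (Finset.card_le_univ _).trans (by simp)
  exact ((((stable_prod h.s c.1).mul (stable_prod h.t c.2.1)).mul h1).mono le_rfl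
    (by omega)).fib

theorem Stab.tw {E : PSh k x y V} (h : G.Stab E) (i j : ℤ) : G.Stab (E.tw i j) :=
  ⟨fun i' => (h.s i').tw i j, fun i' => (h.t i').tw i j, fun ε => (h.w ε).tw i j⟩

theorem Stab.inf {E : PSh k x y V} (h : G.Stab E) (U : Submodule A V) :
    G.Stab (E.inf (U.restrictScalars L)) :=
  ⟨fun i => (h.s i).inf U, fun i => (h.t i).inf U, fun ε => (h.w ε).inf U⟩

theorem Stab.map {E : PSh k x y V} (h : G.Stab E) (f : V →ₗ[A] V') :
    G.Stab (E.map (f.restrictScalars L)) :=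
  ⟨fun i => (h.s i).map f, fun i => (h.t i).map f, fun ε => (h.w ε).map f⟩

theorem Stab.comap {E : PSh k x y V'} (h : G.Stab E) (f : V →ₗ[A] V') :
    G.Stab (E.comap (f.restrictScalars L)) :=
  ⟨fun i => (h.s i).comap f, fun i => (h.t i).comap f, fun ε => (h.w ε).comap f⟩

/-- a sheaf stable under `s` and `t` has chart modules over the chart rings -/
theorem ring_smul_mem [Algebra k A] [IsScalarTower k L A] [IsScalarTower k A V]
    {E : PSh k x y V} (hs : ∀ i, E.Stable (G.s i) (2 * m4) 0) (ht : ∀ i, E.Stable (G.t i) 0 2)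
    (a b : Bool) {c : A} (hc : c ∈ (G.chart a b).ring k) {v : V} (hv : v ∈ E.ch a b) :
    c • v ∈ E.ch a b := by
  induction hc using Algebra.adjoin_induction generalizing v with
  | mem z hz =>
    rcases hz with ((rfl | rfl) | ⟨i, rfl⟩) | ⟨i, rfl⟩
    · rw [algebraMap_smul]
      exact E.smul_x a b v hv
    · rw [algebraMap_smul]
      exact E.smul_y a b v hv
    · exact hs i a b v hv
    · exact ht i a b v hv
  | algebraMap r =>
    rw [algebraMap_smul]
    exact Submodule.smul_mem _ r hv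
  | add p q _ _ hp hq =>
    rw [add_smul]
    exact add_mem (hp hv) (hq hv)
  | mul p q _ _ hp hq =>
    rw [mul_smul]
    exact hp (hq hv)

end sheaf

end Geo
end Vale.Agent.P190
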