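import Vale.Agent.P190.Step
import Vale.Agent.P190.Geo

/-! The comparison along the double cover branched along the curve of negative
self-intersection: local analysis. -/

namespace Vale.Agent.P190

variable {k : Type} [Field k] {L : Type} [Field L] [Algebra k L] {x y : Lˣ}
  {A : Type} [CommRing A] [Algebra L A] [Algebra k A] [IsScalarTower k L A]
  {V : Type} [AddCommGroup V] [Module L V] [Module k V] [IsScalarTower k L V] [Module A V]
  [IsScalarTower L A V] [IsScalarTower k A V]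

namespace PSh

/-- a depth property of the graded pieces of the filtration by powers of the ideal -/
theorem YY_depth {ι : Type} [Fintype ι] (p : ℕ) [Fact p.Prime] [CharP k p] (hp : p ≠ 2)
    {W : PSh k x y V} {w : ι → A} {d e : ℕ} (hcov : W.Covered p w d e) (hh : W.IsHull)
    (n : ℕ) {a b : Bool} {v : V} (hv : v ∈ (YY w d e W n).ch a b) {z z' : L}
    (hz : z ∈ Algebra.adjoin k {((cs x a : Lˣ) : L)})
    (hz' : z' ∈ Algebra.adjoin k {((cs y b : Lˣ) : L)}) (hz0 : z ≠ 0) (hz0' : z' ≠ 0)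
    (h1 : z • v ∈ (YY w d e W (n + 1)).ch a b) (h2 : z' • v ∈ (YY w d e W (n + 1)).ch a b) :
    v ∈ (YY w d e W (n + 1)).ch a b := by
  obtain ⟨J, _, g, i0, hg, hloc⟩ := hcov a b
  obtain ⟨h, hph⟩ := (Fact.out : p.Prime).odd_of_ne_two hp
  obtain ⟨m, rfl⟩ : ∃ m, h = m + 1 :=
    ⟨h - 1, by have := (Fact.out : p.Prime).two_le; omega⟩
  refine mem_of_cover (g := g) (fun n' => ?_) fun j => ?_
  · obtain ⟨c, hc, h3⟩ := hg n'
    exact ⟨c, fun j => stab_le_YY W w d e _ a b (hc j), h3⟩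
  have H := hloc j
  have hY := fun n v hv => (mem_loc_YY (v := v) H n).1
    (le_loc (stab_le_YY W w d e n a b H.g_stab) hv)
  obtain ⟨qa, hqa, qb, hqb, e0⟩ := hY n v hv
  refine (mem_loc_YY H (n + 1)).2 ?_
  obtain ⟨D, hD, hπ, u, hu, u', hu', c, hc, hder, huu⟩ := H.der
  have hf := stab_le_loc (g j) H.sq
  have hpw := stab_le_loc (g j) H.pw
  have hw := H.unit_w
  have hgs := H.g_stab
  generalize chop x y a b (w (i0 j)) d e = w0 at *
  have key : ∀ z ∈ chartRing k x y a b, z • v ∈ (YY w d e W (n + 1)).ch a b →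
      z • w0 ^ (2 * m + 1) • qa ∈ loc (g j) (W.ch a b) := by
    intro z hz h3
    obtain ⟨qc, hqc, qd, hqd, e1⟩ := hY _ _ h3
    have hZ : algebraMap L A z ∈ stab A (loc (g j) (W.ch a b)) :=
      stab_le_loc _ fun v hv => by
        rw [algebraMap_smul]; exact W.chartRing_smul_mem a b hz hv
    rw [← algebraMap_smul A z] at e1 ⊢
    generalize algebraMap L A z = Z at *
    have h5 : Z • qa - w0 ^ 2 • qd = w0 • (qc - Z • qb) := by
      refine ((hw.pow n).smul_left_cancel).1 ?_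
      rw [← e0] at e1
      linear_combination (norm := module) -e1
    obtain ⟨q, hq, q', hq', h8⟩ := key_lemma p hD hf hu hu' hc hder huu hπ (n := m + 1) (by omega)
      (sub_mem (hZ _ hqa) (hf _ hqd)) (sub_mem hqc (hZ _ hqb))
      (by rw [h5, smul_smul, hph, ← pow_mul, ← pow_succ])
    have h9 : Z • w0 ^ (2 * m + 1) • qa =
        w0 ^ p • (q + qd) + (w0 ^ 2) ^ (2 * m + 2) • q' := by
      rw [smul_comm, sub_eq_iff_eq_add.1 h8, hph]
      module
    rw [h9]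
    exact add_mem (hpw _ (add_mem hq hqd)) ((stab A _).pow_mem hf _ _ hq')
  obtain ⟨N, hN⟩ := key z (Algebra.adjoin_mono (by simp) hz) h1
  obtain ⟨N', hN'⟩ := key z' (Algebra.adjoin_mono (by simp) hz') h2
  have h3 : w0 ^ (2 * m + 1) • qa ∈ loc (g j) (W.ch a b) :=
    (mem_loc hgs).2 ⟨max N N', hh a b _ z hz z' hz' hz0 hz0'
      (by rw [smul_comm]; exact hN _ (le_max_left _ _))
      (by rw [smul_comm]; exact hN' _ (le_max_right _ _))⟩
  obtain ⟨q, hq, q', hq', h8⟩ := key_lemma p hD hf hu hu' hc hder huu hπ (n := 2 * m + 2)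
    (by omega) hqa h3 (by rw [hph]; module)
  refine ⟨(w0 ^ 2) ^ (m + 1) • q' + qb, add_mem ((stab A _).pow_mem hf _ _ hq') hqb, q, hq, ?_⟩
  rw [← e0, h8, hph]
  module

end PSh

namespace Geo

/-- the equation of the preimage of the diagonal as an element of `A` -/
def dl (_G : Geo false false x y A) : A := algebraMap L A (del false false (x : L) (y : L))

/-- the product `Θ` of bidegree `(6 m4, 6)` -/
def Th {a b : Bool} {x y : Lˣ} (G : Geo a b x y A) : A :=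
  ∏ e : Fin 3, G.s (e, false) * G.t (e, true)

/-- the product of all twelve generators -/
def vt {a b : Bool} {x y : Lˣ} (G : Geo a b x y A) : A := (∏ i, G.s i) * ∏ i, G.t i

/-- the hypotheses for the last comparison step -/
structure DReady (p : ℕ) (G : Geo false false x y A) (W : PSh k x y V) : Prop where
  fg : W.FG
  full : W.Full
  s : ∀ i, W.Stable (G.s i) (2 * m4) 0
  t : ∀ i, W.Stable (G.t i) 0 2
  wp : ∀ ε, W.Stable (G.ww ε ^ p) (p * (3 * m4)) (p * 3)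
  hull : W.IsHull
  der : ∀ a b, ∃ Dx Dy : V →+ V, (∀ v ∈ W.ch a b, Dx v ∈ W.ch a b) ∧
    (∀ v ∈ W.ch a b, Dy v ∈ W.ch a b) ∧
    (∀ i, HasDer Dx ((G.chart a b).s i) ((G.chart a b).ds k i)) ∧
    (∀ i, HasDer Dx ((G.chart a b).t i) 0) ∧
    (∀ i, HasDer Dy ((G.chart a b).s i) 0) ∧
    (∀ i, HasDer Dy ((G.chart a b).t i) ((G.chart a b).dt k i)) ∧
    (∀ ε, HasDer Dx ((G.chart a b).ww ε ^ p) 0) ∧ ∀ ε, HasDer Dy ((G.chart a b).ww ε ^ p) 0

/-- the filtration by powers of the ideal of the ramification curve -/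
noncomputable abbrev Y (G : Geo false false x y A) (W : PSh k x y V) (n : ℕ) : PSh k x y V :=
  PSh.YY G.ww (3 * m4) 3 W n

omit [Algebra k A] [IsScalarTower k L A] in
theorem chop_dl (G : Geo false false x y A) (a b : Bool) :
    PSh.chop x y a b G.dl (4 * m4) 4 =
      algebraMap L A (del a b ((cs x a : Lˣ) : L) ((cs y b : Lˣ) : L)) := by
  rw [del_chart, map_mul, ← Algebra.smul_def]
  rfl

omit [Algebra k A] [IsScalarTower k L A] in
theorem chop_Th (G : Geo false false x y A) (a b : Bool) :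
    PSh.chop x y a b G.Th (6 * m4) 6 = (G.chart a b).Th := by
  simp only [Th, Fin.prod_univ_three, chart, ← PSh.chop_mul]
  congr 1

variable {p : ℕ} [Fact p.Prime] [CharP k p] {G : Geo false false x y A} {W : PSh k x y V}

omit [Fact p.Prime] [CharP k p] in
theorem dA_ring_le_stab (h : G.DReady p W) (a b : Bool) :
    (G.chart a b).ring k ≤ stab A (W.ch a b) := by
  refine Algebra.adjoin_le ?_
  rintro g (((rfl | rfl) | ⟨i, rfl⟩) | ⟨i, rfl⟩)
  · intro v hv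
    rw [algebraMap_smul]
    exact W.smul_x a b v hv
  · intro v hv
    rw [algebraMap_smul]
    exact W.smul_y a b v hv
  · exact h.s i a b
  · exact h.t i a b

theorem DReady.h2 (hk : Good k) (hc : IsCoord k x y) (h : G.DReady p W) (ε ε' : Eps) :
    W.Stable (G.ww ε * G.ww ε') (3 * m4 + 3 * m4) (3 + 3) := by
  intro a b
  rw [PSh.chop_mul, ← chart_ww, ← chart_ww]
  exact dA_ring_le_stab h a b (ww_mul_mem_ring hk (hc.chart a b) _ ε ε')

theorem DReady.ring_le_stab (h : G.DReady p W) (a b : Bool) :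
    (G.chart a b).ring k ≤ stab A (W.ch a b) :=
  dA_ring_le_stab h a b

omit [Algebra k A] in
theorem dA_hasDer_hh {D : V →+ V} {s t s' t' : Ix → A} (hs : ∀ i, HasDer D (s i) (s' i))
    (ht : ∀ i, HasDer D (t i) (t' i)) (e : Fin 3) (σ : Bool) :
    HasDer D (hh s t e σ) (hh s' t e σ + hh s t' e σ) := by
  have h1 := (hs (e, false)).mul (ht (e, true))
  have h2 := (hs (e, true)).mul (ht (e, false))
  cases σ
  · have h3 := h1.add h2.neg
    intro v
    have h4 := h3 v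
    simp only [hh, sub_eq_add_neg]
    rw [h4]
    module
  · have h3 := h1.add h2
    intro v
    have h4 := h3 v
    simp only [hh]
    rw [h4]
    module

omit [Algebra k A] in
theorem dA_hasDer_comb {D D' : V →+ V} {g g1 g2 : A} (h1 : HasDer D g g1) (h2 : HasDer D' g g2)
    (c c1 c2 : A) : HasDer (c • (c1 • D + c2 • D')) g (c * (c1 * g1 + c2 * g2)) := by
  intro v
  simp only [AddMonoidHom.smul_apply, AddMonoidHom.add_apply]
  rw [h1, h2]
  module

theorem dA_hh_mem {S : Subalgebra k A} {s t : Ix → A} (hs : ∀ i, s i ∈ S) (ht : ∀ i, t i ∈ S)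
    (e : Fin 3) (σ : Bool) : hh s t e σ ∈ S := by
  cases σ
  · exact sub_mem (mul_mem (hs _) (ht _)) (mul_mem (hs _) (ht _))
  · exact add_mem (mul_mem (hs _) (ht _)) (mul_mem (hs _) (ht _))

theorem DReady.locData (hk : Good k) (hc : IsCoord k x y) (h : G.DReady p W) (a b : Bool)
    (ε : Eps) (e : Fin 3) :
    LocData p (W.ch a b) (fun i => PSh.chop x y a b (G.ww i) (3 * m4) 3)
      ((G.chart a b).gg ε e) ε := by
  have hR := h.ring_le_stab a b
  have hc' := hc.chart a b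
  have hpw : (G.chart a b).ww ε ^ p ∈ stab A (W.ch a b) := by
    rw [chart_ww, ← PSh.chop_pow]
    exact h.wp ε a b
  obtain ⟨Dx, Dy, hDx, hDy, xs, xt, ys, yt, xw, yw⟩ := h.der a b
  simp only [← chart_ww]
  generalize G.chart a b = G' at *
  refine ⟨isUnit_gg hk hc' G' ε e, hR (gg_mem_ring G' ε e), isUnit_ww hk hc' G' ε, fun i => ?_,
    by rw [sq]; exact hR (ww_mul_mem_ring hk hc' G' ε ε), hpw, ?_⟩
  · obtain ⟨c, hc1, hc2⟩ := gg_mul_ww hk hc' G' ε e i
    exact ⟨c, hR hc1, hc2⟩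
  obtain ⟨n, c1, c2, c3, h1, h2, h3, hsm⟩ := smooth hk G' ε e
  have hx : ∀ e σ, HasDer Dx (G'.h e σ) (hh (G'.ds k) G'.t e σ) := fun e σ => by
    simpa [hh_eq] using dA_hasDer_hh xs xt e σ
  have hy : ∀ e σ, HasDer Dy (G'.h e σ) (hh G'.s (G'.dt k) e σ) := fun e σ => by
    simpa [hh_eq] using dA_hasDer_hh ys yt e σ
  have mx := fun e σ => dA_hh_mem (ds_mem_ring (k := k) G') (t_mem_ring G') e σ
  have my := fun e σ => dA_hh_mem (s_mem_ring (k := k) G') (dt_mem_ring G') e σ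
  have mh := h_mem_ring (k := k) G'
  obtain ⟨gx, mgx, hgx⟩ : ∃ gx ∈ G'.ring k, HasDer Dx (G'.gg ε e) gx :=
    ⟨_, add_mem (mul_mem (mx _ _) (mh _ _)) (mul_mem (mh _ _) (mx _ _)), (hx _ _).mul (hx _ _)⟩
  obtain ⟨gy, mgy, hgy⟩ : ∃ gy ∈ G'.ring k, HasDer Dy (G'.gg ε e) gy :=
    ⟨_, add_mem (mul_mem (my _ _) (mh _ _)) (mul_mem (mh _ _) (my _ _)), (hy _ _).mul (hy _ _)⟩
  have hsq := ww_sq' hk hc' G' ε e
  have mg := gg_mem_ring (k := k) G' ε e
  obtain ⟨g, hg⟩ := isUnit_gg hk hc' G' ε e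
  rw [← hg] at hsq mg hgx hgy hsm ⊢
  have hi := inv_mem_stab_loc (hR mg)
  have hL := hR.trans (stab_le_loc (g : A))
  have hin := (stab A _).pow_mem hi n
  have mg' : ((g⁻¹ : Aˣ) : A) ^ n * (c1 * gx + c2 * gy) ∈ stab A (loc (g : A) (W.ch a b)) :=
    mul_mem hin (hL (add_mem (mul_mem h1 mgx) (mul_mem h2 mgy)))
  refine ⟨((g⁻¹ : Aˣ) : A) ^ n • (c1 • Dx + c2 • Dy), fun v hv => ?_, ?_, _, ?_, _, hi,
    ((g⁻¹ : Aˣ) : A) ^ 2 * (((g⁻¹ : Aˣ) : A) ^ n * (c1 * gx + c2 * gy) -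
      g * ((g⁻¹ : Aˣ) : A) ^ n * c3), ?_, by
      rw [hsq]
      exact (dA_hasDer_comb hgx hgy _ _ _).mul (dA_hasDer_comb (hx _ _) (hy _ _) _ _ _), ?_⟩
  · exact hin _ (add_mem (hL h1 _ (hgx.loc_mem hDx (hR mg) (hR mgx) hv))
      (hL h2 _ (hgy.loc_mem hDy (hR mg) (hR mgy) hv)))
  · simpa using dA_hasDer_comb (xw ε) (yw ε) (((g⁻¹ : Aˣ) : A) ^ n) c1 c2
  · exact add_mem (mul_mem mg' (hL (mh _ _))) (mul_mem (hL mg) (mul_mem hin
      (hL (add_mem (mul_mem h1 (mx _ _)) (mul_mem h2 (my _ _))))))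
  · exact mul_mem (pow_mem hi 2) (sub_mem mg' (mul_mem (mul_mem (hL mg) hin) (hL h3)))
  · have e1 : ((g⁻¹ : Aˣ) : A) * g = 1 := g.inv_mul
    have e2 : ((g⁻¹ : Aˣ) : A) ^ n * g ^ n = 1 := by rw [← mul_pow, e1, one_pow]
    rw [hsq, eq_sub_of_add_eq hsm]
    generalize ((g⁻¹ : Aˣ) : A) ^ n = r at *
    generalize ((g⁻¹ : Aˣ) : A) = t at *
    linear_combination (t * g) * e2 + (1 - t * (r * (c1 * gx + c2 * gy)) * G'.h e (sg ε e) +
      t * g * r * c3 * G'.h e (sg ε e)) * e1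

theorem DReady.covered (hk : Good k) (hc : IsCoord k x y) (h : G.DReady p W) :
    W.Covered p G.ww (3 * m4) 3 := by
  intro a b
  refine ⟨Eps × Fin 3, inferInstance, fun j => (G.chart a b).gg j.1 j.2, Prod.fst, fun n => ?_,
    fun j => h.locData hk hc a b j.1 j.2⟩
  obtain ⟨c, hc1, hc2⟩ := cover hk (G.chart a b) n
  exact ⟨c, fun j => h.ring_le_stab a b (hc1 j), hc2⟩

/-- membership in a term of the filtration is checked on the basic open sets -/
theorem DReady.mem_Y (hk : Good k) (h : G.DReady p W) (n : ℕ) {a b : Bool} {v : V}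
    (hv : ∀ ε e, v ∈ loc ((G.chart a b).gg ε e) ((G.Y W n).ch a b)) : v ∈ (G.Y W n).ch a b := by
  refine mem_of_cover (g := fun j : Eps × Fin 3 => (G.chart a b).gg j.1 j.2) (fun m => ?_)
    fun j => hv j.1 j.2
  obtain ⟨c, hc1, hc2⟩ := cover hk (G.chart a b) m
  exact ⟨c, fun j => PSh.stab_le_YY W _ _ _ n a b (h.ring_le_stab a b (hc1 j)), hc2⟩

/-- on a basic open set the filtration is the filtration by powers of `ww ε` -/
theorem DReady.mem_loc_Y (hk : Good k) (hc : IsCoord k x y) (h : G.DReady p W) (n m : ℕ)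
    (a b : Bool) (ε : Eps) (e : Fin 3) {v : V} :
    v ∈ loc ((G.chart a b).gg ε e) ((G.Y W (m + n)).ch a b) ↔
      ∃ u ∈ loc ((G.chart a b).gg ε e) ((G.Y W n).ch a b), (G.chart a b).ww ε ^ m • u = v := by
  have H := h.locData hk hc a b ε e
  have hs := PSh.stab_le_YY W G.ww (3 * m4) 3 n a b
  rw [chart_ww, Y, PSh.YY, PSh.NN_add]
  refine PSh.mem_loc_NN (E := G.Y W n) (hs H.g_stab) (fun i => ?_) H.unit_g m
  obtain ⟨c, h1, h2⟩ := H.flip i
  exact ⟨c, hs h1, h2⟩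

theorem DReady.dl_le (hk : Good k) (hc : IsCoord k x y) (h : G.DReady p W) (n : ℕ) :
    (G.Y W n).mul G.dl (4 * m4) 4 ≤ G.Y W (n + 2) := by
  intro a b v hv
  obtain ⟨u, hu, rfl⟩ := PSh.mem_mul.1 hv
  refine h.mem_Y hk _ fun ε e => ?_
  rw [add_comm, h.mem_loc_Y hk hc, chop_dl]
  have hs := (h.ring_le_stab a b).trans (PSh.stab_le_YY W G.ww (3 * m4) 3 n a b)
  have mg := hs (gg_mem_ring (G.chart a b) ε e)
  have h1 := ww_sq' hk (hc.chart a b) (G.chart a b) ε e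
  have h2 := h_mul (G.chart a b) e (sg ε e)
  obtain ⟨g, hg⟩ := isUnit_gg hk (hc.chart a b) (G.chart a b) ε e
  rw [← hg] at mg h1 ⊢
  refine ⟨_, inv_mem_stab_loc mg _ (le_loc mg (neg_mem (hs (h_mem_ring _ e (!sg ε e)) u hu))), ?_⟩
  rw [h1, smul_smul, mul_right_comm, Units.mul_inv, one_mul, smul_neg, smul_smul, h2, neg_smul,
    neg_neg]

theorem dA_ne_two (hk : Good k) : p ≠ 2 := fun e =>
  hk 2 two_pos (by norm_num) (e ▸ CharP.cast_eq_zero k p)

theorem dA_Px_mem (a : Bool) (z : L) (i : Ix) : Px a z i ∈ Algebra.adjoin k {z} :=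
  add_mem (intCast_mem _ _) (mul_mem (intCast_mem _ _)
    (pow_mem (Algebra.subset_adjoin (Set.mem_singleton z)) _))

theorem dA_Py_mem (a : Bool) (z : L) (i : Ix) : Py a z i ∈ Algebra.adjoin k {z} :=
  add_mem (intCast_mem _ _) (mul_mem (intCast_mem _ _)
    (pow_mem (Algebra.subset_adjoin (Set.mem_singleton z)) _))

theorem dA_del_mem (hk : Good k) (hc : IsCoord k x y) (h : G.DReady p W) (n : ℕ) {a b : Bool}
    {v : V} (hv : v ∈ (G.Y W n).ch a b) :
    del a b ((cs x a : Lˣ) : L) ((cs y b : Lˣ) : L) • v ∈ (G.Y W (n + 1)).ch a b := by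
  refine PSh.YY_succ_le (h.h2 hk hc) (n + 1) a b (h.dl_le hk hc n a b (PSh.mem_mul.2 ⟨v, hv, ?_⟩))
  rw [chop_dl, algebraMap_smul]

theorem DReady.Px_reg (hk : Good k) (hc : IsCoord k x y) (h : G.DReady p W) (n : ℕ) {a b : Bool}
    (i : Ix) {v : V} (hv : v ∈ (G.Y W n).ch a b)
    (h1 : Px a ((cs x a : Lˣ) : L) i • v ∈ (G.Y W (n + 1)).ch a b) :
    v ∈ (G.Y W (n + 1)).ch a b := by
  refine PSh.YY_depth p (dA_ne_two hk) (h.covered hk hc) h.hull n hv (dA_Px_mem a _ i)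
    (dA_Py_mem b _ i) (Px_ne_zero hk (hc.chart a b) a i) (Py_ne_zero hk (hc.chart a b) b i) h1 ?_
  obtain ⟨j, hj⟩ := exists_ne i
  obtain ⟨c, c', e1⟩ := Px_bezout hk a ((cs x a : Lˣ) : L) hj.symm
  have e2 := Px_mul_Py_sub a b ((cs x a : Lˣ) : L) ((cs y b : Lˣ) : L) i j
  have m : ∀ l, Py b ((cs y b : Lˣ) : L) l • Px a ((cs x a : Lˣ) : L) i • v ∈
      (G.Y W (n + 1)).ch a b := fun l =>
    PSh.chartRing_smul_mem _ a b (Algebra.adjoin_mono (by simp) (dA_Py_mem b _ l)) h1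
  have e3 : Py b ((cs y b : Lˣ) : L) i • v =
      c • Py b ((cs y b : Lˣ) : L) i • Px a ((cs x a : Lˣ) : L) i • v +
      c' • (Py b ((cs y b : Lˣ) : L) j • Px a ((cs x a : Lˣ) : L) i • v -
        (av i - av j) • del a b ((cs x a : Lˣ) : L) ((cs y b : Lˣ) : L) • v) := by
    rw [← Int.cast_smul_eq_zsmul L, smul_smul _ (del _ _ _ _), ← e2, ← algebraMap_smul L c,
      ← algebraMap_smul L c']
    rw [Algebra.smul_def, Algebra.smul_def] at e1
    linear_combination (norm := module) (-Py b ((cs y b : Lˣ) : L) i * e1) • v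
  rw [e3]
  exact add_mem (Submodule.smul_mem _ _ (m i)) (Submodule.smul_mem _ _
    (sub_mem (m j) (zsmul_mem (dA_del_mem hk hc h n hv) _)))

theorem DReady.Py_reg (hk : Good k) (hc : IsCoord k x y) (h : G.DReady p W) (n : ℕ) {a b : Bool}
    (i : Ix) {v : V} (hv : v ∈ (G.Y W n).ch a b)
    (h1 : Py b ((cs y b : Lˣ) : L) i • v ∈ (G.Y W (n + 1)).ch a b) :
    v ∈ (G.Y W (n + 1)).ch a b := by
  refine PSh.YY_depth p (dA_ne_two hk) (h.covered hk hc) h.hull n hv (dA_Px_mem a _ i)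
    (dA_Py_mem b _ i) (Px_ne_zero hk (hc.chart a b) a i) (Py_ne_zero hk (hc.chart a b) b i) ?_ h1
  obtain ⟨j, hj⟩ := exists_ne i
  obtain ⟨c, c', e1⟩ := Py_bezout hk b ((cs y b : Lˣ) : L) hj.symm
  have e2 := Px_mul_Py_sub a b ((cs x a : Lˣ) : L) ((cs y b : Lˣ) : L) i j
  have m : ∀ l, Px a ((cs x a : Lˣ) : L) l • Py b ((cs y b : Lˣ) : L) i • v ∈
      (G.Y W (n + 1)).ch a b := fun l =>
    PSh.chartRing_smul_mem _ a b (Algebra.adjoin_mono (by simp) (dA_Px_mem a _ l)) h1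
  have e3 : Px a ((cs x a : Lˣ) : L) i • v =
      c • Px a ((cs x a : Lˣ) : L) i • Py b ((cs y b : Lˣ) : L) i • v +
      c' • (Px a ((cs x a : Lˣ) : L) j • Py b ((cs y b : Lˣ) : L) i • v +
        (av i - av j) • del a b ((cs x a : Lˣ) : L) ((cs y b : Lˣ) : L) • v) := by
    rw [← Int.cast_smul_eq_zsmul L, smul_smul _ (del _ _ _ _), ← e2, ← algebraMap_smul L c,
      ← algebraMap_smul L c']
    rw [Algebra.smul_def, Algebra.smul_def] at e1
    linear_combination (norm := module) (-Px a ((cs x a : Lˣ) : L) i * e1) • v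
  rw [e3]
  exact add_mem (Submodule.smul_mem _ _ (m i)) (Submodule.smul_mem _ _
    (add_mem (m j) (zsmul_mem (dA_del_mem hk hc h n hv) _)))

theorem DReady.Th_reg (hk : Good k) (hc : IsCoord k x y) (h : G.DReady p W) (n : ℕ) {a b : Bool}
    {v : V} (hv : v ∈ (G.Y W n).ch a b)
    (h1 : (G.chart a b).Th ^ 2 • v ∈ (G.Y W (n + 1)).ch a b) :
    v ∈ (G.Y W (n + 1)).ch a b := by
  have e1 : (G.chart a b).Th ^ 2 = algebraMap L A (∏ e : Fin 3,
      Px a ((cs x a : Lˣ) : L) (e, false) * Py b ((cs y b : Lˣ) : L) (e, true)) := by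
    simp only [Th, ← Finset.prod_pow, mul_pow, map_prod, map_mul, (G.chart a b).s_sq,
      (G.chart a b).t_sq]
  rw [e1, algebraMap_smul] at h1
  have hmul : ∀ q q' : L, (q ∈ PSh.chartRing k x y a b ∧ ∀ v ∈ (G.Y W n).ch a b,
      q • v ∈ (G.Y W (n + 1)).ch a b → v ∈ (G.Y W (n + 1)).ch a b) →
      (q' ∈ PSh.chartRing k x y a b ∧ ∀ v ∈ (G.Y W n).ch a b,
      q' • v ∈ (G.Y W (n + 1)).ch a b → v ∈ (G.Y W (n + 1)).ch a b) →
      (q * q' ∈ PSh.chartRing k x y a b ∧ ∀ v ∈ (G.Y W n).ch a b,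
      (q * q') • v ∈ (G.Y W (n + 1)).ch a b → v ∈ (G.Y W (n + 1)).ch a b) :=
    fun q q' h2 h3 => ⟨mul_mem h2.1 h3.1, fun v hv h4 => h3.2 v hv (h2.2 _
      (PSh.chartRing_smul_mem _ a b h3.1 hv) (by rwa [mul_smul] at h4))⟩
  refine (Finset.prod_induction _ (fun q => q ∈ PSh.chartRing k x y a b ∧ ∀ v ∈ (G.Y W n).ch a b,
      q • v ∈ (G.Y W (n + 1)).ch a b → v ∈ (G.Y W (n + 1)).ch a b) hmul
    ⟨one_mem _, fun v _ h2 => by rwa [one_smul] at h2⟩ fun e _ => hmul _ _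
      ⟨Algebra.adjoin_mono (by simp) (dA_Px_mem a _ _), fun v hv => h.Px_reg hk hc n _ hv⟩
      ⟨Algebra.adjoin_mono (by simp) (dA_Py_mem b _ _), fun v hv => h.Py_reg hk hc n _ hv⟩).2
    v hv h1

section DB

set_option linter.unusedSectionVars false

omit [Algebra k L] [Algebra L A] [IsScalarTower k L A] [Module L V]
  [IsScalarTower k L V] [IsScalarTower L A V] in
theorem DB.loc_of_pow {Q : Submodule k V} {g : A} (j : ℕ) {v : V} (h : g ^ j • v ∈ loc g Q) :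
    v ∈ loc g Q := by
  obtain ⟨n, hn⟩ := h
  refine ⟨n + j, fun m hm => ?_⟩
  obtain ⟨d, rfl⟩ := Nat.exists_eq_add_of_le' (le_of_add_le_right hm : j ≤ m)
  rw [pow_add, mul_smul]
  exact hn d (by omega)

omit [Algebra k L] [Algebra L A] [IsScalarTower k L A] [Module L V]
  [IsScalarTower k L V] [IsScalarTower L A V] in
theorem DB.of_nat (hk : Good k) {Q : Submodule k V} (c : ℕ) (h0 : 0 < c) (h1 : c ≤ 11) {v : V}
    (h : (c : A) • v ∈ Q) : v ∈ Q := by
  have := Q.smul_mem (c : k)⁻¹ h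
  rwa [← map_natCast (algebraMap k A), algebraMap_smul, inv_smul_smul₀ (hk c h0 h1)] at this

omit [IsScalarTower k L A] in
theorem DB.loc_mul {E : PSh k x y V} {g θ : A} {d e : ℕ} {a b : Bool} {u : V}
    (h : u ∈ loc g (E.ch a b)) : PSh.chop x y a b θ d e • u ∈ loc g ((E.mul θ d e).ch a b) := by
  obtain ⟨n, hn⟩ := h
  exact ⟨n, fun m hm => PSh.mem_mul.2 ⟨_, hn m hm, smul_comm _ _ _⟩⟩

omit [IsScalarTower k L A] in
theorem DB.stab_mul (E : PSh k x y V) (θ : A) (d e : ℕ) (a b : Bool) :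
    stab A (E.ch a b) ≤ stab A ((E.mul θ d e).ch a b) := by
  intro g hg v hv
  obtain ⟨u, hu, rfl⟩ := PSh.mem_mul.1 hv
  exact PSh.mem_mul.2 ⟨_, hg u hu, smul_comm _ _ _⟩

section alg
variable {a b : Bool} {x y : Lˣ} (G : Geo a b x y A)

/-- the first monomial of the edge `e` -/
def DB.AA (e : Fin 3) : A := G.s (e, false) * G.t (e, true)

/-- the second monomial of the edge `e` -/
def DB.BB (e : Fin 3) : A := G.s (e, true) * G.t (e, false)

/-- the equation of the diagonal on the chart -/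
def DB.de (_G : Geo a b x y A) : A := algebraMap L A (del a b (x : L) (y : L))

/-- first factor of the norm of `wt` -/
def DB.qq : A := DB.AA G 1 * DB.BB G 2 + DB.BB G 1 * DB.AA G 2

/-- the conjugate of `qq` -/
def DB.qb : A := DB.AA G 1 * DB.BB G 2 - DB.BB G 1 * DB.AA G 2

/-- the norm of `qq` divided by the equation of the diagonal -/
def DB.rr (a b : Bool) (x y : L) : L :=
  Px a x (1, true) * Py b y (1, false) - Px a x (2, true) * Py b y (2, false)

omit [Algebra k L] [IsScalarTower k L A]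

theorem DB.AA_mem (e : Fin 3) : DB.AA G e ∈ G.ring k := mul_mem (G.s_mem_ring _) (G.t_mem_ring _)

theorem DB.BB_mem (e : Fin 3) : DB.BB G e ∈ G.ring k := mul_mem (G.s_mem_ring _) (G.t_mem_ring _)

theorem DB.qq_mem : DB.qq G ∈ G.ring k :=
  add_mem (mul_mem (DB.AA_mem G _) (DB.BB_mem G _)) (mul_mem (DB.BB_mem G _) (DB.AA_mem G _))

theorem DB.qb_mem : DB.qb G ∈ G.ring k :=
  sub_mem (mul_mem (DB.AA_mem G _) (DB.BB_mem G _)) (mul_mem (DB.BB_mem G _) (DB.AA_mem G _))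

omit [Algebra k A]

theorem DB.h_true (e : Fin 3) : G.h e true = DB.AA G e + DB.BB G e := rfl

theorem DB.h_false (e : Fin 3) : G.h e false = DB.AA G e - DB.BB G e := rfl

theorem DB.h_mul (e : Fin 3) (σ : Bool) : G.h e σ * G.h e (!σ) = -DB.de G := G.h_mul e σ

theorem DB.Th_eq : G.Th = DB.AA G 0 * DB.AA G 1 * DB.AA G 2 := Fin.prod_univ_three _

theorem DB.vt_eq : G.vt = G.Th * (DB.BB G 0 * DB.BB G 1 * DB.BB G 2) := by
  simp only [vt, DB.Th_eq, DB.AA, DB.BB, Fintype.prod_prod_type, Fin.prod_univ_three,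
    Fintype.prod_bool]
  ring

theorem DB.h_add (e : Fin 3) (σ : Bool) : G.h e σ + G.h e (!σ) = 2 * DB.AA G e := by
  cases σ <;> simp only [Bool.not_true, Bool.not_false, DB.h_true, DB.h_false] <;> ring

theorem DB.eight (ε : Eps) (e : Fin 3) : ((8 : ℕ) : A) * G.Th =
    (G.h e (sg ε e) + G.h e (!sg ε e)) * (G.h (e + 1) (sg ε (e + 1)) +
      G.h (e + 1) (!sg ε (e + 1))) * (G.h (e + 2) (sg ε (e + 2)) +
        G.h (e + 2) (!sg ε (e + 2))) := by
  rw [DB.h_add, DB.h_add, DB.h_add, DB.Th_eq]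
  fin_cases e
  · change _ = 2 * DB.AA G 0 * (2 * DB.AA G 1) * (2 * DB.AA G 2)
    push_cast
    ring
  · change _ = 2 * DB.AA G 1 * (2 * DB.AA G 2) * (2 * DB.AA G 0)
    push_cast
    ring
  · change _ = 2 * DB.AA G 2 * (2 * DB.AA G 0) * (2 * DB.AA G 1)
    push_cast
    ring

theorem DB.qq_mul : DB.qq G * DB.qb G = DB.de G * algebraMap L A (DB.rr a b (x : L) (y : L)) := by
  have h1 := DB.h_mul G 1 true
  have h2 := DB.h_mul G 2 true
  have h3 : algebraMap L A (DB.rr a b (x : L) (y : L)) = DB.BB G 1 ^ 2 - DB.BB G 2 ^ 2 := by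
    rw [DB.rr, map_sub, map_mul, map_mul, ← G.s_sq, ← G.s_sq, ← G.t_sq, ← G.t_sq, DB.BB, DB.BB]
    ring
  rw [Bool.not_true, DB.h_true, DB.h_false] at h1 h2
  rw [h3, DB.qq, DB.qb]
  linear_combination DB.BB G 2 ^ 2 * h1 - DB.BB G 1 ^ 2 * h2

end alg

theorem DB.Th_mem {a b : Bool} {x y : Lˣ} (G : Geo a b x y A) : G.Th ∈ G.ring k := by
  rw [DB.Th_eq]
  exact mul_mem (mul_mem (DB.AA_mem G _) (DB.AA_mem G _)) (DB.AA_mem G _)

theorem DB.sgn_mem (S : Subalgebra k A) (σ : Bool) : (if σ then 1 else -1 : A) ∈ S := by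
  cases σ
  · exact neg_mem (one_mem _)
  · exact one_mem _

theorem DB.X_comb {a b : Bool} {x y : Lˣ} (G : Geo a b x y A) (ε : Eps) :
    ∃ c : Fin 3 → A, (∀ i, c i ∈ G.ring k) ∧
      DB.AA G 0 ^ 2 * DB.qq G ^ 2 + G.h 0 true ^ 2 * (DB.AA G 1 * DB.AA G 2) ^ 2 -
        ((4 : ℕ) : A) * G.Th ^ 2 =
      c 0 * G.h 0 (sg ε 0) + c 1 * G.h 1 (sg ε 1) + c 2 * G.h 2 (sg ε 2) := by
  have hA := DB.AA_mem (k := k) G
  have hs := fun i => DB.sgn_mem (G.ring k) (sg ε i)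
  have h12 := mul_mem (hA 1) (hA 2)
  have hq := mul_mem (pow_mem (hA 0) 2)
    (sub_mem (DB.qq_mem G) (mul_mem (add_mem (hs 1) (hs 2)) h12))
  refine ⟨![_, _, _], Fin.forall_fin_succ.2 ⟨mul_mem (mul_mem (pow_mem h12 2)
    (add_mem (G.h_mem_ring 0 true) (mul_mem (sub_mem (one_mem _) (hs 0)) (hA 0)))) (hs 0),
    Fin.forall_fin_two.2 ⟨mul_mem hq (mul_mem (hA 2) (hs 1)),
      mul_mem hq (mul_mem (hA 1) (hs 2))⟩⟩, ?_⟩
  rw [DB.Th_eq]
  rcases ε with _ | e
  · simp [sg, DB.h_true, DB.qq]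
    ring
  · fin_cases e <;> simp [sg, DB.h_true, DB.h_false, DB.qq] <;> ring

theorem DB.vt_comb {a b : Bool} {x y : Lˣ} (G : Geo a b x y A) (ε : Eps) :
    ∃ c : Fin 3 → A, (∀ i, c i ∈ G.ring k) ∧ -(G.vt - G.Th ^ 2) =
      c 0 * G.h 0 (!sg ε 0) + c 1 * G.h 1 (!sg ε 1) + c 2 * G.h 2 (!sg ε 2) := by
  have hA := DB.AA_mem (k := k) G
  have hB := DB.BB_mem (k := k) G
  have hs := fun i => DB.sgn_mem (G.ring k) (sg ε i)
  have hT := DB.Th_mem (k := k) G
  refine ⟨![_, _, _], Fin.forall_fin_succ.2 ⟨mul_mem hT (mul_mem (hA 1) (hA 2)),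
    Fin.forall_fin_two.2 ⟨mul_mem hT (mul_mem (mul_mem (hs 0) (hB 0)) (hA 2)),
      mul_mem hT (mul_mem (mul_mem (hs 0) (hB 0)) (mul_mem (hs 1) (hB 1)))⟩⟩, ?_⟩
  rw [DB.vt_eq, DB.Th_eq]
  rcases ε with _ | e
  · simp [sg, DB.h_false]
    ring
  · fin_cases e <;> simp [sg, DB.h_true, DB.h_false] <;> ring

theorem DB.wt_mul (hk : Good k) {a b : Bool} {x y : Lˣ} (hc : IsCoord k x y) (G : Geo a b x y A) :
    (G.ww none - G.ww (some 0)) * (G.ww none + G.ww (some 0)) =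
      ((2 : ℕ) : A) * (G.h 0 true * DB.qq G) := by
  have h1 := G.ww_sq hk hc none
  have h2 := G.ww_sq hk hc (some 0)
  have e1 : sg (some 0) 1 = false := by decide
  have e2 : sg (some 0) 2 = false := by decide
  have e0 : sg (some 0) 0 = true := by decide
  simp only [e0, e1, e2] at h2
  simp only [sg] at h1
  rw [DB.h_false, DB.h_false] at h2
  rw [DB.h_true G 1, DB.h_true G 2] at h1
  rw [DB.qq]
  push_cast
  linear_combination h1 - h2

theorem DB.two_lin (hk : Good k) {t : Lˣ} {x y : Lˣ} (hc : IsCoord k x y) {N : ℕ} (hN : 0 < N)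
    (ht : t = x ∨ t = y) {c c' : ℤ} (h1 : 6 ≤ c) (h2 : c ≤ 9) :
    2 * (1 + (t : L) ^ N) * (((2 * c - 7 : ℤ) : L) + (c' : L) * (t : L) ^ N) ≠ 0 := by
  have key : ∀ d d' : ℤ, d ≠ 0 → |d| ≤ 11 → (d : L) + (d' : L) * (t : L) ^ N ≠ 0 := by
    intro d d' h0 h1
    rcases ht with rfl | rfl
    · simpa using hc.four_ne_zero hN hN (c1 := d') (c2 := 0) (c3 := 0) (hk.intCast_ne_zero h0 h1)
    · simpa using hc.four_ne_zero hN hN (c1 := 0) (c2 := d') (c3 := 0) (hk.intCast_ne_zero h0 h1)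
  refine mul_ne_zero (mul_ne_zero ?_ ?_) (key _ _ (by omega) (by rw [abs_le]; omega))
  · simpa using key 2 0 (by decide) (by decide)
  · simpa using key 1 1 (by decide) (by decide)

theorem DB.rr_ne (hk : Good k) (hc : IsCoord k x y) : DB.rr false false (x : L) (y : L) ≠ 0 := by
  have h := hc.four_ne_zero (N := 4 * m4) (M := 4) (by have := m4_pos; omega) (by norm_num)
    (c0 := 7) (c1 := 8) (c2 := 8) (c3 := 9) (hk.intCast_ne_zero (by decide) (by decide))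
  have h2 := hc.four_ne_zero (N := 1) (M := 1) one_pos one_pos
    (c0 := 2) (c1 := 0) (c2 := 0) (c3 := 0) (hk.intCast_ne_zero (by decide) (by decide))
  refine ne_of_eq_of_ne ?_ (mul_ne_zero h2 h)
  simp only [DB.rr, Px, Py, av, cX, cY, Bool.not_false]
  generalize (x : L) ^ (4 * m4) = X
  norm_num
  ring

theorem DB.Px_mem (a : Bool) (t : L) (i : Ix) : Px a t i ∈ Algebra.adjoin k {t} := by
  rw [Px]
  exact add_mem (intCast_mem _ _) (mul_mem (intCast_mem _ _)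
    (pow_mem (Algebra.self_mem_adjoin_singleton k t) _))

theorem DB.Py_mem (b : Bool) (t : L) (i : Ix) : Py b t i ∈ Algebra.adjoin k {t} := by
  rw [Py]
  exact add_mem (intCast_mem _ _) (mul_mem (intCast_mem _ _)
    (pow_mem (Algebra.self_mem_adjoin_singleton k t) _))

theorem DB.zx (a : Bool) (t : L) :
    Px a t (1, false) * Px a t (1, true) - Px a t (2, false) * Px a t (2, true) =
      2 * (1 + t ^ (4 * m4)) * (((2 * cX a - 7 : ℤ) : L) +
        ((2 * cX (!a) - 7 : ℤ) : L) * t ^ (4 * m4)) := by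
  simp only [Px, av]
  generalize t ^ (4 * m4) = X
  norm_num
  ring

theorem DB.zy (b : Bool) (t : L) :
    Py b t (1, false) * Py b t (1, true) - Py b t (2, false) * Py b t (2, true) =
      2 * (1 + t ^ 4) * (((2 * cY b - 7 : ℤ) : L) + ((2 * cY (!b) - 7 : ℤ) : L) * t ^ 4) := by
  simp only [Py, av]
  norm_num
  ring

theorem DB.zx' (a b : Bool) (s t : L) : Py b t (0, false) *
    (Px a s (1, false) * Px a s (1, true) - Px a s (2, false) * Px a s (2, true)) =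
      Px a s (0, false) * DB.rr a b s t +
        (((2 : ℕ) : L) * Px a s (1, true) - ((4 : ℕ) : L) * Px a s (2, true)) * del a b s t := by
  simp only [DB.rr, Px, Py, del, av]
  generalize s ^ (4 * m4) = X
  norm_num
  ring

theorem DB.zy' (a b : Bool) (s t : L) : Px a s (0, false) *
    (Py b t (1, false) * Py b t (1, true) - Py b t (2, false) * Py b t (2, true)) =
      Py b t (0, false) * DB.rr a b s t -
        (((3 : ℕ) : L) * Py b t (1, false) - ((5 : ℕ) : L) * Py b t (2, false)) * del a b s t := by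
  simp only [DB.rr, Px, Py, del, av]
  generalize s ^ (4 * m4) = X
  norm_num
  ring

variable {a b : Bool} {ε : Eps} {e : Fin 3}

theorem DB.stY (h : G.DReady p W) (n : ℕ) :
    (G.chart a b).ring k ≤ stab A ((G.Y W n).ch a b) :=
  (h.ring_le_stab a b).trans (PSh.stab_le_YY W _ _ _ n a b)

variable (G W a b ε e) in
/-- sections of the filtration on a basic open set -/
noncomputable abbrev DB.Z (n : ℕ) : Submodule k V :=
  loc ((G.chart a b).gg ε e) ((G.Y W n).ch a b)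

theorem DB.stZ (h : G.DReady p W) (n : ℕ) : (G.chart a b).ring k ≤ stab A (DB.Z G W a b ε e n) :=
  (DB.stY h n).trans (stab_le_loc _)

theorem DB.toZ (h : G.DReady p W) (n : ℕ) : (G.Y W n).ch a b ≤ DB.Z G W a b ε e n :=
  le_loc (DB.stY h n ((G.chart a b).gg_mem_ring ε e))

variable (G W a b ε e) in
/-- operators raising the local filtration by two steps -/
def DB.Sm (c : A) : Prop := ∀ n, ∀ v ∈ DB.Z G W a b ε e n, c • v ∈ DB.Z G W a b ε e (n + 2)

omit [IsScalarTower k L A] in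
theorem DB.Sm.add {c c' : A} (h1 : DB.Sm G W a b ε e c) (h2 : DB.Sm G W a b ε e c') :
    DB.Sm G W a b ε e (c + c') := fun n v hv => by
  rw [add_smul]
  exact add_mem (h1 n v hv) (h2 n v hv)

theorem DB.Sm.mul (h : G.DReady p W) {r c : A} (hr : r ∈ (G.chart a b).ring k)
    (h1 : DB.Sm G W a b ε e c) : DB.Sm G W a b ε e (r * c) := fun n v hv => by
  rw [mul_smul]
  exact DB.stZ h _ hr _ (h1 n v hv)

variable (hk : Good k) (hc : IsCoord k x y) (h : G.DReady p W)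
include hk hc h

theorem DB.anti (n : ℕ) : (G.Y W (n + 1)).ch a b ≤ (G.Y W n).ch a b :=
  PSh.YY_succ_le (h.h2 hk hc) n a b

theorem DB.antiZ (n : ℕ) : DB.Z G W a b ε e (n + 1) ≤ DB.Z G W a b ε e n :=
  loc_mono _ (DB.anti hk hc h n)

theorem DB.memZ (n : ℕ) {v : V} : v ∈ DB.Z G W a b ε e (n + 2) ↔
    ∃ u ∈ DB.Z G W a b ε e n, (G.chart a b).ww ε ^ 2 • u = v := by
  rw [add_comm]
  exact h.mem_loc_Y hk hc n 2 a b ε e

theorem DB.Sm.of_pow (j : ℕ) {r c : A} (hr : r ∈ (G.chart a b).ring k)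
    (h1 : (G.chart a b).gg ε e ^ j * c = r * (G.chart a b).ww ε ^ 2) : DB.Sm G W a b ε e c :=
  fun n v hv => DB.loc_of_pow j (by
    rw [smul_smul, h1, mul_smul]
    exact DB.stZ h _ hr _ ((DB.memZ hk hc h n).2 ⟨v, hv, rfl⟩))

theorem DB.sm0 : DB.Sm G W a b ε e ((G.chart a b).h e (sg ε e)) :=
  DB.Sm.of_pow hk hc h 1 (one_mem _) (by
    rw [pow_one, one_mul, (G.chart a b).ww_sq' hk (hc.chart a b) ε e])

theorem DB.sm1 : DB.Sm G W a b ε e ((G.chart a b).h (e + 1) (!sg ε (e + 1))) :=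
  DB.Sm.of_pow hk hc h 2 (mul_mem ((G.chart a b).h_mem_ring e (!sg ε e))
    ((G.chart a b).h_mem_ring (e + 2) (sg ε (e + 2)))) (by
    have h1 := DB.h_mul (G.chart a b) e (sg ε e)
    have h2 := DB.h_mul (G.chart a b) (e + 1) (sg ε (e + 1))
    rw [(G.chart a b).ww_sq' hk (hc.chart a b) ε e]
    have h3 : (G.chart a b).gg ε e = (G.chart a b).h (e + 1) (sg ε (e + 1)) *
      (G.chart a b).h (e + 2) (sg ε (e + 2)) := rfl
    linear_combination ((G.chart a b).gg ε e * (G.chart a b).h (e + 2) (sg ε (e + 2))) *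
      (h2 - h1) + ((G.chart a b).gg ε e * (G.chart a b).h (e + 1) (!sg ε (e + 1))) * h3)

theorem DB.sm2 : DB.Sm G W a b ε e ((G.chart a b).h (e + 2) (!sg ε (e + 2))) :=
  DB.Sm.of_pow hk hc h 2 (mul_mem ((G.chart a b).h_mem_ring e (!sg ε e))
    ((G.chart a b).h_mem_ring (e + 1) (sg ε (e + 1)))) (by
    have h1 := DB.h_mul (G.chart a b) e (sg ε e)
    have h2 := DB.h_mul (G.chart a b) (e + 2) (sg ε (e + 2))
    rw [(G.chart a b).ww_sq' hk (hc.chart a b) ε e]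
    have h3 : (G.chart a b).gg ε e = (G.chart a b).h (e + 1) (sg ε (e + 1)) *
      (G.chart a b).h (e + 2) (sg ε (e + 2)) := rfl
    linear_combination ((G.chart a b).gg ε e * (G.chart a b).h (e + 1) (sg ε (e + 1))) *
      (h2 - h1) + ((G.chart a b).gg ε e * (G.chart a b).h (e + 2) (!sg ε (e + 2))) * h3)

theorem DB.sm8 : DB.Sm G W a b ε e (((8 : ℕ) : A) * (G.chart a b).Th -
    (G.chart a b).h e (!sg ε e) * (G.chart a b).gg ε e) := by
  have m := (G.chart a b).h_mem_ring (k := k)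
  have := (DB.Sm.mul h (mul_mem (add_mem (m (e + 1) (sg ε (e + 1))) (m (e + 1) (!sg ε (e + 1))))
    (add_mem (m (e + 2) (sg ε (e + 2))) (m (e + 2) (!sg ε (e + 2)))))
      (DB.sm0 (ε := ε) (e := e) hk hc h)).add
    ((DB.Sm.mul h (mul_mem (m e (!sg ε e)) (add_mem (m (e + 2) (sg ε (e + 2)))
      (m (e + 2) (!sg ε (e + 2))))) (DB.sm1 hk hc h)).add
    (DB.Sm.mul h (mul_mem (m e (!sg ε e)) (m (e + 1) (sg ε (e + 1)))) (DB.sm2 hk hc h)))
  refine Eq.subst ?_ this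
  rw [DB.eight _ ε e, gg]
  ring

theorem DB.smX : ∃ ε' : Eps, ∀ i, DB.Sm G W a b ε e ((G.chart a b).h i (sg ε' i)) := by
  have h0 := DB.sm0 (a := a) (b := b) (ε := ε) (e := e) hk hc h
  have h1 := DB.sm1 (a := a) (b := b) (ε := ε) (e := e) hk hc h
  have h2 := DB.sm2 (a := a) (b := b) (ε := ε) (e := e) hk hc h
  obtain ⟨ε', e0, e1, e2⟩ : ∃ ε' : Eps, sg ε' e = sg ε e ∧ sg ε' (e + 1) = (!sg ε (e + 1)) ∧
      sg ε' (e + 2) = !sg ε (e + 2) := by
    clear h0 h1 h2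
    revert ε e
    decide
  refine ⟨ε', fun i => ?_⟩
  obtain rfl | rfl | rfl : i = e ∨ i = e + 1 ∨ i = e + 2 := by
    clear h0 h1 h2 e0 e1 e2
    revert i e
    decide
  · rwa [e0]
  · rwa [e1]
  · rwa [e2]

omit h in
theorem DB.g_de : (G.chart a b).gg ε e * DB.de (G.chart a b) =
    -((G.chart a b).h e (!sg ε e) * (G.chart a b).ww ε ^ 2) := by
  rw [(G.chart a b).ww_sq' hk (hc.chart a b) ε e]
  linear_combination (G.chart a b).gg ε e * DB.h_mul (G.chart a b) e (sg ε e)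

theorem DB.Th_reg (n : ℕ) {v : V} (hv : v ∈ (G.Y W n).ch a b)
    (h1 : (G.chart a b).Th • v ∈ (G.Y W (n + 1)).ch a b) : v ∈ (G.Y W (n + 1)).ch a b :=
  h.Th_reg hk hc n hv (by
    rw [sq, mul_smul]
    exact DB.stY h _ (DB.Th_mem _) _ h1)

theorem DB.de_mem (n : ℕ) {v : V} (hv : v ∈ (G.Y W n).ch a b) :
    DB.de (G.chart a b) • v ∈ (G.Y W (n + 2)).ch a b :=
  h.dl_le hk hc n a b (PSh.mem_mul.2 ⟨v, hv, by rw [chop_dl, DB.de]⟩)

theorem DB.de_reg (n : ℕ) {v : V} (hv : v ∈ (G.Y W n).ch a b)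
    (h1 : DB.de (G.chart a b) • v ∈ (G.Y W (n + 3)).ch a b) : v ∈ (G.Y W (n + 1)).ch a b := by
  refine DB.Th_reg hk hc h n hv (DB.of_nat (A := A) hk 8 (by norm_num) (by norm_num)
    (h.mem_Y hk _ fun ε e => ?_))
  obtain ⟨u, hu, e1⟩ := (DB.memZ hk hc h (n + 1)).1 (DB.toZ (ε := ε) (e := e) h _ h1)
  have e2 : (G.chart a b).h e (!sg ε e) • v = -((G.chart a b).gg ε e • u) :=
    (((G.chart a b).isUnit_ww hk (hc.chart a b) ε).pow 2).smul_left_cancel.1 (by
      rw [smul_neg, smul_comm _ _ u, e1, smul_smul, smul_smul, DB.g_de hk hc, neg_smul, neg_neg,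
        mul_comm])
  have m := DB.stZ (ε := ε) (e := e) h (n + 1) ((G.chart a b).gg_mem_ring ε e)
  have := add_mem (DB.antiZ hk hc h _ (DB.sm8 hk hc h n v (DB.toZ h _ hv)))
    (m _ (neg_mem (m _ hu)))
  rwa [← e2, smul_smul, ← add_smul, mul_comm ((G.chart a b).gg ε e), sub_add_cancel,
    mul_smul] at this

theorem DB.rr_reg (n : ℕ) {v : V} (hv : v ∈ (G.Y W n).ch a b)
    (h1 : DB.rr a b ((cs x a : Lˣ) : L) ((cs y b : Lˣ) : L) • v ∈ (G.Y W (n + 1)).ch a b) :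
    v ∈ (G.Y W (n + 1)).ch a b := by
  have hp : p ≠ 2 := by
    rintro rfl
    exact hk 2 (by norm_num) (by norm_num) (CharP.cast_eq_zero k 2)
  have hP := DB.Px_mem (k := k) a ((cs x a : Lˣ) : L)
  have hQ := DB.Py_mem (k := k) b ((cs y b : Lˣ) : L)
  have lx : Algebra.adjoin k {((cs x a : Lˣ) : L)} ≤ PSh.chartRing k x y a b :=
    Algebra.adjoin_mono (Set.singleton_subset_iff.2 (Or.inl rfl))
  have ly : Algebra.adjoin k {((cs y b : Lˣ) : L)} ≤ PSh.chartRing k x y a b :=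
    Algebra.adjoin_mono (Set.singleton_subset_iff.2 (Or.inr rfl))
  have hd := DB.anti hk hc h _ (DB.de_mem hk hc h n hv)
  rw [DB.de, algebraMap_smul] at hd
  have hz := sub_mem (mul_mem (hP (1, false)) (hP (1, true)))
    (mul_mem (hP (2, false)) (hP (2, true)))
  have hz' := sub_mem (mul_mem (hQ (1, false)) (hQ (1, true)))
    (mul_mem (hQ (2, false)) (hQ (2, true)))
  have hX := cX_bounds a
  have hY := cY_bounds b
  have n1 := DB.two_lin hk (hc.chart a b) (N := 4 * m4) (by have := m4_pos; omega)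
    (Or.inl rfl) (c := cX a) (c' := 2 * cX (!a) - 7) hX.1 (by omega)
  have n2 := DB.two_lin hk (hc.chart a b) (N := 4) (by norm_num)
    (Or.inr rfl) (c := cY b) (c' := 2 * cY (!b) - 7) (by omega) hY.2
  rw [← DB.zx] at n1
  rw [← DB.zy] at n2
  refine PSh.YY_depth p hp (h.covered hk hc) h.hull n hv hz hz' n1 n2
    (h.Py_reg hk hc n (0, false) ((G.Y W n).chartRing_smul_mem a b (lx hz) hv) ?_)
    (h.Px_reg hk hc n (0, false) ((G.Y W n).chartRing_smul_mem a b (ly hz') hv) ?_)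
  · rw [smul_smul, DB.zx' a b, add_smul, mul_smul, mul_smul]
    exact add_mem ((G.Y W _).chartRing_smul_mem a b (lx (hP (0, false))) h1)
      ((G.Y W _).chartRing_smul_mem a b (lx (sub_mem (mul_mem (natCast_mem _ 2) (hP (1, true)))
        (mul_mem (natCast_mem _ 4) (hP (2, true))))) hd)
  · rw [smul_smul, DB.zy' a b, sub_smul, mul_smul, mul_smul]
    exact sub_mem ((G.Y W _).chartRing_smul_mem a b (ly (hQ (0, false))) h1)
      ((G.Y W _).chartRing_smul_mem a b (ly (sub_mem (mul_mem (natCast_mem _ 3) (hQ (1, false)))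
        (mul_mem (natCast_mem _ 5) (hQ (2, false))))) hd)

omit hk hc h [IsScalarTower k L A] [Algebra k A] [IsScalarTower k A V] in
theorem DB.ww_mem (n : ℕ) (ε : Eps) {v : V} (hv : v ∈ (G.Y W n).ch a b) :
    (G.chart a b).ww ε • v ∈ (G.Y W (n + 1)).ch a b := by
  rw [Y, PSh.YY_succ, chart_ww]
  exact PSh.stepB_mul_le_mulF _ G.ww _ _ ε a b (PSh.mem_mul.2 ⟨v, hv, rfl⟩)

theorem DB.wt_reg (n : ℕ) {v : V} (hv : v ∈ (G.Y W n).ch a b)
    (h1 : ((G.chart a b).ww none + (G.chart a b).ww (some 0)) • v ∈ (G.Y W (n + 2)).ch a b) :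
    v ∈ (G.Y W (n + 1)).ch a b := by
  have h2 := sub_mem (DB.ww_mem _ none h1) (DB.ww_mem _ (some 0) h1)
  rw [← sub_smul, smul_smul, DB.wt_mul hk (hc.chart a b), mul_smul] at h2
  replace h2 := DB.of_nat hk 2 (by norm_num) (by norm_num) h2
  have m := (G.chart a b).h_mem_ring (k := k) 0
  have hA := DB.AA_mem (k := k) (G.chart a b)
  have h3 : DB.qq (G.chart a b) • v ∈ (G.Y W (n + 1)).ch a b := by
    refine DB.de_reg hk hc h n (DB.stY h _ (DB.qq_mem _) _ hv) ?_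
    have := neg_mem (DB.stY h _ (m (!true)) _ h2)
    rwa [smul_smul, ← mul_assoc, mul_comm ((G.chart a b).h 0 (!true)), DB.h_mul, neg_mul, neg_smul,
      neg_neg, mul_smul] at this
  have h4 : (G.chart a b).h 0 true • v ∈ (G.Y W (n + 1)).ch a b := by
    have h5 := DB.stY h _ (m true) _ hv
    refine DB.rr_reg hk hc h n h5 (DB.de_reg hk hc h n ?_ ?_)
    · rw [← algebraMap_smul A]
      refine DB.stY h _ ?_ _ h5
      rw [DB.rr, map_sub, map_mul, map_mul, ← (G.chart a b).s_sq, ← (G.chart a b).s_sq,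
        ← (G.chart a b).t_sq, ← (G.chart a b).t_sq]
      exact sub_mem (mul_mem (pow_mem (s_mem_ring _ _) 2) (pow_mem (t_mem_ring _ _) 2))
        (mul_mem (pow_mem (s_mem_ring _ _) 2) (pow_mem (t_mem_ring _ _) 2))
    · have := DB.stY h _ (DB.qb_mem _) _ h2
      rw [smul_smul, mul_left_comm, mul_comm (DB.qb _), DB.qq_mul, mul_comm, mul_smul,
        mul_smul, algebraMap_smul] at this
      exact this
  have h6 : (DB.AA (G.chart a b) 0 ^ 2 * DB.qq (G.chart a b) ^ 2 + (G.chart a b).h 0 true ^ 2 *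
      (DB.AA (G.chart a b) 1 * DB.AA (G.chart a b) 2) ^ 2 -
        ((4 : ℕ) : A) * (G.chart a b).Th ^ 2) • v ∈ (G.Y W (n + 1)).ch a b :=
    h.mem_Y hk _ fun ε e => by
      obtain ⟨ε', hε⟩ := DB.smX (a := a) (b := b) (ε := ε) (e := e) hk hc h
      obtain ⟨c, c1, c2⟩ := DB.X_comb (k := k) (G.chart a b) ε'
      rw [c2]
      exact DB.antiZ hk hc h _ ((((hε 0).mul h (c1 0)).add ((hε 1).mul h (c1 1))).add
        ((hε 2).mul h (c1 2)) n v (DB.toZ h _ hv))
  refine h.Th_reg hk hc n hv (DB.of_nat (A := A) hk 4 (by norm_num) (by norm_num) ?_)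
  have := sub_mem (add_mem (DB.stY h _ (mul_mem (pow_mem (hA 0) 2) (DB.qq_mem _)) _ h3)
    (DB.stY h _ (mul_mem (m true) (pow_mem (mul_mem (hA 1) (hA 2)) 2)) _ h4)) h6
  rw [smul_smul, smul_smul, ← add_smul, ← sub_smul] at this
  rw [smul_smul]
  refine Eq.subst (motive := fun z : A => z • v ∈ _) ?_ this
  ring

end DB

theorem DReady.nu_sup (hk : Good k) (hc : IsCoord k x y) (h : G.DReady p W) (n : ℕ) :
    (G.Y W n).mul G.dl (4 * m4) 4 ⊔ G.Y W (n + 3) =
      (G.Y W (n + 2)).mul G.Th (6 * m4) 6 ⊔ G.Y W (n + 3) := by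
  ext1
  funext a b
  have st : ∀ (m : ℕ) (θ : A) (d e : ℕ), (G.chart a b).ring k ≤
      stab A (((G.Y W m).mul θ d e ⊔ G.Y W (n + 3)).ch a b) := fun m θ d e r hr =>
    stepB_stab_sup (DB.stab_mul _ _ _ _ _ _ (DB.stY h m hr)) (DB.stY h _ hr)
  have cov : ∀ (m : ℕ) (θ : A) (d e : ℕ) (v : V), (∀ ε e', v ∈ loc ((G.chart a b).gg ε e')
      (((G.Y W m).mul θ d e ⊔ G.Y W (n + 3)).ch a b)) →
      v ∈ ((G.Y W m).mul θ d e ⊔ G.Y W (n + 3)).ch a b := fun m θ d e v hv =>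
    mem_of_cover (g := fun j : Eps × Fin 3 => (G.chart a b).gg j.1 j.2) (fun N =>
      let ⟨c, c1, c2⟩ := (G.chart a b).cover hk N
      ⟨c, fun j => st m θ d e (c1 j), c2⟩) fun j => hv j.1 j.2
  refine le_antisymm (sup_le (fun v hv => cov _ _ _ _ v fun ε e => ?_) le_sup_right)
    (sup_le (fun v hv => DB.of_nat (A := A) hk 8 (by norm_num) (by norm_num)
      (cov _ _ _ _ _ fun ε e => ?_)) le_sup_right)
  · obtain ⟨u, hu, rfl⟩ := PSh.mem_mul.1 hv
    have h1 := (DB.memZ (ε := ε) (e := e) hk hc h n).2 ⟨u, DB.toZ h _ hu, rfl⟩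
    have h2 := DB.loc_mul (θ := G.Th) (d := 6 * m4) (e := 6)
      (DB.stZ h _ (natCast_mem _ 8) _ h1)
    have h3 := sub_mem (loc_mono _ le_sup_right (DB.antiZ hk hc h _ (DB.sm8 hk hc h _ _ h1)))
      (loc_mono _ le_sup_left h2)
    refine DB.loc_of_pow 2 (Eq.subst (motive := fun z => z ∈ _) ?_ h3)
    have h4 := DB.g_de (G := G) (a := a) (b := b) (ε := ε) (e := e) hk hc
    rw [chop_Th, chop_dl, smul_smul, smul_smul, smul_smul, smul_smul, ← sub_smul]
    refine congrArg (fun z : A => z • u) ?_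
    rw [DB.de] at h4
    linear_combination -(G.chart a b).gg ε e * h4
  · obtain ⟨u, hu, rfl⟩ := PSh.mem_mul.1 hv
    have h0 := DB.toZ (ε := ε) (e := e) h _ hu
    obtain ⟨u', hu', e1⟩ := (DB.memZ hk hc h n).1 h0
    have h2 := DB.loc_mul (θ := G.dl) (d := 4 * m4) (e := 4)
      (DB.stZ h _ (pow_mem ((G.chart a b).gg_mem_ring ε e) 2) _ hu')
    have h3 := sub_mem (loc_mono _ le_sup_right (DB.antiZ hk hc h _ (DB.sm8 hk hc h _ _ h0)))
      (loc_mono _ le_sup_left h2)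
    refine Eq.subst (motive := fun z => z ∈ _) ?_ h3
    have h4 := DB.g_de (G := G) (a := a) (b := b) (ε := ε) (e := e) hk hc
    rw [chop_Th, chop_dl, ← e1, smul_smul, smul_smul, smul_smul, smul_smul, ← sub_smul]
    refine congrArg (fun z : A => z • u') ?_
    rw [DB.de] at h4
    linear_combination -(G.chart a b).gg ε e * h4

theorem DReady.nu_inf_Th (hk : Good k) (hc : IsCoord k x y) (h : G.DReady p W) (n : ℕ) :
    (G.Y W n).mul G.Th (6 * m4) 6 ⊓ G.Y W (n + 1) = (G.Y W (n + 1)).mul G.Th (6 * m4) 6 := by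
  refine le_antisymm (fun a b v hv => ?_) (le_inf (PSh.mul_mono (fun a b => DB.anti hk hc h n) _ _ _)
    fun a b v hv => ?_)
  · obtain ⟨u, hu, rfl⟩ := PSh.mem_mul.1 hv.1
    exact PSh.mem_mul.2 ⟨u, DB.Th_reg hk hc h n hu (chop_Th G a b ▸ hv.2), rfl⟩
  · obtain ⟨u, hu, rfl⟩ := PSh.mem_mul.1 hv
    rw [chop_Th]
    exact DB.stY h _ (DB.Th_mem _) _ hu

theorem DReady.nu_inf_dl (hk : Good k) (hc : IsCoord k x y) (h : G.DReady p W) (n : ℕ) :
    (G.Y W n).mul G.dl (4 * m4) 4 ⊓ G.Y W (n + 3) = (G.Y W (n + 1)).mul G.dl (4 * m4) 4 := by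
  refine le_antisymm (fun a b v hv => ?_) (le_inf (PSh.mul_mono (fun a b => DB.anti hk hc h n) _ _ _)
    (h.dl_le hk hc (n + 1)))
  obtain ⟨u, hu, rfl⟩ := PSh.mem_mul.1 hv.1
  exact PSh.mem_mul.2 ⟨u, DB.de_reg hk hc h n hu (by rw [DB.de, ← chop_dl G]; exact hv.2), rfl⟩

/-- a section of the ideal that generates it at the generic points of the curve -/
noncomputable def wt (G : Geo false false x y A) : A := G.ww none + G.ww (some 0)

theorem isUnit_wt (hk : Good k) (hc : IsCoord k x y) (G : Geo false false x y A) :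
    IsUnit G.wt := by
  refine isUnit_of_mul_isUnit_right (x := G.ww none - G.ww (some 0)) ?_
  rw [wt, DB.wt_mul hk hc, ← map_natCast (algebraMap k A)]
  refine ((hk 2 (by norm_num) (by norm_num)).isUnit.map _).mul ((G.isUnit_h hk hc _ _).mul
    (isUnit_of_mul_isUnit_left (y := DB.qb G) ?_))
  rw [DB.qq_mul]
  exact ((del_ne_zero hk hc _ _).isUnit.map _).mul ((DB.rr_ne hk hc).isUnit.map _)

theorem wt_le (W : PSh k x y V) (n : ℕ) : (G.Y W n).mul G.wt (3 * m4) 3 ≤ G.Y W (n + 1) := by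
  intro a b v hv
  obtain ⟨u, hu, rfl⟩ := PSh.mem_mul.1 hv
  rw [wt, PSh.chop_add, ← chart_ww, ← chart_ww, add_smul]
  exact add_mem (DB.ww_mem n _ hu) (DB.ww_mem n _ hu)

theorem DReady.wt_inf (hk : Good k) (hc : IsCoord k x y) (h : G.DReady p W) (n : ℕ) :
    (G.Y W n).mul G.wt (3 * m4) 3 ⊓ G.Y W (n + 2) = (G.Y W (n + 1)).mul G.wt (3 * m4) 3 := by
  refine le_antisymm (fun a b v hv => ?_) (le_inf (PSh.mul_mono (fun a b => DB.anti hk hc h n) _ _ _)
    (wt_le W (n + 1)))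
  obtain ⟨u, hu, rfl⟩ := PSh.mem_mul.1 hv.1
  refine PSh.mem_mul.2 ⟨u, DB.wt_reg hk hc h n hu ?_, rfl⟩
  rw [chart_ww, chart_ww, ← PSh.chop_add]
  exact hv.2

theorem DReady.vt_sub (hk : Good k) (hc : IsCoord k x y) (h : G.DReady p W) {v : V}
    (hv : v ∈ (G.Y W 2).ch false false) :
    ∃ u ∈ (G.Y W 0).ch false false, (G.vt - G.Th ^ 2) • v = G.dl • u := by
  have e1 : (G.chart false false).Th = G.Th := by rw [← chop_Th, PSh.chop_false]
  have e2 : (G.chart false false).vt = G.vt := by simp only [vt, chart, PSh.chop_false]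
  have e3 : DB.de (G.chart false false) = G.dl := rfl
  obtain ⟨D, hD⟩ : IsUnit G.dl := (del_ne_zero hk hc _ _).isUnit.map _
  refine ⟨(D⁻¹ : Aˣ) • (G.vt - G.Th ^ 2) • v, h.mem_Y hk _ fun ε e => ?_, by
    rw [← hD, ← Units.smul_def, smul_inv_smul]⟩
  obtain ⟨u, hu, rfl⟩ := (DB.memZ (ε := ε) (e := e) hk hc h 0).1 (DB.toZ h _ hv)
  obtain ⟨c, c1, c2⟩ := DB.vt_comb (k := k) (G.chart false false) ε
  have m := fun i => mul_mem (c1 i) ((G.chart false false).gg_mem_ring ε i)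
  refine Eq.subst (motive := fun z => z ∈ _) ?_
    (DB.stZ h _ (add_mem (add_mem (m 0) (m 1)) (m 2)) _ hu)
  have g := fun i => DB.g_de (G := G) (a := false) (b := false) (ε := ε) (e := i) hk hc
  rw [eq_inv_smul_iff, Units.smul_def, hD, smul_smul, smul_smul, ← e1, ← e2, ← e3]
  refine congrArg (fun z : A => z • u) ?_
  linear_combination c 0 * g 0 + c 1 * g 1 + c 2 * g 2 + (G.chart false false).ww ε ^ 2 * c2

end Geo
end Vale.Agent.P190
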