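import Vale.Agent.P190.RDim

/-! Lattice sheaves on the projective line and on the product of two projective lines,
described by their modules of sections on the standard charts, all inside one vector space. -/

namespace Vale.Agent.P190

/-- coordinate on the chart `a`: `x` on the chart `false`, `x⁻¹` on the chart `true` -/
def cs {L : Type} [Field L] (x : Lˣ) : Bool → Lˣ
  | false => x
  | true => x⁻¹

/-- generator of `O(i)` on the chart `a` -/
def tu {L : Type} [Field L] (x : Lˣ) (i : ℤ) : Bool → Lˣ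
  | false => 1
  | true => x ^ i

section
variable {L : Type} [Field L] (x : Lˣ)
@[simp] theorem cs_false : cs x false = x := rfl
@[simp] theorem cs_true : cs x true = x⁻¹ := rfl
@[simp] theorem tu_false (i : ℤ) : tu x i false = 1 := rfl
@[simp] theorem tu_true (i : ℤ) : tu x i true = x ^ i := rfl
@[simp] theorem tu_zero (a : Bool) : tu x 0 a = 1 := by cases a <;> simp
theorem tu_add (i j : ℤ) (a : Bool) : tu x (i + j) a = tu x i a * tu x j a := by
  cases a <;> simp [zpow_add]
theorem tu_neg (i : ℤ) (a : Bool) : tu x (-i) a = (tu x i a)⁻¹ := by cases a <;> simp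
theorem cs_not (a : Bool) : cs x (!a) = (cs x a)⁻¹ := by cases a <;> simp
end

section loc
variable {B V M : Type} [CommRing B] [AddCommGroup V] [Module B V] [Monoid M]
  [DistribMulAction M V] [SMulCommClass M B V]

/-- `Q[1/u]` inside the ambient space -/
def loc (u : M) (Q : Submodule B V) : Submodule B V where
  carrier := {v | ∃ n : ℕ, ∀ m ≥ n, u ^ m • v ∈ Q}
  add_mem' := by
    rintro a b ⟨n, hn⟩ ⟨n', hn'⟩
    exact ⟨max n n', fun m hm => by
      rw [smul_add]; exact Q.add_mem (hn m (le_of_max_le_left hm)) (hn' m (le_of_max_le_right hm))⟩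
  zero_mem' := ⟨0, fun m _ => by simp⟩
  smul_mem' := by
    rintro c v ⟨n, hn⟩
    exact ⟨n, fun m hm => by rw [smul_comm]; exact Q.smul_mem c (hn m hm)⟩

omit [SMulCommClass M B V] in
theorem pow_smul_mem {u : M} {Q : Submodule B V} (h : ∀ v ∈ Q, u • v ∈ Q) (n : ℕ) {v : V}
    (hv : v ∈ Q) : u ^ n • v ∈ Q := by
  induction n with
  | zero => simpa using hv
  | succ n ih => rw [pow_succ', mul_smul]; exact h _ ih

omit [SMulCommClass M B V] in
theorem pow_smul_mem_of_le {u : M} {Q : Submodule B V} (h : ∀ v ∈ Q, u • v ∈ Q) {n m : ℕ}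
    (hnm : n ≤ m) {v : V} (hv : u ^ n • v ∈ Q) : u ^ m • v ∈ Q := by
  obtain ⟨d, rfl⟩ := Nat.exists_eq_add_of_le' hnm
  rw [pow_add, mul_smul]
  exact pow_smul_mem h d hv

theorem mem_loc {u : M} {Q : Submodule B V} (h : ∀ v ∈ Q, u • v ∈ Q) {v : V} :
    v ∈ loc u Q ↔ ∃ n : ℕ, u ^ n • v ∈ Q :=
  ⟨fun ⟨n, hn⟩ => ⟨n, hn n le_rfl⟩, fun ⟨n, hn⟩ => ⟨n, fun _ hm => pow_smul_mem_of_le h hm hn⟩⟩

theorem loc_mono (u : M) {Q Q' : Submodule B V} (h : Q ≤ Q') : loc u Q ≤ loc u Q' :=
  fun _ ⟨n, hn⟩ => ⟨n, fun m hm => h (hn m hm)⟩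

theorem le_loc {u : M} {Q : Submodule B V} (h : ∀ v ∈ Q, u • v ∈ Q) : Q ≤ loc u Q :=
  fun _ hv => (mem_loc h).2 ⟨0, by simpa using hv⟩

/-- the submodule of all `v` with `u • v ∈ Q` -/
def pre (u : M) (Q : Submodule B V) : Submodule B V where
  carrier := {v | u • v ∈ Q}
  add_mem' := by
    intro a b ha hb
    show u • (a + b) ∈ Q
    rw [smul_add]; exact Q.add_mem ha hb
  zero_mem' := by show u • (0 : V) ∈ Q; simp
  smul_mem' := by
    intro c v hv
    show u • (c • v) ∈ Q
    rw [smul_comm]; exact Q.smul_mem c hv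

@[simp] theorem mem_pre {u : M} {Q : Submodule B V} {v : V} : v ∈ pre u Q ↔ u • v ∈ Q := Iff.rfl

end loc

/-- `t` is a coordinate of the field `F` over `B`: `F` is the field of fractions of the
polynomial ring `B[t]`. -/
structure IsCoord1 (B : Type) [CommRing B] {F : Type} [Field F] [Algebra B F] (t : Fˣ) : Prop where
  indep : LinearIndependent B (fun n : ℤ => ((t ^ n : Fˣ) : F))
  frac : ∀ q : F, ∃ b ∈ Algebra.adjoin B {(t : F)}, b ≠ 0 ∧ q * b ∈ Algebra.adjoin B {(t : F)}

/-- `x, y` are coordinates of the field `L` over `B`: `L` is the field of fractions of the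
polynomial ring `B[x, y]`. -/
structure IsCoord (B : Type) [CommRing B] {L : Type} [Field L] [Algebra B L] (x y : Lˣ) :
    Prop where
  indep : LinearIndependent B (fun n : ℤ × ℤ => ((x ^ n.1 * y ^ n.2 : Lˣ) : L))
  frac : ∀ q : L, ∃ b ∈ Algebra.adjoin B {(x : L), (y : L)}, b ≠ 0 ∧
    q * b ∈ Algebra.adjoin B {(x : L), (y : L)}

/-! ### The projective line -/

/-- a torsion free quasi-coherent sheaf on the projective line with coordinate `t` -/
@[ext] structure P1 (B : Type) [CommRing B] {F : Type} [Field F] [Algebra B F] (t : Fˣ)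
    (V : Type) [AddCommGroup V] [Module F V] [Module B V] [IsScalarTower B F V] where
  ch : Bool → Submodule B V
  smul_mem : ∀ b v, v ∈ ch b → cs t b • v ∈ ch b
  glue : ∀ b v, v ∈ ch b → ∃ n : ℕ, cs t (!b) ^ n • v ∈ ch (!b)

namespace P1
variable {B : Type} [CommRing B] {F : Type} [Field F] [Algebra B F] {t : Fˣ}
  {V : Type} [AddCommGroup V] [Module F V] [Module B V] [IsScalarTower B F V]
  {V' : Type} [AddCommGroup V'] [Module F V'] [Module B V'] [IsScalarTower B F V']

/-- coherence -/
def FG (E : P1 B t V) : Prop :=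
  ∀ b, ∃ s : Finset V, ∀ v ∈ E.ch b,
    v ∈ Submodule.span (Algebra.adjoin B {((cs t b : Fˣ) : F)}) (s : Set V)

instance : LE (P1 B t V) := ⟨fun E E' => ∀ b, E.ch b ≤ E'.ch b⟩

theorem le_def {E E' : P1 B t V} : E ≤ E' ↔ ∀ b, E.ch b ≤ E'.ch b := Iff.rfl

/-- sections on the overlap of the two charts -/
def ov (E : P1 B t V) : Submodule B V := loc t (E.ch false)

/-- the twist `E(j)` -/
def tw (E : P1 B t V) (j : ℤ) : P1 B t V where
  ch b := pre (tu t j b)⁻¹ (E.ch b)
  smul_mem b v hv := by
    rw [mem_pre, smul_comm]; exact E.smul_mem b _ hv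
  glue b v hv := by
    obtain ⟨n, hn⟩ := E.glue b _ hv
    refine ⟨n + j.natAbs, ?_⟩
    rw [mem_pre]
    have key : ∃ m : ℕ, (tu t j (!b))⁻¹ * cs t (!b) ^ (n + j.natAbs) =
        cs t (!b) ^ m * (cs t (!b) ^ n * (tu t j b)⁻¹) := by
      refine ⟨(j.natAbs + j).toNat, ?_⟩
      have h : ((((j.natAbs : ℤ) + j).toNat : ℕ) : ℤ) = j.natAbs + j := by omega
      cases b <;> simp only [Bool.not_false, Bool.not_true, cs_false, cs_true, tu_false, tu_true,
        ← zpow_natCast, h, inv_zpow', ← zpow_neg, ← zpow_add, inv_one, one_mul, mul_one] <;>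
        congr 1 <;> push_cast <;> ring
    obtain ⟨m, hm⟩ := key
    rw [← mul_smul, hm, mul_smul, mul_smul]
    exact pow_smul_mem (E.smul_mem _) m hn

/-- intersection with an `F`-subspace -/
def inf (E : P1 B t V) (U : Submodule F V) : P1 B t V where
  ch b := E.ch b ⊓ U.restrictScalars B
  smul_mem b v hv := ⟨E.smul_mem b v hv.1, U.smul_mem _ hv.2⟩
  glue b v hv := by
    obtain ⟨n, hn⟩ := E.glue b v hv.1
    exact ⟨n, hn, U.smul_mem _ hv.2⟩

/-- image under an `F`-linear map -/
def map (E : P1 B t V) (f : V →ₗ[F] V') : P1 B t V' where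
  ch b := (E.ch b).map (f.restrictScalars B)
  smul_mem := by
    rintro b _ ⟨v, hv, rfl⟩
    exact ⟨_, E.smul_mem b v hv, by simp [Units.smul_def]⟩
  glue := by
    rintro b _ ⟨v, hv, rfl⟩
    obtain ⟨n, hn⟩ := E.glue b v hv
    exact ⟨n, _, hn, by simp [Units.smul_def]⟩

/-- direct sum of copies -/
def pi (E : P1 B t V) (ι : Type) [Finite ι] : P1 B t (ι → V) where
  ch b := Submodule.pi Set.univ fun _ => E.ch b
  smul_mem b v hv i _ := E.smul_mem b _ (hv i trivial)
  glue b v hv := by
    choose n hn using fun i => E.glue b (v i) (hv i trivial)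
    obtain ⟨N, hN⟩ := (Set.finite_range n).bddAbove
    exact ⟨N, fun i _ => pow_smul_mem_of_le (E.smul_mem _) (hN ⟨i, rfl⟩) (hn i)⟩

/-- the rank -/
noncomputable def rk (E : P1 B t V) : ℕ :=
  Module.finrank F (Submodule.span F (E.ch false : Set V))

variable {A : Type} [CommRing A] [Algebra F A] [Module A V] [IsScalarTower F A V]

/-- the operator `a` maps `E` to `E(e)` -/
def OpStable (E : P1 B t V) (a : A) (e : ℕ) : Prop :=
  ∀ b, ∀ v ∈ E.ch b, (tu t e b)⁻¹ • a • v ∈ E.ch b

variable (A) in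
/-- `A` is spanned over `F` by finitely many operators mapping `E` to `E(e)` -/
def Ops (E : P1 B t V) (e : ℕ) : Prop :=
  ∃ s : Finset A, Submodule.span F (s : Set A) = ⊤ ∧ ∀ a ∈ s, E.OpStable a e

end P1

namespace P1
variable {k : Type} [Field k] {F : Type} [Field F] [Algebra k F] {t : Fˣ}
  {V : Type} [AddCommGroup V] [Module F V] [Module k V] [IsScalarTower k F V]

noncomputable def h0 (E : P1 k t V) : ℕ∞ := rdim k (E.ch false ⊓ E.ch true) ⊥
noncomputable def h1 (E : P1 k t V) : ℕ∞ := rdim k E.ov (E.ch false ⊔ E.ch true)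
/-- the Euler characteristic, called the degree -/
noncomputable def deg (E : P1 k t V) : ℤ := (E.h0.toNat : ℤ) - E.h1.toNat

variable (A : Type) [CommRing A] [Algebra F A] [Module A V] [IsScalarTower F A V]

/-- all `A`-stable saturated subsheaves have slope at most `μ` -/
def SubLe (E : P1 k t V) (μ : ℚ) : Prop :=
  ∀ U : Submodule A V,
    ((E.inf (U.restrictScalars F)).deg : ℚ) ≤ μ * (E.inf (U.restrictScalars F)).rk

/-- all `A`-stable torsion free quotients have slope at least `μ` -/
def QuotGe (E : P1 k t V) (μ : ℚ) : Prop :=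
  ∀ U : Submodule A V,
    μ * ((E.rk : ℚ) - (E.inf (U.restrictScalars F)).rk) ≤
      (E.deg : ℚ) - (E.inf (U.restrictScalars F)).deg

end P1

/-! ### The product of two projective lines -/

/-- a torsion free quasi-coherent sheaf on the product of two projective lines -/
@[ext] structure PSh (B : Type) [CommRing B] {L : Type} [Field L] [Algebra B L] (x y : Lˣ)
    (V : Type) [AddCommGroup V] [Module L V] [Module B V] [IsScalarTower B L V] where
  ch : Bool → Bool → Submodule B V
  smul_x : ∀ a b v, v ∈ ch a b → cs x a • v ∈ ch a b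
  smul_y : ∀ a b v, v ∈ ch a b → cs y b • v ∈ ch a b
  glue_x : ∀ a b v, v ∈ ch a b → ∃ n : ℕ, cs x (!a) ^ n • v ∈ ch (!a) b
  glue_y : ∀ a b v, v ∈ ch a b → ∃ n : ℕ, cs y (!b) ^ n • v ∈ ch a (!b)

namespace PSh
variable {B : Type} [CommRing B] {L : Type} [Field L] [Algebra B L] {x y : Lˣ}
  {V : Type} [AddCommGroup V] [Module L V] [Module B V] [IsScalarTower B L V]
  {V' : Type} [AddCommGroup V'] [Module L V'] [Module B V'] [IsScalarTower B L V']

/-- the coordinate ring of the chart `(a, b)` -/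
abbrev chartRing (B : Type) [CommRing B] {L : Type} [Field L] [Algebra B L] (x y : Lˣ)
    (a b : Bool) : Subalgebra B L :=
  Algebra.adjoin B {((cs x a : Lˣ) : L), ((cs y b : Lˣ) : L)}

/-- coherence -/
def FG (E : PSh B x y V) : Prop :=
  ∀ a b, ∃ s : Finset V, ∀ v ∈ E.ch a b, v ∈ Submodule.span (chartRing B x y a b) (s : Set V)

/-- the row `b` as a sheaf on the `x`-line -/
def row (E : PSh B x y V) (b : Bool) : P1 B x V :=
  ⟨fun a => E.ch a b, fun a => E.smul_x a b, fun a => E.glue_x a b⟩

/-- the column `a` as a sheaf on the `y`-line -/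
def col (E : PSh B x y V) (a : Bool) : P1 B y V :=
  ⟨fun b => E.ch a b, fun b => E.smul_y a b, fun b => E.glue_y a b⟩

/-- exchange of the two factors -/
def swap (E : PSh B x y V) : PSh B y x V :=
  ⟨fun a b => E.ch b a, fun a b => E.smul_y b a, fun a b => E.smul_x b a,
    fun a b => E.glue_y b a, fun a b => E.glue_x b a⟩

def lx (E : PSh B x y V) (b : Bool) : Submodule B V := loc x (E.ch false b)
def ly (E : PSh B x y V) (a : Bool) : Submodule B V := loc y (E.ch a false)
def lxy (E : PSh B x y V) : Submodule B V := loc (x * y) (E.ch false false)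

/-- the twist `E(i, j)` -/
def tw (E : PSh B x y V) (i j : ℤ) : PSh B x y V where
  ch a b := pre (tu x i a * tu y j b)⁻¹ (E.ch a b)
  smul_x a b v hv := by rw [mem_pre, smul_comm]; exact E.smul_x a b _ hv
  smul_y a b v hv := by rw [mem_pre, smul_comm]; exact E.smul_y a b _ hv
  glue_x a b v hv := by
    obtain ⟨n, hn⟩ := ((E.row b).tw i).glue a ((tu y j b)⁻¹ • v)
      (by rw [mem_pre, mul_inv, mul_smul] at hv; exact hv)
    refine ⟨n, ?_⟩
    rw [mem_pre, mul_inv, mul_smul, smul_comm (tu y j b)⁻¹]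
    exact hn
  glue_y a b v hv := by
    obtain ⟨n, hn⟩ := ((E.col a).tw j).glue b ((tu x i a)⁻¹ • v)
      (by rw [mem_pre, mul_inv, mul_comm, mul_smul] at hv; exact hv)
    refine ⟨n, ?_⟩
    rw [mem_pre, mul_inv, mul_comm, mul_smul, smul_comm (tu x i a)⁻¹]
    exact hn

theorem mem_tw {E : PSh B x y V} {i j : ℤ} {a b : Bool} {v : V} :
    v ∈ (E.tw i j).ch a b ↔ (tu x i a * tu y j b)⁻¹ • v ∈ E.ch a b := Iff.rfl

/-- intersection with an `L`-subspace -/
def inf (E : PSh B x y V) (U : Submodule L V) : PSh B x y V where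
  ch a b := E.ch a b ⊓ U.restrictScalars B
  smul_x a b := ((E.row b).inf U).smul_mem a
  smul_y a b := ((E.col a).inf U).smul_mem b
  glue_x a b := ((E.row b).inf U).glue a
  glue_y a b := ((E.col a).inf U).glue b

/-- image under an `L`-linear map -/
def map (E : PSh B x y V) (f : V →ₗ[L] V') : PSh B x y V' where
  ch a b := (E.ch a b).map (f.restrictScalars B)
  smul_x a b := ((E.row b).map f).smul_mem a
  smul_y a b := ((E.col a).map f).smul_mem b
  glue_x a b := ((E.row b).map f).glue a
  glue_y a b := ((E.col a).map f).glue b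

/-- preimage under an `L`-linear map -/
def comap (E : PSh B x y V') (f : V →ₗ[L] V') : PSh B x y V where
  ch a b := (E.ch a b).comap (f.restrictScalars B)
  smul_x a b v hv := by simpa [Units.smul_def] using E.smul_x a b _ hv
  smul_y a b v hv := by simpa [Units.smul_def] using E.smul_y a b _ hv
  glue_x a b v hv := by simpa [Units.smul_def] using E.glue_x a b _ hv
  glue_y a b v hv := by simpa [Units.smul_def] using E.glue_y a b _ hv

instance : LE (PSh B x y V) := ⟨fun E E' => E.ch ≤ E'.ch⟩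
instance : LT (PSh B x y V) := ⟨fun E E' => E.ch < E'.ch⟩

theorem le_def {E E' : PSh B x y V} : E ≤ E' ↔ ∀ a b, E.ch a b ≤ E'.ch a b := Iff.rfl

instance : Max (PSh B x y V) := ⟨fun E E' =>
  { ch := fun a b => E.ch a b ⊔ E'.ch a b
    smul_x := fun a b v hv => by
      obtain ⟨u, hu, u', hu', rfl⟩ := Submodule.mem_sup.1 hv
      rw [smul_add]
      exact Submodule.add_mem_sup (E.smul_x a b u hu) (E'.smul_x a b u' hu')
    smul_y := fun a b v hv => by
      obtain ⟨u, hu, u', hu', rfl⟩ := Submodule.mem_sup.1 hv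
      rw [smul_add]
      exact Submodule.add_mem_sup (E.smul_y a b u hu) (E'.smul_y a b u' hu')
    glue_x := fun a b v hv => by
      obtain ⟨u, hu, u', hu', rfl⟩ := Submodule.mem_sup.1 hv
      obtain ⟨n, hn⟩ := E.glue_x a b u hu
      obtain ⟨n', hn'⟩ := E'.glue_x a b u' hu'
      refine ⟨max n n', ?_⟩
      rw [smul_add]
      exact Submodule.add_mem_sup (pow_smul_mem_of_le (E.smul_x _ _) (le_max_left _ _) hn)
        (pow_smul_mem_of_le (E'.smul_x _ _) (le_max_right _ _) hn')
    glue_y := fun a b v hv => by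
      obtain ⟨u, hu, u', hu', rfl⟩ := Submodule.mem_sup.1 hv
      obtain ⟨n, hn⟩ := E.glue_y a b u hu
      obtain ⟨n', hn'⟩ := E'.glue_y a b u' hu'
      refine ⟨max n n', ?_⟩
      rw [smul_add]
      exact Submodule.add_mem_sup (pow_smul_mem_of_le (E.smul_y _ _) (le_max_left _ _) hn)
        (pow_smul_mem_of_le (E'.smul_y _ _) (le_max_right _ _) hn') }⟩

instance : Min (PSh B x y V) := ⟨fun E E' =>
  { ch := fun a b => E.ch a b ⊓ E'.ch a b
    smul_x := fun a b v hv => ⟨E.smul_x a b v hv.1, E'.smul_x a b v hv.2⟩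
    smul_y := fun a b v hv => ⟨E.smul_y a b v hv.1, E'.smul_y a b v hv.2⟩
    glue_x := fun a b v hv => by
      obtain ⟨n, hn⟩ := E.glue_x a b v hv.1
      obtain ⟨n', hn'⟩ := E'.glue_x a b v hv.2
      exact ⟨max n n', pow_smul_mem_of_le (E.smul_x _ _) (le_max_left _ _) hn,
        pow_smul_mem_of_le (E'.smul_x _ _) (le_max_right _ _) hn'⟩
    glue_y := fun a b v hv => by
      obtain ⟨n, hn⟩ := E.glue_y a b v hv.1
      obtain ⟨n', hn'⟩ := E'.glue_y a b v hv.2
      exact ⟨max n n', pow_smul_mem_of_le (E.smul_y _ _) (le_max_left _ _) hn,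
        pow_smul_mem_of_le (E'.smul_y _ _) (le_max_right _ _) hn'⟩ }⟩

instance : Lattice (PSh B x y V) :=
  Function.Injective.lattice PSh.ch (fun _ _ h => PSh.ext h) Iff.rfl Iff.rfl
    (fun _ _ => rfl) (fun _ _ => rfl)

instance : OrderBot (PSh B x y V) where
  bot :=
    { ch := fun _ _ => ⊥
      smul_x := fun a b v hv => by simp_all
      smul_y := fun a b v hv => by simp_all
      glue_x := fun a b v hv => ⟨0, by simp_all⟩
      glue_y := fun a b v hv => ⟨0, by simp_all⟩ }
  bot_le _ _ _ := bot_le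

@[simp] theorem sup_ch (E E' : PSh B x y V) (a b : Bool) :
    (E ⊔ E').ch a b = E.ch a b ⊔ E'.ch a b := rfl
@[simp] theorem inf_ch (E E' : PSh B x y V) (a b : Bool) :
    (E ⊓ E').ch a b = E.ch a b ⊓ E'.ch a b := rfl
@[simp] theorem bot_ch (a b : Bool) : (⊥ : PSh B x y V).ch a b = ⊥ := rfl

/-- direct sum of two sheaves -/
def prod (E : PSh B x y V) (E' : PSh B x y V') : PSh B x y (V × V') :=
  E.comap (LinearMap.fst L V V') ⊓ E'.comap (LinearMap.snd L V V')

/-- global sections -/
def H0 (E : PSh B x y V) : Submodule B V := ⨅ a, ⨅ b, E.ch a b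

/-- vanishing of the first cohomology -/
def H1Z (E : PSh B x y V) : Prop :=
  ∀ α β : Bool → V, (∀ b, α b ∈ E.lx b) → (∀ a, β a ∈ E.ly a) →
    α false - α true = β false - β true →
    ∃ γ : Bool → Bool → V, (∀ a b, γ a b ∈ E.ch a b) ∧ (∀ b, γ false b - γ true b = α b) ∧
      ∀ a, γ a false - γ a true = β a

/-- vanishing of the second cohomology -/
def H2Z (E : PSh B x y V) : Prop :=
  E.lxy ≤ (E.lx false ⊔ E.lx true) ⊔ (E.ly false ⊔ E.ly true)

/-- the rank -/
noncomputable def rk (E : PSh B x y V) : ℕ :=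
  Module.finrank L (Submodule.span L (E.ch false false : Set V))

/-- `E` spans the ambient space -/
def Full (E : PSh B x y V) : Prop := Submodule.span L (E.ch false false : Set V) = ⊤

/-- no sections in the `x`-direction: a strong form of `H0 (E(i, j)) = 0` for all `j` -/
def X0 (E : PSh B x y V) (i : ℤ) : Prop :=
  ∀ v ∈ E.ch false false, (x ^ i)⁻¹ • v ∈ E.ch true false → v = 0

variable (B V) in
def d0 : (Bool × Bool → V) →ₗ[B] (Bool → V) × (Bool → V) where
  toFun γ := (fun b => γ (false, b) - γ (true, b), fun a => γ (a, false) - γ (a, true))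
  map_add' γ γ' := by ext <;> simp <;> abel
  map_smul' c γ := by ext <;> simp [smul_sub]

variable (B V) in
def d1 : (Bool → V) × (Bool → V) →ₗ[B] V where
  toFun c := c.1 false - c.1 true - (c.2 false - c.2 true)
  map_add' c c' := by simp; abel
  map_smul' c γ := by simp [smul_sub]

def C0 (E : PSh B x y V) : Submodule B (Bool × Bool → V) :=
  Submodule.pi Set.univ fun ab => E.ch ab.1 ab.2

def C1 (E : PSh B x y V) : Submodule B ((Bool → V) × (Bool → V)) :=
  (Submodule.pi Set.univ fun b => E.lx b).prod (Submodule.pi Set.univ fun a => E.ly a)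

section ops
variable {A : Type} [CommRing A] [Algebra L A] [Module A V] [IsScalarTower L A V]

variable (x y) in
/-- the operator `g` of bidegree `(d, e)` read on the chart `(a, b)` -/
def chop (a b : Bool) (g : A) (d e : ℕ) : A :=
  (((tu x d a * tu y e b)⁻¹ : Lˣ) : L) • g

/-- the operator `g` maps `E` to `E(d, e)` -/
def Stable (E : PSh B x y V) (g : A) (d e : ℕ) : Prop :=
  ∀ a b, ∀ v ∈ E.ch a b, chop x y a b g d e • v ∈ E.ch a b

variable (L V) in
/-- multiplication by `g` as an `L`-linear map -/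
def opL (g : A) : V →ₗ[L] V := (LinearMap.lsmul A V g).restrictScalars L

@[simp] theorem opL_apply (g : A) (v : V) : opL L V g v = g • v := rfl

/-- the image `g • E(-d, -e)` -/
def mul (E : PSh B x y V) (g : A) (d e : ℕ) : PSh B x y V :=
  (E.tw (-(d : ℤ)) (-(e : ℤ))).map (opL L V g)

theorem mem_mul {E : PSh B x y V} {g : A} {d e : ℕ} {a b : Bool} {v : V} :
    v ∈ (E.mul g d e).ch a b ↔ ∃ u ∈ E.ch a b, chop x y a b g d e • u = v := by
  constructor
  · rintro ⟨u, hu, rfl⟩
    refine ⟨_, hu, ?_⟩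
    simp only [chop, tu_neg, Units.smul_def, smul_assoc, LinearMap.restrictScalars_apply,
      opL_apply]
    rw [smul_comm g, smul_smul, ← Units.val_mul]
    simp [mul_comm, mul_left_comm]
  · rintro ⟨u, hu, rfl⟩
    refine ⟨(tu x d a * tu y e b)⁻¹ • u, ?_, ?_⟩
    · show (tu x (-(d : ℤ)) a * tu y (-(e : ℤ)) b)⁻¹ • (tu x d a * tu y e b)⁻¹ • u ∈ E.ch a b
      rw [tu_neg, tu_neg, ← mul_inv, inv_inv, smul_inv_smul]
      exact hu
    · simp only [chop, Units.smul_def, smul_assoc, LinearMap.restrictScalars_apply, opL_apply]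
      rw [smul_comm g]

/-- the sum of the images under a finite family of operators of the same bidegree -/
def mulF {ι : Type} [Fintype ι] (E : PSh B x y V) (g : ι → A) (d e : ℕ) : PSh B x y V :=
  Finset.univ.sup fun i => E.mul (g i) d e

end ops

end PSh

namespace PSh
variable {k : Type} [Field k] {L : Type} [Field L] [Algebra k L] {x y : Lˣ}
  {V : Type} [AddCommGroup V] [Module L V] [Module k V] [IsScalarTower k L V]

noncomputable def h0 (E : PSh k x y V) : ℕ∞ := rdim k E.H0 ⊥
noncomputable def h1 (E : PSh k x y V) : ℕ∞ :=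
  rdim k (E.C1 ⊓ LinearMap.ker (d1 k V)) (E.C0.map (d0 k V))
noncomputable def h2 (E : PSh k x y V) : ℕ∞ := rdim k E.lxy (E.C1.map (d1 k V))

/-- the Euler characteristic -/
noncomputable def chi (E : PSh k x y V) : ℤ := (E.h0.toNat : ℤ) - E.h1.toNat + E.h2.toNat

/-- the Hilbert polynomial `(i, j) ↦ χ (E(i, j))` -/
noncomputable def hp (E : PSh k x y V) (i j : ℤ) : ℤ := (E.tw i j).chi
noncomputable def gam (E : PSh k x y V) : ℤ := E.hp 0 0
noncomputable def alp (E : PSh k x y V) : ℤ := E.hp 1 0 - E.hp 0 0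
noncomputable def bet (E : PSh k x y V) : ℤ := E.hp 0 1 - E.hp 0 0

variable (k x) in
/-- the function field of the `x`-line -/
abbrev Kx : IntermediateField k L := IntermediateField.adjoin k {(x : L)}

/-- restriction to the generic fibre of the projection to the `x`-line -/
def fib (E : PSh k x y V) : P1 (Kx k x) y V where
  ch b := Submodule.span (Kx k x) (E.ch false b : Set V)
  smul_mem b v hv := by
    induction hv using Submodule.span_induction with
    | mem v hv => exact Submodule.subset_span (E.smul_y false b v hv)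
    | zero => simp
    | add u v _ _ hu hv => rw [smul_add]; exact Submodule.add_mem _ hu hv
    | smul c v _ hv => rw [smul_comm]; exact Submodule.smul_mem _ c hv
  glue b v hv := by
    have hs : ∀ v ∈ Submodule.span (Kx k x) (E.ch false (!b) : Set V),
        cs y (!b) • v ∈ Submodule.span (Kx k x) (E.ch false (!b) : Set V) := by
      intro v hv
      induction hv using Submodule.span_induction with
      | mem v hv => exact Submodule.subset_span (E.smul_y false _ v hv)
      | zero => simp
      | add u v _ _ hu hv => rw [smul_add]; exact Submodule.add_mem _ hu hv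
      | smul c v _ hv => rw [smul_comm]; exact Submodule.smul_mem _ c hv
    induction hv using Submodule.span_induction with
    | mem v hv =>
      obtain ⟨n, hn⟩ := E.glue_y false b v hv
      exact ⟨n, Submodule.subset_span hn⟩
    | zero => exact ⟨0, by simp⟩
    | add u v _ _ hu hv =>
      obtain ⟨n, hn⟩ := hu
      obtain ⟨n', hn'⟩ := hv
      refine ⟨max n n', ?_⟩
      rw [smul_add]
      exact Submodule.add_mem _ (pow_smul_mem_of_le hs (le_max_left _ _) hn)
        (pow_smul_mem_of_le hs (le_max_right _ _) hn')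
    | smul c v _ hv =>
      obtain ⟨n, hn⟩ := hv
      exact ⟨n, by rw [smul_comm]; exact Submodule.smul_mem _ c hn⟩

end PSh

end Vale.Agent.P190
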