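import Vale.Agent.P190.DStep

/-! The Frobenius pullback of a sheaf on the surface: definitions. -/

namespace Vale.Agent.P190
namespace Frob

variable {p : ℕ} {k : Type} [Field k] {L : Type} [Field L] [Algebra k L] {x y : Lˣ}
  {A0 A : Type} [CommRing A0] [Algebra L A0] [CommRing A] [Algebra L A]
  {G0 : Geo false false x y A0} {G : Geo false false x y A}
  {V0 V : Type} [AddCommGroup V0] [Module L V0] [Module A0 V0] [Module k V0] [IsScalarTower k L V0]
  [AddCommGroup V] [Module L V] [Module A V] [Module k V] [IsScalarTower k L V]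

/-- the generators of the pullback on a chart -/
def pullGen (F : Frob p G0 G V0 V) (N : PSh k x y V0) (a b : Bool) : Set V :=
  {v | ∃ (c d : ℕ), ∃ u ∈ N.ch a b, v = (cs x a ^ c * cs y b ^ d) • F.φ u}

theorem φ_unit (F : Frob p G0 G V0 V) (q : Lˣ) (v : V0) : F.φ (q • v) = q ^ p • F.φ v := by
  rw [Units.smul_def, F.φ_smul, Units.smul_def, Units.val_pow_eq_pow_val]

theorem smul_span_pullGen (F : Frob p G0 G V0 V) (N : PSh k x y V0) (a b : Bool) (c d : ℕ)
    {v : V} (hv : v ∈ Submodule.span k (F.pullGen N a b)) :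
    (cs x a ^ c * cs y b ^ d) • v ∈ Submodule.span k (F.pullGen N a b) := by
  refine mem_pre.1 (Submodule.span_le (p := pre (cs x a ^ c * cs y b ^ d) _).2 ?_ hv)
  rintro _ ⟨c', d', u, hu, rfl⟩
  refine Submodule.subset_span ⟨c + c', d + d', u, hu, ?_⟩
  rw [← mul_smul, pow_add, pow_add, mul_mul_mul_comm]

/-- the pullback along the Frobenius of the product of two lines -/
def pull (F : Frob p G0 G V0 V) (N : PSh k x y V0) : PSh k x y V where
  ch a b := Submodule.span k (F.pullGen N a b)
  smul_x a b v hv := by simpa using F.smul_span_pullGen N a b 1 0 hv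
  smul_y a b v hv := by simpa using F.smul_span_pullGen N a b 0 1 hv
  glue_x a b v hv := by
    have hs : ∀ v ∈ Submodule.span k (F.pullGen N (!a) b),
        cs x (!a) • v ∈ Submodule.span k (F.pullGen N (!a) b) := fun v hv => by
      simpa using F.smul_span_pullGen N (!a) b 1 0 hv
    refine (mem_loc hs).1 (Submodule.span_le (p := loc (cs x (!a)) _).2 ?_ hv)
    rintro _ ⟨c, d, u, hu, rfl⟩
    obtain ⟨n, hn⟩ := N.glue_x a b u hu
    refine (mem_loc hs).2 ⟨c + n * p, Submodule.subset_span ⟨0, d, _, hn, ?_⟩⟩
    rw [F.φ_unit, ← mul_smul, ← mul_smul, cs_not]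
    congr 1
    rw [pow_add, pow_mul, inv_pow (cs x a) c, pow_zero, one_mul, mul_comm ((cs x a ^ c)⁻¹),
      mul_assoc, inv_mul_cancel_left, mul_comm]
  glue_y a b v hv := by
    have hs : ∀ v ∈ Submodule.span k (F.pullGen N a (!b)),
        cs y (!b) • v ∈ Submodule.span k (F.pullGen N a (!b)) := fun v hv => by
      simpa using F.smul_span_pullGen N a (!b) 0 1 hv
    refine (mem_loc hs).1 (Submodule.span_le (p := loc (cs y (!b)) _).2 ?_ hv)
    rintro _ ⟨c, d, u, hu, rfl⟩
    obtain ⟨n, hn⟩ := N.glue_y a b u hu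
    refine (mem_loc hs).2 ⟨d + n * p, Submodule.subset_span ⟨c, 0, _, hn, ?_⟩⟩
    rw [F.φ_unit, ← mul_smul, ← mul_smul, cs_not]
    congr 1
    rw [pow_add, pow_mul, inv_pow (cs y b) d, pow_zero, mul_one, mul_comm (cs x a ^ c),
      mul_comm ((cs y b ^ d)⁻¹), mul_assoc, inv_mul_cancel_left, mul_comm]

/-- factor turning `∂/∂x` into the derivative with respect to the chart coordinate -/
def cf (x : Lˣ) : Bool → L
  | false => 1
  | true => -((x : L) ^ 2)

/-- the connection in the direction of the first chart coordinate -/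
def DX (F : Frob p G0 G V0 V) (a : Bool) : V →+ V := cf x a • F.Dx

/-- the connection in the direction of the second chart coordinate -/
def DY (F : Frob p G0 G V0 V) (b : Bool) : V →+ V := cf y b • F.Dy

variable [IsScalarTower L A V]

/-- the module generated by the pullback over the intermediate cover given by the list `l` -/
def WT (F : Frob p G0 G V0 V) (N : PSh k x y V0) : List (Ix ⊕ Ix) → PSh k x y V
  | [] => F.pull N
  | i :: l => F.WT N l ⊔ (F.WT N l).mul (G.st i) (stD i) (stE i)

/-- the module generated by the pullback on the product of the two curves -/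
noncomputable def WZ (F : Frob p G0 G V0 V) (N : PSh k x y V0) : PSh k x y V :=
  F.WT N Finset.univ.toList

/-- the balanced Frobenius pullback on the surface -/
noncomputable def Phi (F : Frob p G0 G V0 V) (N : PSh k x y V0) : PSh k x y V :=
  G.Y (F.WZ N).hull ((p - 1) / 2)

end Frob
end Vale.Agent.P190
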