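import Vale.Agent.P190.FrobWT
import Vale.Agent.P190.DNum
import Vale.Agent.P190.P1Ops

/-! The balanced Frobenius pullback: invariants, connection, slopes. -/

namespace Vale.Agent.P190

namespace PSh
variable {k : Type} [Field k] {L : Type} [Field L] [Algebra k L] {x y : Lˣ}
  {V : Type} [AddCommGroup V] [Module L V] [Module k V] [IsScalarTower k L V]
  {V' : Type} [AddCommGroup V'] [Module L V'] [Module k V'] [IsScalarTower k L V']
  {A : Type} [CommRing A] [Algebra L A] [Module A V] [IsScalarTower L A V]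
  [Module A V'] [IsScalarTower L A V'] {ι : Type} [Fintype ι]

theorem fp_mem_map {E : PSh k x y V} {f : V →ₗ[L] V'} {a b : Bool} {w : V'} :
    w ∈ (E.map f).ch a b ↔ ∃ v, v ∈ E.ch a b ∧ f v = w := Iff.rfl

theorem mul_map (E : PSh k x y V) (f : V →ₗ[A] V') (g : A) (d e : ℕ) :
    (E.mul g d e).map (f.restrictScalars L) = (E.map (f.restrictScalars L)).mul g d e := by
  ext a b w
  rw [fp_mem_map, mem_mul]
  constructor
  · rintro ⟨v, hv, rfl⟩
    obtain ⟨u, hu, rfl⟩ := mem_mul.1 hv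
    exact ⟨f u, ⟨u, hu, rfl⟩, (f.map_smul _ _).symm⟩
  · rintro ⟨_, ⟨u, hu, rfl⟩, rfl⟩
    exact ⟨_, mem_mul.2 ⟨u, hu, rfl⟩, f.map_smul _ _⟩

theorem fp_mulF_map (E : PSh k x y V) (f : V →ₗ[A] V') (w : ι → A) (d e : ℕ) :
    (E.mulF w d e).map (f.restrictScalars L) = (E.map (f.restrictScalars L)).mulF w d e := by
  ext a b v
  rw [fp_mem_map, mem_mulF]
  constructor
  · rintro ⟨v, hv, rfl⟩
    obtain ⟨u, hu, rfl⟩ := mem_mulF.1 hv
    refine ⟨fun i => f (u i), fun i => ⟨u i, hu i, rfl⟩, ?_⟩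
    simp [map_sum]
  · rintro ⟨u', hu', rfl⟩
    choose u hu hu2 using hu'
    refine ⟨_, mem_mulF.2 ⟨u, hu, rfl⟩, ?_⟩
    simp only [LinearMap.restrictScalars_apply] at hu2
    simp [map_sum, hu2]

theorem fp_NN_map (W : PSh k x y V) (f : V →ₗ[A] V') (w : ι → A) (d e n : ℕ) :
    (NN w d e n W).map (f.restrictScalars L) = NN w d e n (W.map (f.restrictScalars L)) := by
  induction n with
  | zero => rfl
  | succ n ih => rw [NN_succ, NN_succ, fp_mulF_map, ih]

theorem YY_map (W : PSh k x y V) (f : V →ₗ[A] V') (w : ι → A) (d e n : ℕ) :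
    (YY w d e W n).map (f.restrictScalars L) = YY w d e (W.map (f.restrictScalars L)) n := by
  rw [YY, YY, fp_NN_map, map_sup, fp_mulF_map]

theorem fp_mulF_fib_le {W W' : PSh k x y V} (h : W.fib = W'.fib) (w : ι → A) (d e : ℕ) (b : Bool) :
    (W.mulF w d e).fib.ch b ≤ (W'.mulF w d e).fib.ch b := by
  refine Submodule.span_le.2 fun v hv => ?_
  obtain ⟨u, hu, rfl⟩ := mem_mulF.1 hv
  refine Submodule.sum_mem _ fun i _ => ?_
  have h1 : u i ∈ W'.fib.ch b := h ▸ W.ch_le_fib false b (hu i)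
  obtain ⟨z, hz, hz0, hzu⟩ := (mem_fib false b).1 h1
  refine (mem_fib false b).2 ⟨z, hz, hz0, ?_⟩
  rw [smul_comm]
  exact stepB_mul_le_mulF W' w d e i false b (mem_mul.2 ⟨_, hzu, rfl⟩)

theorem fp_mulF_fib_congr {W W' : PSh k x y V} (h : W.fib = W'.fib) (w : ι → A) (d e : ℕ) :
    (W.mulF w d e).fib = (W'.mulF w d e).fib := by
  ext1
  funext b
  exact le_antisymm (fp_mulF_fib_le h w d e b) (fp_mulF_fib_le h.symm w d e b)

theorem YY_fib_congr {W W' : PSh k x y V} (h : W.fib = W'.fib) (w : ι → A) (d e n : ℕ) :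
    (YY w d e W n).fib = (YY w d e W' n).fib := by
  induction n with
  | zero =>
    ext1
    funext b
    change (W ⊔ W.mulF w d e).fib.ch b = (W' ⊔ W'.mulF w d e).fib.ch b
    rw [fib_sup_ch, fib_sup_ch, h, fp_mulF_fib_congr h]
  | succ n ih => rw [YY_succ, YY_succ, fp_mulF_fib_congr ih]

theorem X0.mono {E : PSh k x y V} {i i' : ℤ} (h : E.X0 i) (hi : i' ≤ i) : E.X0 i' := by
  intro v hv hv'
  refine h v hv ?_
  obtain ⟨m, hm⟩ := Int.eq_ofNat_of_zero_le (sub_nonneg.2 hi)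
  have h1 := pow_smul_mem (E.smul_x true false) m hv'
  rw [← mul_smul] at h1
  have h2 : cs x true ^ m * (x ^ i')⁻¹ = (x ^ i)⁻¹ := by
    rw [cs_true, inv_pow, ← mul_inv, ← zpow_natCast, ← zpow_add, ← hm, sub_add_cancel]
  rwa [h2] at h1

theorem Full.map {E : PSh k x y V} (h : E.Full) (f : V →ₗ[L] V') (hf : Function.Surjective f) :
    (E.map f).Full := by
  have h1 := P1.span_map (E.row false) f
  change Submodule.span L ((E.map f).ch false false : Set V') =
    (Submodule.span L (E.ch false false : Set V)).map f at h1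
  rw [Full, h1, h, Submodule.map_top, LinearMap.range_eq_top.2 hf]

variable [Algebra k A] [IsScalarTower k A V] in
theorem fp_mulF_der {W : PSh k x y V} {w : ι → A} {d e : ℕ} {a b : Bool} (D : V →+ V)
    (hD : ∀ v ∈ W.ch a b, D v ∈ W.ch a b)
    (hw : ∀ i, ∃ c ∈ stab A (W.ch a b),
      HasDer D (chop x y a b (w i) d e) (c * chop x y a b (w i) d e)) :
    ∀ v ∈ (W.mulF w d e).ch a b, D v ∈ (W.mulF w d e).ch a b := by
  intro v hv
  obtain ⟨u, hu, rfl⟩ := mem_mulF.1 hv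
  choose c hc hc' using hw
  refine mem_mulF.2 ⟨fun i => c i • u i + D (u i),
    fun i => add_mem (hc i _ (hu i)) (hD _ (hu i)), ?_⟩
  rw [map_sum]
  refine Finset.sum_congr rfl fun i _ => ?_
  rw [hc' i, smul_add, mul_comm, mul_smul]

variable [Algebra k A] [IsScalarTower k A V] in
/-- a derivation preserving a chart of `W` with logarithmic poles along the `w i` preserves
the charts of the filtration -/
theorem YY_der {W : PSh k x y V} {w : ι → A} {d e : ℕ} {a b : Bool} (D : V →+ V)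
    (hD : ∀ v ∈ W.ch a b, D v ∈ W.ch a b)
    (hw : ∀ i, ∃ c ∈ stab A (W.ch a b),
      HasDer D (chop x y a b (w i) d e) (c * chop x y a b (w i) d e)) (n : ℕ) :
    ∀ v ∈ (YY w d e W n).ch a b, D v ∈ (YY w d e W n).ch a b := by
  induction n with
  | zero =>
    intro v hv
    obtain ⟨u, hu, u', hu', rfl⟩ := Submodule.mem_sup.1 hv
    rw [map_add]
    exact Submodule.add_mem_sup (hD u hu) (fp_mulF_der D hD hw u' hu')
  | succ n ih =>
    rw [YY_succ]
    refine fp_mulF_der D ih fun i => ?_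
    obtain ⟨c, hc, hc'⟩ := hw i
    exact ⟨c, stab_le_YY W w d e n a b hc, hc'⟩

end PSh

namespace Frob

variable {p : ℕ} [Fact p.Prime] {L : Type} [Field L] [Algebra (ZMod p) L] {x y : Lˣ}
  {A0 A : Type} [CommRing A0] [Algebra L A0] [CommRing A] [Algebra L A]
  [Algebra (ZMod p) A0] [IsScalarTower (ZMod p) L A0]
  [Algebra (ZMod p) A] [IsScalarTower (ZMod p) L A]
  {G0 : Geo false false x y A0} {G : Geo false false x y A}
  {V0 V : Type} [AddCommGroup V0] [Module L V0] [Module A0 V0] [Module (ZMod p) V0]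
  [IsScalarTower (ZMod p) L V0] [IsScalarTower L A0 V0] [IsScalarTower (ZMod p) A0 V0]
  [AddCommGroup V] [Module L V] [Module A V] [Module (ZMod p) V] [IsScalarTower (ZMod p) L V]
  [IsScalarTower L A V] [IsScalarTower (ZMod p) A V]

theorem Phi_lin (hk : Good (ZMod p)) (hc : IsCoord (ZMod p) x y) (F : Frob p G0 G V0 V)
    {N : PSh (ZMod p) x y V0} (hN : N.FG) (hf : N.Full) (hs : G0.Stab N) :
    (F.Phi N).FG ∧ (F.Phi N).Full ∧ G.Stab (F.Phi N) ∧ (F.Phi N).rk = N.rk ∧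
      (F.Phi N).alp = p * N.alp + N.rk * (5 * ((p : ℤ) - 1)) ∧
      (F.Phi N).bet = p * N.bet + N.rk * ((6 * m4 - 1) * ((p : ℤ) - 1)) ∧
      ∀ n : ℕ, N.X0 (-(n : ℤ)) → (F.Phi N).X0 (-(p * (n + 15 * m4) : ℤ)) := by
  have hR := F.ready hk hc hN hf hs
  obtain ⟨h1, h2, h3⟩ := hR.stab_Y hk hc ((p - 1) / 2)
  obtain ⟨h4, h5, h6⟩ := hR.dstep_lin hk hc
  obtain ⟨h7, h8, h9, -⟩ := PSh.hull_coeff hc (W := F.WZ N) (F.WT_FG hN _)
  obtain ⟨e1, e2, e3, -, e5⟩ := F.WZ_spec hk hc hN hs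
  refine ⟨h2, h3, h1, h4.trans (h7.trans e1), h5.trans (h8.trans e2), h6.trans (h9.trans e3),
    fun n hn => ?_⟩
  refine (hR.dstep_X0 hk hc (e5 _ hn).hull _).mono ?_
  have hp : 1 ≤ p := (Fact.out : p.Prime).one_le
  push_cast [Nat.cast_sub hp]
  have : (0 : ℤ) ≤ m4 := Int.natCast_nonneg _
  nlinarith

theorem Phi_disc (hk : Good (ZMod p)) (hc : IsCoord (ZMod p) x y) (F : Frob p G0 G V0 V)
    {N : PSh (ZMod p) x y V0} (hN : N.FG) (hf : N.Full) (hs : G0.Stab N) (hp : 15 < p)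
    (hr : 4 * N.rk < p) :
    32 * p ^ 2 * (N.rk * N.gam - N.alp * N.bet) +
        4 * m4 * N.rk ^ 2 * (((p : ℤ) - 1) * (p - 15)) ≤
      32 * (N.rk * (F.Phi N).gam - (F.Phi N).alp * (F.Phi N).bet) := by
  have hR := F.ready hk hc hN hf hs
  obtain ⟨-, h5, h6⟩ := hR.dstep_lin hk hc
  obtain ⟨h7, h8, h9, h10⟩ := PSh.hull_coeff hc (W := F.WZ N) (F.WT_FG hN _)
  obtain ⟨e1, -, -, e4, -⟩ := F.WZ_spec hk hc hN hs
  have h11 := hR.dstep_gam hk hc hp (by rw [h7, e1]; exact hr)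
  rw [h7, e1] at h11
  have h12 : (F.Phi N).alp = (F.WZ N).alp := h5.trans h8
  have h13 : (F.Phi N).bet = (F.WZ N).bet := h6.trans h9
  have h14 : 32 * (F.WZ N).gam + 4 * m4 * N.rk * (((p : ℤ) - 1) * (p - 15)) ≤
      32 * (F.Phi N).gam := le_trans (by linarith) h11
  have h15 := mul_le_mul_of_nonneg_left h14 (Int.natCast_nonneg N.rk)
  rw [h12, h13]
  nlinarith

theorem Phi_fib (F : Frob p G0 G V0 V) (N : PSh (ZMod p) x y V0) :
    (F.Phi N).fib = (G.Y (F.WZ N) ((p - 1) / 2)).fib :=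
  PSh.YY_fib_congr (PSh.fib_hull _) _ _ _ _

/-- horizontal subsheaves of the pullback come from subsheaves of `N` -/
theorem Phi_horizontal (hk : Good (ZMod p)) (hc : IsCoord (ZMod p) x y) (F : Frob p G0 G V0 V)
    {N : PSh (ZMod p) x y V0} (hN : N.FG) (hf : N.Full) (hs : G0.Stab N) {μ : ℚ}
    (hμ : N.fib.SubLe A0 μ) (U : Submodule A V) (hx : ∀ v ∈ U, F.Dx v ∈ U)
    (hy : ∀ v ∈ U, F.Dy v ∈ U) :
    (((F.Phi N).fib.inf (U.restrictScalars L)).deg : ℚ) ≤
      (p * μ + 5 * (p - 1)) * ((F.Phi N).fib.inf (U.restrictScalars L)).rk := by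
  obtain ⟨U0, F', hq⟩ := F.exists_quot U hx hy
  have hWT : ∀ l, (F.WT N l).map (U.mkQ.restrictScalars L) =
      F'.WT (N.map (U0.mkQ.restrictScalars L)) l := by
    intro l
    induction l with
    | nil => exact hq N
    | cons i l ih => rw [WT, WT, PSh.map_sup, PSh.mul_map, ih]
  have hfib : (F.Phi N).fib.map (U.mkQ.restrictScalars L) =
      (F'.Phi (N.map (U0.mkQ.restrictScalars L))).fib := by
    rw [Phi_fib, Phi_fib, ← PSh.fib_map, PSh.YY_map, WZ, WZ, hWT]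
  have hN' : (N.map (U0.mkQ.restrictScalars L)).FG := hN.map _
  obtain ⟨a1, -, -, a2, a3, -⟩ := F.Phi_lin hk hc hN hf hs
  obtain ⟨b1, -, -, b2, b3, -⟩ := F'.Phi_lin hk hc hN' (hf.map _ U0.mkQ_surjective) (hs.map _)
  have k1 : LinearMap.ker (U.mkQ.restrictScalars L) = U.restrictScalars L := by
    ext v; simp
  have k2 : LinearMap.ker (U0.mkQ.restrictScalars L) = U0.restrictScalars L := by
    ext v; simp
  have c1 := P1.deg_add hc.fib a1.fib (U.mkQ.restrictScalars L)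
  have c2 := P1.rk_add hc.fib a1.fib (U.mkQ.restrictScalars L)
  have c3 := P1.deg_add hc.fib hN.fib (U0.mkQ.restrictScalars L)
  have c4 := P1.rk_add hc.fib hN.fib (U0.mkQ.restrictScalars L)
  rw [k1, hfib, ← PSh.alp_eq_deg hc a1, ← PSh.alp_eq_deg hc b1, a3, b3] at c1
  rw [k1, hfib, PSh.rk_fib, PSh.rk_fib, a2, b2] at c2
  rw [k2, ← PSh.fib_map, ← PSh.alp_eq_deg hc hN, ← PSh.alp_eq_deg hc hN'] at c3
  rw [k2, ← PSh.fib_map, PSh.rk_fib, PSh.rk_fib] at c4
  have h1 := hμ U0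
  have h2 : ((F.Phi N).fib.inf (U.restrictScalars L)).rk =
      (N.fib.inf (U0.restrictScalars L)).rk := by omega
  have h3 : ((F.Phi N).fib.inf (U.restrictScalars L)).deg =
      p * (N.fib.inf (U0.restrictScalars L)).deg +
        5 * ((p : ℤ) - 1) * (N.fib.inf (U0.restrictScalars L)).rk := by
    rw [c3, c4] at c1
    push_cast at c1
    linarith
  rw [h2, h3]
  push_cast
  have h4 := mul_le_mul_of_nonneg_left h1 (Nat.cast_nonneg p : (0 : ℚ) ≤ p)
  linarith

/-- the multiplier of the connection on the generic fibre -/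
def J0 (x y : Lˣ) : L := del false false (x : L) (y : L) * ∏ i, Py false (y : L) i

theorem fp_der_mem (D : Derivation ℤ L L) (c : L) (a b : Bool)
    (h1 : c * D ((cs x a : Lˣ) : L) ∈ PSh.chartRing (ZMod p) x y a b)
    (h2 : c * D ((cs y b : Lˣ) : L) ∈ PSh.chartRing (ZMod p) x y a b) {z : L}
    (hz : z ∈ PSh.chartRing (ZMod p) x y a b) : c * D z ∈ PSh.chartRing (ZMod p) x y a b := by
  induction hz using Algebra.adjoin_induction with
  | mem z hz =>
    rcases hz with rfl | rfl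
    · exact h1
    · exact h2
  | algebraMap r =>
    rw [← ZMod.natCast_zmod_val r, map_natCast, D.map_natCast, mul_zero]
    exact zero_mem _
  | add u v _ _ hu hv =>
    rw [map_add, mul_add]
    exact add_mem hu hv
  | mul u v hu' hv' hu hv =>
    rw [D.leibniz, smul_eq_mul, smul_eq_mul, mul_add, mul_left_comm, mul_left_comm c]
    exact add_mem (mul_mem hu' hv) (mul_mem hv' hu)

theorem fp_Px_mem (a b : Bool) (i : Ix) :
    Px a ((cs x a : Lˣ) : L) i ∈ PSh.chartRing (ZMod p) x y a b := by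
  have hx : ((cs x a : Lˣ) : L) ∈ PSh.chartRing (ZMod p) x y a b :=
    Algebra.subset_adjoin (Or.inl rfl)
  exact add_mem (intCast_mem _ _) (mul_mem (intCast_mem _ _) (pow_mem hx _))

theorem fp_Py_mem (a b : Bool) (i : Ix) :
    Py b ((cs y b : Lˣ) : L) i ∈ PSh.chartRing (ZMod p) x y a b := by
  have hy : ((cs y b : Lˣ) : L) ∈ PSh.chartRing (ZMod p) x y a b :=
    Algebra.subset_adjoin (Or.inr rfl)
  exact add_mem (intCast_mem _ _) (mul_mem (intCast_mem _ _) (pow_mem hy _))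

theorem fp_del_mem (a b : Bool) :
    del a b ((cs x a : Lˣ) : L) ((cs y b : Lˣ) : L) ∈ PSh.chartRing (ZMod p) x y a b := by
  have hx : ((cs x a : Lˣ) : L) ∈ PSh.chartRing (ZMod p) x y a b :=
    Algebra.subset_adjoin (Or.inl rfl)
  have hy : ((cs y b : Lˣ) : L) ∈ PSh.chartRing (ZMod p) x y a b :=
    Algebra.subset_adjoin (Or.inr rfl)
  exact add_mem (add_mem (add_mem (intCast_mem _ _) (mul_mem (intCast_mem _ _) (pow_mem hx _)))
    (mul_mem (intCast_mem _ _) (pow_mem hy _)))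
    (mul_mem (intCast_mem _ _) (mul_mem (pow_mem hx _) (pow_mem hy _)))

theorem fp_JJ_mem (a b : Bool) : JJ x y a b ∈ PSh.chartRing (ZMod p) x y a b :=
  mul_mem (mul_mem (fp_del_mem a b) (prod_mem fun i _ => fp_Px_mem a b i))
    (prod_mem fun i _ => fp_Py_mem a b i)

theorem fp_der_st (hk : Good (ZMod p)) (hc : IsCoord (ZMod p) x y) (F : Frob p G0 G V0 V)
    (a b : Bool) (i : Ix ⊕ Ix) :
    (∃ c ∈ PSh.chartRing (ZMod p) x y a b,
      HasDer (JJ x y a b • F.DX a) (PSh.chop x y a b (G.st i) (stD i) (stE i))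
        (c • PSh.chop x y a b (G.st i) (stD i) (stE i))) ∧
    ∃ c ∈ PSh.chartRing (ZMod p) x y a b,
      HasDer (JJ x y a b • F.DY b) (PSh.chop x y a b (G.st i) (stD i) (stE i))
        (c • PSh.chop x y a b (G.st i) (stD i) (stE i)) := by
  have hx : ((cs x a : Lˣ) : L) ∈ PSh.chartRing (ZMod p) x y a b :=
    Algebra.subset_adjoin (Or.inl rfl)
  have hy : ((cs y b : Lˣ) : L) ∈ PSh.chartRing (ZMod p) x y a b :=
    Algebra.subset_adjoin (Or.inr rfl)
  have z : ∀ {D : V →+ V} {g : A}, HasDer D g 0 →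
      ∃ c ∈ PSh.chartRing (ZMod p) x y a b, HasDer (JJ x y a b • D) g (c • g) := fun h => by
    have := hasDer_smul_L h (JJ x y a b)
    rw [smul_zero] at this
    exact ⟨0, zero_mem _, by rwa [zero_smul]⟩
  rcases i with i | i
  · refine ⟨?_, z (F.hasDer_s hk hc a b i).2⟩
    have h := hasDer_smul_L (F.hasDer_s hk hc a b i).1 (JJ x y a b)
    rw [smul_smul] at h
    refine ⟨_, ?_, h⟩
    rw [JJ, clear_aux hk (Px_ne_zero hk (hc.chart a b) a i)]
    exact mul_mem (fp_del_mem a b) (mul_mem (mul_mem (mul_mem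
      (Subalgebra.algebraMap_mem _ _) (prod_mem fun j _ => fp_Px_mem a b j))
      (prod_mem fun j _ => fp_Py_mem a b j))
      (mul_mem (intCast_mem _ _) (mul_mem (natCast_mem _ _) (pow_mem hx _))))
  · refine ⟨z (F.hasDer_t hk hc a b i).1, ?_⟩
    have h := hasDer_smul_L (F.hasDer_t hk hc a b i).2 (JJ x y a b)
    rw [smul_smul] at h
    refine ⟨_, ?_, h⟩
    rw [JJ, mul_right_comm (del _ _ _ _), clear_aux hk (Py_ne_zero hk (hc.chart a b) b i)]
    exact mul_mem (fp_del_mem a b) (mul_mem (mul_mem (mul_mem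
      (Subalgebra.algebraMap_mem _ _) (prod_mem fun j _ => fp_Py_mem a b j))
      (prod_mem fun j _ => fp_Px_mem a b j))
      (mul_mem (intCast_mem _ _) (mul_mem (ofNat_mem _ 4) (pow_mem hy _))))

theorem fp_der_Y (hk : Good (ZMod p)) (hc : IsCoord (ZMod p) x y) (F : Frob p G0 G V0 V)
    (N : PSh (ZMod p) x y V0) (n : ℕ) (a b : Bool) :
    (∀ v ∈ (G.Y (F.WZ N) n).ch a b, (JJ x y a b • F.DX a) v ∈ (G.Y (F.WZ N) n).ch a b) ∧
      ∀ v ∈ (G.Y (F.WZ N) n).ch a b, (JJ x y a b • F.DY b) v ∈ (G.Y (F.WZ N) n).ch a b := by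
  have hst : (G.chart a b).ring (ZMod p) ≤ stab A ((F.WZ N).ch a b) := fun c hc' v hv =>
    Geo.ring_smul_mem (G := G)
      (fun i => F.WT_stable N (i := Sum.inl i) (Finset.mem_toList.2 (Finset.mem_univ _)))
      (fun i => F.WT_stable N (i := Sum.inr i) (Finset.mem_toList.2 (Finset.mem_univ _)))
      a b hc' hv
  constructor
  · refine PSh.YY_der _ (F.WT_der N a b _ (fun v hv => ?_) _
      fun i _ => (F.fp_der_st hk hc a b i).1) (fun ε => ?_) n
    · exact (F.pull N).chartRing_smul_mem a b (fp_JJ_mem a b) (F.DX_pull N a b hv)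
    · obtain ⟨c, h1, h2⟩ := (F.hasDer_ww hk hc a b ε).1
      rw [Geo.chart_ww] at h2
      exact ⟨c, hst h1, h2⟩
  · refine PSh.YY_der _ (F.WT_der N a b _ (fun v hv => ?_) _
      fun i _ => (F.fp_der_st hk hc a b i).2) (fun ε => ?_) n
    · exact (F.pull N).chartRing_smul_mem a b (fp_JJ_mem a b) (F.DY_pull N a b hv)
    · obtain ⟨c, h1, h2⟩ := (F.hasDer_ww hk hc a b ε).2
      rw [Geo.chart_ww] at h2
      exact ⟨c, hst h1, h2⟩

theorem fp_fib_der {E : PSh (ZMod p) x y V} {b : Bool} (D : V →+ V)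
    (hD : ∀ v ∈ E.ch false b, D v ∈ E.ch false b)
    (hL : ∀ z ∈ PSh.chartRing (ZMod p) x y false b, ∃ z' ∈ PSh.chartRing (ZMod p) x y false b,
      ∀ v, D (z • v) = z' • v + z • D v) {v : V} (hv : v ∈ E.fib.ch b) : D v ∈ E.fib.ch b := by
  obtain ⟨z, hz, hz0, hzv⟩ := (PSh.mem_fib false b).1 hv
  have hz1 := PSh.adjoin_le_chartRing_x (y := y) false b hz
  obtain ⟨z', hz', h⟩ := hL z hz1
  refine (PSh.mem_fib false b).2 ⟨z * z, mul_mem hz hz, mul_ne_zero hz0 hz0, ?_⟩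
  have e : (z * z) • D v = z • D (z • v) - z' • z • v := by
    rw [h, smul_add, mul_smul, smul_comm z' z, add_sub_cancel_left]
  rw [e]
  exact sub_mem (E.chartRing_smul_mem false b hz1 (hD _ hzv)) (E.chartRing_smul_mem false b hz' hzv)

omit [Fact p.Prime] [Algebra (ZMod p) L] in
theorem fp_JJ_eq (b : Bool) : JJ x y false b =
    (∏ i, Px false (x : L) i) * ((((tu y (28 : ℕ) b)⁻¹ : Lˣ) : L) * J0 x y) := by
  have h : ((tu y (28 : ℕ) b)⁻¹ : Lˣ) = (tu y (4 : ℕ) b)⁻¹ ^ 7 := by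
    cases b
    · simp
    · rw [tu_true, tu_true, zpow_natCast, zpow_natCast, inv_pow, ← pow_mul]
  rw [JJ, J0, del_chart, h]
  simp only [Py_chart b, Finset.prod_mul_distrib, Finset.prod_const, Finset.card_univ, tu_false,
    one_mul, cs_false, Units.val_pow_eq_pow_val]
  rw [show Fintype.card Ix = 6 by simp]
  ring

theorem Phi_conn (hk : Good (ZMod p)) (hc : IsCoord (ZMod p) x y) (F : Frob p G0 G V0 V)
    (N : PSh (ZMod p) x y V0) (b : Bool) {v : V} (hv : v ∈ (F.Phi N).fib.ch b) :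
    J0 x y • F.Dx v ∈ ((F.Phi N).fib.tw (28 : ℕ)).ch b ∧
      J0 x y • F.Dy v ∈ ((F.Phi N).fib.tw (28 : ℕ)).ch b := by
  rw [Phi_fib] at hv ⊢
  obtain ⟨h1, h2⟩ := F.fp_der_Y hk hc N ((p - 1) / 2) false b
  obtain ⟨d1, d2, d3, d4⟩ := F.dX_cs false b
  have hJ := fp_JJ_mem (p := p) (x := x) (y := y) false b
  have k1 := fp_fib_der _ h1 (fun z hz => ⟨_, mul_mem hJ (fp_der_mem F.dx (cf x false) false b
    (d1 ▸ one_mem _) (d2 ▸ zero_mem _) hz), fun v => by
      simp only [DX, AddMonoidHom.smul_apply, F.Dx_smul, smul_add, smul_smul]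
      rw [mul_assoc, mul_comm z, mul_assoc]⟩) hv
  have k2 := fp_fib_der _ h2 (fun z hz => ⟨_, mul_mem hJ (fp_der_mem F.dy (cf y b) false b
    (d3 ▸ zero_mem _) (d4 ▸ one_mem _) hz), fun v => by
      simp only [DY, AddMonoidHom.smul_apply, F.Dy_smul, smul_add, smul_smul]
      rw [mul_assoc, mul_comm z, mul_assoc]⟩) hv
  have key : ∀ w : V, JJ x y false b • w ∈ (G.Y (F.WZ N) ((p - 1) / 2)).fib.ch b →
      J0 x y • w ∈ ((G.Y (F.WZ N) ((p - 1) / 2)).fib.tw (28 : ℕ)).ch b := by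
    intro w hw
    obtain ⟨z, hz, hz0, hzw⟩ := (PSh.mem_fib false b).1 hw
    refine (PSh.mem_fib false b).2 ⟨z * ∏ i, Px false (x : L) i,
      mul_mem hz (prod_mem fun i _ => Geo.dA_Px_mem false _ i),
      mul_ne_zero hz0 (Finset.prod_ne_zero_iff.2 fun i _ => Px_ne_zero hk hc false i), ?_⟩
    rw [fp_JJ_eq, mul_smul, mul_smul] at hzw
    rw [mul_smul]
    exact hzw
  refine ⟨key _ ?_, key _ ?_⟩
  · simpa [DX, cf] using k1
  · cases b
    · simpa [DY, cf] using k2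
    · have k3 := neg_mem (pow_smul_mem
        ((G.Y (F.WZ N) ((p - 1) / 2)).fib.smul_mem true) 2 k2)
      have e : -(cs y true ^ 2 • (JJ x y false true • F.DY true) v) =
          JJ x y false true • F.Dy v := by
        simp only [DY, cf, AddMonoidHom.smul_apply, Units.smul_def, smul_smul, cs_true,
          ← neg_smul]
        congr 1
        simp only [Units.val_pow_eq_pow_val, Units.val_inv_eq_inv_val]
        field_simp
      rwa [e] at k3

theorem Phi_subLe (hk : Good (ZMod p)) (hc : IsCoord (ZMod p) x y) (F : Frob p G0 G V0 V)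
    {N : PSh (ZMod p) x y V0} (hN : N.FG) (hf : N.Full) (hs : G0.Stab N) {μ : ℚ}
    (hμ : N.fib.SubLe A0 μ) :
    (F.Phi N).fib.SubLe A (p * μ + 5 * (p - 1) + (N.rk + 1) * 29) := by
  obtain ⟨a1, a2, a3, a4, -⟩ := F.Phi_lin hk hc hN hf hs
  have hJ : J0 x y ≠ 0 := mul_ne_zero (del_ne_zero hk hc false false)
    (Finset.prod_ne_zero_iff.2 fun i _ => Py_ne_zero hk hc false i)
  have hU : ∀ (U : Submodule A V) (w : V), J0 x y • w ∈ U → w ∈ U := by
    intro U w hw
    have h := U.smul_mem (algebraMap L A (J0 x y)⁻¹) hw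
    rwa [algebraMap_smul, inv_smul_smul₀ hJ] at h
  have h := P1.subLe_of_connection (A := A) hc.fib a1.fib a3.ops ((PSh.span_fib _).trans a2)
    (fun i : Bool => J0 x y • (bif i then F.Dx else F.Dy)) 28
    (fun i g => by
      obtain ⟨⟨g1, h1⟩, ⟨g2, h2⟩⟩ := F.exists_hasDer hk hc g
      cases i
      · exact ⟨_, hasDer_smul_L h2 _⟩
      · exact ⟨_, hasDer_smul_L h1 _⟩)
    (fun i b v hv => by
      cases i
      · exact (F.Phi_conn hk hc N b hv).2
      · exact (F.Phi_conn hk hc N b hv).1)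
    (μ := p * μ + 5 * (p - 1))
    (fun U h => F.Phi_horizontal hk hc hN hf hs hμ U (fun v hv => hU U _ (h true v hv))
      (fun v hv => hU U _ (h false v hv)))
  rw [PSh.rk_fib, a4] at h
  refine h.mono (le_of_eq ?_)
  norm_num

end Frob
end Vale.Agent.P190
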