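import Vale.Agent.P190.FrobDefs

/-! The Frobenius pullback on the product of two lines. -/

namespace Vale.Agent.P190
namespace Frob

variable {p : ℕ} [Fact p.Prime] {L : Type} [Field L] [Algebra (ZMod p) L] {x y : Lˣ}
  {A0 A : Type} [CommRing A0] [Algebra L A0] [CommRing A] [Algebra L A]
  {G0 : Geo false false x y A0} {G : Geo false false x y A}
  {V0 V : Type} [AddCommGroup V0] [Module L V0] [Module A0 V0] [Module (ZMod p) V0]
  [IsScalarTower (ZMod p) L V0]
  [AddCommGroup V] [Module L V] [Module A V] [Module (ZMod p) V] [IsScalarTower (ZMod p) L V]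

theorem eig_sum_eq_zero {K W ι : Type} [Field K] [AddCommGroup W] [Module K W] [Fintype ι]
    (f : W →ₗ[K] W) (μ : ι → K) (hμ : Function.Injective μ) (v : ι → W)
    (hv : ∀ i, f (v i) = μ i • v i) (h : ∑ i, v i = 0) (i : ι) : v i = 0 := by
  have hI := (Module.End.eigenspaces_iSupIndep f).comp hμ
  rw [iSupIndep_iff_finsetSum_eq_zero_imp_eq_zero] at hI
  exact hI Finset.univ v (fun i _ => Module.End.mem_eigenspace_iff.2 (hv i)) h i
    (Finset.mem_univ i)

theorem fin_cast_inj : Function.Injective fun c : Fin p => ((c : ℕ) : ZMod p) := by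
  intro c d h
  have h' := congrArg ZMod.val h
  simp only [ZMod.val_cast_of_lt c.2, ZMod.val_cast_of_lt d.2] at h'
  exact Fin.ext h'

theorem cf_der_self (D : Derivation ℤ L L) (t : Lˣ) (h : D (t : L) = 1) (a : Bool) :
    cf t a * D ((cs t a : Lˣ) : L) = 1 := by
  cases a
  · simp [cf, h]
  · have ht : (t : L) ≠ 0 := t.ne_zero
    simp only [cf, cs_true, Units.val_inv_eq_inv_val, Derivation.leibniz_inv, h, smul_eq_mul]
    field_simp

theorem der_cs_zero (D : Derivation ℤ L L) (t : Lˣ) (h : D (t : L) = 0) (a : Bool) :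
    D ((cs t a : Lˣ) : L) = 0 := by
  cases a
  · simp [h]
  · simp only [cs_true, Units.val_inv_eq_inv_val, Derivation.leibniz_inv, h, smul_zero]

omit [Module (ZMod p) V0] [IsScalarTower (ZMod p) L V0] [Module (ZMod p) V]
  [IsScalarTower (ZMod p) L V] [Fact p.Prime] [Algebra (ZMod p) L] in
theorem DX_mono (F : Frob p G0 G V0 V) (a b : Bool) (c d : ℕ) (u : V0) :
    F.DX a ((cs x a ^ c * cs y b ^ d) • F.φ u) =
      c • (cs x a ^ (c - 1) * cs y b ^ d) • F.φ u := by
  have h1 := cf_der_self F.dx x F.dx_x a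
  have h2 := der_cs_zero F.dx y F.dx_y b
  simp only [DX, AddMonoidHom.smul_apply, Units.smul_def, F.Dx_smul, F.Dx_φ, smul_zero, add_zero,
    Units.val_mul, Units.val_pow_eq_pow_val, Derivation.leibniz, Derivation.leibniz_pow, h2,
    smul_smul, ← Nat.cast_smul_eq_nsmul L, smul_eq_mul]
  refine congrArg (· • F.φ u) ?_
  linear_combination ((c : L) * ((cs x a : Lˣ) : L) ^ (c - 1) * ((cs y b : Lˣ) : L) ^ d) * h1

omit [Module (ZMod p) V0] [IsScalarTower (ZMod p) L V0] [Module (ZMod p) V]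
  [IsScalarTower (ZMod p) L V] [Fact p.Prime] [Algebra (ZMod p) L] in
theorem DY_mono (F : Frob p G0 G V0 V) (a b : Bool) (c d : ℕ) (u : V0) :
    F.DY b ((cs x a ^ c * cs y b ^ d) • F.φ u) =
      d • (cs x a ^ c * cs y b ^ (d - 1)) • F.φ u := by
  have h1 := cf_der_self F.dy y F.dy_y b
  have h2 := der_cs_zero F.dy x F.dy_x a
  simp only [DY, AddMonoidHom.smul_apply, Units.smul_def, F.Dy_smul, F.Dy_φ, smul_zero, add_zero,
    Units.val_mul, Units.val_pow_eq_pow_val, Derivation.leibniz, Derivation.leibniz_pow, h2,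
    smul_smul, ← Nat.cast_smul_eq_nsmul L, smul_eq_mul]
  refine congrArg (· • F.φ u) ?_
  linear_combination ((d : L) * ((cs x a : Lˣ) : L) ^ c * ((cs y b : Lˣ) : L) ^ (d - 1)) * h1

theorem nsmul_pred {W : Type} [AddCommGroup W] [Module L W] (t q : Lˣ) (c : ℕ) (w : W) :
    t • c • (t ^ (c - 1) * q) • w = c • (t ^ c * q) • w := by
  cases c with
  | zero => simp
  | succ c => rw [smul_comm t, ← mul_smul, Nat.add_sub_cancel, pow_succ', mul_assoc]

theorem indep (F : Frob p G0 G V0 V) (a b : Bool) (u : Fin p × Fin p → V0)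
    (h : ∑ c : Fin p × Fin p, (cs x a ^ (c.1 : ℕ) * cs y b ^ (c.2 : ℕ)) • F.φ (u c) = 0) :
    u = 0 := by
  let E1 : V →ₗ[ZMod p] V :=
    ((DistribSMul.toAddMonoidHom V (cs x a)).comp (F.DX a)).toZModLinearMap p
  let E2 : V →ₗ[ZMod p] V :=
    ((DistribSMul.toAddMonoidHom V (cs y b)).comp (F.DY b)).toZModLinearMap p
  have h1 : ∀ (c d : ℕ) (w : V0), E1 ((cs x a ^ c * cs y b ^ d) • F.φ w) =
      (c : ZMod p) • (cs x a ^ c * cs y b ^ d) • F.φ w := by
    intro c d w
    change cs x a • F.DX a _ = _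
    rw [DX_mono, nsmul_pred, Nat.cast_smul_eq_nsmul]
  have h2 : ∀ (c d : ℕ) (w : V0), E2 ((cs x a ^ c * cs y b ^ d) • F.φ w) =
      (d : ZMod p) • (cs x a ^ c * cs y b ^ d) • F.φ w := by
    intro c d w
    change cs y b • F.DY b _ = _
    rw [DY_mono, mul_comm, nsmul_pred, Nat.cast_smul_eq_nsmul, mul_comm]
  rw [Fintype.sum_prod_type] at h
  funext ⟨c, d⟩
  have h3 := eig_sum_eq_zero E1 _ fin_cast_inj _ (fun c => by
    rw [map_sum, Finset.smul_sum]
    exact Finset.sum_congr rfl fun d _ => h1 _ _ _) h c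
  have h4 := eig_sum_eq_zero E2 _ fin_cast_inj _ (fun d => h2 _ _ _) h3 d
  rw [smul_eq_zero_iff_eq, ← map_zero F.φ] at h4
  exact F.φ_inj h4

/-- the additive map assembling a family of sections -/
def Psi (F : Frob p G0 G V0 V) (a b : Bool) : (Fin p × Fin p → V0) →+ V where
  toFun u := ∑ c : Fin p × Fin p, (cs x a ^ (c.1 : ℕ) * cs y b ^ (c.2 : ℕ)) • F.φ (u c)
  map_zero' := by simp
  map_add' u u' := by simp [smul_add, Finset.sum_add_distrib]

omit [Module (ZMod p) V0] [IsScalarTower (ZMod p) L V0] [Module (ZMod p) V]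
  [IsScalarTower (ZMod p) L V] [Fact p.Prime] [Algebra (ZMod p) L] in
theorem Psi_apply (F : Frob p G0 G V0 V) (a b : Bool) (u : Fin p × Fin p → V0) :
    F.Psi a b u =
      ∑ c : Fin p × Fin p, (cs x a ^ (c.1 : ℕ) * cs y b ^ (c.2 : ℕ)) • F.φ (u c) := rfl

theorem Psi_inj (F : Frob p G0 G V0 V) (a b : Bool) : Function.Injective (F.Psi a b) :=
  (injective_iff_map_eq_zero _).2 fun u hu => F.indep a b u hu

theorem φ_zmod (F : Frob p G0 G V0 V) (c : ZMod p) (v : V0) : F.φ (c • v) = c • F.φ v :=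
  ZMod.map_smul F.φ c v

theorem mem_pull (F : Frob p G0 G V0 V) (N : PSh (ZMod p) x y V0) (a b : Bool) (v : V) :
    v ∈ (F.pull N).ch a b ↔ ∃ u : Fin p × Fin p → V0, (∀ c, u c ∈ N.ch a b) ∧
      v = ∑ c : Fin p × Fin p, (cs x a ^ (c.1 : ℕ) * cs y b ^ (c.2 : ℕ)) • F.φ (u c) := by
  classical
  have hp : 0 < p := (Fact.out : p.Prime).pos
  constructor
  · intro hv
    have hle : (F.pull N).ch a b ≤ (Submodule.pi Set.univ fun _ => N.ch a b).map
        ((F.Psi a b).toZModLinearMap p) := by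
      refine Submodule.span_le.2 ?_
      rintro _ ⟨c, d, u, hu, rfl⟩
      refine ⟨Pi.single (⟨c % p, Nat.mod_lt _ hp⟩, ⟨d % p, Nat.mod_lt _ hp⟩)
        ((cs x a ^ (c / p) * cs y b ^ (d / p)) • u), ?_, ?_⟩
      · intro i _
        rw [Pi.single_apply]
        split_ifs
        · rw [mul_smul]
          exact pow_smul_mem (N.smul_x a b) _ (pow_smul_mem (N.smul_y a b) _ hu)
        · exact Submodule.zero_mem _
      · change F.Psi a b _ = _
        rw [Psi_apply, Finset.sum_eq_single (⟨c % p, Nat.mod_lt _ hp⟩, ⟨d % p, Nat.mod_lt _ hp⟩)]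
        · rw [Pi.single_eq_same, F.φ_unit, ← mul_smul, mul_pow, ← pow_mul, ← pow_mul,
            mul_mul_mul_comm, ← pow_add, ← pow_add]
          simp only [Nat.mod_add_div']
        · intro i _ hi
          rw [Pi.single_eq_of_ne hi, map_zero, smul_zero]
        · intro h
          exact absurd (Finset.mem_univ _) h
    obtain ⟨u, hu, rfl⟩ := hle hv
    exact ⟨u, fun c => hu c trivial, rfl⟩
  · rintro ⟨u, hu, rfl⟩
    exact Submodule.sum_mem _ fun c _ => Submodule.subset_span ⟨_, _, u c, hu c, rfl⟩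

theorem Psi_mem_iff (F : Frob p G0 G V0 V) (N : PSh (ZMod p) x y V0) (a b : Bool)
    (u : Fin p × Fin p → V0) : F.Psi a b u ∈ (F.pull N).ch a b ↔ ∀ c, u c ∈ N.ch a b := by
  rw [mem_pull]
  constructor
  · rintro ⟨u', hu', h⟩
    rw [F.Psi_inj a b (a₂ := u') h]
    exact hu'
  · intro hu
    exact ⟨u, hu, rfl⟩

theorem φ_mem_pull (F : Frob p G0 G V0 V) (N : PSh (ZMod p) x y V0) (a b : Bool) {u : V0}
    (hu : u ∈ N.ch a b) : F.φ u ∈ (F.pull N).ch a b :=
  Submodule.subset_span ⟨0, 0, u, hu, by simp⟩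

omit [Module (ZMod p) V0] [IsScalarTower (ZMod p) L V0] [Module (ZMod p) V]
  [IsScalarTower (ZMod p) L V] [Fact p.Prime] [Algebra (ZMod p) L] in
theorem Psi_reindex (F : Frob p G0 G V0 V) (a b : Bool) (σ τ : Equiv.Perm (Fin p))
    (m n : Fin p → Lˣ) (w1 w2 : Lˣ)
    (h1 : ∀ c, w1 * x ^ (σ c : ℕ) = cs x a ^ (c : ℕ) * m c ^ p)
    (h2 : ∀ c, w2 * y ^ (τ c : ℕ) = cs y b ^ (c : ℕ) * n c ^ p) (u : Fin p × Fin p → V0) :
    (w1 * w2) • F.Psi false false u =
      F.Psi a b fun c => (m c.1 * n c.2) • u (σ c.1, τ c.2) := by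
  rw [Psi_apply, Psi_apply, Finset.smul_sum, ← (σ.prodCongr τ).sum_comp]
  refine Finset.sum_congr rfl fun c _ => ?_
  rw [F.φ_unit, ← mul_smul, ← mul_smul, mul_pow, mul_mul_mul_comm, mul_mul_mul_comm (cs x a ^ _),
    ← h1, ← h2]
  rfl

theorem pull_FG (F : Frob p G0 G V0 V) {N : PSh (ZMod p) x y V0} (hN : N.FG) :
    (F.pull N).FG := by
  classical
  intro a b
  obtain ⟨s, hs⟩ := hN a b
  refine ⟨s.image F.φ, fun v hv => ?_⟩
  obtain ⟨u, hu, rfl⟩ := (F.mem_pull N a b v).1 hv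
  have hx : ((cs x a : Lˣ) : L) ∈ PSh.chartRing (ZMod p) x y a b :=
    Algebra.subset_adjoin (by simp)
  have hy : ((cs y b : Lˣ) : L) ∈ PSh.chartRing (ZMod p) x y a b :=
    Algebra.subset_adjoin (by simp)
  have key : ∀ w ∈ Submodule.span (PSh.chartRing (ZMod p) x y a b) (s : Set V0),
      F.φ w ∈ Submodule.span (PSh.chartRing (ZMod p) x y a b) (s.image F.φ : Set V) := by
    intro w hw
    induction hw using Submodule.span_induction with
    | mem w hw => exact Submodule.subset_span (by simpa using ⟨w, hw, rfl⟩)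
    | zero => simp
    | add w w' _ _ h h' => rw [map_add]; exact Submodule.add_mem _ h h'
    | smul r w _ h =>
      have : F.φ (r • w) = (r ^ p) • F.φ w := F.φ_smul (r : L) w
      rw [this]
      exact Submodule.smul_mem _ _ h
  refine Submodule.sum_mem _ fun c _ => ?_
  exact Submodule.smul_mem _ ((⟨_, hx⟩ ^ (c.1 : ℕ) * ⟨_, hy⟩ ^ (c.2 : ℕ) :
    PSh.chartRing (ZMod p) x y a b)) (key _ (hs _ (hu c)))

theorem pull_full (hc : IsCoord (ZMod p) x y) (F : Frob p G0 G V0 V) {N : PSh (ZMod p) x y V0}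
    (hN : N.Full) : (F.pull N).Full := by
  have key : ∀ w ∈ Submodule.span L (N.ch false false : Set V0),
      F.φ w ∈ Submodule.span L ((F.pull N).ch false false : Set V) := by
    intro w hw
    induction hw using Submodule.span_induction with
    | mem w hw => exact Submodule.subset_span (F.φ_mem_pull N _ _ hw)
    | zero => simp
    | add w w' _ _ h h' => rw [map_add]; exact Submodule.add_mem _ h h'
    | smul r w _ h => rw [F.φ_smul]; exact Submodule.smul_mem _ _ h
  refine eq_top_iff.2 fun v _ => ?_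
  obtain ⟨u, rfl⟩ := F.surj v
  refine Submodule.sum_mem _ fun c _ => Submodule.smul_mem _ _ (key _ ?_)
  rw [show Submodule.span L (N.ch false false : Set V0) = ⊤ from hN]
  trivial

/-- reversal of exponents on the chart at infinity -/
def rv (p : ℕ) : Bool → Equiv.Perm (Fin p)
  | false => Equiv.refl _
  | true => Fin.revPerm

omit [Algebra (ZMod p) L] in
theorem tu_rv (t : Lˣ) (i : ℤ) (a : Bool) (c : Fin p) :
    (tu t (p * i + p - 1) a)⁻¹ * t ^ (rv p a c : ℕ) = cs t a ^ (c : ℕ) * (tu t i a)⁻¹ ^ p := by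
  cases a
  · simp [rv]
  · have hc : ((Fin.rev c : ℕ) : ℤ) = p - 1 - (c : ℕ) := by
      have := c.2
      rw [Fin.val_rev]; omega
    simp only [rv, tu_true, cs_true, Fin.revPerm_apply, ← zpow_natCast, hc, inv_zpow', ← zpow_neg,
      ← zpow_mul, ← zpow_add]
    refine congrArg (t ^ ·) ?_
    ring

theorem Psi_mem_H0 (F : Frob p G0 G V0 V) (N : PSh (ZMod p) x y V0) (i j : ℤ)
    (u : Fin p × Fin p → V0) :
    F.Psi false false u ∈ ((F.pull N).tw (p * i + p - 1) (p * j + p - 1)).H0 ↔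
      ∀ c, u c ∈ (N.tw i j).H0 := by
  simp only [PSh.mem_H0, PSh.mem_tw, mul_inv]
  have key := fun a b => F.Psi_reindex a b (rv p a) (rv p b) (fun _ => (tu x i a)⁻¹)
    (fun _ => (tu y j b)⁻¹) _ _ (tu_rv x i a) (tu_rv y j b) u
  simp only [key, Psi_mem_iff]
  constructor
  · intro h c a b
    simpa using h a b ((rv p a).symm c.1, (rv p b).symm c.2)
  · intro h a b c
    exact h _ a b

theorem finrank_H0_pull (hc : IsCoord (ZMod p) x y) (F : Frob p G0 G V0 V)
    {N : PSh (ZMod p) x y V0} (hN : N.FG) (i j : ℤ) :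
    Module.finrank (ZMod p) ((F.pull N).tw (p * i + p - 1) (p * j + p - 1)).H0 =
      p ^ 2 * Module.finrank (ZMod p) (N.tw i j).H0 := by
  have hfin : Module.Finite (ZMod p) (N.tw i j).H0 :=
    Module.Finite.iff_fg.2 ((hN.tw i j).H0_fg hc)
  let T : (Fin p × Fin p → (N.tw i j).H0) →ₗ[ZMod p] V :=
    (F.Psi false false).toZModLinearMap p ∘ₗ
      LinearMap.pi fun c => (N.tw i j).H0.subtype ∘ₗ LinearMap.proj c
  have hT : ∀ u, T u = F.Psi false false fun c => (u c : V0) := fun _ => rfl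
  have hinj : Function.Injective T := by
    intro u u' h
    rw [hT, hT] at h
    funext c
    exact Subtype.ext (congrFun (F.Psi_inj _ _ h) c)
  have hr : LinearMap.range T = ((F.pull N).tw (p * i + p - 1) (p * j + p - 1)).H0 := by
    ext v
    constructor
    · rintro ⟨u, rfl⟩
      rw [hT, Psi_mem_H0]
      exact fun c => (u c).2
    · intro hv
      obtain ⟨u, hu⟩ := F.surj v
      have hu' : v = F.Psi false false u := by
        rw [hu, Psi_apply]
        simp [Units.smul_def]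
      rw [hu', Psi_mem_H0] at hv
      exact ⟨fun c => ⟨u c, hv c⟩, by rw [hT, hu']⟩
  rw [← hr, LinearMap.finrank_range_of_inj hinj, Module.finrank_pi_fintype]
  simp [sq]

theorem pull_coeff (hc : IsCoord (ZMod p) x y) (F : Frob p G0 G V0 V)
    {N : PSh (ZMod p) x y V0} (hN : N.FG) :
    (F.pull N).rk = N.rk ∧ (F.pull N).alp = p * N.alp - N.rk * ((p : ℤ) - 1) ∧
      (F.pull N).bet = p * N.bet - N.rk * ((p : ℤ) - 1) ∧
      N.rk * (F.pull N).gam - (F.pull N).alp * (F.pull N).bet =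
        p ^ 2 * (N.rk * N.gam - N.alp * N.bet) := by
  have hp : (1 : ℤ) ≤ p := by exact_mod_cast (Fact.out : p.Prime).pos
  have hP := F.pull_FG hN
  obtain ⟨j0, hj0⟩ := PSh.hp_eq_finrank hc hN
  obtain ⟨j1, hj1⟩ := PSh.hp_eq_finrank hc hP
  have grow : ∀ n m : ℤ, |n| ≤ m → n ≤ p * m + p - 1 := fun n m h => by
    have h0 : 0 ≤ m := (abs_nonneg n).trans h
    have h1 := le_abs_self n
    nlinarith
  have key := biaffine_ext (A := ((F.pull N).rk : ℤ) * p * p - p ^ 2 * N.rk)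
    (B := ((F.pull N).rk : ℤ) * p * (p - 1) + (F.pull N).alp * p - p ^ 2 * N.alp)
    (C := ((F.pull N).rk : ℤ) * p * (p - 1) + (F.pull N).bet * p - p ^ 2 * N.bet)
    (D := ((F.pull N).rk : ℤ) * (p - 1) * (p - 1) + (F.pull N).alp * (p - 1) +
      (F.pull N).bet * (p - 1) + (F.pull N).gam - p ^ 2 * N.gam) ⟨max j0 |j1|, fun j hj => by
      obtain ⟨i0, hi0⟩ := hj0 j (le_of_max_le_left hj)
      obtain ⟨i1, hi1⟩ := hj1 (p * j + p - 1) (grow _ _ (le_of_max_le_right hj))
      refine ⟨max i0 |i1|, fun i hi => ?_⟩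
      have e0 := hi0 i (le_of_max_le_left hi)
      have e1 := hi1 (p * i + p - 1) (grow _ _ (le_of_max_le_right hi))
      rw [F.finrank_H0_pull hc hN, PSh.hp_eq hc hP] at e1
      rw [PSh.hp_eq hc hN] at e0
      push_cast at e1
      linear_combination e1 - (p : ℤ) ^ 2 * e0⟩
  obtain ⟨hA, hB, hC, hD⟩ := key
  have hp0 : (p : ℤ) ≠ 0 := by omega
  have h1 : ((F.pull N).rk : ℤ) = N.rk :=
    mul_left_cancel₀ (pow_ne_zero 2 hp0) (by linear_combination hA)
  have h2 : (F.pull N).alp = p * N.alp - N.rk * ((p : ℤ) - 1) :=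
    mul_left_cancel₀ hp0 (by linear_combination hB - (p : ℤ) * (p - 1) * h1)
  have h3 : (F.pull N).bet = p * N.bet - N.rk * ((p : ℤ) - 1) :=
    mul_left_cancel₀ hp0 (by linear_combination hC - (p : ℤ) * (p - 1) * h1)
  refine ⟨by exact_mod_cast h1, h2, h3, ?_⟩
  rw [h1, h2, h3] at hD
  rw [h2, h3]
  linear_combination (N.rk : ℤ) * hD

theorem pull_X0 (F : Frob p G0 G V0 V) {N : PSh (ZMod p) x y V0} {i : ℤ} (h : N.X0 i) :
    (F.pull N).X0 (p * i) := by
  have : NeZero p := ⟨(Fact.out : p.Prime).ne_zero⟩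
  intro v hv hv'
  obtain ⟨u, hu, rfl⟩ := (F.mem_pull N false false v).1 hv
  have h1 : ∀ c : Fin p, (x ^ (p * i))⁻¹ * x ^ ((Equiv.neg (Fin p) c : Fin p) : ℕ) =
      cs x true ^ (c : ℕ) * (x ^ ((if c = 0 then 0 else 1) - i)) ^ p := by
    intro c
    have hc : (((-c : Fin p) : ℕ) : ℤ) = (if c = 0 then 0 else 1) * p - (c : ℕ) := by
      rw [Fin.val_neg]
      have := c.2
      split_ifs with h0
      · simp [h0]
      · omega
    simp only [Equiv.neg_apply, cs_true, ← zpow_natCast, hc, inv_zpow', ← zpow_neg,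
      ← zpow_mul, ← zpow_add]
    refine congrArg (x ^ ·) ?_
    ring
  have key := F.Psi_reindex true false (Equiv.neg (Fin p)) (Equiv.refl _)
    (fun c => x ^ ((if c = 0 then 0 else 1) - i)) (fun _ => 1) (x ^ (p * i))⁻¹ 1 h1
    (fun c => by simp) u
  rw [mul_one] at key
  rw [← Psi_apply, key, Psi_mem_iff] at hv'
  have hu0 : u = 0 := by
    funext c
    refine h _ (hu c) ?_
    have h2 := hv' (-c.1, c.2)
    simp only [Equiv.neg_apply, neg_neg, Equiv.refl_apply, mul_one] at h2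
    split_ifs at h2
    · rwa [zero_sub, zpow_neg] at h2
    · have h3 := N.smul_x true false _ h2
      rwa [cs_true, ← mul_smul, zpow_sub, zpow_one, inv_mul_cancel_left] at h3
  simp [hu0]

theorem pull_stable [IsScalarTower L A0 V0] [IsScalarTower L A V] (F : Frob p G0 G V0 V)
    {N : PSh (ZMod p) x y V0} {g0 : A0} {g : A} (hg : ∀ v, F.φ (g0 • v) = g • F.φ v) {d e : ℕ}
    (h : N.Stable g0 d e) : (F.pull N).Stable g (p * d) (p * e) := by
  intro a b v hv
  obtain ⟨u, hu, rfl⟩ := (F.mem_pull N a b v).1 hv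
  refine (F.mem_pull N a b _).2 ⟨fun c => PSh.chop x y a b g0 d e • u c,
    fun c => h a b _ (hu c), ?_⟩
  have ht : ∀ (t : Lˣ) (n : ℕ) (a : Bool), tu t ((p * n : ℕ) : ℤ) a = tu t n a ^ p := by
    intro t n a
    cases a
    · simp
    · simp only [tu_true, zpow_natCast, ← pow_mul, mul_comm]
  rw [Finset.smul_sum]
  refine Finset.sum_congr rfl fun c _ => ?_
  simp only [PSh.chop, smul_assoc, F.φ_smul, hg, ht, ← mul_pow, ← inv_pow,
    Units.val_pow_eq_pow_val, Units.smul_def]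
  rw [smul_comm g, smul_comm]

theorem φ_ww [IsScalarTower L A0 V0] [IsScalarTower L A V] (F : Frob p G0 G V0 V) (ε : Eps)
    (v : V0) : F.φ (G0.ww ε • v) = G.ww ε ^ p • F.φ v := by
  have hL : (p : L) = 0 := by
    rw [← map_natCast (algebraMap (ZMod p) L), ZMod.natCast_self, map_zero]
  have hA : (p : A) = 0 := by rw [← map_natCast (algebraMap L A), hL, map_zero]
  have hsub : ∀ r r' : A, (r - r') ^ p = r ^ p - r' ^ p := fun r r' => by
    have := add_pow_prime_eq' (Fact.out : p.Prime) (r - r') r'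
    rw [hA, zero_mul, add_zero, sub_add_cancel] at this
    rw [this, add_sub_cancel_right]
  have hh' : ∀ e w, F.φ (G0.h e false • w) = G.h e false ^ p • F.φ w := fun e w => by
    simp only [Geo.h, hh, hsub, sub_smul, map_sub, mul_smul, mul_pow, F.φ_s, F.φ_t]
  cases ε with
  | none => exact F.φ_w v
  | some e =>
    simp only [Geo.ww, smul_assoc, mul_smul, F.φ_smul, F.φ_w, hh', smul_pow, mul_pow]

theorem DX_pull (F : Frob p G0 G V0 V) (N : PSh (ZMod p) x y V0) (a b : Bool) {v : V}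
    (hv : v ∈ (F.pull N).ch a b) : F.DX a v ∈ (F.pull N).ch a b := by
  obtain ⟨u, hu, rfl⟩ := (F.mem_pull N a b v).1 hv
  rw [map_sum]
  refine Submodule.sum_mem _ fun c _ => ?_
  rw [DX_mono]
  refine nsmul_mem ?_ _
  exact Submodule.subset_span ⟨_, _, u c, hu c, rfl⟩

theorem DY_pull (F : Frob p G0 G V0 V) (N : PSh (ZMod p) x y V0) (a b : Bool) {v : V}
    (hv : v ∈ (F.pull N).ch a b) : F.DY b v ∈ (F.pull N).ch a b := by
  obtain ⟨u, hu, rfl⟩ := (F.mem_pull N a b v).1 hv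
  rw [map_sum]
  refine Submodule.sum_mem _ fun c _ => ?_
  rw [DY_mono]
  refine nsmul_mem ?_ _
  exact Submodule.subset_span ⟨_, _, u c, hu c, rfl⟩

/-- the Frobenius data pass to the quotient by a horizontal submodule -/
theorem exists_quot [IsScalarTower L A0 V0] [IsScalarTower L A V]
    [Algebra (ZMod p) A0] [IsScalarTower (ZMod p) A0 V0]
    [Algebra (ZMod p) A] [IsScalarTower (ZMod p) A V] (F : Frob p G0 G V0 V)
    (U : Submodule A V) (hx : ∀ v ∈ U, F.Dx v ∈ U) (hy : ∀ v ∈ U, F.Dy v ∈ U) :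
    ∃ (U0 : Submodule A0 V0) (F' : Frob p G0 G (V0 ⧸ U0) (V ⧸ U)),
      ∀ N : PSh (ZMod p) x y V0,
        (F.pull N).map (U.mkQ.restrictScalars L) = F'.pull (N.map (U0.mkQ.restrictScalars L)) := by
  let UL : Submodule L V0 :=
    { carrier := {v | F.φ v ∈ U}
      add_mem' := fun {v w} hv hw => by
        change F.φ (v + w) ∈ U
        rw [map_add]; exact U.add_mem hv hw
      zero_mem' := by
        change F.φ 0 ∈ U
        rw [map_zero]; exact U.zero_mem
      smul_mem' := fun q v hv => by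
        change F.φ (q • v) ∈ U
        rw [F.φ_smul]; exact U.smul_of_tower_mem _ hv }
  obtain ⟨U0, hU0⟩ := G0.exists_submodule UL
    (fun i v hv => by
      change F.φ _ ∈ U
      rw [F.φ_s]; exact U.smul_mem _ hv)
    (fun i v hv => by
      change F.φ _ ∈ U
      rw [F.φ_t]; exact U.smul_mem _ hv)
    (fun v hv => by
      change F.φ _ ∈ U
      rw [F.φ_w]; exact U.smul_mem _ hv)
  have hm : ∀ v, v ∈ U0 ↔ F.φ v ∈ U := fun v => by
    change v ∈ U0.restrictScalars L ↔ v ∈ UL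
    rw [hU0]
  let φ' : V0 ⧸ U0 →+ V ⧸ U :=
    QuotientAddGroup.map U0.toAddSubgroup U.toAddSubgroup F.φ fun v hv => (hm v).1 hv
  let Dx' : V ⧸ U →+ V ⧸ U :=
    QuotientAddGroup.map U.toAddSubgroup U.toAddSubgroup F.Dx fun v hv => hx v hv
  let Dy' : V ⧸ U →+ V ⧸ U :=
    QuotientAddGroup.map U.toAddSubgroup U.toAddSubgroup F.Dy fun v hv => hy v hv
  have hφ : ∀ v, φ' (Submodule.Quotient.mk v) = Submodule.Quotient.mk (F.φ v) := fun _ => rfl
  have hDx : ∀ v, Dx' (Submodule.Quotient.mk v) = Submodule.Quotient.mk (F.Dx v) := fun _ => rfl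
  have hDy : ∀ v, Dy' (Submodule.Quotient.mk v) = Submodule.Quotient.mk (F.Dy v) := fun _ => rfl
  refine ⟨U0,
    { φ := φ'
      φ_inj := ?_
      φ_smul := ?_
      φ_s := ?_
      φ_t := ?_
      φ_w := ?_
      dx := F.dx
      dy := F.dy
      dx_x := F.dx_x
      dx_y := F.dx_y
      dy_x := F.dy_x
      dy_y := F.dy_y
      Dx := Dx'
      Dy := Dy'
      Dx_smul := ?_
      Dy_smul := ?_
      Dx_φ := ?_
      Dy_φ := ?_
      surj := ?_ }, ?_⟩
  · refine (injective_iff_map_eq_zero _).2 fun v hv => ?_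
    obtain ⟨v, rfl⟩ := Submodule.Quotient.mk_surjective U0 v
    rw [hφ, Submodule.Quotient.mk_eq_zero] at hv
    exact (Submodule.Quotient.mk_eq_zero U0).2 ((hm v).2 hv)
  · intro q v
    obtain ⟨v, rfl⟩ := Submodule.Quotient.mk_surjective U0 v
    rw [← Submodule.Quotient.mk_smul, hφ, hφ, F.φ_smul, Submodule.Quotient.mk_smul]
  · intro i v
    obtain ⟨v, rfl⟩ := Submodule.Quotient.mk_surjective U0 v
    rw [← Submodule.Quotient.mk_smul, hφ, hφ, F.φ_s, Submodule.Quotient.mk_smul]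
  · intro i v
    obtain ⟨v, rfl⟩ := Submodule.Quotient.mk_surjective U0 v
    rw [← Submodule.Quotient.mk_smul, hφ, hφ, F.φ_t, Submodule.Quotient.mk_smul]
  · intro v
    obtain ⟨v, rfl⟩ := Submodule.Quotient.mk_surjective U0 v
    rw [← Submodule.Quotient.mk_smul, hφ, hφ, F.φ_w, Submodule.Quotient.mk_smul]
  · intro q v
    obtain ⟨v, rfl⟩ := Submodule.Quotient.mk_surjective U v
    rw [← Submodule.Quotient.mk_smul, hDx, hDx, F.Dx_smul, Submodule.Quotient.mk_add,
      Submodule.Quotient.mk_smul, Submodule.Quotient.mk_smul]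
  · intro q v
    obtain ⟨v, rfl⟩ := Submodule.Quotient.mk_surjective U v
    rw [← Submodule.Quotient.mk_smul, hDy, hDy, F.Dy_smul, Submodule.Quotient.mk_add,
      Submodule.Quotient.mk_smul, Submodule.Quotient.mk_smul]
  · intro v
    obtain ⟨v, rfl⟩ := Submodule.Quotient.mk_surjective U0 v
    rw [hφ, hDx, F.Dx_φ, Submodule.Quotient.mk_zero]
  · intro v
    obtain ⟨v, rfl⟩ := Submodule.Quotient.mk_surjective U0 v
    rw [hφ, hDy, F.Dy_φ, Submodule.Quotient.mk_zero]
  · intro v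
    obtain ⟨v, rfl⟩ := Submodule.Quotient.mk_surjective U v
    obtain ⟨u, rfl⟩ := F.surj v
    refine ⟨fun c => Submodule.Quotient.mk (u c), ?_⟩
    change U.mkQ.restrictScalars L _ = _
    rw [map_sum]
    exact Finset.sum_congr rfl fun c _ => rfl
  · intro N
    refine PSh.ext (funext fun a => funext fun b => ?_)
    change (Submodule.span (ZMod p) (F.pullGen N a b)).map _ = Submodule.span (ZMod p) _
    rw [Submodule.map_span]
    refine congrArg (Submodule.span (ZMod p)) (Set.ext fun v => ⟨?_, ?_⟩)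
    · rintro ⟨_, ⟨c, d, u, hu, rfl⟩, rfl⟩
      exact ⟨c, d, _, ⟨u, hu, rfl⟩, rfl⟩
    · rintro ⟨c, d, _, ⟨u, hu, rfl⟩, rfl⟩
      exact ⟨_, ⟨c, d, u, hu, rfl⟩, rfl⟩

end Frob
end Vale.Agent.P190
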