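import Vale.Agent.P190.FrobPull

/-! The Frobenius pullback on the product of the two curves. -/

namespace Vale.Agent.P190
namespace Frob

variable {p : ℕ} [Fact p.Prime] {L : Type} [Field L] [Algebra (ZMod p) L] {x y : Lˣ}
  {A0 A : Type} [CommRing A0] [Algebra L A0] [CommRing A] [Algebra L A]
  [Algebra (ZMod p) A] [IsScalarTower (ZMod p) L A]
  {G0 : Geo false false x y A0} {G : Geo false false x y A}
  {V0 V : Type} [AddCommGroup V0] [Module L V0] [Module A0 V0] [Module (ZMod p) V0]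
  [IsScalarTower (ZMod p) L V0] [IsScalarTower L A0 V0]
  [AddCommGroup V] [Module L V] [Module A V] [Module (ZMod p) V] [IsScalarTower (ZMod p) L V]
  [IsScalarTower L A V] [IsScalarTower (ZMod p) A V]

/-! ### Leibniz rules -/

theorem hasDer_smul_L {D : V →+ V} {g g' : A} (h : HasDer D g g') (q : L) :
    HasDer (q • D) g (q • g') := by
  intro v
  rw [AddMonoidHom.smul_apply, AddMonoidHom.smul_apply, h v, smul_add, smul_assoc,
    smul_comm q g]

theorem hasDer_DX_L (F : Frob p G0 G V0 V) (a : Bool) (q : L) :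
    HasDer (F.DX a) (algebraMap L A q) (algebraMap L A (cf x a * F.dx q)) := by
  intro v
  simp only [DX, AddMonoidHom.smul_apply, algebraMap_smul, F.Dx_smul, smul_add, mul_smul]
  rw [smul_comm q]

theorem hasDer_DY_L (F : Frob p G0 G V0 V) (b : Bool) (q : L) :
    HasDer (F.DY b) (algebraMap L A q) (algebraMap L A (cf y b * F.dy q)) := by
  intro v
  simp only [DY, AddMonoidHom.smul_apply, algebraMap_smul, F.Dy_smul, smul_add, mul_smul]
  rw [smul_comm q]

theorem dX_cs (F : Frob p G0 G V0 V) (a b : Bool) :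
    cf x a * F.dx ((cs x a : Lˣ) : L) = 1 ∧ cf x a * F.dx ((cs y b : Lˣ) : L) = 0 ∧
      cf y b * F.dy ((cs x a : Lˣ) : L) = 0 ∧ cf y b * F.dy ((cs y b : Lˣ) : L) = 1 := by
  have hx := x.ne_zero
  have hy := y.ne_zero
  refine ⟨?_, ?_, ?_, ?_⟩
  · cases a
    · simp [cf, F.dx_x]
    · simp only [cf, cs_true, Units.val_inv_eq_inv_val, Derivation.leibniz_inv, F.dx_x,
        smul_eq_mul]
      field_simp
  · cases b <;> simp [Derivation.leibniz_inv, F.dx_y]
  · cases a <;> simp [Derivation.leibniz_inv, F.dy_x]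
  · cases b
    · simp [cf, F.dy_y]
    · simp only [cf, cs_true, Units.val_inv_eq_inv_val, Derivation.leibniz_inv, F.dy_y,
        smul_eq_mul]
      field_simp

theorem hasDer_zero_aux (F : Frob p G0 G V0 V) {g0 : A0} {g : A}
    (hg : ∀ v, F.φ (g0 • v) = g • F.φ v) {D : V →+ V} {d : L → L}
    (h1 : ∀ (q : L) v, D (q • v) = d q • v + q • D v) (h2 : ∀ v, D (F.φ v) = 0) :
    HasDer D g 0 := by
  intro v
  obtain ⟨u, rfl⟩ := F.surj v
  rw [zero_smul, zero_add, Finset.smul_sum, map_sum, map_sum, Finset.smul_sum]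
  refine Finset.sum_congr rfl fun c _ => ?_
  rw [smul_comm g, ← hg, h1, h1, h2, h2, smul_zero, add_zero, add_zero, hg, smul_comm g]

/-- operators coming from `V0` are horizontal -/
theorem hasDer_zero (F : Frob p G0 G V0 V) {g0 : A0} {g : A}
    (hg : ∀ v, F.φ (g0 • v) = g • F.φ v) (a b : Bool) :
    HasDer (F.DX a) g 0 ∧ HasDer (F.DY b) g 0 := by
  have h1 := hasDer_smul_L (F.hasDer_zero_aux hg F.Dx_smul F.Dx_φ) (cf x a)
  have h2 := hasDer_smul_L (F.hasDer_zero_aux hg F.Dy_smul F.Dy_φ) (cf y b)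
  rw [smul_zero] at h1 h2
  exact ⟨h1, h2⟩

theorem natCast_p_eq_zero (p : ℕ) (R : Type) [CommRing R] [Algebra (ZMod p) R] : (p : R) = 0 := by
  rw [← map_natCast (algebraMap (ZMod p) R), ZMod.natCast_self, map_zero]

theorem hasDer_chop_pow (F : Frob p G0 G V0 V) {g0 : A0} {g : A}
    (hg : ∀ v, F.φ (g0 • v) = g ^ p • F.φ v) (a b : Bool) (d e : ℕ) :
    HasDer (F.DX a) (PSh.chop x y a b g d e ^ p) 0 ∧
      HasDer (F.DY b) (PSh.chop x y a b g d e ^ p) 0 := by
  obtain ⟨h1, h2⟩ := F.hasDer_zero hg a b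
  have hp : ∀ (D : Derivation ℤ L L) (q : L), D (q ^ p) = 0 := fun D q => by
    rw [Derivation.leibniz_pow, nsmul_eq_mul, natCast_p_eq_zero p L, zero_mul]
  rw [PSh.chop, smul_pow, Algebra.smul_def]
  generalize (((tu x d a * tu y e b)⁻¹ : Lˣ) : L) = q
  constructor
  · have := (F.hasDer_DX_L a (q ^ p)).mul h1
    rwa [hp, mul_zero, map_zero, zero_mul, mul_zero, add_zero] at this
  · have := (F.hasDer_DY_L b (q ^ p)).mul h2
    rwa [hp, mul_zero, map_zero, zero_mul, mul_zero, add_zero] at this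

/-- a square root whose `p`-th power is horizontal obeys the expected Leibniz rule -/
theorem hasDer_of_sq (hk : Good (ZMod p)) {D : V →+ V} {g f' c : A} (hg : IsUnit g)
    (hp : HasDer D (g ^ p) 0) (h2 : HasDer D (g ^ 2) f') (hc : 2 * g * c = f') :
    HasDer D g c := by
  have hp2 : p ≠ 2 := by
    rintro rfl
    exact hk 2 (by norm_num) (by norm_num) (ZMod.natCast_self 2)
  obtain ⟨n, hn⟩ := (Fact.out : p.Prime).odd_of_ne_two hp2
  have hn1 : 1 ≤ n := by
    have := (Fact.out : p.Prime).two_le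
    omega
  obtain ⟨m, rfl⟩ := Nat.exists_eq_add_of_le' hn1
  have h0 := natCast_p_eq_zero p A
  have h3 := h2.pow (m + 1)
  intro v
  obtain ⟨w, hw⟩ := ((hg.pow 2).pow (m + 1)).exists_right_inv
  have hv : v = (g ^ 2) ^ (m + 1) • w • v := by rw [smul_smul, hw, one_smul]
  have e1 : g * (g ^ 2) ^ (m + 1) = g ^ p := by rw [hn]; ring
  have e2 : c * (g ^ 2) ^ (m + 1) +
      g * (((m + 1 : ℕ) : A) * (g ^ 2) ^ (m + 1 - 1) * f') = 0 := by
    rw [← hc, Nat.add_sub_cancel]
    rw [hn] at h0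
    push_cast at h0 ⊢
    linear_combination (c * (g ^ 2) ^ (m + 1)) * h0
  rw [hv]
  generalize w • v = u
  rw [smul_smul, e1, hp, h3, smul_add, smul_smul, smul_smul, smul_smul, e1, ← add_assoc,
    ← add_smul, e2]

theorem two_ne_zero_L (hk : Good (ZMod p)) : (2 : L) ≠ 0 := by
  have h := hk 2 (by norm_num) (by norm_num)
  rw [← map_ofNat (algebraMap (ZMod p) L) 2]
  exact (map_ne_zero _).2 (by exact_mod_cast h)

theorem two_mul_aux (hk : Good (ZMod p)) {s : A} {P : L} (hP : P ≠ 0)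
    (hs : s ^ 2 = algebraMap L A P) (P' : L) :
    2 * s * (((2 * P)⁻¹ * P') • s) = algebraMap L A P' := by
  have h2 : (2 : L) ≠ 0 := two_ne_zero_L hk
  have h3 : P' = 2 * ((2 * P)⁻¹ * P') * P := by field_simp
  rw [Algebra.smul_def]
  conv_rhs => rw [h3, map_mul, map_mul, ← hs, map_ofNat]
  ring

theorem hasDer_s (hk : Good (ZMod p)) (hc : IsCoord (ZMod p) x y) (F : Frob p G0 G V0 V)
    (a b : Bool) (i : Ix) :
    HasDer (F.DX a) ((G.chart a b).s i)
      (((2 * Px a ((cs x a : Lˣ) : L) i)⁻¹ * (((cX (!a) - av i : ℤ) : L) *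
        (((4 * m4 : ℕ) : L) * ((cs x a : Lˣ) : L) ^ (4 * m4 - 1)))) • (G.chart a b).s i) ∧
    HasDer (F.DY b) ((G.chart a b).s i) 0 := by
  obtain ⟨h1, h2⟩ := F.hasDer_chop_pow (F.φ_s i) a b (2 * m4) 0
  obtain ⟨d1, -, d3, -⟩ := F.dX_cs a b
  have hu := (G.chart a b).isUnit_s hk (hc.chart a b) i
  have hs := (G.chart a b).s_sq i
  constructor
  · refine hasDer_of_sq hk hu h1 (hs ▸ F.hasDer_DX_L a _) ?_
    rw [two_mul_aux hk (Px_ne_zero hk (hc.chart a b) a i) hs]
    refine congrArg _ ?_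
    simp only [Px, map_add, Derivation.map_intCast, Derivation.leibniz, Derivation.leibniz_pow,
      smul_eq_mul, nsmul_eq_mul, mul_zero, add_zero, zero_add]
    linear_combination (-(((cX (!a) - av i : ℤ) : L) *
      (((4 * m4 : ℕ) : L) * ((cs x a : Lˣ) : L) ^ (4 * m4 - 1)))) * d1
  · refine hasDer_of_sq hk hu h2 (hs ▸ F.hasDer_DY_L b _) ?_
    rw [mul_zero, ← map_zero (algebraMap L A)]
    refine congrArg _ ?_
    simp only [Px, map_add, Derivation.map_intCast, Derivation.leibniz, Derivation.leibniz_pow,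
      smul_eq_mul, nsmul_eq_mul, mul_zero, add_zero, zero_add]
    linear_combination (-(((cX (!a) - av i : ℤ) : L) *
      (((4 * m4 : ℕ) : L) * ((cs x a : Lˣ) : L) ^ (4 * m4 - 1)))) * d3

theorem hasDer_t (hk : Good (ZMod p)) (hc : IsCoord (ZMod p) x y) (F : Frob p G0 G V0 V)
    (a b : Bool) (i : Ix) :
    HasDer (F.DX a) ((G.chart a b).t i) 0 ∧
    HasDer (F.DY b) ((G.chart a b).t i)
      (((2 * Py b ((cs y b : Lˣ) : L) i)⁻¹ * (((cY (!b) - av i : ℤ) : L) *
        (4 * ((cs y b : Lˣ) : L) ^ 3))) • (G.chart a b).t i) := by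
  obtain ⟨h1, h2⟩ := F.hasDer_chop_pow (F.φ_t i) a b 0 2
  obtain ⟨-, d2, -, d4⟩ := F.dX_cs a b
  have hu := (G.chart a b).isUnit_t hk (hc.chart a b) i
  have hs := (G.chart a b).t_sq i
  constructor
  · refine hasDer_of_sq hk hu h1 (hs ▸ F.hasDer_DX_L a _) ?_
    rw [mul_zero, ← map_zero (algebraMap L A)]
    refine congrArg _ ?_
    simp only [Py, map_add, Derivation.map_intCast, Derivation.leibniz, Derivation.leibniz_pow,
      smul_eq_mul, nsmul_eq_mul, mul_zero, add_zero, zero_add]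
    push_cast
    linear_combination (-(((cY (!b) : L) - av i) * (4 * ((cs y b : Lˣ) : L) ^ 3))) * d2
  · refine hasDer_of_sq hk hu h2 (hs ▸ F.hasDer_DY_L b _) ?_
    rw [two_mul_aux hk (Py_ne_zero hk (hc.chart a b) b i) hs]
    refine congrArg _ ?_
    simp only [Py, map_add, Derivation.map_intCast, Derivation.leibniz, Derivation.leibniz_pow,
      smul_eq_mul, nsmul_eq_mul, mul_zero, add_zero, zero_add]
    push_cast
    linear_combination (-(((cY (!b) : L) - av i) * (4 * ((cs y b : Lˣ) : L) ^ 3))) * d4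

theorem hasDer_ww_pow (F : Frob p G0 G V0 V) (a b : Bool) (ε : Eps) :
    HasDer (F.DX a) ((G.chart a b).ww ε ^ p) 0 ∧ HasDer (F.DY b) ((G.chart a b).ww ε ^ p) 0 := by
  rw [Geo.chart_ww]
  exact F.hasDer_chop_pow (F.φ_ww ε) a b _ _

/-- the multiplier clearing all denominators on the chart `(a, b)` -/
def JJ (x y : Lˣ) (a b : Bool) : L :=
  del a b ((cs x a : Lˣ) : L) ((cs y b : Lˣ) : L) * (∏ i, Px a ((cs x a : Lˣ) : L) i) *
    ∏ i, Py b ((cs y b : Lˣ) : L) i

theorem hasDer_ww_aux {a b : Bool} {ξ η : Lˣ} (hk : Good (ZMod p)) (hc : IsCoord (ZMod p) ξ η)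
    (H : Geo a b ξ η A) {D : V →+ V}
    (hs : ∀ i, ∃ r ∈ H.ring (ZMod p),
      HasDer D (H.s i) (algebraMap L A (del a b (ξ : L) (η : L)) * r))
    (ht : ∀ i, ∃ r ∈ H.ring (ZMod p),
      HasDer D (H.t i) (algebraMap L A (del a b (ξ : L) (η : L)) * r))
    (ε : Eps) (hw : HasDer D (H.ww ε ^ p) 0) :
    ∃ c ∈ H.ring (ZMod p), HasDer D (H.ww ε) (c * H.ww ε) := by
  have key : ∀ e σ, ∃ c ∈ H.ring (ZMod p), HasDer D (H.h e σ) (c * H.h e σ) := by
    intro e σ
    obtain ⟨r1, m1, d1⟩ := hs (e, false)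
    obtain ⟨r2, m2, d2⟩ := hs (e, true)
    obtain ⟨r3, m3, d3⟩ := ht (e, false)
    obtain ⟨r4, m4, d4⟩ := ht (e, true)
    have hm := H.h_mul e σ
    have n1 : r1 * H.t (e, true) + H.s (e, false) * r4 ∈ H.ring (ZMod p) :=
      add_mem (mul_mem m1 (H.t_mem_ring _)) (mul_mem (H.s_mem_ring _) m4)
    have n2 : r2 * H.t (e, false) + H.s (e, true) * r3 ∈ H.ring (ZMod p) :=
      add_mem (mul_mem m2 (H.t_mem_ring _)) (mul_mem (H.s_mem_ring _) m3)
    cases σ
    · refine ⟨_, neg_mem (mul_mem (H.h_mem_ring e true) (sub_mem n1 n2)), ?_⟩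
      have := (d1.mul d4).add (d2.mul d3).neg
      rw [← sub_eq_add_neg] at this
      refine (congrArg (HasDer D _) ?_).mp this
      rw [Bool.not_false] at hm
      linear_combination (r1 * H.t (e, true) + H.s (e, false) * r4 -
        (r2 * H.t (e, false) + H.s (e, true) * r3)) * hm
    · refine ⟨_, neg_mem (mul_mem (H.h_mem_ring e false) (add_mem n1 n2)), ?_⟩
      have := (d1.mul d4).add (d2.mul d3)
      refine (congrArg (HasDer D _) ?_).mp this
      rw [Bool.not_true] at hm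
      linear_combination (r1 * H.t (e, true) + H.s (e, false) * r4 +
        (r2 * H.t (e, false) + H.s (e, true) * r3)) * hm
  obtain ⟨c0, m0, d0⟩ := key 0 (sg ε 0)
  obtain ⟨c1, m1, d1⟩ := key 1 (sg ε 1)
  obtain ⟨c2, m2, d2⟩ := key 2 (sg ε 2)
  have hsq := H.ww_sq hk hc ε
  have h2 : (2 : ZMod p) ≠ 0 := by exact_mod_cast hk 2 (by norm_num) (by norm_num)
  have h3 : 2 * algebraMap (ZMod p) A 2⁻¹ = 1 := by
    rw [← map_ofNat (algebraMap (ZMod p) A) 2, ← map_mul, mul_inv_cancel₀ h2, map_one]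
  refine ⟨algebraMap (ZMod p) A 2⁻¹ * (c0 + c1 + c2),
    mul_mem (Subalgebra.algebraMap_mem _ _) (add_mem (add_mem m0 m1) m2), ?_⟩
  refine hasDer_of_sq hk (H.isUnit_ww hk hc ε) hw (hsq ▸ (d0.mul d1).mul d2) ?_
  linear_combination ((c0 + c1 + c2) * H.ww ε ^ 2) * h3 + (c0 + c1 + c2) * hsq

theorem clear_aux (hk : Good (ZMod p)) {P : Ix → L} {i : Ix} (hP : P i ≠ 0) (δ Q P' : L) :
    δ * (∏ j, P j) * Q * ((2 * P i)⁻¹ * P') =
      δ * (algebraMap (ZMod p) L 2⁻¹ * (∏ j ∈ Finset.univ.erase i, P j) * Q * P') := by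
  have h2 : (2 : L) ≠ 0 := two_ne_zero_L hk
  rw [← Finset.mul_prod_erase _ P (Finset.mem_univ i), map_inv₀, map_ofNat]
  field_simp

theorem hasDer_ww (hk : Good (ZMod p)) (hc : IsCoord (ZMod p) x y) (F : Frob p G0 G V0 V)
    (a b : Bool) (ε : Eps) :
    (∃ c ∈ (G.chart a b).ring (ZMod p),
      HasDer (JJ x y a b • F.DX a) ((G.chart a b).ww ε) (c * (G.chart a b).ww ε)) ∧
    ∃ c ∈ (G.chart a b).ring (ZMod p),
      HasDer (JJ x y a b • F.DY b) ((G.chart a b).ww ε) (c * (G.chart a b).ww ε) := by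
  set R := Algebra.adjoin (ZMod p) {((cs x a : Lˣ) : L), ((cs y b : Lˣ) : L)} with hR
  have hx : ((cs x a : Lˣ) : L) ∈ R := Algebra.subset_adjoin (Or.inl rfl)
  have hy : ((cs y b : Lˣ) : L) ∈ R := Algebra.subset_adjoin (Or.inr rfl)
  have hP : ∀ i, Px a ((cs x a : Lˣ) : L) i ∈ R := fun i =>
    add_mem (intCast_mem _ _) (mul_mem (intCast_mem _ _) (pow_mem hx _))
  have hQ : ∀ i, Py b ((cs y b : Lˣ) : L) i ∈ R := fun i =>
    add_mem (intCast_mem _ _) (mul_mem (intCast_mem _ _) (pow_mem hy _))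
  obtain ⟨w1, w2⟩ := F.hasDer_ww_pow a b ε
  have z : ∀ {D : V →+ V} {g : A}, HasDer D g 0 → HasDer (JJ x y a b • D) g 0 := fun h => by
    have := hasDer_smul_L h (JJ x y a b)
    rwa [smul_zero] at this
  constructor
  · refine hasDer_ww_aux hk (hc.chart a b) _ (fun i => ?_)
      (fun i => ⟨0, zero_mem _, by rw [mul_zero]; exact z (F.hasDer_t hk hc a b i).1⟩) ε (z w1)
    have h := hasDer_smul_L (F.hasDer_s hk hc a b i).1 (JJ x y a b)
    rw [smul_smul] at h
    conv at h => arg 3; rw [JJ, clear_aux hk (Px_ne_zero hk (hc.chart a b) a i), Algebra.smul_def,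
      map_mul, mul_assoc]
    refine ⟨_, mul_mem ((G.chart a b).algebraMap_mem_ring ?_) ((G.chart a b).s_mem_ring i), h⟩
    exact mul_mem (mul_mem (mul_mem (Subalgebra.algebraMap_mem _ _) (prod_mem fun j _ => hP j))
      (prod_mem fun j _ => hQ j))
      (mul_mem (intCast_mem _ _) (mul_mem (natCast_mem _ _) (pow_mem hx _)))
  · refine hasDer_ww_aux hk (hc.chart a b) _
      (fun i => ⟨0, zero_mem _, by rw [mul_zero]; exact z (F.hasDer_s hk hc a b i).2⟩)
      (fun i => ?_) ε (z w2)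
    have h := hasDer_smul_L (F.hasDer_t hk hc a b i).2 (JJ x y a b)
    rw [smul_smul] at h
    have e : JJ x y a b = del a b ((cs x a : Lˣ) : L) ((cs y b : Lˣ) : L) *
        (∏ i, Py b ((cs y b : Lˣ) : L) i) * ∏ i, Px a ((cs x a : Lˣ) : L) i := by
      rw [JJ, mul_right_comm]
    conv at h => arg 3; rw [e, clear_aux hk (Py_ne_zero hk (hc.chart a b) b i), Algebra.smul_def,
      map_mul, mul_assoc]
    refine ⟨_, mul_mem ((G.chart a b).algebraMap_mem_ring ?_) ((G.chart a b).t_mem_ring i), h⟩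
    exact mul_mem (mul_mem (mul_mem (Subalgebra.algebraMap_mem _ _) (prod_mem fun j _ => hQ j))
      (prod_mem fun j _ => hP j))
      (mul_mem (intCast_mem _ _) (mul_mem (ofNat_mem _ 4) (pow_mem hy _)))

theorem exists_hasDer_aux (G : Geo false false x y A) {D : V →+ V}
    (hL : ∀ q : L, ∃ g', HasDer D (algebraMap L A q) g') (hs : ∀ i, ∃ g', HasDer D (G.s i) g')
    (ht : ∀ i, ∃ g', HasDer D (G.t i) g') (hw : ∃ g', HasDer D G.w g') (g : A) :
    ∃ g', HasDer D g g' := by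
  have hg : g ∈ Algebra.adjoin L (Set.range G.s ∪ Set.range G.t ∪ {G.w}) := by
    rw [G.gen]; trivial
  induction hg using Algebra.adjoin_induction with
  | mem z hz =>
    rcases hz with (⟨i, rfl⟩ | ⟨i, rfl⟩) | rfl
    exacts [hs i, ht i, hw]
  | algebraMap q => exact hL q
  | add u v _ _ hu hv => exact ⟨_, hu.choose_spec.add hv.choose_spec⟩
  | mul u v _ _ hu hv => exact ⟨_, hu.choose_spec.mul hv.choose_spec⟩

/-- every element of `A` obeys a Leibniz rule -/
theorem exists_hasDer (hk : Good (ZMod p)) (hc : IsCoord (ZMod p) x y) (F : Frob p G0 G V0 V)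
    (g : A) : (∃ g' : A, HasDer F.Dx g g') ∧ ∃ g' : A, HasDer F.Dy g g' := by
  have e1 : F.DX false = F.Dx := one_smul L _
  have e2 : F.DY false = F.Dy := one_smul L _
  have es : ∀ i, (G.chart false false).s i = G.s i := fun i => PSh.chop_false _ _ _
  have et : ∀ i, (G.chart false false).t i = G.t i := fun i => PSh.chop_false _ _ _
  have ew : (G.chart false false).ww none = G.w := PSh.chop_false _ _ _
  have hJ : JJ x y false false ≠ 0 :=
    mul_ne_zero (mul_ne_zero (del_ne_zero hk hc _ _)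
      (Finset.prod_ne_zero_iff.2 fun i _ => Px_ne_zero hk hc _ i))
      (Finset.prod_ne_zero_iff.2 fun i _ => Py_ne_zero hk hc _ i)
  obtain ⟨⟨c1, -, w1⟩, c2, -, w2⟩ := F.hasDer_ww hk hc false false none
  have w3 := hasDer_smul_L w1 (JJ x y false false)⁻¹
  have w4 := hasDer_smul_L w2 (JJ x y false false)⁻¹
  rw [inv_smul_smul₀ hJ, ew] at w3 w4
  rw [← e1, ← e2]
  exact ⟨exists_hasDer_aux G (fun q => ⟨_, F.hasDer_DX_L false q⟩)
      (fun i => ⟨_, es i ▸ (F.hasDer_s hk hc false false i).1⟩)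
      (fun i => ⟨_, et i ▸ (F.hasDer_t hk hc false false i).1⟩) ⟨_, w3⟩ g,
    exists_hasDer_aux G (fun q => ⟨_, F.hasDer_DY_L false q⟩)
      (fun i => ⟨_, es i ▸ (F.hasDer_s hk hc false false i).2⟩)
      (fun i => ⟨_, et i ▸ (F.hasDer_t hk hc false false i).2⟩) ⟨_, w4⟩ g⟩

/-! ### The intermediate covers -/

theorem mem_WT_cons (F : Frob p G0 G V0 V) (N : PSh (ZMod p) x y V0) (i : Ix ⊕ Ix)
    (l : List (Ix ⊕ Ix)) (a b : Bool) (v : V) :
    v ∈ (F.WT N (i :: l)).ch a b ↔ ∃ u ∈ (F.WT N l).ch a b, ∃ u' ∈ (F.WT N l).ch a b,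
      u + PSh.chop x y a b (G.st i) (stD i) (stE i) • u' = v := by
  change v ∈ (F.WT N l).ch a b ⊔ ((F.WT N l).mul (G.st i) (stD i) (stE i)).ch a b ↔ _
  rw [Submodule.mem_sup]
  constructor
  · rintro ⟨u, hu, w, hw, rfl⟩
    obtain ⟨u', hu', rfl⟩ := PSh.mem_mul.1 hw
    exact ⟨u, hu, u', hu', rfl⟩
  · rintro ⟨u, hu, u', hu', rfl⟩
    exact ⟨u, hu, _, PSh.mem_mul.2 ⟨u', hu', rfl⟩, rfl⟩

theorem wtB_x_mem (a b : Bool) : ((cs x a : Lˣ) : L) ∈ PSh.chartRing (ZMod p) x y a b :=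
  Algebra.subset_adjoin (Or.inl rfl)

theorem wtB_y_mem (a b : Bool) : ((cs y b : Lˣ) : L) ∈ PSh.chartRing (ZMod p) x y a b :=
  Algebra.subset_adjoin (Or.inr rfl)

theorem wtB_Px_mem (a b : Bool) (i : Ix) :
    Px a ((cs x a : Lˣ) : L) i ∈ PSh.chartRing (ZMod p) x y a b :=
  add_mem (intCast_mem _ _) (mul_mem (intCast_mem _ _) (pow_mem (wtB_x_mem a b) _))

theorem wtB_Py_mem (a b : Bool) (i : Ix) :
    Py b ((cs y b : Lˣ) : L) i ∈ PSh.chartRing (ZMod p) x y a b :=
  add_mem (intCast_mem _ _) (mul_mem (intCast_mem _ _) (pow_mem (wtB_y_mem a b) _))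

theorem wtB_st_sq (G : Geo false false x y A) (a b : Bool) (i : Ix ⊕ Ix) :
    ∃ P ∈ PSh.chartRing (ZMod p) x y a b,
      PSh.chop x y a b (G.st i) (stD i) (stE i) ^ 2 = algebraMap L A P := by
  rcases i with i | i
  · exact ⟨_, wtB_Px_mem a b i, (G.chart a b).s_sq i⟩
  · exact ⟨_, wtB_Py_mem a b i, (G.chart a b).t_sq i⟩

theorem wtB_stab (E : PSh (ZMod p) x y V) (a b : Bool) {q : L}
    (hq : q ∈ PSh.chartRing (ZMod p) x y a b) : algebraMap L A q ∈ stab A (E.ch a b) := by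
  intro v hv
  rw [algebraMap_smul]
  exact E.chartRing_smul_mem a b hq hv

theorem wtB_smulL {D : V →+ V} {g g' : A} (h : HasDer D g g') (q : L) :
    HasDer (q • D) g (q • g') := by
  intro v
  rw [AddMonoidHom.smul_apply, AddMonoidHom.smul_apply, h, smul_add, smul_assoc, smul_comm q g]

theorem wtB_smulA {D : V →+ V} {g g' : A} (h : HasDer D g g') (q : A) :
    HasDer (q • D) g (q * g') := by
  intro v
  rw [AddMonoidHom.smul_apply, AddMonoidHom.smul_apply, h, smul_add, mul_smul, smul_comm q g]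

theorem wtB_two (hk : Good (ZMod p)) : (2 : L) ≠ 0 := by
  intro h
  apply hk 2 (by norm_num) (by norm_num)
  apply (algebraMap (ZMod p) L).injective
  rw [map_natCast, map_zero]
  exact_mod_cast h

theorem wtB_ne_two (hk : Good (ZMod p)) : p ≠ 2 := by
  intro h
  apply hk 2 (by norm_num) (by norm_num)
  rw [ZMod.natCast_eq_zero_iff, h]

theorem wtB_inv_mul {R : Subalgebra (ZMod p) L} {P q q' : L} (hP : P ∈ R)
    (h : ∃ u ∈ R, ∃ c ∈ R, u * q = 1 + c * P) (h' : ∃ u ∈ R, ∃ c ∈ R, u * q' = 1 + c * P) :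
    ∃ u ∈ R, ∃ c ∈ R, u * (q * q') = 1 + c * P := by
  obtain ⟨u, hu, c, hc, h⟩ := h
  obtain ⟨u', hu', c', hc', h'⟩ := h'
  refine ⟨u * u', mul_mem hu hu', c + c' + c * c' * P,
    add_mem (add_mem hc hc') (mul_mem (mul_mem hc hc') hP), ?_⟩
  rw [mul_mul_mul_comm, h, h']
  ring

theorem wtB_inv_of {R : Subalgebra (ZMod p) L} {P z q : L} (hz : z ∈ R)
    (h : ∃ c c' : ZMod p, c • P + c' • (z * q) = 1) :
    ∃ u ∈ R, ∃ c ∈ R, u * q = 1 + c * P := by
  obtain ⟨c, c', h⟩ := h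
  refine ⟨c' • z, R.smul_mem hz _, -algebraMap _ _ c, neg_mem (R.algebraMap_mem _), ?_⟩
  rw [← h]
  simp only [Algebra.smul_def]
  ring

theorem wtB_inv_prod {R : Subalgebra (ZMod p) L} {P : L} (hP : P ∈ R) (q : Ix → L)
    (T : Finset Ix) (h : ∀ j ∈ T, ∃ u ∈ R, ∃ c ∈ R, u * q j = 1 + c * P) :
    ∃ u ∈ R, ∃ c ∈ R, u * ∏ j ∈ T, q j = 1 + c * P := by
  induction T using Finset.induction_on with
  | empty => exact ⟨1, one_mem _, 0, zero_mem _, by simp⟩
  | insert j T hj ih =>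
    rw [Finset.prod_insert hj]
    exact wtB_inv_mul hP (h j (Finset.mem_insert_self _ _))
      (ih fun i hi => h i (Finset.mem_insert_of_mem hi))

theorem wtB_loc (hk : Good (ZMod p)) (E : PSh (ZMod p) x y V) (a b : Bool) {s : A}
    (hs : IsUnit s) {P P' : L} (hP : P ∈ PSh.chartRing (ZMod p) x y a b) (hP0 : P ≠ 0)
    (hP' : P' ∈ PSh.chartRing (ZMod p) x y a b) (hsq : s ^ 2 = algebraMap L A P)
    (hpw : s ^ p ∈ stab A (E.ch a b)) (D : V →+ V) (hD : ∀ v ∈ E.ch a b, D v ∈ E.ch a b)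
    (hder : HasDer D s (((2 * P)⁻¹ * P') • s))
    (hinv : ∃ u ∈ PSh.chartRing (ZMod p) x y a b, ∃ c ∈ PSh.chartRing (ZMod p) x y a b,
      u * P' = 1 + c * P) :
    LocData p (E.ch a b) (fun _ : Unit => s) 1 () := by
  have hloc : loc (1 : A) (E.ch a b) = E.ch a b := by
    ext v
    rw [mem_loc (by simp)]
    simp
  have hp0 : (p : A) = 0 := by
    rw [← map_natCast (algebraMap (ZMod p) A), ZMod.natCast_self, map_zero]
  obtain ⟨u, hu, c, hc, huc⟩ := hinv
  refine ⟨isUnit_one, one_mem _, hs, fun _ => ⟨1, one_mem _, rfl⟩, hsq ▸ wtB_stab E a b hP, hpw,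
    D, ?_, ?_, algebraMap L A P', ?_, algebraMap L A u, ?_, algebraMap L A c, ?_, ?_, ?_⟩
  · rw [hloc]; exact hD
  · have := hder.pow p
    rwa [hp0, zero_mul, zero_mul] at this
  · rw [hloc]; exact wtB_stab E a b hP'
  · rw [hloc]; exact wtB_stab E a b hu
  · rw [hloc]; exact wtB_stab E a b hc
  · have h1 := hder.pow 2
    have h2 : ((2 : ℕ) : A) * s ^ (2 - 1) * (((2 * P)⁻¹ * P') • s) = algebraMap L A P' := by
      have h3 : ((2 : ℕ) : A) * s ^ (2 - 1) * (((2 * P)⁻¹ * P') • s) =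
          algebraMap L A ((2 : ℕ) : L) * algebraMap L A ((2 * P)⁻¹ * P') * s ^ 2 := by
        rw [map_natCast, Algebra.smul_def]
        ring
      rw [h3, hsq, ← map_mul, ← map_mul]
      congr 1
      have := wtB_two (L := L) hk
      push_cast
      field_simp
    rwa [h2] at h1
  · change _ = 1 + _ * s ^ 2
    rw [hsq, ← map_mul, huc, map_add, map_one, map_mul]

theorem WT_FG (F : Frob p G0 G V0 V) {N : PSh (ZMod p) x y V0} (hN : N.FG) (l : List (Ix ⊕ Ix)) :
    (F.WT N l).FG := by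
  induction l with
  | nil => exact F.pull_FG hN
  | cons i l ih => exact ih.sup (ih.mul _ _ _)

theorem pull_le_WT (F : Frob p G0 G V0 V) (N : PSh (ZMod p) x y V0) (l : List (Ix ⊕ Ix)) :
    F.pull N ≤ F.WT N l := by
  induction l with
  | nil => exact le_rfl
  | cons i l ih => exact ih.trans le_sup_left

theorem WT_stable_of_pull (F : Frob p G0 G V0 V) (N : PSh (ZMod p) x y V0) {g : A} {d e : ℕ}
    (h : (F.pull N).Stable g d e) (l : List (Ix ⊕ Ix)) : (F.WT N l).Stable g d e := by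
  induction l with
  | nil => exact h
  | cons i l ih =>
    intro a b v hv
    obtain ⟨u, hu, u', hu', rfl⟩ := (F.mem_WT_cons N i l a b v).1 hv
    exact (F.mem_WT_cons N i l a b _).2 ⟨_, ih a b u hu, _, ih a b u' hu', by
      rw [smul_add, smul_comm]⟩

theorem WT_stable (F : Frob p G0 G V0 V) (N : PSh (ZMod p) x y V0) {l : List (Ix ⊕ Ix)}
    {i : Ix ⊕ Ix} (hi : i ∈ l) : (F.WT N l).Stable (G.st i) (stD i) (stE i) := by
  induction l with
  | nil => simp at hi
  | cons j l ih =>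
    intro a b v hv
    obtain ⟨u, hu, u', hu', rfl⟩ := (F.mem_WT_cons N j l a b v).1 hv
    rcases List.mem_cons.1 hi with rfl | hi
    · obtain ⟨P, hP, hsq⟩ := wtB_st_sq (p := p) G a b i
      refine (F.mem_WT_cons N i l a b _).2 ⟨_, (F.WT N l).chartRing_smul_mem a b hP hu', u, hu, ?_⟩
      rw [smul_add, smul_smul, ← sq, hsq, algebraMap_smul, add_comm]
    · exact (F.mem_WT_cons N j l a b _).2 ⟨_, ih hi a b u hu, _, ih hi a b u' hu', by
        rw [smul_add, smul_comm]⟩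

/-- a derivation with logarithmic poles cleared preserves the intermediate modules -/
theorem WT_der (F : Frob p G0 G V0 V) (N : PSh (ZMod p) x y V0) (a b : Bool) (D : V →+ V)
    (hD : ∀ v ∈ (F.pull N).ch a b, D v ∈ (F.pull N).ch a b) (l : List (Ix ⊕ Ix))
    (hl : ∀ i ∈ l, ∃ c ∈ PSh.chartRing (ZMod p) x y a b,
      HasDer D (PSh.chop x y a b (G.st i) (stD i) (stE i))
        (c • PSh.chop x y a b (G.st i) (stD i) (stE i))) :
    ∀ v ∈ (F.WT N l).ch a b, D v ∈ (F.WT N l).ch a b := by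
  induction l with
  | nil => exact hD
  | cons i l ih =>
    intro v hv
    have ih' := ih fun j hj => hl j (List.mem_cons_of_mem _ hj)
    obtain ⟨u, hu, u', hu', rfl⟩ := (F.mem_WT_cons N i l a b v).1 hv
    obtain ⟨c, hc, hder⟩ := hl i List.mem_cons_self
    refine (F.mem_WT_cons N i l a b _).2 ⟨_, ih' u hu, c • u' + D u',
      add_mem ((F.WT N l).chartRing_smul_mem a b hc hu') (ih' u' hu'), ?_⟩
    rw [map_add, hder, smul_add, smul_assoc, smul_comm c]

theorem wtB_clear (hk : Good (ZMod p)) {R : Subalgebra (ZMod p) L} (P : Ix → L)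
    (hP : ∀ j, P j ∈ R) {i j : Ix} (hij : j ≠ i) (h0 : P j ≠ 0) {q : L} (hq : q ∈ R) :
    (∏ l ∈ Finset.univ.erase i, P l) * ((2 * P j)⁻¹ * q) ∈ R := by
  have h2 := wtB_two (L := L) hk
  have h2' : (2 : L)⁻¹ ∈ R := by
    have : (2 : L)⁻¹ = algebraMap (ZMod p) L 2⁻¹ := by rw [map_inv₀, map_ofNat]
    rw [this]
    exact R.algebraMap_mem _
  rw [← Finset.mul_prod_erase _ _ (Finset.mem_erase.2 ⟨hij, Finset.mem_univ j⟩)]
  have : P j * (∏ l ∈ (Finset.univ.erase i).erase j, P l) * ((2 * P j)⁻¹ * q) =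
      (∏ l ∈ (Finset.univ.erase i).erase j, P l) * (2⁻¹ * q) := by
    field_simp
  rw [this]
  exact mul_mem (prod_mem fun l _ => hP l) (mul_mem h2' hq)

theorem wtB_dPx_mem (a b : Bool) (i : Ix) : (((cX (!a) - av i : ℤ) : L) *
    (((4 * m4 : ℕ) : L) * ((cs x a : Lˣ) : L) ^ (4 * m4 - 1))) ∈ PSh.chartRing (ZMod p) x y a b :=
  mul_mem (intCast_mem _ _) (mul_mem (natCast_mem _ _) (pow_mem (wtB_x_mem a b) _))

theorem wtB_dPy_mem (a b : Bool) (i : Ix) : (((cY (!b) - av i : ℤ) : L) *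
    (4 * ((cs y b : Lˣ) : L) ^ 3)) ∈ PSh.chartRing (ZMod p) x y a b :=
  mul_mem (intCast_mem _ _) (mul_mem (ofNat_mem _ _) (pow_mem (wtB_y_mem a b) _))

theorem WT_locData (hk : Good (ZMod p)) (hc : IsCoord (ZMod p) x y) (F : Frob p G0 G V0 V)
    {N : PSh (ZMod p) x y V0} (hN : G0.Stab N) {l : List (Ix ⊕ Ix)} {i : Ix ⊕ Ix} (hi : i ∉ l)
    (a b : Bool) :
    LocData p ((F.WT N l).ch a b)
      (fun _ : Unit => PSh.chop x y a b (G.st i) (stD i) (stE i)) 1 () := by
  have hc' := hc.chart a b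
  rcases i with i | i
  · have hσ : (∏ j ∈ Finset.univ.erase i, Px a ((cs x a : Lˣ) : L) j) ∈
        PSh.chartRing (ZMod p) x y a b := prod_mem fun j _ => wtB_Px_mem a b j
    refine wtB_loc hk (F.WT N l) a b ((G.chart a b).isUnit_s hk hc' i) (wtB_Px_mem a b i)
      (Px_ne_zero hk hc' a i) (mul_mem hσ (wtB_dPx_mem a b i)) ((G.chart a b).s_sq i) ?_
      ((∏ j ∈ Finset.univ.erase i, Px a ((cs x a : Lˣ) : L) j) • F.DX a) ?_ ?_ ?_
    · have h1 := F.WT_stable_of_pull N (F.pull_stable (F.φ_s i) (hN.s i)) l a b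
      rw [PSh.chop_pow] at h1
      exact h1
    · refine F.WT_der N a b _ (fun v hv => ?_) l ?_
      · exact (F.pull N).chartRing_smul_mem a b hσ (F.DX_pull N a b hv)
      · rintro (j | j) hj
        · have hne : j ≠ i := fun h => hi (h ▸ hj)
          refine ⟨_, wtB_clear hk _ (wtB_Px_mem a b) hne (Px_ne_zero hk hc' a j)
            (wtB_dPx_mem a b j), ?_⟩
          have := wtB_smulL (F.hasDer_s hk hc a b j).1
            (∏ j ∈ Finset.univ.erase i, Px a ((cs x a : Lˣ) : L) j)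
          rw [smul_smul] at this
          exact this
        · refine ⟨0, zero_mem _, ?_⟩
          have := wtB_smulL (F.hasDer_t hk hc a b j).1
            (∏ j ∈ Finset.univ.erase i, Px a ((cs x a : Lˣ) : L) j)
          rw [smul_zero] at this
          rw [zero_smul]
          exact this
    · have := wtB_smulL (F.hasDer_s hk hc a b i).1
        (∏ j ∈ Finset.univ.erase i, Px a ((cs x a : Lˣ) : L) j)
      rw [smul_smul, mul_left_comm] at this
      exact this
    · refine wtB_inv_mul (wtB_Px_mem a b i) (wtB_inv_prod (wtB_Px_mem a b i) _ _ fun j hj => ?_)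
        (wtB_inv_of (wtB_x_mem a b) (Px_sep hk a _ i))
      refine wtB_inv_of (one_mem _) ?_
      simpa only [one_mul] using Px_bezout hk a _ (Finset.mem_erase.1 hj).1.symm
  · have hσ : (∏ j ∈ Finset.univ.erase i, Py b ((cs y b : Lˣ) : L) j) ∈
        PSh.chartRing (ZMod p) x y a b := prod_mem fun j _ => wtB_Py_mem a b j
    refine wtB_loc hk (F.WT N l) a b ((G.chart a b).isUnit_t hk hc' i) (wtB_Py_mem a b i)
      (Py_ne_zero hk hc' b i) (mul_mem hσ (wtB_dPy_mem a b i)) ((G.chart a b).t_sq i) ?_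
      ((∏ j ∈ Finset.univ.erase i, Py b ((cs y b : Lˣ) : L) j) • F.DY b) ?_ ?_ ?_
    · have h1 := F.WT_stable_of_pull N (F.pull_stable (F.φ_t i) (hN.t i)) l a b
      rw [PSh.chop_pow] at h1
      exact h1
    · refine F.WT_der N a b _ (fun v hv => ?_) l ?_
      · exact (F.pull N).chartRing_smul_mem a b hσ (F.DY_pull N a b hv)
      · rintro (j | j) hj
        · refine ⟨0, zero_mem _, ?_⟩
          have := wtB_smulL (F.hasDer_s hk hc a b j).2
            (∏ j ∈ Finset.univ.erase i, Py b ((cs y b : Lˣ) : L) j)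
          rw [smul_zero] at this
          rw [zero_smul]
          exact this
        · have hne : j ≠ i := fun h => hi (h ▸ hj)
          refine ⟨_, wtB_clear hk _ (wtB_Py_mem a b) hne (Py_ne_zero hk hc' b j)
            (wtB_dPy_mem a b j), ?_⟩
          have := wtB_smulL (F.hasDer_t hk hc a b j).2
            (∏ j ∈ Finset.univ.erase i, Py b ((cs y b : Lˣ) : L) j)
          rw [smul_smul] at this
          exact this
    · have := wtB_smulL (F.hasDer_t hk hc a b i).2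
        (∏ j ∈ Finset.univ.erase i, Py b ((cs y b : Lˣ) : L) j)
      rw [smul_smul, mul_left_comm] at this
      exact this
    · refine wtB_inv_mul (wtB_Py_mem a b i) (wtB_inv_prod (wtB_Py_mem a b i) _ _ fun j hj => ?_)
        (wtB_inv_of (wtB_y_mem a b) (Py_sep hk b _ i))
      refine wtB_inv_of (one_mem _) ?_
      simpa only [one_mul] using Py_bezout hk b _ (Finset.mem_erase.1 hj).1.symm

theorem WT_spec (hk : Good (ZMod p)) (hc : IsCoord (ZMod p) x y) (F : Frob p G0 G V0 V)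
    {N : PSh (ZMod p) x y V0} (hN : N.FG) (hs : G0.Stab N) {l : List (Ix ⊕ Ix)} (hl : l.Nodup) :
    (∀ i j, (F.WT N l).hp i j = (F.pull N).hp (i + ((p - 1) / 2 * (l.map stD).sum : ℕ))
      (j + ((p - 1) / 2 * (l.map stE).sum : ℕ))) ∧
    ∀ i, (F.pull N).X0 i → (F.WT N l).X0 (i - ((p - 1) * (l.map stD).sum : ℕ)) := by
  induction l with
  | nil => exact ⟨fun i j => by simp [WT], fun i h => by simpa [WT] using h⟩
  | cons s l ih =>
    obtain ⟨hs', hl'⟩ := List.nodup_cons.1 hl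
    obtain ⟨ih1, ih2⟩ := ih hl'
    have hu : IsUnit (G.st s) := by
      rcases s with s | s
      · exact G.isUnit_s hk hc s
      · exact G.isUnit_t hk hc s
    have hde : stD s * stE s = 0 := by rcases s with s | s <;> simp [stD, stE]
    have h2 : (F.WT N l).Stable (G.st s * G.st s) (stD s + stD s) (stE s + stE s) := by
      intro a b v hv
      obtain ⟨P, hP, hsq⟩ := wtB_st_sq (p := p) G a b s
      rw [PSh.chop_mul, ← sq, hsq, algebraMap_smul]
      exact (F.WT N l).chartRing_smul_mem a b hP hv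
    obtain ⟨h3, h4⟩ := PSh.step_principal hc p (wtB_ne_two hk) (F.WT_FG hN l) hu hde h2
      (F.WT_locData hk hc hs hs')
    refine ⟨fun i j => ?_, fun i hi => ?_⟩
    · refine (h3 i j).trans ((ih1 _ _).trans ?_)
      simp only [List.map_cons, List.sum_cons]
      generalize (p - 1) / 2 = h
      push_cast
      congr 1 <;> ring
    · have h5 := PSh.X0.of_mul_le (hu.pow (p - 1)) h4 (ih2 i hi)
      have e : i - ((p - 1) * (l.map stD).sum : ℕ) - ((p - 1) * stD s : ℕ) =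
          i - ((p - 1) * ((s :: l).map stD).sum : ℕ) := by
        simp only [List.map_cons, List.sum_cons]
        generalize p - 1 = h
        push_cast
        ring
      rw [e] at h5
      exact h5

theorem WZ_spec (hk : Good (ZMod p)) (hc : IsCoord (ZMod p) x y) (F : Frob p G0 G V0 V)
    {N : PSh (ZMod p) x y V0} (hN : N.FG) (hs : G0.Stab N) :
    (F.WZ N).rk = N.rk ∧ (F.WZ N).alp = p * N.alp + N.rk * (5 * ((p : ℤ) - 1)) ∧
      (F.WZ N).bet = p * N.bet + N.rk * ((6 * m4 - 1) * ((p : ℤ) - 1)) ∧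
      N.rk * (F.WZ N).gam - (F.WZ N).alp * (F.WZ N).bet =
        p ^ 2 * (N.rk * N.gam - N.alp * N.bet) ∧
      ∀ i, N.X0 i → (F.WZ N).X0 (p * i - ((p - 1) * (12 * m4) : ℕ)) := by
  have hD : ((Finset.univ : Finset (Ix ⊕ Ix)).toList.map stD).sum = 12 * m4 := by
    rw [Finset.sum_map_toList, Fintype.sum_sum_type]
    simp only [stD, Sum.elim_inl, Sum.elim_inr, Finset.sum_const, Finset.card_univ,
      Fintype.card_prod, Fintype.card_fin, Fintype.card_bool, smul_eq_mul]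
    ring
  have hE : ((Finset.univ : Finset (Ix ⊕ Ix)).toList.map stE).sum = 12 := by
    rw [Finset.sum_map_toList, Fintype.sum_sum_type]
    simp only [stE, Sum.elim_inl, Sum.elim_inr, Finset.sum_const, Finset.card_univ,
      Fintype.card_prod, Fintype.card_fin, Fintype.card_bool, smul_eq_mul]
  obtain ⟨h1, h2⟩ := F.WT_spec hk hc hN hs (Finset.nodup_toList Finset.univ)
  rw [hD] at h1 h2
  rw [hE] at h1
  obtain ⟨h, hh⟩ := (Fact.out : p.Prime).odd_of_ne_two (wtB_ne_two hk)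
  have hh1 : (p - 1) / 2 = h := by omega
  have hh2 : (p : ℤ) - 1 = 2 * h := by omega
  rw [hh1] at h1
  obtain ⟨c1, c2, c3, c4⟩ := F.pull_coeff hc hN
  obtain ⟨d1, d2, d3, d4⟩ := PSh.coeff_eq_of_hp hc (E := F.WZ N) (F.WT_FG hN _)
    (r := (F.pull N).rk) (a := (F.pull N).alp + (F.pull N).rk * (h * 12))
    (b := (F.pull N).bet + (F.pull N).rk * (h * (12 * m4)))
    (c := (F.pull N).rk * (h * (12 * m4)) * (h * 12) + (F.pull N).alp * (h * (12 * m4)) +
      (F.pull N).bet * (h * 12) + (F.pull N).gam) (fun i j => by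
      refine (h1 i j).trans ?_
      rw [PSh.hp_eq hc (F.pull_FG hN)]
      push_cast
      ring)
  rw [c1] at d1 d2 d3 d4
  refine ⟨by exact_mod_cast d1, ?_, ?_, ?_, fun i hi => h2 _ (F.pull_X0 hi)⟩
  · rw [d2, c2, hh2]
    ring
  · rw [d3, c3, hh2]
    ring
  · rw [d2, d3, d4, ← c4]
    ring

theorem wtB_WT_le (F : Frob p G0 G V0 V) (N : PSh (ZMod p) x y V0) (l : List (Ix ⊕ Ix)) :
    F.WT N l ≤ F.WZ N := by
  induction l with
  | nil => exact F.pull_le_WT N _
  | cons i l ih =>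
    intro a b v hv
    obtain ⟨u, hu, u', hu', rfl⟩ := (F.mem_WT_cons N i l a b v).1 hv
    exact add_mem (ih a b hu)
      (F.WT_stable N (Finset.mem_toList.2 (Finset.mem_univ i)) a b _ (ih a b hu'))

theorem wtB_ring (F : Frob p G0 G V0 V) (N : PSh (ZMod p) x y V0) (a b : Bool) {c : A}
    (hc : c ∈ (G.chart a b).ring (ZMod p)) : c ∈ stab A ((F.WZ N).ch a b) := fun _ hv =>
  Geo.ring_smul_mem
    (fun i => F.WT_stable N (i := Sum.inl i) (Finset.mem_toList.2 (Finset.mem_univ _)))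
    (fun i => F.WT_stable N (i := Sum.inr i) (Finset.mem_toList.2 (Finset.mem_univ _))) a b hc hv

theorem wtB_der_hull (F : Frob p G0 G V0 V) (N : PSh (ZMod p) x y V0) (a b : Bool) (D : V →+ V)
    (hD : ∀ v ∈ (F.pull N).ch a b, D v ∈ (F.pull N).ch a b) {σ : A}
    (hσ : σ ∈ (G.chart a b).ring (ZMod p))
    (h : ∀ i, ∃ g ∈ (G.chart a b).ring (ZMod p),
      HasDer (σ • D) (PSh.chop x y a b (G.st i) (stD i) (stE i)) g)
    (d : Derivation ℤ L L) (c : L) (hd : ∀ q, HasDer D (algebraMap L A q) (algebraMap L A (c * d q)))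
    (hx : c * d ((cs x a : Lˣ) : L) ∈ PSh.chartRing (ZMod p) x y a b)
    (hy : c * d ((cs y b : Lˣ) : L) ∈ PSh.chartRing (ZMod p) x y a b) :
    ∀ v ∈ (F.WZ N).hull.ch a b, (σ • D) v ∈ (F.WZ N).hull.ch a b := by
  have key : ∀ l, ∀ v ∈ (F.WT N l).ch a b, (σ • D) v ∈ (F.WZ N).ch a b := by
    intro l
    induction l with
    | nil => exact fun v hv => F.wtB_ring N a b hσ _ (F.pull_le_WT N _ a b (hD v hv))
    | cons i l ih =>
      intro v hv
      obtain ⟨u, hu, u', hu', rfl⟩ := (F.mem_WT_cons N i l a b v).1 hv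
      obtain ⟨g, hg, hder⟩ := h i
      rw [map_add, hder]
      exact add_mem (ih u hu) (add_mem (F.wtB_ring N a b hg _ (F.wtB_WT_le N l a b hu'))
        (F.WT_stable N (Finset.mem_toList.2 (Finset.mem_univ i)) a b _ (ih u' hu')))
  have hpoly : ∀ z ∈ PSh.chartRing (ZMod p) x y a b, c * d z ∈ PSh.chartRing (ZMod p) x y a b := by
    intro z hz
    induction hz using Algebra.adjoin_induction with
    | mem z hz =>
      rcases hz with rfl | rfl
      · exact hx
      · exact hy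
    | algebraMap r =>
      rw [← ZMod.natCast_zmod_val r, map_natCast, Derivation.map_natCast, mul_zero]
      exact zero_mem _
    | add u v _ _ hu hv =>
      rw [map_add, mul_add]
      exact add_mem hu hv
    | mul u v hu hv hu' hv' =>
      rw [Derivation.leibniz, smul_eq_mul, smul_eq_mul, mul_add, mul_left_comm c u,
        mul_left_comm c v]
      exact add_mem (mul_mem hu hv') (mul_mem hv hu')
  intro v hv
  exact PSh.hull_der (A := A) (σ • D) (key _) (fun z hz =>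
    ⟨_, mul_mem (F.wtB_ring N a b hσ) (wtB_stab _ a b (hpoly z hz)), wtB_smulA (hd z) σ⟩) hv

theorem wtB_prod_mul (hk : Good (ZMod p)) (s : Ix → A) (i : Ix) {P q : L} (hP : P ≠ 0)
    (hs : s i ^ 2 = algebraMap L A P) :
    (∏ j, s j) * (((2 * P)⁻¹ * q) • s i) =
      (2⁻¹ : ZMod p) • ((∏ j ∈ Finset.univ.erase i, s j) * algebraMap L A q) := by
  have h2 := wtB_two (L := L) hk
  rw [← Finset.mul_prod_erase _ _ (Finset.mem_univ i), Algebra.smul_def, Algebra.smul_def,
    IsScalarTower.algebraMap_apply (ZMod p) L A, map_inv₀, map_ofNat]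
  have e : (2 * P)⁻¹ * q * P = 2⁻¹ * q := by field_simp
  calc _ = (∏ j ∈ Finset.univ.erase i, s j) * (algebraMap L A ((2 * P)⁻¹ * q) * s i ^ 2) := by ring
    _ = _ := by
      rw [hs, ← map_mul, e, map_mul]
      ring

theorem ready (hk : Good (ZMod p)) (hc : IsCoord (ZMod p) x y) (F : Frob p G0 G V0 V)
    {N : PSh (ZMod p) x y V0} (hN : N.FG) (hf : N.Full) (hs : G0.Stab N) :
    G.DReady p (F.WZ N).hull := by
  refine ⟨(F.WT_FG hN _).hull hc, ?_, fun i => ?_, fun i => ?_, fun ε => ?_, PSh.isHull_hull _,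
    fun a b => ?_⟩
  · refine top_le_iff.1 ((F.pull_full hc hf).ge.trans (Submodule.span_mono ?_))
    exact ((F.pull_le_WT N _).trans (PSh.le_hull _)) false false
  · exact (F.WT_stable N (i := Sum.inl i) (Finset.mem_toList.2 (Finset.mem_univ _))).hull
  · exact (F.WT_stable N (i := Sum.inr i) (Finset.mem_toList.2 (Finset.mem_univ _))).hull
  · exact (F.WT_stable_of_pull N (F.pull_stable (F.φ_ww ε) (hs.w ε)) _).hull
  have hc' := hc.chart a b
  have hxs : ∀ i, HasDer ((∏ j, (G.chart a b).s j) • F.DX a) ((G.chart a b).s i)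
      ((G.chart a b).ds (ZMod p) i) := by
    intro i
    have := wtB_smulA (F.hasDer_s hk hc a b i).1 (∏ j, (G.chart a b).s j)
    rw [wtB_prod_mul hk _ i (Px_ne_zero hk hc' a i) ((G.chart a b).s_sq i)] at this
    exact this
  have hyt : ∀ i, HasDer ((∏ j, (G.chart a b).t j) • F.DY b) ((G.chart a b).t i)
      ((G.chart a b).dt (ZMod p) i) := by
    intro i
    have := wtB_smulA (F.hasDer_t hk hc a b i).2 (∏ j, (G.chart a b).t j)
    rw [wtB_prod_mul hk _ i (Py_ne_zero hk hc' b i) ((G.chart a b).t_sq i)] at this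
    exact this
  have h0 : ∀ {D : V →+ V} {g : A} (σ : A), HasDer D g 0 → HasDer (σ • D) g 0 := by
    intro D g σ h
    have := wtB_smulA h σ
    rwa [mul_zero] at this
  obtain ⟨e1, e2, e3, e4⟩ := F.dX_cs a b
  refine ⟨(∏ j, (G.chart a b).s j) • F.DX a, (∏ j, (G.chart a b).t j) • F.DY b, ?_, ?_, hxs,
    fun i => h0 _ (F.hasDer_t hk hc a b i).1, fun i => h0 _ (F.hasDer_s hk hc a b i).2, hyt,
    fun ε => h0 _ (F.hasDer_ww_pow a b ε).1, fun ε => h0 _ (F.hasDer_ww_pow a b ε).2⟩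
  · refine F.wtB_der_hull N a b _ (fun v hv => F.DX_pull N a b hv)
      (prod_mem fun j _ => (G.chart a b).s_mem_ring j) ?_ F.dx _ (F.hasDer_DX_L a)
      (e1 ▸ one_mem _) (e2 ▸ zero_mem _)
    rintro (i | i)
    · exact ⟨_, (G.chart a b).ds_mem_ring i, hxs i⟩
    · exact ⟨0, zero_mem _, h0 _ (F.hasDer_t hk hc a b i).1⟩
  · refine F.wtB_der_hull N a b _ (fun v hv => F.DY_pull N a b hv)
      (prod_mem fun j _ => (G.chart a b).t_mem_ring j) ?_ F.dy _ (F.hasDer_DY_L b)
      (e3 ▸ zero_mem _) (e4 ▸ one_mem _)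
    rintro (i | i)
    · exact ⟨0, zero_mem _, h0 _ (F.hasDer_s hk hc a b i).2⟩
    · exact ⟨_, (G.chart a b).dt_mem_ring i, hyt i⟩

end Frob
end Vale.Agent.P190
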