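import Vale.Agent.P190.Defs

/-! The explicit surface: a double cover of a product of two curves. Definitions. -/

namespace Vale.Agent.P190

/-- a quarter of the degree of the power map on the first factor -/
def m4 : ℕ := 4096

/-- indices of the six branch points, grouped in three pairs (edges) -/
abbrev Ix : Type := Fin 3 × Bool

/-- the six branch points `0, …, 5` -/
def av (i : Ix) : ℤ := 2 * (i.1 : ℤ) + (if i.2 then 1 else 0)

/-- critical values of the power map on the first factor -/
def cX : Bool → ℤ
  | false => 6
  | true => 7

/-- critical values of the power map on the second factor -/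
def cY : Bool → ℤ
  | false => 8
  | true => 9

/-- small positive integers are invertible -/
def Good (k : Type) [Field k] : Prop := ∀ n : ℕ, 0 < n → n ≤ 11 → (n : k) ≠ 0

section
variable {R : Type} [CommRing R]

/-- the branch polynomial on the first factor, on the chart `a` -/
def Px (a : Bool) (x : R) (i : Ix) : R :=
  ((cX a - av i : ℤ) : R) + ((cX (!a) - av i : ℤ) : R) * x ^ (4 * m4)

/-- the branch polynomial on the second factor, on the chart `b` -/
def Py (b : Bool) (y : R) (i : Ix) : R :=
  ((cY b - av i : ℤ) : R) + ((cY (!b) - av i : ℤ) : R) * y ^ 4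

/-- equation of the preimage of the diagonal, on the chart `(a, b)` -/
def del (a b : Bool) (x y : R) : R :=
  ((cX a - cY b : ℤ) : R) + ((cX (!a) - cY b : ℤ) : R) * x ^ (4 * m4) +
    ((cX a - cY (!b) : ℤ) : R) * y ^ 4 + ((cX (!a) - cY (!b) : ℤ) : R) * (x ^ (4 * m4) * y ^ 4)

theorem Px_mul_Py_sub (a b : Bool) (x y : R) (i j : Ix) :
    Px a x i * Py b y j - Px a x j * Py b y i = ((av i - av j : ℤ) : R) * del a b x y := by
  simp only [Px, Py, del]; push_cast; ring

/-- the factors of the equation of the diagonal -/
def hh (s t : Ix → R) (e : Fin 3) : Bool → R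
  | true => s (e, false) * t (e, true) + s (e, true) * t (e, false)
  | false => s (e, false) * t (e, true) - s (e, true) * t (e, false)

end

/-- the four even sign patterns -/
abbrev Eps : Type := Option (Fin 3)

/-- the sign of the pattern `ε` at the edge `e` -/
def sg : Eps → Fin 3 → Bool
  | none, _ => true
  | some e, e' => decide (e' = e)

/-- The function algebra of the surface, in the coordinates of the chart `(a, b)`. -/
structure Geo {L : Type} [Field L] (a b : Bool) (x y : Lˣ) (A : Type) [CommRing A]
    [Algebra L A] where
  s : Ix → A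
  t : Ix → A
  w : A
  s_sq : ∀ i, s i ^ 2 = algebraMap L A (Px a (x : L) i)
  t_sq : ∀ i, t i ^ 2 = algebraMap L A (Py b (y : L) i)
  w_sq : w ^ 2 = hh s t 0 true * hh s t 1 true * hh s t 2 true
  gen : Algebra.adjoin L (Set.range s ∪ Set.range t ∪ {w}) = ⊤

namespace Geo
variable {L : Type} [Field L] {a b : Bool} {x y : Lˣ} {A : Type} [CommRing A] [Algebra L A]

/-- the factors of the equation of the diagonal -/
abbrev h (G : Geo a b x y A) (e : Fin 3) (σ : Bool) : A := hh G.s G.t e σ

/-- the four generators of the ideal of the ramification curve -/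
noncomputable def ww (G : Geo a b x y A) : Eps → A
  | none => G.w
  | some e => (del a b (x : L) (y : L))⁻¹ • (G.w * G.h (e + 1) false * G.h (e + 2) false)

/-- the coordinate ring of the chart of the product of the two curves -/
def ring (G : Geo a b x y A) (k : Type) [Field k] [Algebra k A] : Subalgebra k A :=
  Algebra.adjoin k ({algebraMap L A (x : L), algebraMap L A (y : L)} ∪ Set.range G.s ∪
    Set.range G.t)

/-- the equation of the basic open set attached to the pattern `ε` and the edge `e` -/
def gg (G : Geo a b x y A) (ε : Eps) (e : Fin 3) : A :=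
  G.h (e + 1) (sg ε (e + 1)) * G.h (e + 2) (sg ε (e + 2))

/-- stability of a sheaf under the homogeneous coordinate ring of the surface -/
structure Stab {B : Type} [CommRing B] [Algebra B L] (G : Geo false false x y A)
    {V : Type} [AddCommGroup V] [Module L V] [Module B V] [IsScalarTower B L V] [Module A V]
    [IsScalarTower L A V] (E : PSh B x y V) : Prop where
  s : ∀ i, E.Stable (G.s i) (2 * m4) 0
  t : ∀ i, E.Stable (G.t i) 0 2
  w : ∀ ε, E.Stable (G.ww ε) (3 * m4) 3

end Geo

end Vale.Agent.P190
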