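import Vale.Agent.P190.GrdDefs
import Vale.Agent.P190.Geo

/-! Bifiltered algebras spanned by monomials over a polynomial ring in two variables. -/

namespace Vale.Agent.P190

open PowerSeries

/-- finitely many elements with bidegrees, and two variables -/
structure Mon (A Γ : Type) where
  x : A
  y : A
  m : Γ → A
  d1 : Γ → ℕ
  d2 : Γ → ℕ

namespace Mon
variable {k A Γ : Type} [Field k] [CommRing A] [Algebra k A] {M : Mon A Γ}

variable (k M) in
/-- elements of bidegree at most `(i, j)` -/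
def R2 (i j : ℕ) : Submodule k A :=
  Submodule.span k {f | ∃ c d γ, c + M.d1 γ ≤ i ∧ d + M.d2 γ ≤ j ∧ f = M.x ^ c * M.y ^ d * M.m γ}

theorem mon_mem {i j c d : ℕ} {γ : Γ} (h1 : c + M.d1 γ ≤ i) (h2 : d + M.d2 γ ≤ j) :
    M.x ^ c * M.y ^ d * M.m γ ∈ M.R2 k i j :=
  Submodule.subset_span ⟨c, d, γ, h1, h2, rfl⟩

theorem m_mem {i j : ℕ} (γ : Γ) (h1 : M.d1 γ ≤ i) (h2 : M.d2 γ ≤ j) : M.m γ ∈ M.R2 k i j := by
  simpa using mon_mem (k := k) (c := 0) (d := 0) (γ := γ) (by simpa) (by simpa)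

theorem R2_mono {i j i' j' : ℕ} (h1 : i ≤ i') (h2 : j ≤ j') : M.R2 k i j ≤ M.R2 k i' j' :=
  Submodule.span_mono fun _ ⟨c, d, γ, e1, e2, e⟩ => ⟨c, d, γ, e1.trans h1, e2.trans h2, e⟩

variable (k M) in
/-- multiplication operators of bidegree at most `(i, j)` -/
def Deg (g : A) (i j : ℕ) : Prop :=
  ∀ i' j', ∀ f ∈ M.R2 k i' j', g * f ∈ M.R2 k (i + i') (j + j')

theorem deg_of_mon {g : A} {i j : ℕ}
    (h : ∀ c d γ, g * (M.x ^ c * M.y ^ d * M.m γ) ∈ M.R2 k (i + (c + M.d1 γ)) (j + (d + M.d2 γ))) :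
    M.Deg k g i j := by
  intro i' j' f hf
  induction hf using Submodule.span_induction with
  | mem f hf =>
    obtain ⟨c, d, γ, e1, e2, rfl⟩ := hf
    exact R2_mono (by omega) (by omega) (h c d γ)
  | zero => simp
  | add u v _ _ hu hv => rw [mul_add]; exact Submodule.add_mem _ hu hv
  | smul c v _ hv => rw [mul_smul_comm]; exact Submodule.smul_mem _ c hv

theorem deg_xy (c d : ℕ) : M.Deg k (M.x ^ c * M.y ^ d) c d :=
  deg_of_mon fun c' d' γ => by
    rw [show M.x ^ c * M.y ^ d * (M.x ^ c' * M.y ^ d' * M.m γ) =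
      M.x ^ (c + c') * M.y ^ (d + d') * M.m γ by ring]
    exact mon_mem (by omega) (by omega)

theorem deg_of {g : A} {i j : ℕ} (h : ∀ γ, g * M.m γ ∈ M.R2 k (i + M.d1 γ) (j + M.d2 γ)) :
    M.Deg k g i j :=
  deg_of_mon fun c d γ => by
    rw [mul_left_comm]
    exact R2_mono (by omega) (by omega) (deg_xy c d _ _ _ (h γ))

theorem Deg.mono {g : A} {i j i' j' : ℕ} (h : M.Deg k g i j) (h1 : i ≤ i') (h2 : j ≤ j') :
    M.Deg k g i' j' := fun a b f hf => R2_mono (by omega) (by omega) (h a b f hf)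

theorem Deg.mul {g g' : A} {i j i' j' : ℕ} (h : M.Deg k g i j) (h' : M.Deg k g' i' j') :
    M.Deg k (g * g') (i + i') (j + j') := fun a b f hf => by
  rw [mul_assoc, add_assoc, add_assoc]
  exact h _ _ _ (h' a b f hf)

theorem Deg.add {g g' : A} {i j : ℕ} (h : M.Deg k g i j) (h' : M.Deg k g' i j) :
    M.Deg k (g + g') i j := fun a b f hf => by
  rw [add_mul]
  exact Submodule.add_mem _ (h a b f hf) (h' a b f hf)

theorem Deg.sub {g g' : A} {i j : ℕ} (h : M.Deg k g i j) (h' : M.Deg k g' i j) :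
    M.Deg k (g - g') i j := fun a b f hf => by
  rw [sub_mul]
  exact Submodule.sub_mem _ (h a b f hf) (h' a b f hf)

theorem Deg.smul {g : A} {i j : ℕ} (h : M.Deg k g i j) (c : k) : M.Deg k (c • g) i j :=
  fun a b f hf => by
    rw [smul_mul_assoc]
    exact Submodule.smul_mem _ c (h a b f hf)

theorem Deg.zsmul {g : A} {i j : ℕ} (h : M.Deg k g i j) (c : ℤ) : M.Deg k (c • g) i j :=
  fun a b f hf => by
    rw [smul_mul_assoc]
    exact zsmul_mem (h a b f hf) c

theorem Deg.int_mul {g : A} {i j : ℕ} (h : M.Deg k g i j) (c : ℤ) : M.Deg k (c * g) i j := by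
  rw [← zsmul_eq_mul]; exact h.zsmul c

theorem deg_one (i j : ℕ) : M.Deg k 1 i j := fun a b f hf => by
  rw [one_mul]; exact R2_mono (by omega) (by omega) hf

theorem deg_int (c : ℤ) (i j : ℕ) : M.Deg k c i j := by
  simpa using (deg_one (k := k) (M := M) i j).int_mul c

theorem deg_x (c : ℕ) : M.Deg k (M.x ^ c) c 0 := by simpa using deg_xy (k := k) (M := M) c 0

theorem deg_y (d : ℕ) : M.Deg k (M.y ^ d) 0 d := by simpa using deg_xy (k := k) (M := M) 0 d

theorem deg_prod {J : Type} (I : Finset J) {g : J → A} {e1 e2 : J → ℕ}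
    (h : ∀ i, M.Deg k (g i) (e1 i) (e2 i)) :
    M.Deg k (∏ i ∈ I, g i) (∑ i ∈ I, e1 i) (∑ i ∈ I, e2 i) := by
  classical
  induction I using Finset.induction_on with
  | empty => simpa using deg_one 0 0
  | insert a I ha ih =>
    rw [Finset.prod_insert ha, Finset.sum_insert ha, Finset.sum_insert ha]
    exact (h a).mul ih

theorem deg_of_mem (h : ∀ γ, M.Deg k (M.m γ) (M.d1 γ) (M.d2 γ)) {g : A} {i j : ℕ}
    (hg : g ∈ M.R2 k i j) : M.Deg k g i j := by
  induction hg using Submodule.span_induction with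
  | mem f hf =>
    obtain ⟨c, d, γ, e1, e2, rfl⟩ := hf
    exact ((deg_xy c d).mul (h γ)).mono e1 e2
  | zero => intro a b f _; simp
  | add u v _ _ hu hv => exact hu.add hv
  | smul c v _ hv => exact hv.smul c

/-- the diagonal graded ring -/
noncomputable def grd [Fintype Γ] (h : ∀ γ, M.Deg k (M.m γ) (M.d1 γ) (M.d2 γ))
    (h1 : 1 ∈ M.R2 k 0 0) (h0 : ∀ γ, M.d1 γ = 0 → M.d2 γ = 0 → M.m γ = 1) :
    Grd k A (Bool × Bool) where
  R t := M.R2 k t t
  u ab := M.x ^ ab.1.toNat * M.y ^ ab.2.toNat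
  G := Finset.univ.sup fun γ => M.d1 γ + M.d2 γ
  zero a ha := by
    induction ha using Submodule.span_induction with
    | mem f hf =>
      obtain ⟨c, d, γ, e1, e2, rfl⟩ := hf
      obtain rfl : c = 0 := by omega
      obtain rfl : d = 0 := by omega
      exact ⟨1, by simp [h0 γ (by omega) (by omega)]⟩
    | zero => exact ⟨0, by simp⟩
    | add u v _ _ hu hv =>
      obtain ⟨c, rfl⟩ := hu
      obtain ⟨d, rfl⟩ := hv
      exact ⟨c + d, by simp⟩
    | smul c v _ hv =>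
      obtain ⟨d, rfl⟩ := hv
      exact ⟨c * d, by simp [Algebra.smul_def]⟩
  one_mem := h1
  mul_mem s t a ha b hb := deg_of_mem h ha t t b hb
  fg t := by
    refine Submodule.fg_span ((Set.finite_range fun p : Fin (t + 1) × Fin (t + 1) × Γ =>
      M.x ^ (p.1 : ℕ) * M.y ^ (p.2.1 : ℕ) * M.m p.2.2).subset ?_)
    rintro _ ⟨c, d, γ, e1, e2, rfl⟩
    exact ⟨(⟨c, by omega⟩, ⟨d, by omega⟩, γ), rfl⟩
  u_mem ab := by
    have := deg_xy (k := k) (M := M) ab.1.toNat ab.2.toNat 0 0 1 h1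
    rw [mul_one] at this
    exact R2_mono (Bool.toNat_le _) (Bool.toNat_le _) this
  gen t ht f hf := by
    induction hf using Submodule.span_induction with
    | mem f hf =>
      obtain ⟨c, d, γ, e1, e2, rfl⟩ := hf
      have hγ : M.d1 γ + M.d2 γ ≤ t :=
        (Finset.le_sup (f := fun γ => M.d1 γ + M.d2 γ) (Finset.mem_univ γ)).trans ht
      have key : ∀ c : ℕ, ∃ (a : Bool) (c' : ℕ), c = a.toNat + c' ∧ (c' = 0 ∨ c' + 1 = c) := by
        rintro (_ | c)
        · exact ⟨false, 0, rfl, Or.inl rfl⟩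
        · exact ⟨true, c, by simp [add_comm], Or.inr rfl⟩
      obtain ⟨a, c', hc, hc'⟩ := key c
      obtain ⟨b, d', hd, hd'⟩ := key d
      refine ⟨Pi.single (a, b) (M.x ^ c' * M.y ^ d' * M.m γ), fun i => ?_, ?_⟩
      · by_cases hi : i = (a, b)
        · subst hi
          rw [Pi.single_eq_same]
          exact mon_mem (by omega) (by omega)
        · rw [Pi.single_eq_of_ne hi]
          exact Submodule.zero_mem _
      · rw [Finset.sum_eq_single (a, b) (fun i _ hi => by rw [Pi.single_eq_of_ne hi, mul_zero])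
          (by simp), Pi.single_eq_same, hc, hd]
        ring
    | zero => exact ⟨0, fun _ => Submodule.zero_mem _, by simp⟩
    | add u v _ _ hu hv =>
      obtain ⟨c, hc, rfl⟩ := hu
      obtain ⟨d, hd, rfl⟩ := hv
      exact ⟨c + d, fun i => Submodule.add_mem _ (hc i) (hd i),
        by simp [mul_add, Finset.sum_add_distrib]⟩
    | smul r v _ hv =>
      obtain ⟨d, hd, rfl⟩ := hv
      exact ⟨r • d, fun i => Submodule.smul_mem _ r (hd i), by simp [Finset.smul_sum]⟩

end Mon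

section
variable {L : Type} [Field L]

theorem tu_one_eq (x : Lˣ) (a : Bool) : tu x 1 a = x ^ a.toNat := by cases a <;> simp

theorem tu_pow_mul_inv (x : Lˣ) (a : Bool) (i j : ℕ) :
    (x ^ a.toNat) ^ (i + j) * (tu x i a)⁻¹ = x ^ (a.toNat * j) := by
  cases a <;> simp [pow_add, mul_comm]

theorem exists_pow_eq_chart (x : Lˣ) (a : Bool) {c d n : ℕ} (h : c + d ≤ n) :
    ∃ e : ℕ, x ^ c = (x ^ a.toNat) ^ n * cs x a ^ e * (tu x d a)⁻¹ := by
  cases a
  · exact ⟨c, by simp⟩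
  · obtain ⟨e, rfl⟩ := Nat.exists_eq_add_of_le h
    exact ⟨e, by simp [pow_add]⟩

end

end Vale.Agent.P190
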