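import Vale.Agent.P190.Grd
import Vale.Agent.P190.Geo
import Vale.Agent.P190.GeoGrdAux

/-! The section ring of the surface. -/

namespace Vale.Agent.P190

open PowerSeries

variable {k : Type} [Field k] {L : Type} [Field L] [Algebra k L] {x y : Lˣ}
  {A : Type} [CommRing A] [Algebra L A] [Algebra k A] [IsScalarTower k L A]

/-- the properties of the section ring that are used -/
structure Geo.IsGrd (G : Geo false false x y A) (D : Grd k A (Bool × Bool)) : Prop where
  u_eq : ∀ a b, D.u (a, b) = algebraMap L A ((tu x 1 a * tu y 1 b : Lˣ) : L)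
  s : ∀ i a b, ∃ n, D.u (a, b) ^ n * PSh.chop x y a b (G.s i) (2 * m4) 0 ∈ D.R n
  t : ∀ i a b, ∃ n, D.u (a, b) ^ n * PSh.chop x y a b (G.t i) 0 2 ∈ D.R n
  w : ∀ ε a b, ∃ n, D.u (a, b) ^ n * PSh.chop x y a b (G.ww ε) (3 * m4) 3 ∈ D.R n
  fin : ∀ a b, ∃ S : Finset A, ∀ n, ∀ f ∈ D.R n,
    ∃ c ∈ Submodule.span (PSh.chartRing k x y a b) (S : Set A), f = D.u (a, b) ^ n * c

namespace Geo

/-- the monomials spanning the section ring -/
noncomputable def gmon (G : Geo false false x y A) : Mon A (Finset Ix × Finset Ix × Option Eps) where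
  x := algebraMap L A (x : L)
  y := algebraMap L A (y : L)
  m γ := (∏ i ∈ γ.1, G.s i) * (∏ i ∈ γ.2.1, G.t i) * γ.2.2.elim 1 G.ww
  d1 γ := 2 * m4 * γ.1.card + γ.2.2.elim 0 fun _ => 3 * m4
  d2 γ := 2 * γ.2.1.card + γ.2.2.elim 0 fun _ => 3

omit [Algebra k L] [IsScalarTower k L A] in
theorem deg_s (G : Geo false false x y A) (i : Ix) : G.gmon.Deg k (G.s i) (2 * m4) 0 := by
  refine Mon.deg_of fun ⟨I, J, o⟩ => ?_
  by_cases hi : i ∈ I
  · have e : G.s i * G.gmon.m (I, J, o) = Px false G.gmon.x i * G.gmon.m (I.erase i, J, o) := by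
      simp only [gmon]
      rw [← map_Px, ← G.s_sq, ← Finset.mul_prod_erase I _ hi]
      ring
    have hc := Finset.card_erase_add_one hi
    have hP : G.gmon.Deg k (Px false G.gmon.x i) (4 * m4) 0 :=
      (Mon.deg_int _ _ _).add ((Mon.deg_x _).int_mul _)
    rw [e]
    refine Mon.R2_mono ?_ le_rfl (hP _ _ _ (Mon.m_mem _ le_rfl le_rfl))
    simp only [gmon]
    rw [← hc]
    exact le_of_eq (by ring)
  · have e : G.s i * G.gmon.m (I, J, o) = G.gmon.m (insert i I, J, o) := by
      simp only [gmon]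
      rw [Finset.prod_insert hi]
      ring
    rw [e]
    refine Mon.m_mem _ ?_ (by simp [gmon])
    simp only [gmon]
    rw [Finset.card_insert_of_notMem hi]
    exact le_of_eq (by ring)

omit [Algebra k L] [IsScalarTower k L A] in
theorem deg_t (G : Geo false false x y A) (i : Ix) : G.gmon.Deg k (G.t i) 0 2 := by
  refine Mon.deg_of fun ⟨I, J, o⟩ => ?_
  by_cases hi : i ∈ J
  · have e : G.t i * G.gmon.m (I, J, o) = Py false G.gmon.y i * G.gmon.m (I, J.erase i, o) := by
      simp only [gmon]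
      rw [← map_Py, ← G.t_sq, ← Finset.mul_prod_erase J _ hi]
      ring
    have hc := Finset.card_erase_add_one hi
    have hP : G.gmon.Deg k (Py false G.gmon.y i) 0 4 :=
      (Mon.deg_int _ _ _).add ((Mon.deg_y _).int_mul _)
    rw [e]
    refine Mon.R2_mono le_rfl ?_ (hP _ _ _ (Mon.m_mem _ le_rfl le_rfl))
    simp only [gmon]
    omega
  · have e : G.t i * G.gmon.m (I, J, o) = G.gmon.m (I, insert i J, o) := by
      simp only [gmon]
      rw [Finset.prod_insert hi]
      ring
    rw [e]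
    refine Mon.m_mem _ (by simp [gmon]) ?_
    simp only [gmon]
    rw [Finset.card_insert_of_notMem hi]
    omega

omit [Algebra k L] [IsScalarTower k L A] in
theorem deg_h (G : Geo false false x y A) (e : Fin 3) (σ : Bool) :
    G.gmon.Deg k (G.h e σ) (2 * m4) 2 := by
  have h : ∀ i j, G.gmon.Deg k (G.s i * G.t j) (2 * m4) 2 := fun i j =>
    ((G.deg_s i).mul (G.deg_t j)).mono (by omega) (by omega)
  cases σ
  · exact (h _ _).sub (h _ _)
  · exact (h _ _).add (h _ _)

omit [IsScalarTower k L A] in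
theorem deg_ww (hk : Good k) (hc : IsCoord k x y) (G : Geo false false x y A) (ε : Eps) :
    G.gmon.Deg k (G.ww ε) (3 * m4) 3 := by
  have hd : G.gmon.Deg k (algebraMap L A (del false false (x : L) (y : L))) (4 * m4) 4 := by
    rw [map_del]
    have h1 : G.gmon.Deg k (G.gmon.x ^ (4 * m4)) (4 * m4) 4 := (Mon.deg_x _).mono le_rfl (by omega)
    have h2 : G.gmon.Deg k (G.gmon.y ^ 4) (4 * m4) 4 := (Mon.deg_y _).mono (by omega) le_rfl
    have h3 : G.gmon.Deg k (G.gmon.x ^ (4 * m4) * G.gmon.y ^ 4) (4 * m4) 4 := Mon.deg_xy _ _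
    exact (((Mon.deg_int _ _ _).add (h1.int_mul _)).add (h2.int_mul _)).add (h3.int_mul _)
  have hw : ∀ ε', G.gmon.Deg k (G.ww ε * G.ww ε') (6 * m4) 6 := by
    intro ε'
    by_cases h : ε = ε'
    · rw [← h, ← sq, G.ww_sq hk hc]
      exact (((G.deg_h _ _).mul (G.deg_h _ _)).mul (G.deg_h _ _)).mono (by omega) le_rfl
    · obtain ⟨e, σ, c, he⟩ := G.ww_mul_ww hk hc h
      rw [he]
      exact ((hd.mul (G.deg_h _ _)).zsmul c).mono (by omega) le_rfl
  refine Mon.deg_of fun ⟨I, J, o⟩ => ?_
  rcases o with _ | ε'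
  · have e : G.ww ε * G.gmon.m (I, J, none) = G.gmon.m (I, J, some ε) := by
      simp only [gmon, Option.elim]
      ring
    rw [e]
    exact Mon.m_mem _ (by simp only [gmon, Option.elim]; omega) (by simp only [gmon, Option.elim]; omega)
  · have e : G.ww ε * G.gmon.m (I, J, some ε') = G.ww ε * G.ww ε' * G.gmon.m (I, J, none) := by
      simp only [gmon, Option.elim]
      ring
    rw [e]
    exact Mon.R2_mono (by simp only [gmon, Option.elim]; omega)
      (by simp only [gmon, Option.elim]; omega) (hw ε' _ _ _ (Mon.m_mem _ le_rfl le_rfl))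

omit [IsScalarTower k L A] in
theorem deg_m (hk : Good k) (hc : IsCoord k x y) (G : Geo false false x y A)
    (γ : Finset Ix × Finset Ix × Option Eps) :
    G.gmon.Deg k (G.gmon.m γ) (G.gmon.d1 γ) (G.gmon.d2 γ) := by
  obtain ⟨I, J, o⟩ := γ
  have h := (Mon.deg_prod I (G.deg_s (k := k))).mul (Mon.deg_prod J (G.deg_t (k := k)))
  simp only [Finset.sum_const, smul_eq_mul, mul_zero, add_zero, zero_add] at h
  rcases o with _ | ε
  · refine (h.mul (Mon.deg_one 0 0)).mono ?_ ?_ <;> simp [gmon, mul_comm]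
  · refine (h.mul (G.deg_ww hk hc ε)).mono ?_ ?_ <;> simp [gmon, mul_comm]

end Geo

theorem Geo.exists_grd (hk : Good k) (hc : IsCoord k x y) (G : Geo false false x y A) :
    ∃ D : Grd k A (Bool × Bool), G.IsGrd D := by
  classical
  have h1 : 1 ∈ G.gmon.R2 k 0 0 := by
    simpa [gmon] using Mon.m_mem (k := k) (M := G.gmon) (i := 0) (j := 0) (∅, ∅, none)
      (by simp [gmon]) (by simp [gmon])
  have h0 : ∀ γ, G.gmon.d1 γ = 0 → G.gmon.d2 γ = 0 → G.gmon.m γ = 1 := by
    rintro ⟨I, J, o⟩ e1 e2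
    have := m4_pos
    rcases o with _ | ε
    · simp only [gmon, Option.elim, add_zero, mul_eq_zero, Finset.card_eq_zero] at e1 e2
      obtain rfl : I = ∅ := by
        rcases e1 with (e | e) | e
        · omega
        · omega
        · exact e
      obtain rfl : J = ∅ := by simpa using e2
      simp [gmon]
    · simp [gmon] at e2
  let D := Mon.grd (G.deg_m hk hc) h1 h0
  have hu : ∀ a b, D.u (a, b) = algebraMap L A ((x ^ a.toNat * y ^ b.toNat : Lˣ) : L) := by
    intro a b
    simp [D, Mon.grd, gmon]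
  have key : ∀ (g : A) (i j : ℕ), G.gmon.Deg k g i j → ∀ a b,
      ∃ n, D.u (a, b) ^ n * PSh.chop x y a b g i j ∈ D.R n := by
    intro g i j hg a b
    refine ⟨i + j, ?_⟩
    have e : (x ^ a.toNat * y ^ b.toNat) ^ (i + j) * (tu x i a * tu y j b)⁻¹ =
        x ^ (a.toNat * j) * y ^ (b.toNat * i) := by
      rw [← tu_pow_mul_inv x a i j, ← tu_pow_mul_inv y b j i, mul_pow, mul_inv, add_comm j i]
      ac_rfl
    have e' : D.u (a, b) ^ (i + j) * PSh.chop x y a b g i j =
        (G.gmon.x ^ (a.toNat * j) * G.gmon.y ^ (b.toNat * i) * g) * 1 := by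
      rw [hu, PSh.chop, Algebra.smul_def, ← mul_assoc, ← map_pow, ← map_mul, ← Units.val_pow_eq_pow_val,
        ← Units.val_mul, e]
      simp [gmon]
    rw [e']
    have ha := Nat.mul_le_mul_right j (Bool.toNat_le a)
    have hb := Nat.mul_le_mul_right i (Bool.toNat_le b)
    exact Mon.R2_mono (by omega) (by omega) (((Mon.deg_xy _ _).mul hg) 0 0 1 h1)
  refine ⟨D, fun a b => by rw [hu, tu_one_eq, tu_one_eq], fun i => key _ _ _ (G.deg_s i),
    fun i => key _ _ _ (G.deg_t i), fun ε => key _ _ _ (G.deg_ww hk hc ε), fun a b => ?_⟩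
  refine ⟨Finset.univ.image fun γ => PSh.chop x y a b (G.gmon.m γ) (G.gmon.d1 γ) (G.gmon.d2 γ),
    fun n f hf => ?_⟩
  induction hf using Submodule.span_induction with
  | mem f hf =>
    obtain ⟨c, d, γ, e1, e2, rfl⟩ := hf
    obtain ⟨p, hp⟩ := exists_pow_eq_chart x a e1
    obtain ⟨q, hq⟩ := exists_pow_eq_chart y b e2
    have hm : ((cs x a ^ p * cs y b ^ q : Lˣ) : L) ∈ PSh.chartRing k x y a b := by
      rw [Units.val_mul, Units.val_pow_eq_pow_val, Units.val_pow_eq_pow_val]
      exact mul_mem (pow_mem (Algebra.subset_adjoin (by simp)) _)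
        (pow_mem (Algebra.subset_adjoin (by simp)) _)
    refine ⟨(⟨_, hm⟩ : PSh.chartRing k x y a b) •
      PSh.chop x y a b (G.gmon.m γ) (G.gmon.d1 γ) (G.gmon.d2 γ),
      Submodule.smul_mem _ _ (Submodule.subset_span (by simp)), ?_⟩
    have e : x ^ c * y ^ d = (x ^ a.toNat * y ^ b.toNat) ^ n * ((cs x a ^ p * cs y b ^ q) *
        (tu x (G.gmon.d1 γ) a * tu y (G.gmon.d2 γ) b)⁻¹) := by
      rw [hp, hq, mul_pow, mul_inv, mul_mul_mul_comm, mul_mul_mul_comm (_ ^ n), mul_assoc]
    rw [hu, PSh.chop, Subalgebra.smul_def, smul_smul, Algebra.smul_def, ← mul_assoc, ← map_pow,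
      ← map_mul, ← Units.val_pow_eq_pow_val, ← Units.val_mul, ← Units.val_mul, ← e]
    simp [gmon]
  | zero => exact ⟨0, Submodule.zero_mem _, by simp⟩
  | add u v _ _ hu hv =>
    obtain ⟨c, hc, rfl⟩ := hu
    obtain ⟨d, hd, rfl⟩ := hv
    exact ⟨c + d, Submodule.add_mem _ hc hd, by rw [mul_add]⟩
  | smul r v _ hv =>
    obtain ⟨d, hd, rfl⟩ := hv
    exact ⟨r • d, Submodule.smul_of_tower_mem _ r hd, by rw [mul_smul_comm]⟩

theorem IsCoord.aeval_inj (hc : IsCoord k x y) :
    Function.Injective (MvPolynomial.aeval (R := k) ![(x : L), (y : L)]) := by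
  rw [injective_iff_map_eq_zero]
  intro f hf
  have hl := hc.indep.comp (fun d : Fin 2 →₀ ℕ => ((d 0 : ℤ), (d 1 : ℤ))) (by
    intro d d' h
    simp only [Prod.mk.injEq, Nat.cast_inj] at h
    ext i
    fin_cases i
    · exact h.1
    · exact h.2)
  rw [linearIndependent_iff'] at hl
  ext d
  by_cases hd : d ∈ f.support
  · refine hl f.support (fun d => f.coeff d) ?_ d hd
    rw [← hf, MvPolynomial.aeval_def, MvPolynomial.eval₂_eq']
    refine Finset.sum_congr rfl fun d _ => ?_
    simp [Algebra.smul_def, Fin.prod_univ_two]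
  · exact MvPolynomial.notMem_support_iff.mp hd

/-- series with coefficients in a prime ideal of a subring containing all homogeneous parts -/
theorem Grd.exists_prime {ι : Type} [Fintype ι] (D : Grd k A ι) (B : Subring A)
    (hB : ∀ t, ∀ f ∈ D.R t, f ∈ B) (q : Ideal B) [q.IsPrime] :
    ∃ p : Ideal D.ring, p.IsPrime ∧
      ∀ f : D.ring, f ∈ p ↔ ∀ t, (⟨coeff t (f : A⟦X⟧), hB t _ (f.2 t)⟩ : B) ∈ q := by
  have hi := PowerSeries.map_injective B.subtype Subtype.val_injective
  let ψ0 : D.ring → B⟦X⟧ := fun f => PowerSeries.mk fun t => ⟨coeff t (f : A⟦X⟧), hB t _ (f.2 t)⟩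
  have hψ : ∀ f, PowerSeries.map B.subtype (ψ0 f) = f := fun f => by ext t; simp [ψ0]
  let ψ : D.ring →+* B⟦X⟧ :=
    { toFun := ψ0
      map_one' := hi (by simp [hψ])
      map_mul' := fun f g => hi (by simp [hψ])
      map_zero' := hi (by simp [hψ])
      map_add' := fun f g => hi (by simp [hψ]) }
  refine ⟨RingHom.ker ((PowerSeries.map (Ideal.Quotient.mk q)).comp ψ), RingHom.ker_isPrime _,
    fun f => ?_⟩
  rw [RingHom.mem_ker, PowerSeries.ext_iff]
  simp [ψ, ψ0, Ideal.Quotient.eq_zero_iff_mem]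

theorem Geo.IsGrd.three_le_dim [IsDomain A] (hc : IsCoord k x y) {G : Geo false false x y A}
    {D : Grd k A (Bool × Bool)} (h : G.IsGrd D) : (3 : WithBot ℕ∞) ≤ ringKrullDim D.ring := by
  let P := MvPolynomial (Fin 2) k
  let ι : P →ₐ[k] L := MvPolynomial.aeval ![(x : L), (y : L)]
  let _ : Algebra P A := ((algebraMap L A).comp ι.toRingHom).toAlgebra
  have hP : ∀ p, algebraMap P A p = algebraMap L A (ι p) := fun _ => rfl
  have hinj : Function.Injective (algebraMap P A) :=
    (algebraMap L A).injective.comp hc.aeval_inj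
  have hu0 : D.u (false, false) = 1 := by simp [h.u_eq]
  have hu1 : D.u (true, false) = algebraMap P A (MvPolynomial.X 0) := by simp [h.u_eq, hP, ι, P]
  have hu2 : D.u (false, true) = algebraMap P A (MvPolynomial.X 1) := by simp [h.u_eq, hP, ι, P]
  obtain ⟨S, hS⟩ := h.fin false false
  have hsp : ∀ t, ∀ f ∈ D.R t, f ∈ Submodule.span P (S : Set A) := by
    intro t f hf
    obtain ⟨c, hc, rfl⟩ := hS t f hf
    rw [hu0, one_pow, one_mul]
    clear hf
    induction hc using Submodule.span_induction with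
    | mem f hf => exact Submodule.subset_span hf
    | zero => exact Submodule.zero_mem _
    | add u v _ _ hu hv => exact Submodule.add_mem _ hu hv
    | smul r v _ hv =>
      have hr : (r : L) ∈ ι.range := by
        refine (Algebra.adjoin_le ?_ : PSh.chartRing k x y false false ≤ ι.range) r.2
        rintro _ (rfl | rfl)
        · exact ⟨MvPolynomial.X 0, by simp [ι, P]⟩
        · exact ⟨MvPolynomial.X 1, by simp [ι, P]⟩
      obtain ⟨p, hp⟩ := hr
      have : r • v = p • v := by
        rw [Subalgebra.smul_def, Algebra.smul_def, Algebra.smul_def, hP, ← hp]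
        rfl
      rw [this]
      exact Submodule.smul_mem _ p hv
  have hB : ∀ t, ∀ f ∈ D.R t, f ∈ (integralClosure P A).toSubring := by
    intro t f hf
    have hp : ∀ n, f ^ n ∈ D.R (n * t) := by
      intro n
      induction n with
      | zero => simpa using D.one_mem
      | succ n ih => rw [pow_succ, add_mul, one_mul]; exact D.mul_mem _ _ _ ih _ hf
    refine IsIntegral.of_mem_of_fg (Algebra.adjoin P {f})
      ((Submodule.fg_span S.finite_toSet).of_le ?_) f (Algebra.self_mem_adjoin_singleton P f)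
    rw [Algebra.adjoin_eq_span, Submodule.span_le, ← Submonoid.powers_eq_closure]
    rintro _ ⟨n, rfl⟩
    exact hsp _ _ (hp n)
  let φ : P →ₐ[k] P := MvPolynomial.aeval ![0, MvPolynomial.X 1]
  let p1 : Ideal P := RingHom.ker φ.toRingHom
  let p2 : Ideal P := RingHom.ker (MvPolynomial.constantCoeff.comp φ.toRingHom)
  have : p1.IsPrime := RingHom.ker_isPrime _
  have : p2.IsPrime := RingHom.ker_isPrime _
  obtain ⟨q1, -, hq1, e1⟩ := Ideal.exists_ideal_over_prime_of_isIntegral
    (S := integralClosure P A) p1 ⊥ (by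
      intro p hp
      have : algebraMap P A p = 0 := congrArg Subtype.val (Ideal.mem_bot.1 hp)
      rw [(map_eq_zero_iff _ hinj).1 this]
      exact zero_mem _)
  obtain ⟨q2, h12, hq2, e2⟩ := Ideal.exists_ideal_over_prime_of_isIntegral
    (S := integralClosure P A) p2 q1 (by
      rw [e1]
      intro p hp
      have : φ p = 0 := hp
      simp [p2, RingHom.mem_ker, this])
  obtain ⟨r1, hr1, m1⟩ := D.exists_prime (integralClosure P A).toSubring hB q1
  obtain ⟨r2, hr2, m2⟩ := D.exists_prime (integralClosure P A).toSubring hB q2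
  have hZ : ∀ (q : Ideal (integralClosure P A)) (r : Ideal D.ring),
      (∀ f : D.ring, f ∈ r ↔ ∀ t, (⟨coeff t (f : A⟦X⟧), hB t _ (f.2 t)⟩ :
        (integralClosure P A).toSubring) ∈ q) → ∀ i (p : P), D.u i = algebraMap P A p →
      (D.Z i ∈ r ↔ p ∈ q.comap (algebraMap P _)) := by
    intro q r hr i p hp
    rw [hr, Ideal.mem_comap]
    constructor
    · intro H
      have e : (⟨coeff 1 (D.Z i : A⟦X⟧), hB 1 _ ((D.Z i).2 1)⟩ : (integralClosure P A).toSubring) =
          algebraMap P (integralClosure P A) p := Subtype.ext (by simp [Grd.Z, Grd.hom, hp])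
      exact e ▸ H 1
    · intro H t
      by_cases ht : t = 1
      · have e : (⟨coeff t (D.Z i : A⟦X⟧), hB t _ ((D.Z i).2 t)⟩ :
            (integralClosure P A).toSubring) = algebraMap P (integralClosure P A) p :=
          Subtype.ext (by simp [Grd.Z, Grd.hom, hp, ht])
        exact e ▸ H
      · have e : (⟨coeff t (D.Z i : A⟦X⟧), hB t _ ((D.Z i).2 t)⟩ :
            (integralClosure P A).toSubring) = 0 :=
          Subtype.ext (by simp [Grd.Z, Grd.hom, coeff_monomial, ht])
        exact e ▸ q.zero_mem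
  let r3 : Ideal D.ring := RingHom.ker (PowerSeries.constantCoeff.comp D.ring.val.toRingHom)
  have hr3 : r3.IsPrime := RingHom.ker_isPrime _
  have l1 : ⊥ < r1 := by
    refine bot_lt_iff_ne_bot.2 fun e => ?_
    have : D.Z (true, false) ∈ r1 := (hZ q1 r1 m1 _ _ hu1).2 (by simp [e1, p1, φ, P, RingHom.mem_ker])
    rw [e, Ideal.mem_bot] at this
    have h2 := congrArg (fun f : D.ring => coeff 1 (f : A⟦X⟧)) this
    simp only [Grd.Z, Grd.hom, coeff_monomial_same, hu1, ZeroMemClass.coe_zero, map_zero,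
      map_eq_zero_iff _ hinj] at h2
    exact MvPolynomial.X_ne_zero _ h2
  have l2 : r1 < r2 := by
    refine lt_of_le_not_ge (fun f hf => (m2 f).2 fun t => h12 ((m1 f).1 hf t)) fun e => ?_
    have : D.Z (false, true) ∈ r2 := (hZ q2 r2 m2 _ _ hu2).2 (by simp [e2, p2, φ, P, RingHom.mem_ker])
    have h2 := (hZ q1 r1 m1 _ _ hu2).1 (e this)
    simp [e1, p1, φ, P, RingHom.mem_ker] at h2
  have l3 : r2 < r3 := by
    refine lt_of_le_not_ge (fun f hf => ?_) fun e => ?_
    · obtain ⟨c, hc⟩ := D.zero _ (f.2 0)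
      have h2 := (m2 f).1 hf 0
      have e : (⟨coeff 0 (f : A⟦X⟧), hB 0 _ (f.2 0)⟩ : (integralClosure P A).toSubring) =
          algebraMap P (integralClosure P A) (MvPolynomial.C c) :=
        Subtype.ext (by simp [hc, hP, ι, P, ← IsScalarTower.algebraMap_apply])
      have h3 : MvPolynomial.C c ∈ q2.comap (algebraMap P (integralClosure P A)) := by
        rw [Ideal.mem_comap, ← e]; exact h2
      have h4 : c = 0 := by simpa [e2, p2, φ, P, RingHom.mem_ker] using h3
      simpa [r3, RingHom.mem_ker, h4] using hc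
    · have : D.Z (false, false) ∈ r3 := by
        simp [r3, RingHom.mem_ker, Grd.Z, Grd.hom, ← coeff_zero_eq_constantCoeff_apply,
          coeff_monomial]
      have h2 := (hZ q2 r2 m2 _ 1 (by rw [hu0, map_one])).1 (e this)
      rw [e2] at h2
      exact (Ideal.ne_top_iff_one _).1 (Ideal.IsPrime.ne_top inferInstance) h2
  let s : LTSeries (PrimeSpectrum D.ring) :=
    ⟨3, ![⟨⊥, Ideal.isPrime_bot⟩, ⟨r1, hr1⟩, ⟨r2, hr2⟩, ⟨r3, hr3⟩], fun i => by
      fin_cases i
      · exact l1
      · exact l2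
      · exact l3⟩
  exact_mod_cast Order.LTSeries.length_le_krullDim s

/-- the function field of a component of the surface -/
theorem exists_geo_domain {L : Type} [Field L] (x y : Lˣ) :
    ∃ (A : Type) (_ : CommRing A) (_ : IsDomain A) (_ : Algebra L A),
      Nonempty (Geo false false x y A) := by
  let Ω := AlgebraicClosure L
  choose s hs using fun i => IsAlgClosed.exists_pow_nat_eq (k := Ω)
    (algebraMap L Ω (Px false (x : L) i)) two_pos
  choose t ht using fun i => IsAlgClosed.exists_pow_nat_eq (k := Ω)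
    (algebraMap L Ω (Py false (y : L) i)) two_pos
  obtain ⟨w, hw⟩ := IsAlgClosed.exists_pow_nat_eq (k := Ω)
    (hh s t 0 true * hh s t 1 true * hh s t 2 true) two_pos
  let T : Set Ω := Set.range s ∪ Set.range t ∪ {w}
  let B := Algebra.adjoin L T
  let s' : Ix → B := fun i => ⟨s i, Algebra.subset_adjoin (by simp [T])⟩
  let t' : Ix → B := fun i => ⟨t i, Algebra.subset_adjoin (by simp [T])⟩
  let w' : B := ⟨w, Algebra.subset_adjoin (by simp [T])⟩
  refine ⟨B, inferInstance, inferInstance, inferInstance, ⟨⟨s', t', w', fun i => Subtype.ext (hs i),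
    fun i => Subtype.ext (ht i), Subtype.ext (by simpa [hh, s', t', w'] using hw), ?_⟩⟩⟩
  rw [eq_top_iff, ← Algebra.adjoin_adjoin_coe_preimage (R := L) (s := T)]
  refine Algebra.adjoin_mono ?_
  rintro z ((⟨i, h⟩ | ⟨i, h⟩) | h)
  · exact Or.inl (Or.inl ⟨i, Subtype.ext h⟩)
  · exact Or.inl (Or.inr ⟨i, Subtype.ext h⟩)
  · exact Or.inr (Subtype.ext h)

end Vale.Agent.P190
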