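import Vale.Agent.P190.GrdDefs

/-! The completed section ring is a complete noetherian local ring. -/

namespace Vale.Agent.P190

open PowerSeries

/-- a ring complete for a finitely generated ideal with residue ring the base field is
noetherian -/
theorem isNoetherianRing_of_complete (k S : Type) [Field k] [CommRing S] [Algebra k S]
    (I : Ideal S) (hI : I.FG) [IsAdicComplete I S]
    (hk : ∀ s : S, ∃ c : k, s - algebraMap k S c ∈ I) : IsNoetherianRing S := by
  obtain ⟨n, g, hg⟩ := Submodule.fg_iff_exists_fin_generating_family.1 hI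
  let ev : MvPolynomial (Fin n) k →+* S := (MvPolynomial.aeval g).toRingHom
  have h1 : (MvPolynomial.idealOfVars (Fin n) k).map ev ≤ I := by
    rw [MvPolynomial.idealOfVars, Ideal.map_span, Ideal.span_le]
    rintro _ ⟨_, ⟨i, rfl⟩, rfl⟩
    have : ev (MvPolynomial.X i) = g i := MvPolynomial.aeval_X g i
    rw [this, ← hg]
    exact Submodule.subset_span ⟨i, rfl⟩
  have hle : ∀ m : ℕ, MvPolynomial.idealOfVars (Fin n) k ^ m ≤ (I ^ m).comap ev := by
    intro m
    rw [← Ideal.map_le_iff_le_comap, Ideal.map_pow]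
    exact Ideal.pow_right_mono h1 m
  let f : (m : ℕ) → MvPowerSeries (Fin n) k →+* S ⧸ I ^ m := fun m =>
    (Ideal.quotientMap (I ^ m) ev (hle m)).comp
      (MvPowerSeries.truncTotalAlgHom (Fin n) k m).toRingHom
  have hfa : ∀ m q, f m q = Ideal.Quotient.mk _ (ev (q.truncTotal m)) := fun m q => rfl
  have hf : ∀ {m m' : ℕ} (h : m ≤ m'), (Ideal.Quotient.factorPow I h).comp (f m') = f m := by
    intro m m' h
    refine RingHom.ext fun q => ?_
    rw [RingHom.comp_apply, hfa, hfa]
    change Ideal.Quotient.mk (I ^ m) _ = _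
    rw [Ideal.Quotient.mk_eq_mk_iff_sub_mem, ← map_sub]
    exact hle m (MvPowerSeries.truncTotal_sub_truncTotal_mem_pow_idealOfVars h le_rfl q)
  let φ := IsAdicComplete.liftRingHom I f hf
  have hφ : ∀ q : MvPolynomial (Fin n) k, φ (q : MvPowerSeries (Fin n) k) = ev q := by
    intro q
    have := IsHausdorff.funext' I (f := fun _ : Unit => φ (q : MvPowerSeries (Fin n) k))
      (g := fun _ => ev q) (by
        intro m _
        rw [IsAdicComplete.mk_liftRingHom]
        have e := (MvPowerSeries.truncTotalAlgHom (Fin n) k m).commutes q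
        change Ideal.quotientMap (I ^ m) ev (hle m)
          (MvPowerSeries.truncTotalAlgHom (Fin n) k m (algebraMap _ _ q)) = _
        rw [e]
        rfl)
    exact congrFun this ()
  have hmap : (Ideal.span (Set.range MvPowerSeries.X) : Ideal (MvPowerSeries (Fin n) k)).map φ
      = I := by
    rw [Ideal.map_span, ← Set.range_comp, ← hg]
    congr 2
    funext i
    rw [Function.comp_apply, ← MvPolynomial.coe_X, hφ]
    exact MvPolynomial.aeval_X g i
  have hH : IsHausdorff ((Ideal.span (Set.range MvPowerSeries.X) :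
      Ideal (MvPowerSeries (Fin n) k)).map φ) S := by
    rw [hmap]
    infer_instance
  refine isNoetherianRing_of_surjective (MvPowerSeries (Fin n) k) S φ
    (surjective_of_mk_map_comp_surjective (I := Ideal.span (Set.range MvPowerSeries.X)) φ ?_)
  intro z
  obtain ⟨s, rfl⟩ := Ideal.Quotient.mk_surjective z
  obtain ⟨c, hc⟩ := hk s
  refine ⟨(MvPolynomial.C c : MvPolynomial (Fin n) k), ?_⟩
  rw [RingHom.comp_apply, hφ, eq_comm, Ideal.Quotient.mk_eq_mk_iff_sub_mem, hmap]
  have : ev (MvPolynomial.C c) = algebraMap k S c := MvPolynomial.aeval_C g c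
  rwa [this]

namespace Grd
variable {k A ι : Type} [Field k] [CommRing A] [Algebra k A] [Fintype ι]

theorem F_anti (D : Grd k A ι) {m n : ℕ} (h : m ≤ n) : D.F n ≤ D.F m :=
  fun _ hf t ht => hf t (ht.trans_le h)

theorem F_mul (D : Grd k A ι) (m n : ℕ) : D.F m * D.F n ≤ D.F (m + n) := by
  refine Ideal.mul_le.2 fun f hf g hg t ht => ?_
  rw [Subalgebra.coe_mul, coeff_mul]
  refine Finset.sum_eq_zero fun p hp => ?_
  have := Finset.HasAntidiagonal.mem_antidiagonal.1 hp
  by_cases h : p.1 < m
  · rw [hf p.1 h, zero_mul]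
  · rw [hg p.2 (by omega), mul_zero]

theorem F_one_pow_le (D : Grd k A ι) (n : ℕ) : D.F 1 ^ n ≤ D.F n := by
  induction n with
  | zero => exact fun f _ t ht => absurd ht (Nat.not_lt_zero t)
  | succ n ih =>
    rw [pow_succ]
    exact (Ideal.mul_mono_left ih).trans (D.F_mul n 1)

theorem hom_mem_F (D : Grd k A ι) {t n : ℕ} (h : n ≤ t) (a : A) (ha : a ∈ D.R t) :
    D.hom t a ha ∈ D.F n := by
  intro s hs
  change coeff s (monomial t a) = 0
  rw [coeff_monomial, if_neg (by omega)]

theorem zI_le (D : Grd k A ι) : D.zI ≤ D.F 1 := by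
  rw [zI, Ideal.span_le]
  rintro _ ⟨i, rfl⟩
  exact D.hom_mem_F le_rfl _ _

theorem F_le_zI_pow (D : Grd k A ι) (s : ℕ) : D.F (D.G + s) ≤ D.zI ^ s := by
  induction s with
  | zero => simp
  | succ s ih =>
    intro f hf
    have hex : ∀ t : ℕ, ∃ c : ι → A, (∀ i, c i ∈ D.R t) ∧ (t < D.G + s → ∀ i, c i = 0) ∧
        coeff (t + 1) (f : A⟦X⟧) = ∑ i, D.u i * c i := by
      intro t
      by_cases ht : t < D.G + s
      · exact ⟨0, fun i => (D.R t).zero_mem, fun _ _ => rfl, by
          rw [hf (t + 1) (by omega)]; simp⟩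
      · obtain ⟨c, hc, h⟩ := D.gen t (by omega) _ (f.2 (t + 1))
        exact ⟨c, hc, fun h' => absurd h' ht, h⟩
    choose c hc1 hc2 hc3 using hex
    let g : ι → D.ring := fun i => ⟨PowerSeries.mk fun t => c t i, fun t => by
      rw [coeff_mk]; exact hc1 t i⟩
    have hfg : f = ∑ i, g i * D.Z i := by
      refine Subtype.ext (PowerSeries.ext fun t => ?_)
      have e : ((∑ i, g i * D.Z i : D.ring) : A⟦X⟧) =
          ∑ i, (PowerSeries.mk fun t => c t i) * monomial 1 (D.u i) := by
        rw [AddSubmonoidClass.coe_finset_sum]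
        rfl
      rw [e, map_sum]
      have e2 : ∀ a : A, monomial 1 a = C a * X := fun a => by
        rw [monomial_eq_C_mul_X_pow, pow_one]
      rcases t with _ | t
      · rw [hf 0 (by omega)]
        simp [e2, ← mul_assoc]
      · rw [hc3]
        refine Finset.sum_congr rfl fun i _ => ?_
        rw [e2, ← mul_assoc, coeff_succ_mul_X, coeff_mul_C, coeff_mk, mul_comm]
    rw [hfg, pow_succ]
    refine Ideal.sum_mem _ fun i _ => Ideal.mul_mem_mul (ih fun t ht => ?_)
      (Ideal.subset_span ⟨i, rfl⟩)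
    change coeff t (PowerSeries.mk fun t => c t i) = 0
    rw [coeff_mk, hc2 t ht]

theorem isUnit_of_not_mem (D : Grd k A ι) {f : D.ring} (h : f ∉ D.F 1) : IsUnit f := by
  obtain ⟨c, hc⟩ := D.zero _ (f.2 0)
  have hc0 : c ≠ 0 := by
    rintro rfl
    apply h
    intro t ht
    rw [Nat.lt_one_iff.1 ht, hc, map_zero]
  let u : Aˣ := Units.map (algebraMap k A : k →* A) (Units.mk0 c hc0)
  have hu : constantCoeff (f : A⟦X⟧) = u := by
    rw [← coeff_zero_eq_constantCoeff_apply, hc]
    rfl
  have hu' : ((u⁻¹ : Aˣ) : A) = algebraMap k A c⁻¹ := rfl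
  have hmem : invOfUnit (f : A⟦X⟧) u ∈ D.ring := by
    intro t
    induction t using Nat.strong_induction_on with
    | _ t ih =>
      rw [coeff_invOfUnit]
      split_ifs with ht
      · rw [ht, hu', Algebra.algebraMap_eq_smul_one]
        exact (D.R 0).smul_mem _ D.one_mem
      · rw [hu', neg_mul, ← Algebra.smul_def]
        refine (D.R t).neg_mem ((D.R t).smul_mem _ (Submodule.sum_mem _ fun p hp => ?_))
        split_ifs with h2
        · rw [← Finset.HasAntidiagonal.mem_antidiagonal.1 hp]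
          exact D.mul_mem _ _ _ (f.2 _) _ (ih _ h2)
        · exact (D.R t).zero_mem
  exact IsUnit.of_mul_eq_one ⟨_, hmem⟩ (Subtype.ext (mul_invOfUnit _ _ hu))

theorem one_not_mem_F [Nontrivial A] (D : Grd k A ι) : (1 : D.ring) ∉ D.F 1 := by
  intro h
  have := h 0 one_pos
  simp at this

theorem isLocalRing [Nontrivial A] (D : Grd k A ι) : IsLocalRing D.ring := by
  refine IsLocalRing.of_isUnit_or_isUnit_one_sub_self fun a => ?_
  by_cases h : a ∈ D.F 1
  · refine Or.inr (D.isUnit_of_not_mem fun h' => D.one_not_mem_F ?_)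
    simpa using (D.F 1).add_mem h' h
  · exact Or.inl (D.isUnit_of_not_mem h)

theorem maximalIdeal_eq [Nontrivial A] (D : Grd k A ι) [IsLocalRing D.ring] :
    IsLocalRing.maximalIdeal D.ring = D.F 1 := by
  refine le_antisymm (fun a ha => ?_)
    (IsLocalRing.le_maximalIdeal ((Ideal.ne_top_iff_one _).2 D.one_not_mem_F))
  by_contra h
  exact ha (D.isUnit_of_not_mem h)

theorem F_eq_sup (D : Grd k A ι) (t : ℕ) : ∃ J : Ideal D.ring, J.FG ∧ D.F t = D.F (t + 1) ⊔ J := by
  obtain ⟨n, a, ha⟩ := Submodule.fg_iff_exists_fin_generating_family.1 (D.fg t)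
  have ham : ∀ i, a i ∈ D.R t := fun i => ha ▸ Submodule.subset_span ⟨i, rfl⟩
  refine ⟨Ideal.span (Set.range fun i => D.hom t (a i) (ham i)),
    Submodule.fg_span (Set.finite_range _), ?_⟩
  refine le_antisymm (fun f hf => ?_) (sup_le (D.F_anti (Nat.le_succ t)) ?_)
  · have h1 := f.2 t
    rw [← ha, Submodule.mem_span_range_iff_exists_fun] at h1
    obtain ⟨c, hc⟩ := h1
    have h2 : f = (f - ∑ i, c i • D.hom t (a i) (ham i)) + ∑ i, c i • D.hom t (a i) (ham i) :=
      (sub_add_cancel _ _).symm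
    rw [h2]
    refine Submodule.add_mem_sup (fun s hs => ?_) (Ideal.sum_mem _ fun i _ => ?_)
    · have e : ((∑ i, c i • D.hom t (a i) (ham i) : D.ring) : A⟦X⟧) =
          monomial t (∑ i, c i • a i) := by
        rw [AddSubmonoidClass.coe_finset_sum, map_sum]
        refine Finset.sum_congr rfl fun i _ => ?_
        change c i • monomial t (a i) = _
        ext s
        simp [coeff_monomial]
      rw [AddSubgroupClass.coe_sub, e, hc, map_sub, coeff_monomial]
      split_ifs with h
      · rw [h, sub_self]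
      · rw [hf s (by omega), sub_zero]
    · rw [Algebra.smul_def]
      exact Ideal.mul_mem_left _ _ (Ideal.subset_span ⟨i, rfl⟩)
  · rw [Ideal.span_le]
    rintro _ ⟨i, rfl⟩
    exact D.hom_mem_F le_rfl _ _

theorem F_one_fg (D : Grd k A ι) : (D.F 1).FG := by
  have key : ∀ t, (D.zI ⊔ D.F (t + 1)).FG → (D.zI ⊔ D.F 1).FG := by
    intro t
    induction t with
    | zero => exact id
    | succ t ih =>
      intro h
      apply ih
      obtain ⟨J, hJ, e⟩ := D.F_eq_sup (t + 1)
      rw [e, ← sup_assoc]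
      exact Submodule.FG.sup h hJ
  have h1 : D.F (D.G + 1) ≤ D.zI := by simpa using D.F_le_zI_pow 1
  have h2 := key D.G (by
    rw [sup_eq_left.2 h1]
    exact Submodule.fg_span (Set.finite_range _))
  rwa [sup_eq_right.2 D.zI_le] at h2

theorem isAdicComplete (D : Grd k A ι) : IsAdicComplete (D.F 1) D.ring where
  haus' f hf := by
    refine Subtype.ext (PowerSeries.ext fun t => ?_)
    have h1 := hf (t + 1)
    rw [SModEq.zero, smul_eq_mul, Ideal.mul_top] at h1
    exact D.F_one_pow_le _ h1 t (Nat.lt_succ_self t)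
  prec' f hf := by
    have h1 : ∀ {m n : ℕ}, m ≤ n → f m - f n ∈ D.F 1 ^ m := by
      intro m n h
      have := hf h
      rwa [SModEq.sub_mem, smul_eq_mul, Ideal.mul_top] at this
    let lim : D.ring := ⟨PowerSeries.mk fun t => coeff t (f (t + 1) : A⟦X⟧), fun t => by
      rw [coeff_mk]; exact (f (t + 1)).2 t⟩
    refine ⟨lim, fun n => ?_⟩
    rw [SModEq.sub_mem, smul_eq_mul, Ideal.mul_top, ← sub_add_sub_cancel (f n) (f (D.G + n))]
    refine Ideal.add_mem _ (h1 (Nat.le_add_left _ _))
      (Ideal.pow_right_mono D.zI_le n (D.F_le_zI_pow n fun t ht => ?_))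
    have h2 := D.F_one_pow_le _ (h1 (show t + 1 ≤ D.G + n from ht)) t (Nat.lt_succ_self t)
    rw [AddSubgroupClass.coe_sub, map_sub, sub_eq_zero] at h2 ⊢
    rw [← h2]
    simp only [lim, coeff_mk]

theorem isNoetherianRing (D : Grd k A ι) : IsNoetherianRing D.ring := by
  haveI := D.isAdicComplete
  refine isNoetherianRing_of_complete k _ (D.F 1) D.F_one_fg fun s => ?_
  obtain ⟨c, hc⟩ := D.zero _ (s.2 0)
  refine ⟨c, fun t ht => ?_⟩
  rw [Nat.lt_one_iff.1 ht, AddSubgroupClass.coe_sub, map_sub, hc]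
  simp [PowerSeries.algebraMap_apply]

end Grd
end Vale.Agent.P190
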