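import Vale.Agent.P190.Defs

/-! The completed section ring. Definitions. -/

namespace Vale.Agent.P190

open PowerSeries

/-- a graded ring inside `A`, generated in large degrees by finitely many elements of degree
one -/
structure Grd (k A ι : Type) [Field k] [CommRing A] [Algebra k A] [Fintype ι] where
  R : ℕ → Submodule k A
  u : ι → A
  G : ℕ
  zero : ∀ a ∈ R 0, ∃ c : k, a = algebraMap k A c
  one_mem : 1 ∈ R 0
  mul_mem : ∀ s t, ∀ a ∈ R s, ∀ b ∈ R t, a * b ∈ R (s + t)
  fg : ∀ t, (R t).FG
  u_mem : ∀ i, u i ∈ R 1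
  gen : ∀ t ≥ G, ∀ f ∈ R (t + 1), ∃ c : ι → A, (∀ i, c i ∈ R t) ∧ f = ∑ i, u i * c i

namespace Grd
variable {k A ι : Type} [Field k] [CommRing A] [Algebra k A] [Fintype ι]

/-- the completion of the graded ring -/
def ring (D : Grd k A ι) : Subalgebra k A⟦X⟧ where
  carrier := {f | ∀ t, coeff t f ∈ D.R t}
  mul_mem' := fun {f g} hf hg t => by
    rw [coeff_mul]
    refine Submodule.sum_mem _ fun p hp => ?_
    rw [← Finset.HasAntidiagonal.mem_antidiagonal.1 hp]
    exact D.mul_mem _ _ _ (hf _) _ (hg _)
  add_mem' := fun {f g} hf hg t => by rw [map_add]; exact (D.R t).add_mem (hf t) (hg t)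
  algebraMap_mem' := fun c t => by
    rw [PowerSeries.algebraMap_apply, coeff_C]
    split_ifs with h
    · rw [h, Algebra.algebraMap_eq_smul_one]; exact (D.R 0).smul_mem c D.one_mem
    · exact (D.R t).zero_mem

theorem mem_ring {D : Grd k A ι} {f : A⟦X⟧} : f ∈ D.ring ↔ ∀ t, coeff t f ∈ D.R t := Iff.rfl

/-- a homogeneous element as an element of the completion -/
noncomputable def hom (D : Grd k A ι) (t : ℕ) (a : A) (ha : a ∈ D.R t) : D.ring :=
  ⟨monomial t a, fun s => by
    rw [coeff_monomial]
    split_ifs with h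
    · rw [h]; exact ha
    · exact (D.R s).zero_mem⟩

/-- the degree one generators -/
noncomputable def Z (D : Grd k A ι) (i : ι) : D.ring := D.hom 1 (D.u i) (D.u_mem i)

/-- the ideal of series of order at least `n` -/
def F (D : Grd k A ι) (n : ℕ) : Ideal D.ring where
  carrier := {f | ∀ t < n, coeff t (f : A⟦X⟧) = 0}
  add_mem' := fun {f g} hf hg t ht => by
    rw [Subalgebra.coe_add, map_add, hf t ht, hg t ht, add_zero]
  zero_mem' := fun t _ => by simp
  smul_mem' := fun c f hf t ht => by
    rw [smul_eq_mul, Subalgebra.coe_mul, coeff_mul]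
    refine Finset.sum_eq_zero fun p hp => ?_
    have := Finset.HasAntidiagonal.mem_antidiagonal.1 hp
    rw [hf p.2 (by omega), mul_zero]

theorem mem_F {D : Grd k A ι} {n : ℕ} {f : D.ring} :
    f ∈ D.F n ↔ ∀ t < n, coeff t (f : A⟦X⟧) = 0 := Iff.rfl

/-- the ideal generated by the degree one generators -/
noncomputable def zI (D : Grd k A ι) : Ideal D.ring := Ideal.span (Set.range D.Z)

end Grd

/-- Laurent series, as a localization of power series -/
abbrev Lau (A : Type) [CommRing A] : Type := Localization.Away (X : A⟦X⟧)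

end Vale.Agent.P190
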