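import Vale.Agent.P190.MainDefs

/-! Formal properties of the graded pieces. -/

namespace Vale.Agent.P190

variable {k : Type} [Field k] {L : Type} [Field L] [Algebra k L] {x y : Lˣ}
  {A : Type} [CommRing A] [Algebra L A] [Algebra k A] [IsScalarTower k L A]
  {V : Type} [AddCommGroup V] [Module L V] [Module k V] [IsScalarTower k L V] [Module A V]
  [IsScalarTower L A V] [IsScalarTower k A V]

section zp
omit [Module L V] [Module k V] [IsScalarTower k L V] [IsScalarTower L A V] [IsScalarTower k A V]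
  [Algebra L A] [Algebra k A] [IsScalarTower k L A]

theorem mem_zp {z : V ≃ₗ[A] V} {n : ℤ} {Λ : Submodule A V} {v : V} :
    v ∈ zp z n Λ ↔ (z ^ (-n) : V ≃ₗ[A] V) v ∈ Λ := by
  rw [zp, Submodule.mem_map_equiv, zpow_neg]
  rfl

@[simp] theorem zp_zero (z : V ≃ₗ[A] V) (Λ : Submodule A V) : zp z 0 Λ = Λ := by
  ext v
  rw [mem_zp]
  simp

theorem zp_zp (z : V ≃ₗ[A] V) (m n : ℤ) (Λ : Submodule A V) :
    zp z m (zp z n Λ) = zp z (m + n) Λ := by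
  ext v
  rw [mem_zp, mem_zp, mem_zp, ← LinearEquiv.mul_apply, ← zpow_add, neg_add_rev]

theorem zp_mono (z : V ≃ₗ[A] V) (n : ℤ) {Λ Λ' : Submodule A V} (h : Λ' ≤ Λ) :
    zp z n Λ' ≤ zp z n Λ := by
  exact Submodule.map_mono h

theorem zp_anti {z : V ≃ₗ[A] V} {Λ : Submodule A V} (h : zp z 1 Λ ≤ Λ) {m n : ℤ} (hmn : m ≤ n) :
    zp z n Λ ≤ zp z m Λ := by
  induction n, hmn using Int.le_induction with
  | base => exact le_rfl
  | succ n _ ih =>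
    rw [← zp_zp]
    exact (zp_mono z n h).trans ih

theorem zp_inf (z : V ≃ₗ[A] V) (n : ℤ) (Λ Λ' : Submodule A V) :
    zp z n (Λ ⊓ Λ') = zp z n Λ ⊓ zp z n Λ' := by
  ext v
  simp only [mem_zp, Submodule.mem_inf]

theorem zp_sup (z : V ≃ₗ[A] V) (n : ℤ) (Λ Λ' : Submodule A V) :
    zp z n (Λ ⊔ Λ') = zp z n Λ ⊔ zp z n Λ' := by
  exact Submodule.map_sup _ _ _

end zp

section gr
variable {M : PSh k x y V}

theorem gr_mono (M : PSh k x y V) {Λ1 Λ2 : Submodule A V} (h : Λ1 ≤ Λ2) (Λ' : Submodule A V) :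
    gr M Λ1 Λ' ≤ gr M Λ2 Λ' := by
  exact PSh.map_mono (PSh.inf_mono le_rfl fun _ hv => h hv) _

theorem gr_self (M : PSh k x y V) (Λ : Submodule A V) : gr M Λ Λ = ⊥ := by
  ext a b v
  constructor
  · rintro ⟨u, hu, rfl⟩
    exact (Submodule.Quotient.mk_eq_zero Λ).2 hu.2
  · intro hv
    rw [(Submodule.mem_bot k).1 hv]
    exact Submodule.zero_mem _

theorem gr_tw (M : PSh k x y V) (Λ Λ' : Submodule A V) (i j : ℤ) :
    (gr M Λ Λ').tw i j = gr (M.tw i j) Λ Λ' := by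
  rw [gr, PSh.map_tw, PSh.inf_tw, gr]

theorem gr_stab {G : Geo false false x y A} (h : G.Stab M) (Λ Λ' : Submodule A V) :
    G.Stab (gr M Λ Λ') :=
  (h.inf Λ).map Λ'.mkQ

/-- saturated subsheaves of a graded piece are graded pieces -/
theorem gr_inf (M : PSh k x y V) (Λ Λ' : Submodule A V) (U : Submodule A (V ⧸ Λ')) :
    (gr M Λ Λ').inf (U.restrictScalars L) = gr M (Λ ⊓ U.comap Λ'.mkQ) Λ' := by
  ext a b v
  constructor
  · rintro ⟨⟨u, hu, rfl⟩, hU⟩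
    exact ⟨u, ⟨hu.1, hu.2, hU⟩, rfl⟩
  · rintro ⟨u, hu, rfl⟩
    exact ⟨⟨u, ⟨hu.1, hu.2.1⟩, rfl⟩, hu.2.2⟩

theorem gr_factor (M : PSh k x y V) (Λ : Submodule A V) {Λ2 Λ3 : Submodule A V} (h : Λ3 ≤ Λ2) :
    (gr M Λ Λ3).map ((Submodule.factor h).restrictScalars L) = gr M Λ Λ2 := by
  rw [gr, PSh.map_map, gr]
  rfl

theorem gr_inf_ker (M : PSh k x y V) {Λ1 Λ2 Λ3 : Submodule A V} (h : Λ3 ≤ Λ2) (h' : Λ2 ≤ Λ1) :
    (gr M Λ1 Λ3).inf (LinearMap.ker ((Submodule.factor h).restrictScalars L)) = gr M Λ2 Λ3 := by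
  ext a b v
  constructor
  · rintro ⟨⟨u, hu, rfl⟩, hU⟩
    exact ⟨u, ⟨hu.1, (Submodule.Quotient.mk_eq_zero Λ2).1 hU⟩, rfl⟩
  · rintro ⟨u, hu, rfl⟩
    exact ⟨⟨u, ⟨hu.1, h' hu.2⟩, rfl⟩, (Submodule.Quotient.mk_eq_zero Λ2).2 hu.2⟩

theorem gr_FG_of_le {Λ1 Λ2 Λ3 Λ4 : Submodule A V} (h : (gr M Λ1 Λ4).FG) (h21 : Λ2 ≤ Λ1)
    (h43 : Λ4 ≤ Λ3) : (gr M Λ2 Λ3).FG := by
  rw [← gr_factor M Λ2 h43]
  exact (h.of_le (gr_mono M h21 Λ4)).map _

theorem gr_hp_add (hc : IsCoord k x y) {Λ1 Λ2 Λ3 : Submodule A V} (hfg : (gr M Λ1 Λ3).FG)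
    (h : Λ3 ≤ Λ2) (h' : Λ2 ≤ Λ1) (i j : ℤ) :
    (gr M Λ1 Λ3).hp i j = (gr M Λ2 Λ3).hp i j + (gr M Λ1 Λ2).hp i j := by
  rw [PSh.hp_add hc hfg ((Submodule.factor h).restrictScalars L), gr_inf_ker M h h', gr_factor]

theorem gr_rk_add (hc : IsCoord k x y) {Λ1 Λ2 Λ3 : Submodule A V} (hfg : (gr M Λ1 Λ3).FG)
    (h : Λ3 ≤ Λ2) (h' : Λ2 ≤ Λ1) :
    (gr M Λ1 Λ3).rk = (gr M Λ2 Λ3).rk + (gr M Λ1 Λ2).rk := by
  rw [PSh.rk_add hc hfg ((Submodule.factor h).restrictScalars L), gr_inf_ker M h h', gr_factor]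

theorem gr_alp_add (hc : IsCoord k x y) {Λ1 Λ2 Λ3 : Submodule A V} (hfg : (gr M Λ1 Λ3).FG)
    (h : Λ3 ≤ Λ2) (h' : Λ2 ≤ Λ1) :
    (gr M Λ1 Λ3).alp = (gr M Λ2 Λ3).alp + (gr M Λ1 Λ2).alp := by
  rw [PSh.alp_add hc hfg ((Submodule.factor h).restrictScalars L), gr_inf_ker M h h', gr_factor]

theorem gr_H0_ext {Λ1 Λ2 Λ3 : Submodule A V} (h : Λ3 ≤ Λ2) (h' : Λ2 ≤ Λ1)
    (h1 : (gr M Λ2 Λ3).H0 = ⊥) (h2 : (gr M Λ1 Λ2).H0 = ⊥) : (gr M Λ1 Λ3).H0 = ⊥ := by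
  obtain ⟨b, c, e, f, g, i, e1, e2, -⟩ :=
    (gr M Λ1 Λ3).les2 ((Submodule.factor h).restrictScalars L)
  rw [gr_inf_ker M h h', PSh.h0_eq_zero_iff.2 h1, zero_add] at e1
  rw [gr_factor, PSh.h0_eq_zero_iff.2 h2] at e2
  rw [← PSh.h0_eq_zero_iff, e1]
  exact (add_eq_zero.1 e2.symm).1

theorem gr_H2Z_ext {Λ1 Λ2 Λ3 : Submodule A V} (h : Λ3 ≤ Λ2) (h' : Λ2 ≤ Λ1)
    (h1 : (gr M Λ2 Λ3).H2Z) (h2 : (gr M Λ1 Λ2).H2Z) : (gr M Λ1 Λ3).H2Z := by
  obtain ⟨b, c, e, f, g, i, -, -, -, -, -, e1, e2⟩ :=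
    (gr M Λ1 Λ3).les2 ((Submodule.factor h).restrictScalars L)
  rw [gr_inf_ker M h h', PSh.h2_eq_zero_iff.2 h1] at e1
  rw [gr_factor, PSh.h2_eq_zero_iff.2 h2, add_zero] at e2
  rw [← PSh.h2_eq_zero_iff, e2]
  exact (add_eq_zero.1 e1.symm).2

/-- the rank of a graded piece of a full sheaf -/
theorem gr_span (hc : IsCoord k x y) (hM : M.Full) (Λ Λ' : Submodule A V) :
    Submodule.span L ((gr M Λ Λ').ch false false : Set (V ⧸ Λ')) =
      (Λ.map Λ'.mkQ).restrictScalars L := by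
  refine le_antisymm (Submodule.span_le.2 ?_) ?_
  · rintro _ ⟨u, hu, rfl⟩
    exact ⟨u, hu.2, rfl⟩
  · rintro _ ⟨u, hu, rfl⟩
    obtain ⟨q, -, hq0, hq⟩ := PSh.exists_smul_mem_of_mem_span hc M false false (v := u)
      (by rw [hM]; trivial)
    rw [← Submodule.smul_mem_iff _ hq0]
    exact Submodule.subset_span ⟨q • u, ⟨hq, (Λ.restrictScalars L).smul_mem q hu⟩, rfl⟩

theorem le_of_gr_rk_eq_zero (hc : IsCoord k x y) (hM : M.Full) {Λ Λ' : Submodule A V}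
    (hfg : (gr M Λ Λ').FG) (h : (gr M Λ Λ').rk = 0) : Λ ≤ Λ' := by
  have := hfg.finiteDimensional
  rw [PSh.rk, Submodule.finrank_eq_zero, gr_span hc hM] at h
  intro v hv
  have h1 : Λ'.mkQ v ∈ (Λ.map Λ'.mkQ).restrictScalars L := ⟨v, hv, rfl⟩
  rw [h] at h1
  exact (Submodule.Quotient.mk_eq_zero Λ').1 h1

/-- slope bounds for subsheaves in terms of intermediate lattices -/
theorem gr_subLe_iff (hc : IsCoord k x y) {Λ Λ' : Submodule A V} (hfg : (gr M Λ Λ').FG)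
    (h : Λ' ≤ Λ) (μ : ℚ) :
    (gr M Λ Λ').fib.SubLe A μ ↔
      ∀ U, Λ' ≤ U → U ≤ Λ → ((gr M U Λ').alp : ℚ) ≤ μ * (gr M U Λ').rk := by
  constructor
  · intro H U h1 h2
    have h3 := H (U.map Λ'.mkQ)
    rwa [← PSh.fib_inf, gr_inf, Submodule.comap_map_mkQ, sup_eq_right.2 h1, inf_eq_right.2 h2,
      ← PSh.alp_eq_deg hc (gr_FG_of_le hfg h2 le_rfl), PSh.rk_fib] at h3
  · intro H U
    rw [← PSh.fib_inf, gr_inf, ← PSh.alp_eq_deg hc (gr_FG_of_le hfg inf_le_left le_rfl),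
      PSh.rk_fib]
    exact H _ (le_inf h (Submodule.le_comap_mkQ Λ' U)) inf_le_left

theorem gr_quotGe_iff (hc : IsCoord k x y) {Λ Λ' : Submodule A V} (hfg : (gr M Λ Λ').FG)
    (h : Λ' ≤ Λ) (μ : ℚ) :
    (gr M Λ Λ').fib.QuotGe A μ ↔
      ∀ U, Λ' ≤ U → U ≤ Λ → μ * (gr M Λ U).rk ≤ ((gr M Λ U).alp : ℚ) := by
  constructor
  · intro H U h1 h2
    have h3 := H (U.map Λ'.mkQ)
    rw [← PSh.fib_inf, gr_inf, Submodule.comap_map_mkQ, sup_eq_right.2 h1, inf_eq_right.2 h2,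
      ← PSh.alp_eq_deg hc (gr_FG_of_le hfg h2 le_rfl), PSh.rk_fib, PSh.rk_fib,
      ← PSh.alp_eq_deg hc hfg, gr_rk_add hc hfg h1 h2, gr_alp_add hc hfg h1 h2] at h3
    push_cast at h3
    simpa using h3
  · intro H U
    have h1 : Λ' ≤ Λ ⊓ U.comap Λ'.mkQ := le_inf h (Submodule.le_comap_mkQ Λ' U)
    rw [← PSh.fib_inf, gr_inf, ← PSh.alp_eq_deg hc (gr_FG_of_le hfg inf_le_left le_rfl),
      PSh.rk_fib, PSh.rk_fib, ← PSh.alp_eq_deg hc hfg, gr_rk_add hc hfg h1 inf_le_left,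
      gr_alp_add hc hfg h1 inf_le_left]
    push_cast
    simpa using H _ h1 inf_le_left

end gr

namespace Setup
variable {G : Geo false false x y A} {S : Setup k V G}

omit [Module k V] [IsScalarTower k L V] [IsScalarTower k A V] [Algebra k A]
  [IsScalarTower k L A] in
theorem equiv_units_smul (f : V ≃ₗ[A] V) (u : Lˣ) (v : V) : f (u • v) = u • f v := by
  rw [Units.smul_def, Units.smul_def, ← algebraMap_smul A, map_smul, algebraMap_smul]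

theorem tw_zpow (S : Setup k V G) (n : ℤ) (a b : Bool) (v : V) :
    v ∈ (S.M.tw n n).ch a b ↔ (S.z ^ n : V ≃ₗ[A] V) v ∈ S.M.ch a b := by
  have step : ∀ (m : ℤ) (v : V), v ∈ (S.M.tw (m + 1) (m + 1)).ch a b ↔
      S.z v ∈ (S.M.tw m m).ch a b := by
    intro m v
    rw [PSh.mem_tw, PSh.mem_tw, S.tw, equiv_units_smul, smul_smul, tu_add, tu_add,
      mul_mul_mul_comm, mul_inv, mul_left_comm, mul_inv_cancel, mul_one]
  have step' : ∀ (m : ℤ) (v : V), (S.z ^ (m + 1) : V ≃ₗ[A] V) v =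
      (S.z ^ m : V ≃ₗ[A] V) (S.z v) := by
    intro m v
    rw [zpow_add_one]; rfl
  induction n using Int.induction_on generalizing v with
  | zero => simp
  | succ n ih => rw [step, step']; exact ih _
  | pred n ih =>
    obtain ⟨w, rfl⟩ := S.z.surjective v
    rw [← step, ← step', sub_add_cancel]
    exact ih _

/-- translation by `z ^ n` is the twist by `(n, n)` -/
theorem gr_zp (S : Setup k V G) (n : ℤ) (Λ Λ' : Submodule A V) :
    ∃ f : (V ⧸ Λ') ≃ₗ[A] (V ⧸ zp S.z n Λ'),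
      ((gr S.M Λ Λ').tw n n).map ((f : (V ⧸ Λ') →ₗ[A] (V ⧸ zp S.z n Λ')).restrictScalars L) =
        gr S.M (zp S.z n Λ) (zp S.z n Λ') := by
  refine ⟨Submodule.Quotient.equiv Λ' (zp S.z n Λ') (S.z ^ n) rfl, ?_⟩
  rw [gr_tw]
  ext a b w
  constructor
  · rintro ⟨_, ⟨v, ⟨hv, hv'⟩, rfl⟩, rfl⟩
    exact ⟨(S.z ^ n : V ≃ₗ[A] V) v, ⟨(tw_zpow S n a b v).1 hv, v, hv', rfl⟩, rfl⟩
  · rintro ⟨_, ⟨hv, v, hv', rfl⟩, rfl⟩
    exact ⟨_, ⟨v, ⟨(tw_zpow S n a b v).2 hv, hv'⟩, rfl⟩, rfl⟩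

theorem gr_zp_hp (S : Setup k V G) (n : ℤ) (Λ Λ' : Submodule A V) (i j : ℤ) :
    (gr S.M (zp S.z n Λ) (zp S.z n Λ')).hp i j = (gr S.M Λ Λ').hp (n + i) (n + j) := by
  obtain ⟨f, hf⟩ := gr_zp S n Λ Λ'
  rw [← hf, PSh.hp_map_of_inj _ _ fun v _ hv => f.map_eq_zero_iff.1 hv, PSh.hp_tw]

theorem gr_zp_H0 (S : Setup k V G) (n : ℤ) (Λ Λ' : Submodule A V)
    (h : ((gr S.M Λ Λ').tw n n).H0 = ⊥) : (gr S.M (zp S.z n Λ) (zp S.z n Λ')).H0 = ⊥ := by
  obtain ⟨f, hf⟩ := gr_zp S n Λ Λ'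
  rw [← hf, ← PSh.h0_eq_zero_iff,
    (PSh.h_map_of_inj _ _ fun v _ hv => f.map_eq_zero_iff.1 hv).1, PSh.h0_eq_zero_iff]
  exact h

theorem gr_zp_H2Z (S : Setup k V G) (n : ℤ) (Λ Λ' : Submodule A V)
    (h : ((gr S.M Λ Λ').tw n n).H2Z) : (gr S.M (zp S.z n Λ) (zp S.z n Λ')).H2Z := by
  obtain ⟨f, hf⟩ := gr_zp S n Λ Λ'
  rw [← hf, ← PSh.h2_eq_zero_iff,
    (PSh.h_map_of_inj _ _ fun v _ hv => f.map_eq_zero_iff.1 hv).2.2, PSh.h2_eq_zero_iff]
  exact h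

theorem adm_base (S : Setup k V G) : S.Adm S.Λ :=
  ⟨S.z_le, 0, by simp, by simp⟩

theorem Adm.zp {Λ : Submodule A V} (h : S.Adm Λ) (n : ℤ) : S.Adm (zp S.z n Λ) := by
  obtain ⟨h1, m, h2, h3⟩ := h
  refine ⟨?_, m + n.natAbs, ?_, ?_⟩
  · rw [zp_zp, add_comm, ← zp_zp]
    exact zp_mono _ _ h1
  · refine le_trans ?_ (zp_mono _ n h2)
    rw [zp_zp]
    exact zp_anti S.z_le (by push_cast; have := le_abs_self n; omega)
  · refine le_trans (zp_mono _ n h3) ?_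
    rw [zp_zp]
    exact zp_anti S.z_le (by push_cast; have := neg_abs_le n; omega)

theorem Adm.inf {Λ Λ' : Submodule A V} (h : S.Adm Λ) (h' : S.Adm Λ') : S.Adm (Λ ⊓ Λ') := by
  obtain ⟨h1, m, h2, h3⟩ := h
  obtain ⟨h1', m', h2', h3'⟩ := h'
  refine ⟨?_, m + m', ?_, ?_⟩
  · rw [zp_inf]
    exact inf_le_inf h1 h1'
  · exact le_inf ((zp_anti S.z_le (by push_cast; omega)).trans h2)
      ((zp_anti S.z_le (by push_cast; omega)).trans h2')
  · exact inf_le_left.trans (h3.trans (zp_anti S.z_le (by push_cast; omega)))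

theorem Adm.sup {Λ Λ' : Submodule A V} (h : S.Adm Λ) (h' : S.Adm Λ') : S.Adm (Λ ⊔ Λ') := by
  obtain ⟨h1, m, h2, h3⟩ := h
  obtain ⟨h1', m', h2', h3'⟩ := h'
  refine ⟨?_, m + m', ?_, ?_⟩
  · rw [zp_sup]
    exact sup_le_sup h1 h1'
  · exact ((zp_anti S.z_le (by push_cast; omega)).trans h2).trans le_sup_left
  · exact sup_le (h3.trans (zp_anti S.z_le (by push_cast; omega)))
      (h3'.trans (zp_anti S.z_le (by push_cast; omega)))

theorem Adm.between {Λ U : Submodule A V} (h : S.Adm Λ) (h1 : Vale.Agent.P190.zp S.z 1 Λ ≤ U)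
    (h2 : U ≤ Λ) : S.Adm U := by
  obtain ⟨-, m, h3, h4⟩ := h
  refine ⟨(zp_mono _ 1 h2).trans h1, m + 1, ?_, ?_⟩
  · refine le_trans ?_ ((zp_mono _ 1 h3).trans h1)
    rw [zp_zp]
    exact zp_anti S.z_le (by push_cast; omega)
  · exact h2.trans (h4.trans (zp_anti S.z_le (by push_cast; omega)))

theorem Adm.fg {Λ Λ' : Submodule A V} (h : S.Adm Λ) (h' : S.Adm Λ') : (gr S.M Λ Λ').FG := by
  obtain ⟨-, m, -, h3⟩ := h
  obtain ⟨-, m', h2', -⟩ := h'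
  exact gr_FG_of_le (S.fg (m + m')) (h3.trans (zp_anti S.z_le (by push_cast; omega)))
    ((zp_anti S.z_le (by push_cast; omega)).trans h2')

theorem Adm.exists_zp_le {Λ Λ' : Submodule A V} (h : S.Adm Λ) (h' : S.Adm Λ') :
    ∃ n : ℕ, Vale.Agent.P190.zp S.z n Λ ≤ Λ' := by
  obtain ⟨-, m, -, h3⟩ := h
  obtain ⟨-, m', h2', -⟩ := h'
  refine ⟨m + m', le_trans (zp_mono _ _ h3) (le_trans ?_ h2')⟩
  rw [zp_zp]
  exact zp_anti S.z_le (by push_cast; omega)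

omit [Module L V] [Module k V] [IsScalarTower k L V] [IsScalarTower L A V] [IsScalarTower k A V]
  [Algebra L A] [Algebra k A] [IsScalarTower k L A] in
theorem coe_zpow_apply {U : Submodule A V} {z : V ≃ₗ[A] V} {z' : U ≃ₗ[A] U}
    (h : ∀ u, (z' u : V) = z u) (n : ℤ) (u : U) :
    (((z' ^ n : U ≃ₗ[A] U) u : U) : V) = (z ^ n : V ≃ₗ[A] V) u := by
  induction n using Int.induction_on generalizing u with
  | zero => simp
  | succ n ih =>
    rw [zpow_add_one, zpow_add_one]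
    exact (ih (z' u)).trans (congrArg _ (h u))
  | pred n ih =>
    obtain ⟨w, rfl⟩ := z'.surjective u
    have e1 : (z' ^ (-(n : ℤ) - 1) : U ≃ₗ[A] U) (z' w) = (z' ^ (-(n : ℤ)) : U ≃ₗ[A] U) w := by
      rw [← LinearEquiv.mul_apply, ← zpow_add_one, sub_add_cancel]
    have e2 : (z ^ (-(n : ℤ) - 1) : V ≃ₗ[A] V) (z w) = (z ^ (-(n : ℤ)) : V ≃ₗ[A] V) w := by
      rw [← LinearEquiv.mul_apply, ← zpow_add_one, sub_add_cancel]
    rw [e1, h, e2, ih]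

/-- one may assume that the sheaf spans the ambient space -/
theorem exists_full (hc : IsCoord k x y) (S : Setup k V G) :
    ∃ (V' : Type) (_ : AddCommGroup V') (_ : Module L V') (_ : Module k V')
      (_ : IsScalarTower k L V') (_ : Module A V') (_ : IsScalarTower L A V')
      (_ : IsScalarTower k A V') (S' : Setup k V' G), S'.M.Full := by
  obtain ⟨U, hU⟩ := S.stab.ops.exists_span
  rw [PSh.span_fib] at hU
  have hUm : ∀ v, v ∈ U ↔ v ∈ Submodule.span L (S.M.ch false false : Set V) := fun v => by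
    rw [← hU]; rfl
  have hch : ∀ a b, ∀ v ∈ S.M.ch a b, v ∈ U := fun a b v hv => by
    rw [hUm, ← S.M.span_ch a b]; exact Submodule.subset_span hv
  have hlxy : ∀ v ∈ S.M.lxy, v ∈ U := fun v hv => by
    obtain ⟨n, hn⟩ := PSh.mem_lxy.1 hv
    have := (U.restrictScalars L).smul_mem ((((x * y) ^ n)⁻¹ : Lˣ) : L) (hch _ _ _ hn)
    rwa [← Units.smul_def, inv_smul_smul] at this
  have hzn : ∀ (n : ℤ), ∀ v ∈ U, (S.z ^ n : V ≃ₗ[A] V) v ∈ U := by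
    intro n v hv
    rw [hUm] at hv
    induction hv using Submodule.span_induction with
    | mem v hv => exact hch _ _ _ ((tw_zpow S n false false v).1 (by simpa [PSh.mem_tw] using hv))
    | zero => simp
    | add u v _ _ hu hv => rw [map_add]; exact U.add_mem hu hv
    | smul c v _ hv =>
      rw [← algebraMap_smul A, map_smul]
      exact U.smul_mem _ hv
  have hz : U.map (S.z : V →ₗ[A] V) = U := by
    apply le_antisymm
    · rintro _ ⟨v, hv, rfl⟩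
      simpa using hzn 1 v hv
    · intro v hv
      exact ⟨_, hzn (-1) v hv, by simp⟩
  let z' : U ≃ₗ[A] U := S.z.ofSubmodules U U hz
  have hz' : ∀ u, (z' u : V) = S.z u := fun u => rfl
  have hzp : ∀ (n : ℤ) (Λ : Submodule A V),
      zp z' n (Λ.comap U.subtype) = (zp S.z n Λ).comap U.subtype := by
    intro n Λ
    ext u
    rw [mem_zp, Submodule.mem_comap, Submodule.mem_comap, mem_zp, Submodule.subtype_apply,
      Submodule.subtype_apply, coe_zpow_apply hz']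
  let M' : PSh k x y U := S.M.comap (U.subtype.restrictScalars L)
  have hM' : ∀ a b (u : U), u ∈ M'.ch a b ↔ (u : V) ∈ S.M.ch a b := fun a b u => Iff.rfl
  refine ⟨U, inferInstance, inferInstance, inferInstance, inferInstance, inferInstance,
    inferInstance, inferInstance,
    { z := z'
      Λ := S.Λ.comap U.subtype
      M := M'
      z_le := by rw [hzp]; exact Submodule.comap_mono S.z_le
      exh := fun v => by simp only [hzp]; exact S.exh v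
      sep := fun v hv => Subtype.ext (S.sep v (by simp only [hzp] at hv; exact hv))
      stab := S.stab.comap U.subtype
      tw := fun a b v => S.tw a b v
      h1 := ?_
      fg := ?_
      deep := ?_
      ne := ?_ }, ?_⟩
  · intro α β hα hβ hco
    obtain ⟨γ, h1, h2, h3⟩ := S.h1 (fun b => α b) (fun a => β a)
      (fun b => PSh.mem_lx.2 (PSh.mem_lx.1 (hα b))) (fun a => PSh.mem_ly.2 (PSh.mem_ly.1 (hβ a)))
      (congrArg Subtype.val hco)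
    exact ⟨fun a b => ⟨γ a b, hch a b _ (h1 a b)⟩, h1, fun b => Subtype.ext (h2 b),
      fun a => Subtype.ext (h3 a)⟩
  · intro n
    rw [hzp, hzp]
    let φ := Submodule.mapQ ((zp S.z n S.Λ).comap U.subtype) (zp S.z n S.Λ) U.subtype le_rfl
    have hφ : Function.Injective (φ.restrictScalars L) := by
      rw [injective_iff_map_eq_zero]
      intro w hw
      obtain ⟨u, rfl⟩ := Submodule.Quotient.mk_surjective _ w
      exact (Submodule.Quotient.mk_eq_zero _).2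
        ((Submodule.Quotient.mk_eq_zero (zp S.z n S.Λ) (x := (u : V))).1 hw)
    refine ((S.fg n).comap _ hφ).of_le ?_
    rintro a b _ ⟨u, ⟨hu, hu'⟩, rfl⟩
    exact ⟨u, ⟨hu, hu'⟩, rfl⟩
  · intro n
    obtain ⟨n', hn'⟩ := S.deep n
    refine ⟨n', fun v hv hv' => ?_⟩
    rw [hzp] at hv' ⊢
    obtain ⟨v0, h0, v1, h1, e⟩ := Submodule.mem_sup.1
      (hn' v (PSh.mem_lxy.2 (PSh.mem_lxy.1 hv)) hv')
    have key : ∀ a, ∀ w ∈ (S.M.inf ((zp S.z n S.Λ).restrictScalars L)).ly a, w ∈ U := by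
      intro a w hw
      obtain ⟨m, hm⟩ := PSh.mem_ly.1 hw
      exact hlxy w (S.M.ly_le_lxy a (PSh.mem_ly.2 ⟨m, hm.1⟩))
    exact Submodule.mem_sup.2 ⟨⟨v0, key _ _ h0⟩, PSh.mem_ly.2 (PSh.mem_ly.1 h0),
      ⟨v1, key _ _ h1⟩, PSh.mem_ly.2 (PSh.mem_ly.1 h1), Subtype.ext e⟩
  · intro h
    apply S.ne
    ext a b v
    refine ⟨fun hv => ?_, fun hv => by rw [show v = 0 from hv]; exact zero_mem _⟩
    have : (⟨v, hch a b v hv⟩ : U) ∈ M'.ch a b := hv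
    rw [h] at this
    exact congrArg Subtype.val this
  · show Submodule.span L (M'.ch false false : Set U) = ⊤
    rw [eq_top_iff]
    rintro ⟨v, hv⟩ -
    have hv' := (hUm v).1 hv
    induction hv' using Submodule.span_induction with
    | mem v hv' => exact Submodule.subset_span hv'
    | zero => exact Submodule.zero_mem _
    | add u w hu hw ihu ihw =>
      exact Submodule.add_mem _ (ihu ((hUm u).2 hu)) (ihw ((hUm w).2 hw))
    | smul c w hw ihw => exact Submodule.smul_mem _ c (ihw ((hUm w).2 hw))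

end Setup

end Vale.Agent.P190
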