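import Vale.Agent.P190.MainGr

/-! The potential is bounded; a maximizer has slopes in a window of width one. -/

namespace Vale.Agent.P190

variable {k : Type} [Field k] {L : Type} [Field L] [Algebra k L] {x y : Lˣ}
  {A : Type} [CommRing A] [Algebra L A] [Algebra k A] [IsScalarTower k L A]
  {V : Type} [AddCommGroup V] [Module L V] [Module k V] [IsScalarTower k L V] [Module A V]
  [IsScalarTower L A V] [IsScalarTower k A V]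

theorem bounded_of_steps {f : ℕ → ℤ} {K : ℕ} {ρ : ℕ} (h0 : f 0 ≤ 0)
    (h : ∀ t : ℕ, ∃ r : ℕ, r ≤ ρ ∧ f (t + 1) ≤ f t + ((K : ℤ) - t) * r) (n : ℕ) :
    f n ≤ K * K * ρ := by
  have key : ∀ n : ℕ, f n ≤ (K : ℤ) * ρ * (min n K : ℕ) := by
    intro n
    induction n with
    | zero => simpa using h0
    | succ t ih =>
      obtain ⟨r, hr, hf⟩ := h t
      have hr' : (r : ℤ) ≤ ρ := by exact_mod_cast hr
      have hr0 : (0 : ℤ) ≤ r := by positivity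
      have ht0 : (0 : ℤ) ≤ t := by positivity
      have hK0 : (0 : ℤ) ≤ K := by positivity
      rcases lt_or_ge t K with htK | htK
      · rw [min_eq_left htK.le] at ih
        rw [min_eq_left (Nat.succ_le_of_lt htK)]
        push_cast
        nlinarith [mul_le_mul_of_nonneg_left hr' hK0, mul_nonneg ht0 hr0]
      · rw [min_eq_right htK] at ih
        rw [min_eq_right (htK.trans (Nat.le_succ t))]
        have htK' : (K : ℤ) ≤ t := by exact_mod_cast htK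
        nlinarith [mul_nonneg (sub_nonneg.2 htK') hr0]
  have h1 : ((min n K : ℕ) : ℤ) ≤ K := by exact_mod_cast min_le_right n K
  have h2 : (0 : ℤ) ≤ (K : ℤ) * ρ := by positivity
  nlinarith [key n, mul_le_mul_of_nonneg_left h1 h2]

theorem gr_hp_of_inf_le (M : PSh k x y V) {Λ Λ2 Λ3 : Submodule A V} (h : Λ3 ≤ Λ2)
    (h' : Λ ⊓ Λ2 ≤ Λ3) (i j : ℤ) : (gr M Λ Λ2).hp i j = (gr M Λ Λ3).hp i j := by
  rw [← gr_factor M Λ h]
  apply PSh.hp_map_of_inj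
  rintro _ ⟨u, hu, rfl⟩ h0
  have h1 : u ∈ Λ2 := by
    rw [← Submodule.Quotient.mk_eq_zero]
    exact h0
  have h2 : u ∈ Λ3 := h' ⟨hu.2, h1⟩
  exact (Submodule.Quotient.mk_eq_zero _).2 h2

theorem gr_coeff_of_inf_le (hc : IsCoord k x y) {M : PSh k x y V} {Λ Λ2 Λ3 : Submodule A V}
    (hfg : (gr M Λ Λ3).FG) (h : Λ3 ≤ Λ2) (h' : Λ ⊓ Λ2 ≤ Λ3) :
    (gr M Λ Λ2).rk = (gr M Λ Λ3).rk ∧ (gr M Λ Λ2).alp = (gr M Λ Λ3).alp := by
  have h1 := PSh.coeff_eq_of_hp hc (gr_FG_of_le hfg le_rfl h)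
    (fun i j => (gr_hp_of_inf_le M h h' i j).trans (PSh.hp_eq hc hfg i j))
  exact ⟨by exact_mod_cast h1.1, h1.2.1⟩

namespace Setup
variable {G : Geo false false x y A} {S : Setup k V G}

theorem gr_zp_coeff (hc : IsCoord k x y) {Λ Λ' : Submodule A V} (h1 : S.Adm Λ) (h2 : S.Adm Λ')
    (n : ℤ) : (gr S.M (zp S.z n Λ) (zp S.z n Λ')).rk = (gr S.M Λ Λ').rk ∧
      (gr S.M (zp S.z n Λ) (zp S.z n Λ')).alp = (gr S.M Λ Λ').alp + n * (gr S.M Λ Λ').rk := by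
  have h := PSh.coeff_eq_of_hp hc ((h1.zp n).fg (h2.zp n)) (r := (gr S.M Λ Λ').rk)
    (a := (gr S.M Λ Λ').alp + n * (gr S.M Λ Λ').rk)
    (b := (gr S.M Λ Λ').bet + n * (gr S.M Λ Λ').rk)
    (c := (gr S.M Λ Λ').gam + n * n * (gr S.M Λ Λ').rk + n * (gr S.M Λ Λ').alp +
      n * (gr S.M Λ Λ').bet) (fun i j => by
      rw [S.gr_zp_hp, PSh.hp_eq hc (h1.fg h2)]
      ring)
  exact ⟨by exact_mod_cast h.1, h.2.1⟩

theorem psi_self (S : Setup k V G) (Λ : Submodule A V) : S.psi Λ Λ = 0 := by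
  rw [psi, gr_self]
  simp [PSh.alp, PSh.hp_bot, PSh.rk]

theorem psi_add (hc : IsCoord k x y) {Λ1 Λ2 Λ3 : Submodule A V} (h1 : S.Adm Λ1) (h3 : S.Adm Λ3)
    (h : Λ3 ≤ Λ2) (h' : Λ2 ≤ Λ1) : S.psi Λ1 Λ3 = S.psi Λ2 Λ3 + S.psi Λ1 Λ2 := by
  simp only [psi]
  rw [gr_alp_add hc (h1.fg h3) h h', gr_rk_add hc (h1.fg h3) h h']
  push_cast
  ring

theorem pot_sub (hc : IsCoord k x y) {Λ Λ' : Submodule A V} (h1 : S.Adm Λ) (h2 : S.Adm Λ')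
    (h : Λ' ≤ Λ) : S.pot Λ - S.pot Λ' = S.psi Λ Λ' := by
  have hb := S.adm_base
  have hZ : Λ' ⊓ S.Λ ≤ Λ ⊓ S.Λ := inf_le_inf_right _ h
  have e1 := psi_add hc h1 (h2.inf hb) hZ inf_le_left
  have e2 := psi_add hc h1 (h2.inf hb) inf_le_left h
  have e3 := psi_add hc hb (h2.inf hb) hZ inf_le_right
  simp only [pot]
  linarith

/-- uniform bounds for the pieces of the basic graded piece -/
theorem exists_base_bounds (hc : IsCoord k x y) (S : Setup k V G) :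
    ∃ c : ℕ, ∀ U ≤ S.Λ, (gr S.M U (zp S.z 1 S.Λ)).rk ≤ (gr S.M S.Λ (zp S.z 1 S.Λ)).rk ∧
      (gr S.M U (zp S.z 1 S.Λ)).alp ≤ c * (gr S.M U (zp S.z 1 S.Λ)).rk ∧
      -(c * (((gr S.M S.Λ (zp S.z 1 S.Λ)).rk : ℤ) - (gr S.M U (zp S.z 1 S.Λ)).rk)) ≤
        (gr S.M S.Λ (zp S.z 1 S.Λ)).alp - (gr S.M U (zp S.z 1 S.Λ)).alp := by
  have hfg := S.adm_base.fg (S.adm_base.zp 1)
  obtain ⟨c, h⟩ := P1.exists_bounds hc.fib hfg.fib
  refine ⟨c, fun U hU => ?_⟩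
  have hle := gr_mono S.M hU (zp S.z 1 S.Λ)
  have h1 := h _ (PSh.fib_mono hle)
  have h2 := P1.rk_mono hfg.fib (PSh.fib_mono hle)
  rw [PSh.rk_fib, PSh.rk_fib, ← PSh.alp_eq_deg hc hfg, ← PSh.alp_eq_deg hc (hfg.of_le hle)] at h1
  rw [PSh.rk_fib, PSh.rk_fib] at h2
  exact ⟨h2, h1⟩

theorem psi_upper (hc : IsCoord k x y) (S : Setup k V G) :
    ∃ C : ℤ, ∀ Λ, S.Adm Λ → S.psi Λ (Λ ⊓ S.Λ) ≤ C := by
  obtain ⟨c, hcb⟩ := S.exists_base_bounds hc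
  have hb := S.adm_base
  refine ⟨((c + 15 : ℕ) : ℤ) * (c + 15 : ℕ) * (gr S.M S.Λ (zp S.z 1 S.Λ)).rk, fun Λ hΛ => ?_⟩
  obtain ⟨n, -, hn⟩ := hΛ.comm
  have key := bounded_of_steps (K := c + 15) (ρ := (gr S.M S.Λ (zp S.z 1 S.Λ)).rk)
    (f := fun t => S.psi (Λ ⊓ zp S.z (-(t : ℤ)) S.Λ) (Λ ⊓ S.Λ)) (by simp [psi_self]) ?_ n
  · simpa only [inf_eq_left.2 hn] using key
  intro t
  set Λ' := zp S.z ((t : ℤ) + 1) (Λ ⊓ zp S.z (-((t + 1 : ℕ) : ℤ)) S.Λ) with hΛ'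
  have a1 : S.Adm (Λ ⊓ zp S.z (-((t + 1 : ℕ) : ℤ)) S.Λ) := hΛ.inf (hb.zp _)
  have a0 : S.Adm (Λ ⊓ zp S.z (-(t : ℤ)) S.Λ) := hΛ.inf (hb.zp _)
  have hle : Λ' ≤ S.Λ := by
    refine (zp_mono _ _ inf_le_right).trans (le_of_eq ?_)
    rw [zp_zp]
    push_cast
    rw [add_neg_cancel, zp_zero]
  have e1 : zp S.z (-((t : ℤ) + 1)) Λ' = Λ ⊓ zp S.z (-((t + 1 : ℕ) : ℤ)) S.Λ := by
    rw [hΛ', zp_zp, neg_add_cancel, zp_zero]
  have e2 : zp S.z (-((t : ℤ) + 1)) (zp S.z 1 S.Λ) = zp S.z (-(t : ℤ)) S.Λ := by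
    rw [zp_zp]
    congr 1
    ring
  have m1 : zp S.z (-(t : ℤ)) S.Λ ≤ zp S.z (-((t + 1 : ℕ) : ℤ)) S.Λ :=
    zp_anti S.z_le (by push_cast; omega)
  have m0 : S.Λ ≤ zp S.z (-(t : ℤ)) S.Λ := by
    have := zp_anti S.z_le (m := -(t : ℤ)) (n := 0) (by omega)
    rwa [zp_zero] at this
  obtain ⟨b1, b2, -⟩ := hcb Λ' hle
  obtain ⟨c1, c2⟩ := gr_zp_coeff hc (a1.zp ((t : ℤ) + 1)) (hb.zp 1) (-((t : ℤ) + 1))
  rw [← hΛ', e1, e2] at c1 c2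
  obtain ⟨d1, d2⟩ := gr_coeff_of_inf_le hc (a1.fg a0) (Λ2 := zp S.z (-(t : ℤ)) S.Λ) inf_le_right
    (inf_le_inf_right _ inf_le_left)
  refine ⟨_, b1, ?_⟩
  show S.psi _ _ ≤ S.psi _ _ + _
  rw [psi_add hc a1 (hΛ.inf hb) (inf_le_inf_left _ m0) (inf_le_inf_left _ m1)]
  have : S.psi (Λ ⊓ zp S.z (-((t + 1 : ℕ) : ℤ)) S.Λ) (Λ ⊓ zp S.z (-(t : ℤ)) S.Λ) ≤
      (((c + 15 : ℕ) : ℤ) - t) * (gr S.M Λ' (zp S.z 1 S.Λ)).rk := by
    rw [psi, ← d1, ← d2, c1, c2]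
    push_cast
    linarith
  linarith

theorem psi_lower (hc : IsCoord k x y) (S : Setup k V G) (hf : S.M.Full) :
    ∃ C : ℤ, ∀ Λ, S.Adm Λ → -C ≤ S.psi S.Λ (Λ ⊓ S.Λ) := by
  obtain ⟨c, hcb⟩ := S.exists_base_bounds hc
  have hb := S.adm_base
  refine ⟨(c : ℤ) * c * (gr S.M S.Λ (zp S.z 1 S.Λ)).rk, fun Λ hΛ => ?_⟩
  obtain ⟨n, hn⟩ := hb.exists_zp_le (hΛ.inf hb)
  have key := bounded_of_steps (K := c) (ρ := (gr S.M S.Λ (zp S.z 1 S.Λ)).rk)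
    (f := fun t => -S.psi S.Λ ((Λ ⊓ S.Λ) ⊔ zp S.z (t : ℤ) S.Λ)) (by simp [psi_self]) ?_ n
  · simp only [sup_eq_left.2 hn] at key
    linarith
  intro t
  set W := (Λ ⊓ S.Λ) ⊔ zp S.z ((t + 1 : ℕ) : ℤ) S.Λ with hW
  set W' := (Λ ⊓ S.Λ) ⊔ zp S.z (t : ℤ) S.Λ with hW'
  have a1 : S.Adm W := (hΛ.inf hb).sup (hb.zp _)
  have a0 : S.Adm W' := (hΛ.inf hb).sup (hb.zp _)
  have m1 : W ≤ W' := sup_le_sup_left (zp_anti S.z_le (by push_cast; omega)) _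
  have m0 : W' ≤ S.Λ := by
    refine sup_le inf_le_right ?_
    have := zp_anti S.z_le (m := 0) (n := t) (by omega)
    rwa [zp_zero] at this
  set U := S.Λ ⊓ zp S.z (-(t : ℤ)) W with hU
  have aU : S.Adm U := hb.inf (a1.zp _)
  have hU1 : zp S.z 1 S.Λ ≤ U := by
    refine le_inf S.z_le (le_trans (le_of_eq ?_) (zp_mono _ _ le_sup_right))
    rw [zp_zp]
    congr 1
    push_cast
    ring
  have e1 : zp S.z t U = zp S.z t S.Λ ⊓ W := by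
    rw [hU, zp_inf, zp_zp, add_neg_cancel, zp_zero]
  obtain ⟨-, -, b3⟩ := hcb U inf_le_left
  have r1 := gr_rk_add hc (hb.fg (hb.zp 1)) hU1 inf_le_left
  have r2 := gr_alp_add hc (hb.fg (hb.zp 1)) hU1 inf_le_left
  obtain ⟨c1, c2⟩ := gr_zp_coeff hc hb aU t
  rw [e1] at c1 c2
  obtain ⟨d1, d2⟩ := gr_coeff_of_inf_le hc ((hb.zp t).fg ((hb.zp t).inf a1)) (Λ2 := W)
    inf_le_right le_rfl
  have g1 : (gr S.M (zp S.z t S.Λ) W).rk = (gr S.M W' W).rk := by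
    have : (zp S.z t S.Λ).map W.mkQ = W'.map W.mkQ := by
      have h0 : (Λ ⊓ S.Λ).map W.mkQ = ⊥ := by
        rw [eq_bot_iff, Submodule.map_le_iff_le_comap, Submodule.comap_bot, Submodule.ker_mkQ]
        exact le_sup_left
      rw [hW', Submodule.map_sup, h0, bot_sup_eq]
    rw [PSh.rk, PSh.rk, gr_span hc hf, gr_span hc hf, this]
  have g2 := PSh.alp_mono hc (a0.fg a1) (gr_mono S.M le_sup_right W) g1
  refine ⟨(gr S.M S.Λ U).rk, by omega, ?_⟩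
  show -S.psi S.Λ W ≤ -S.psi S.Λ W' + _
  rw [psi_add hc hb a1 m1 m0]
  have : -(((c : ℤ) - t) * (gr S.M S.Λ U).rk) ≤ S.psi W' W := by
    rw [psi, ← g1, d1, c1]
    rw [d2, c2] at g2
    rw [r1, r2] at b3
    push_cast at b3
    have : (0 : ℤ) ≤ (gr S.M S.Λ U).rk := by positivity
    linarith
  linarith

/-- a lattice whose graded piece has all slopes between `-16` and `-15` -/
theorem exists_window (hc : IsCoord k x y) (S : Setup k V G) (hf : S.M.Full) :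
    ∃ Λ, S.Adm Λ ∧ (gr S.M Λ (zp S.z 1 Λ)).fib.SubLe A (-15) ∧
      (gr S.M Λ (zp S.z 1 Λ)).fib.QuotGe A (-16) ∧ 0 < (gr S.M Λ (zp S.z 1 Λ)).rk := by
  obtain ⟨C1, h1⟩ := S.psi_upper hc
  obtain ⟨C2, h2⟩ := S.psi_lower hc hf
  obtain ⟨_, ⟨Λ, hΛ, rfl⟩, hmax⟩ := Int.exists_greatest_of_bdd
    (P := fun m => ∃ Λ, S.Adm Λ ∧ S.pot Λ = m)
    ⟨C1 + C2, by
      rintro _ ⟨Λ, hΛ, rfl⟩
      have := h1 Λ hΛ
      have := h2 Λ hΛ
      simp only [pot]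
      linarith⟩ ⟨_, S.Λ, S.adm_base, rfl⟩
  have hfg := hΛ.fg (hΛ.zp 1)
  refine ⟨Λ, hΛ, ?_, ?_, ?_⟩
  · rw [gr_subLe_iff hc hfg hΛ.z_le]
    intro U hU1 hU2
    have aU := hΛ.between hU1 hU2
    have e : zp S.z (-1) (zp S.z 1 Λ) = Λ := by rw [zp_zp, neg_add_cancel, zp_zero]
    have hle : Λ ≤ zp S.z (-1) U := e.ge.trans (zp_mono _ _ hU1)
    have p1 := pot_sub hc (aU.zp (-1)) hΛ hle
    have p2 := hmax _ ⟨_, aU.zp (-1), rfl⟩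
    obtain ⟨c1, c2⟩ := gr_zp_coeff hc aU (hΛ.zp 1) (-1)
    rw [e] at c1 c2
    rw [psi, c1, c2] at p1
    have : (gr S.M U (zp S.z 1 Λ)).alp ≤ -15 * (gr S.M U (zp S.z 1 Λ)).rk := by linarith
    exact_mod_cast this
  · rw [gr_quotGe_iff hc hfg hΛ.z_le]
    intro U hU1 hU2
    have aU := hΛ.between hU1 hU2
    have p1 := pot_sub hc hΛ aU hU2
    have p2 := hmax _ ⟨_, aU, rfl⟩
    rw [psi] at p1
    have : -16 * ((gr S.M Λ U).rk : ℤ) ≤ (gr S.M Λ U).alp := by linarith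
    exact_mod_cast this
  · refine Nat.pos_of_ne_zero fun h0 => S.ne ?_
    have hle := le_of_gr_rk_eq_zero hc hf hfg h0
    have hn : ∀ n : ℕ, Λ ≤ zp S.z n Λ := by
      intro n
      induction n with
      | zero => simp
      | succ n ih =>
        refine hle.trans ((zp_mono _ 1 ih).trans (le_of_eq ?_))
        rw [zp_zp]
        congr 1
        push_cast
        ring
    obtain ⟨m, hm1, hm2⟩ := hΛ.comm
    have hbot : ∀ v ∈ Λ, v = 0 := fun v hv => S.sep v fun n => by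
      have h3 := zp_mono S.z ((n + m : ℕ) : ℤ) hm2 (hn (n + m) hv)
      rw [zp_zp] at h3
      push_cast at h3
      rwa [add_neg_cancel_right] at h3
    have hV : ∀ v : V, v = 0 := fun v => by
      obtain ⟨n, hv⟩ := S.exh v
      have h3 : zp S.z (-(n : ℤ)) S.Λ = zp S.z (-(n : ℤ) - m) (zp S.z m S.Λ) := by
        rw [zp_zp, sub_add_cancel]
      rw [h3] at hv
      have h4 := hbot _ (hm1 (mem_zp.1 hv))
      exact (LinearEquiv.map_eq_zero_iff _).1 h4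
    ext a b v
    rw [hV v]
    simp

end Setup
end Vale.Agent.P190
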