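import Vale.Agent.P190.Defs

/-! Auxiliary facts for the cohomology of lattice sheaves on the projective line. -/

namespace Vale.Agent.P190

section rd
variable {k : Type} [Field k] {W : Type} [AddCommGroup W] [Module k W]

theorem rdim_tower_two {A B B' : Submodule k W} (h : B' ≤ B) :
    rdim k B B' = rdim k (A ⊔ B) (A ⊔ B') + rdim k (A ⊓ B) (A ⊓ B') := by
  rw [rdim_tower (le_sup_left : B' ≤ B' ⊔ A ⊓ B) (sup_le h inf_le_right)]
  congr 1
  · rw [rdim_eq_of_sup (P := A ⊔ B) (P' := B)]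
    · refine rdim_congr fun v hv => ⟨fun h1 => ?_, fun h1 => ?_⟩
      · exact (sup_le le_sup_right (inf_le_left.trans le_sup_left) : _ ≤ A ⊔ B') h1
      · obtain ⟨a, ha, b, hb, rfl⟩ := Submodule.mem_sup.1 h1
        rw [add_comm]
        refine Submodule.add_mem_sup hb ⟨ha, ?_⟩
        have h2 := B.sub_mem hv (h hb)
        rwa [add_sub_cancel_right] at h2
    · apply le_antisymm
      · exact sup_le (sup_le (le_sup_left.trans le_sup_right) le_sup_left) le_sup_right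
      · exact sup_le (le_sup_right.trans le_sup_left) le_sup_right
  · rw [sup_comm, rdim_sup]
    exact rdim_congr fun v hv => ⟨fun h1 => ⟨hv.1, h1⟩, fun h1 => h1.2⟩

theorem rdim_inf_le_add {A B B' : Submodule k W} (h : B' ≤ B) :
    rdim k (A ⊓ B) ⊥ ≤ rdim k (A ⊓ B') ⊥ + rdim k B B' := by
  rw [rdim_tower bot_le (inf_le_inf_left A h), rdim_tower_two (A := A) h, add_comm]
  exact add_le_add_right le_add_self _

theorem rdim_sup_le_add {A B B' O : Submodule k W} (h : B' ≤ B) (hO : A ⊔ B ≤ O) :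
    rdim k O (A ⊔ B') ≤ rdim k O (A ⊔ B) + rdim k B B' := by
  rw [rdim_tower (sup_le_sup_left h A) hO, rdim_tower_two (A := A) h]
  exact add_le_add_right le_self_add _

theorem chi_step {A B B' O : Submodule k W} (h : B' ≤ B) (hO : A ⊔ B ≤ O)
    (h0 : rdim k (A ⊓ B) ⊥ ≠ ⊤) (h1 : rdim k O (A ⊔ B') ≠ ⊤) :
    rdim k B B' ≠ ⊤ ∧
      (((rdim k (A ⊓ B) ⊥).toNat : ℤ) - (rdim k O (A ⊔ B)).toNat) -
        (((rdim k (A ⊓ B') ⊥).toNat : ℤ) - (rdim k O (A ⊔ B')).toNat) = (rdim k B B').toNat := by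
  rw [rdim_tower bot_le (inf_le_inf_left A h)] at h0 ⊢
  rw [rdim_tower (sup_le_sup_left h A) hO] at h1 ⊢
  rw [rdim_tower_two (A := A) h]
  obtain ⟨a1, a2⟩ := WithTop.add_ne_top.1 h0
  obtain ⟨a3, a4⟩ := WithTop.add_ne_top.1 h1
  refine ⟨WithTop.add_ne_top.2 ⟨a4, a1⟩, ?_⟩
  rw [ENat.toNat_add a1 a2, ENat.toNat_add a3 a4, ENat.toNat_add a4 a1]
  push_cast
  ring

/-- the Cech differential of the two-chart cover -/
def dC (k W : Type) [Field k] [AddCommGroup W] [Module k W] : W × W →ₗ[k] W :=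
  LinearMap.fst k W W - LinearMap.snd k W W

theorem dC_apply (v : W × W) : dC k W v = v.1 - v.2 := rfl

theorem rdim_prod_inf_ker (P Q : Submodule k W) :
    rdim k (P.prod Q ⊓ LinearMap.ker (dC k W)) ⊥ = rdim k (P ⊓ Q) ⊥ := by
  have h1 : (P.prod Q ⊓ LinearMap.ker (dC k W)).map (LinearMap.fst k W W) = P ⊓ Q := by
    ext v
    constructor
    · rintro ⟨⟨a, b⟩, ⟨⟨ha, hb⟩, hab⟩, rfl⟩
      have h2 : a = b := sub_eq_zero.1 hab
      exact ⟨ha, h2 ▸ hb⟩
    · intro hv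
      exact ⟨(v, v), ⟨⟨hv.1, hv.2⟩, sub_self v⟩, rfl⟩
  rw [← h1, rdim_map]
  refine rdim_congr ?_
  rintro ⟨a, b⟩ ⟨-, hab⟩
  have h2 : a = b := sub_eq_zero.1 hab
  subst h2
  simp

theorem map_prod_dC (P Q : Submodule k W) : (P.prod Q).map (dC k W) = P ⊔ Q := by
  ext v
  constructor
  · rintro ⟨⟨a, b⟩, ⟨ha, hb⟩, rfl⟩
    exact Submodule.sub_mem _ (Submodule.mem_sup_left ha) (Submodule.mem_sup_right hb)
  · intro hv
    obtain ⟨a, ha, b, hb, rfl⟩ := Submodule.mem_sup.1 hv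
    exact ⟨(a, -b), ⟨ha, Q.neg_mem hb⟩, by rw [dC_apply, sub_neg_eq_add]⟩

theorem les_two {W' : Type} [AddCommGroup W'] [Module k W'] (f : W →ₗ[k] W')
    {A B O : Submodule k W} (hO : A ⊔ B ≤ O) :
    ∃ b c e : ℕ∞, rdim k (A ⊓ B) ⊥ =
        rdim k ((A ⊓ LinearMap.ker f) ⊓ (B ⊓ LinearMap.ker f)) ⊥ + b ∧
      rdim k (A.map f ⊓ B.map f) ⊥ = b + c ∧
      rdim k (O ⊓ LinearMap.ker f) ((A ⊓ LinearMap.ker f) ⊔ (B ⊓ LinearMap.ker f)) = c + e ∧
      rdim k O (A ⊔ B) = e + rdim k (O.map f) (A.map f ⊔ B.map f) := by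
  obtain ⟨b, c, e, f', g, i, h1, h2, h3, h4, h5, h6, -⟩ :=
    les (W2 := PUnit) (W2' := PUnit) (dC k W) 0 (dC k W') 0 (fun _ => rfl) (f.prodMap f) f 0
      (fun v => by simp [dC_apply]) (fun _ => rfl) (A.prod B) O ⊥
      (by rw [map_prod_dC]; exact hO) (fun _ _ => Subsingleton.elim _ _)
  have e1 : A.prod B ⊓ LinearMap.ker (f.prodMap f) =
      (A ⊓ LinearMap.ker f).prod (B ⊓ LinearMap.ker f) := by
    rw [LinearMap.ker_prodMap, Submodule.prod_inf_prod]
  have e2 : (A.prod B).map (f.prodMap f) = (A.map f).prod (B.map f) :=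
    LinearMap.prodMap_map_prod f f A B
  rw [e1, rdim_prod_inf_ker, rdim_prod_inf_ker] at h1
  rw [e2, rdim_prod_inf_ker] at h2
  rw [e1, map_prod_dC, LinearMap.ker_zero, inf_top_eq] at h3
  rw [map_prod_dC, LinearMap.ker_zero, inf_top_eq] at h4
  rw [e2, map_prod_dC, LinearMap.ker_zero, inf_top_eq] at h5
  have h7 : g = 0 := by
    rw [rdim_eq_zero_iff.2 (inf_le_left.trans bot_le)] at h6
    exact (add_eq_zero.1 h6.symm).1
  rw [h7, add_zero] at h5
  exact ⟨b, c, e, h1, h2, h3, by rw [h4, h5]⟩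

end rd

section adj
variable {k : Type} [Field k] {F : Type} [Field F] [Algebra k F]
  {V : Type} [AddCommGroup V] [Module F V] [Module k V] [IsScalarTower k F V]
  {V' : Type} [AddCommGroup V'] [Module F V'] [Module k V'] [IsScalarTower k F V']

theorem adjoin_smul_mem_of {u : F} {Q : Submodule k V} (hQ : ∀ v ∈ Q, u • v ∈ Q) {q : F}
    (hq : q ∈ Algebra.adjoin k {u}) : ∀ v ∈ Q, q • v ∈ Q := by
  induction hq using Algebra.adjoin_induction with
  | mem x hx => rw [Set.mem_singleton_iff.1 hx]; exact hQ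
  | algebraMap r => intro v hv; rw [algebraMap_smul]; exact Q.smul_mem r hv
  | add x y _ _ hx hy => intro v hv; rw [add_smul]; exact Q.add_mem (hx v hv) (hy v hv)
  | mul x y _ _ hx hy => intro v hv; rw [mul_smul]; exact hx _ (hy v hv)

omit [Module k V] [IsScalarTower k F V] in
theorem map_mem_of_mem_span (R : Subalgebra k F) {s : Set V} (g : V →ₗ[F] F)
    (hs : ∀ x ∈ s, g x ∈ R) {v : V} (hv : v ∈ Submodule.span R s) : g v ∈ R := by
  induction hv using Submodule.span_induction with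
  | mem x hx => exact hs x hx
  | zero => rw [map_zero]; exact R.zero_mem
  | add x y _ _ hx hy => rw [map_add]; exact R.add_mem hx hy
  | smul a x _ hx =>
    rw [Subalgebra.smul_def, map_smul, smul_eq_mul]
    exact R.mul_mem a.2 hx

theorem exists_eq_add_mul {u q : F} (hq : q ∈ Algebra.adjoin k {u}) :
    ∃ c : k, ∃ r ∈ Algebra.adjoin k {u}, q = algebraMap k F c + u * r := by
  have hu : u ∈ Algebra.adjoin k {u} := Algebra.subset_adjoin rfl
  induction hq using Algebra.adjoin_induction with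
  | mem x hx => exact ⟨0, 1, one_mem _, by rw [Set.mem_singleton_iff.1 hx]; simp⟩
  | algebraMap r => exact ⟨r, 0, zero_mem _, by simp⟩
  | add x y _ _ hx hy =>
    obtain ⟨c, r, hr, rfl⟩ := hx
    obtain ⟨c', r', hr', rfl⟩ := hy
    exact ⟨c + c', r + r', add_mem hr hr', by rw [map_add]; ring⟩
  | mul x y _ hy' hx hy =>
    obtain ⟨c, r, hr, rfl⟩ := hx
    obtain ⟨c', r', hr', h⟩ := hy
    refine ⟨c * c', algebraMap k F c * r' + r * y,
      add_mem (mul_mem (Subalgebra.algebraMap_mem _ c) hr') (mul_mem hr hy'), ?_⟩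
    rw [map_mul]
    linear_combination (algebraMap k F c) * h

variable {t : Fˣ}

theorem exists_inv_pow_mul_mem {q : F} (hq : q ∈ Algebra.adjoin k {(t : F)}) :
    ∃ N : ℕ, ((t⁻¹ : Fˣ) : F) ^ N * q ∈ Algebra.adjoin k {((t⁻¹ : Fˣ) : F)} := by
  have hu : ((t⁻¹ : Fˣ) : F) ∈ Algebra.adjoin k {((t⁻¹ : Fˣ) : F)} := Algebra.subset_adjoin rfl
  induction hq using Algebra.adjoin_induction with
  | mem x hx =>
    refine ⟨1, ?_⟩
    rw [Set.mem_singleton_iff.1 hx, pow_one, Units.inv_mul]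
    exact one_mem _
  | algebraMap r => exact ⟨0, by rw [pow_zero, one_mul]; exact Subalgebra.algebraMap_mem _ r⟩
  | add x y _ _ hx hy =>
    obtain ⟨N, hN⟩ := hx
    obtain ⟨M, hM⟩ := hy
    refine ⟨N + M, ?_⟩
    have h1 := add_mem (mul_mem (pow_mem hu M) hN) (mul_mem (pow_mem hu N) hM)
    have h2 : ((t⁻¹ : Fˣ) : F) ^ (N + M) * (x + y) =
        ((t⁻¹ : Fˣ) : F) ^ M * (((t⁻¹ : Fˣ) : F) ^ N * x) +
          ((t⁻¹ : Fˣ) : F) ^ N * (((t⁻¹ : Fˣ) : F) ^ M * y) := by ring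
    rw [h2]
    exact h1
  | mul x y _ _ hx hy =>
    obtain ⟨N, hN⟩ := hx
    obtain ⟨M, hM⟩ := hy
    refine ⟨N + M, ?_⟩
    have h2 : ((t⁻¹ : Fˣ) : F) ^ (N + M) * (x * y) =
        (((t⁻¹ : Fˣ) : F) ^ N * x) * (((t⁻¹ : Fˣ) : F) ^ M * y) := by ring
    rw [h2]
    exact mul_mem hN hM

/-- `t k[t]` meets `k[t⁻¹]` only in zero -/
theorem IsCoord1.eq_zero_of_mem (hc : IsCoord1 k t) {y : F} (h1 : y ∈ Algebra.adjoin k {(t : F)})
    (h2 : (t : F) * y ∈ Algebra.adjoin k {((t⁻¹ : Fˣ) : F)}) : y = 0 := by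
  have hd := hc.indep.disjoint_span_image (s := Set.Ioi 0) (t := Set.Iic 0)
    (Set.disjoint_left.2 fun n h h' => absurd (Set.mem_Iic.1 h') (not_le.2 (Set.mem_Ioi.1 h)))
  have a1 : ∀ v ∈ Submodule.span k ((fun n : ℤ => ((t ^ n : Fˣ) : F)) '' Set.Ioi 0),
      (t : F) • v ∈ Submodule.span k ((fun n : ℤ => ((t ^ n : Fˣ) : F)) '' Set.Ioi 0) := by
    intro v hv
    induction hv using Submodule.span_induction with
    | mem x hx =>
      obtain ⟨n, hn, rfl⟩ := hx
      refine Submodule.subset_span ⟨n + 1, by simp only [Set.mem_Ioi] at hn ⊢; omega, ?_⟩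
      simp only [zpow_add_one, Units.val_mul, smul_eq_mul, mul_comm]
    | zero => rw [smul_zero]; exact zero_mem _
    | add x y _ _ hx hy => rw [smul_add]; exact add_mem hx hy
    | smul a x _ hx => rw [smul_comm]; exact Submodule.smul_mem _ a hx
  have a2 : ∀ v ∈ Submodule.span k ((fun n : ℤ => ((t ^ n : Fˣ) : F)) '' Set.Iic 0),
      ((t⁻¹ : Fˣ) : F) • v ∈
        Submodule.span k ((fun n : ℤ => ((t ^ n : Fˣ) : F)) '' Set.Iic 0) := by
    intro v hv
    induction hv using Submodule.span_induction with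
    | mem x hx =>
      obtain ⟨n, hn, rfl⟩ := hx
      refine Submodule.subset_span ⟨n - 1, by simp only [Set.mem_Iic] at hn ⊢; omega, ?_⟩
      simp only [zpow_sub_one, Units.val_mul, smul_eq_mul, mul_comm]
    | zero => rw [smul_zero]; exact zero_mem _
    | add x y _ _ hx hy => rw [smul_add]; exact add_mem hx hy
    | smul a x _ hx => rw [smul_comm]; exact Submodule.smul_mem _ a hx
  have b1 := adjoin_smul_mem_of a1 h1 (t : F)
    (Submodule.subset_span ⟨1, by simp, by simp⟩)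
  have b2 := adjoin_smul_mem_of a2 h2 1 (Submodule.subset_span ⟨0, by simp, by simp⟩)
  rw [smul_eq_mul, mul_comm] at b1
  rw [smul_eq_mul, mul_one] at b2
  exact (mul_eq_zero.1 (Submodule.disjoint_def.1 hd _ b1 b2)).resolve_left t.ne_zero

theorem IsCoord1.exists_denom (hc : IsCoord1 k t) (T : Finset F) :
    ∃ d : F, d ≠ 0 ∧ d ∈ Algebra.adjoin k {(t : F)} ∧
      ∀ x ∈ T, d * x ∈ Algebra.adjoin k {(t : F)} := by
  classical
  induction T using Finset.induction_on with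
  | empty => exact ⟨1, one_ne_zero, one_mem _, by simp⟩
  | insert a T _ ih =>
    obtain ⟨d, hd0, hd, hT⟩ := ih
    obtain ⟨b, hb, hb0, hab⟩ := hc.frac a
    refine ⟨d * b, mul_ne_zero hd0 hb0, mul_mem hd hb, fun x hx => ?_⟩
    rcases Finset.mem_insert.1 hx with rfl | hx
    · rw [mul_assoc, mul_comm b]
      exact mul_mem hd hab
    · rw [mul_right_comm]
      exact mul_mem (hT x hx) hb

theorem exists_inv_pow_mul_mem_finset (T : Finset F)
    (hT : ∀ x ∈ T, x ∈ Algebra.adjoin k {(t : F)}) :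
    ∃ N : ℕ, ∀ x ∈ T, ((t⁻¹ : Fˣ) : F) ^ N * x ∈ Algebra.adjoin k {((t⁻¹ : Fˣ) : F)} := by
  have hu : ((t⁻¹ : Fˣ) : F) ∈ Algebra.adjoin k {((t⁻¹ : Fˣ) : F)} := Algebra.subset_adjoin rfl
  choose! N hN using fun x (hx : x ∈ T) => exists_inv_pow_mul_mem (hT x hx)
  refine ⟨T.sup N, fun x hx => ?_⟩
  obtain ⟨d, hd⟩ := Nat.exists_eq_add_of_le' (Finset.le_sup (f := N) hx)
  rw [hd, pow_add, mul_assoc]
  exact mul_mem (pow_mem hu d) (hN x hx)

theorem IsCoord1.isFractionRing_inv (hc : IsCoord1 k t) :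
    IsFractionRing (Algebra.adjoin k {((t⁻¹ : Fˣ) : F)}) F := by
  classical
  refine IsFractionRing.of_field _ _ fun z => ?_
  obtain ⟨b, hb, hb0, hab⟩ := hc.frac z
  obtain ⟨N, hN⟩ := exists_inv_pow_mul_mem_finset (k := k) (t := t) {b, z * b} (by
    intro x hx
    rcases Finset.mem_insert.1 hx with rfl | hx
    · exact hb
    · rw [Finset.mem_singleton.1 hx]; exact hab)
  refine ⟨⟨_, hN (z * b) (by simp)⟩, ⟨_, hN b (by simp)⟩, ?_⟩
  change z = (((t⁻¹ : Fˣ) : F) ^ N * (z * b)) / (((t⁻¹ : Fˣ) : F) ^ N * b)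
  have h1 : ((t⁻¹ : Fˣ) : F) ^ N ≠ 0 := pow_ne_zero _ (Units.ne_zero _)
  field_simp

theorem isPrincipalIdealRing_adjoin (u : F) : IsPrincipalIdealRing (Algebra.adjoin k {u}) := by
  rw [Algebra.adjoin_singleton_eq_range_aeval]
  exact IsPrincipalIdealRing.of_surjective (Polynomial.aeval u).rangeRestrict
    (AlgHom.rangeRestrict_surjective _)

/-- a finitely generated `k[u]`-submodule of an `F`-vector space has a basis -/
theorem exists_basis_family {u : F} {Q : Submodule k V} (hQ : ∀ v ∈ Q, u • v ∈ Q) (s : Finset V)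
    (hs : (s : Set V) ⊆ Q) (hgen : ∀ v ∈ Q, v ∈ Submodule.span (Algebra.adjoin k {u}) (s : Set V)) :
    ∃ (n : ℕ) (e : Fin n → V), LinearIndependent (Algebra.adjoin k {u}) e ∧ (∀ i, e i ∈ Q) ∧
      ∀ v ∈ Q, ∃ r : Fin n → Algebra.adjoin k {u}, v = ∑ i, (r i : F) • e i := by
  have := isPrincipalIdealRing_adjoin (k := k) u
  let P : Submodule (Algebra.adjoin k {u}) V := Submodule.span _ (s : Set V)
  have hP : ∀ v ∈ P, v ∈ Q := by
    intro v hv
    induction hv using Submodule.span_induction with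
    | mem x hx => exact hs hx
    | zero => exact zero_mem _
    | add x y _ _ hx hy => exact add_mem hx hy
    | smul a x _ hx => exact adjoin_smul_mem_of hQ a.2 x hx
  have : Module.Finite (Algebra.adjoin k {u}) P := Module.Finite.span_of_finite _ s.finite_toSet
  have : Module.IsTorsionFree (Algebra.adjoin k {u}) V :=
    Module.IsTorsionFree.of_smul_eq_zero fun r m h =>
      (smul_eq_zero.1 (show (r : F) • m = 0 from h)).imp_left fun h1 => Subtype.ext h1
  obtain ⟨n, b⟩ : Σ n, Module.Basis (Fin n) (Algebra.adjoin k {u}) P :=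
    Module.basisOfFiniteTypeTorsionFree'
  refine ⟨n, fun i => (b i : V), b.linearIndependent.map' P.subtype (Submodule.ker_subtype P),
    fun i => hP _ (b i).2, fun v hv => ⟨b.repr ⟨v, hgen v hv⟩, ?_⟩⟩
  have h1 := congrArg Subtype.val (b.sum_repr ⟨v, hgen v hv⟩)
  rw [Submodule.coe_sum] at h1
  exact h1.symm

end adj

end Vale.Agent.P190
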