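import Vale.Agent.P190.P1AuxB

/-! Basic theory of lattice sheaves on the projective line. -/

namespace Vale.Agent.P190
namespace P1

section ring
variable {B : Type} [CommRing B] {F : Type} [Field F] [Algebra B F] {t : Fˣ}
  {V : Type} [AddCommGroup V] [Module F V] [Module B V] [IsScalarTower B F V]
  {V' : Type} [AddCommGroup V'] [Module F V'] [Module B V'] [IsScalarTower B F V']

theorem mem_tw {E : P1 B t V} {j : ℤ} {b : Bool} {v : V} :
    v ∈ (E.tw j).ch b ↔ (tu t j b)⁻¹ • v ∈ E.ch b := Iff.rfl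

theorem mem_ov {E : P1 B t V} {v : V} : v ∈ E.ov ↔ ∃ n : ℕ, t ^ n • v ∈ E.ch false :=
  mem_loc (E.smul_mem false)

theorem mem_ov' {E : P1 B t V} {v : V} : v ∈ E.ov ↔ ∃ n : ℕ, t⁻¹ ^ n • v ∈ E.ch true := by
  rw [mem_ov]
  constructor
  · rintro ⟨n, hn⟩
    obtain ⟨m, hm⟩ := E.glue false _ hn
    refine ⟨m, ?_⟩
    have h := pow_smul_mem (E.smul_mem true) n hm
    have e : t⁻¹ ^ m • v = cs t true ^ n • cs t (!false) ^ m • t ^ n • v := by
      simp only [Bool.not_false, cs_true, ← mul_smul]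
      congr 1
      rw [inv_pow, inv_pow, mul_comm (t ^ m)⁻¹, ← mul_assoc, inv_mul_cancel, one_mul]
    rw [e]; exact h
  · rintro ⟨n, hn⟩
    obtain ⟨m, hm⟩ := E.glue true _ hn
    refine ⟨m, ?_⟩
    have h := pow_smul_mem (E.smul_mem false) n hm
    have e : t ^ m • v = cs t false ^ n • cs t (!true) ^ m • t⁻¹ ^ n • v := by
      simp only [Bool.not_true, cs_false, ← mul_smul]
      congr 1
      rw [inv_pow, mul_comm (t ^ m), ← mul_assoc, mul_inv_cancel, one_mul]
    rw [e]; exact h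

theorem ch_le_ov (E : P1 B t V) (b : Bool) : E.ch b ≤ E.ov := by
  intro v hv
  cases b
  · exact mem_ov.2 ⟨0, by simpa using hv⟩
  · exact mem_ov'.2 ⟨0, by simpa using hv⟩

theorem zpow_smul_mem_ov {E : P1 B t V} (n : ℤ) {v : V} (hv : v ∈ E.ov) : t ^ n • v ∈ E.ov := by
  obtain ⟨m, rfl | rfl⟩ := Int.eq_nat_or_neg n
  · obtain ⟨j, hj⟩ := mem_ov.1 hv
    refine mem_ov.2 ⟨j, ?_⟩
    rw [zpow_natCast, smul_comm]
    exact pow_smul_mem (E.smul_mem false) m hj
  · obtain ⟨j, hj⟩ := mem_ov'.1 hv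
    refine mem_ov'.2 ⟨j, ?_⟩
    rw [zpow_neg, zpow_natCast, ← inv_pow, smul_comm]
    exact pow_smul_mem (E.smul_mem true) m hj

/-- the chart modules are modules over the chart rings -/
theorem adjoin_smul_mem (E : P1 B t V) (b : Bool) {q : F}
    (hq : q ∈ Algebra.adjoin B {((cs t b : Fˣ) : F)}) {v : V} (hv : v ∈ E.ch b) :
    q • v ∈ E.ch b := by
  induction hq using Algebra.adjoin_induction generalizing v with
  | mem x hx =>
    rw [Set.mem_singleton_iff.1 hx]
    exact E.smul_mem b v hv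
  | algebraMap r => rw [algebraMap_smul]; exact (E.ch b).smul_mem r hv
  | add x y _ _ hx hy => rw [add_smul]; exact (E.ch b).add_mem (hx hv) (hy hv)
  | mul x y _ _ hx hy => rw [mul_smul]; exact hx (hy hv)

@[simp] theorem tw_zero (E : P1 B t V) : E.tw 0 = E := by
  ext b v
  rw [mem_tw, tu_zero, inv_one, one_smul]

theorem tw_tw (E : P1 B t V) (i j : ℤ) : (E.tw i).tw j = E.tw (i + j) := by
  ext b v
  rw [mem_tw, mem_tw, mem_tw, tu_add, mul_inv, mul_smul]

theorem tw_ov (E : P1 B t V) (j : ℤ) : (E.tw j).ov = E.ov := by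
  ext v
  rw [mem_ov, mem_ov]
  simp only [mem_tw, tu_false, inv_one, one_smul]

theorem tw_mono {E E' : P1 B t V} (h : E' ≤ E) (j : ℤ) : E'.tw j ≤ E.tw j :=
  fun b _ hv => mem_tw.2 (h b (mem_tw.1 hv))

theorem tw_le_tw (E : P1 B t V) {i j : ℤ} (h : i ≤ j) : E.tw i ≤ E.tw j := by
  intro b v hv
  rw [mem_tw] at hv ⊢
  cases b
  · exact hv
  · obtain ⟨d, rfl⟩ := Int.le.dest h
    have h1 := pow_smul_mem (E.smul_mem true) d hv
    rw [← mul_smul] at h1
    have e : (tu t (i + d) true)⁻¹ = cs t true ^ d * (tu t i true)⁻¹ := by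
      rw [tu_true, tu_true, cs_true, zpow_add, zpow_natCast, mul_inv, inv_pow, mul_comm]
    rw [e]; exact h1

theorem mem_inf {E : P1 B t V} {U : Submodule F V} {b : Bool} {v : V} :
    v ∈ (E.inf U).ch b ↔ v ∈ E.ch b ∧ v ∈ U := Iff.rfl

theorem mem_map {E : P1 B t V} {f : V →ₗ[F] V'} {b : Bool} {w : V'} :
    w ∈ (E.map f).ch b ↔ ∃ v, v ∈ E.ch b ∧ f v = w := Iff.rfl

theorem mem_pi {E : P1 B t V} {ι : Type} [Finite ι] {b : Bool} {w : ι → V} :
    w ∈ (E.pi ι).ch b ↔ ∀ i, w i ∈ E.ch b :=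
  ⟨fun h i => h i trivial, fun h i _ => h i⟩

theorem inf_tw (E : P1 B t V) (U : Submodule F V) (j : ℤ) : (E.inf U).tw j = (E.tw j).inf U := by
  ext b v
  rw [mem_tw, mem_inf, mem_inf, mem_tw]
  refine and_congr Iff.rfl ⟨fun h => ?_, fun h => U.smul_mem _ h⟩
  have h1 : tu t j b • (tu t j b)⁻¹ • v ∈ U := U.smul_mem _ h
  rwa [smul_inv_smul] at h1

theorem map_units_smul (f : V →ₗ[F] V') (u : Fˣ) (v : V) : f (u • v) = u • f v := by
  rw [Units.smul_def, Units.smul_def, map_smul]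

theorem map_tw (E : P1 B t V) (f : V →ₗ[F] V') (j : ℤ) : (E.map f).tw j = (E.tw j).map f := by
  ext b w
  rw [mem_tw, mem_map, mem_map]
  constructor
  · rintro ⟨v, hv, hw⟩
    refine ⟨tu t j b • v, ?_, ?_⟩
    · rw [mem_tw, inv_smul_smul]; exact hv
    · rw [map_units_smul, hw, smul_inv_smul]
  · rintro ⟨v, hv, rfl⟩
    exact ⟨_, mem_tw.1 hv, map_units_smul f _ v⟩

theorem pi_tw (E : P1 B t V) (ι : Type) [Finite ι] (j : ℤ) : (E.pi ι).tw j = (E.tw j).pi ι := by
  ext b w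
  rw [mem_tw, mem_pi, mem_pi]
  exact Iff.rfl

theorem inf_le (E : P1 B t V) (U : Submodule F V) : E.inf U ≤ E := fun _ => inf_le_left

theorem inf_inf (E : P1 B t V) (U U' : Submodule F V) : (E.inf U).inf U' = E.inf (U ⊓ U') := by
  ext b v
  rw [mem_inf, mem_inf, mem_inf, Submodule.mem_inf, and_assoc]

@[simp] theorem inf_top (E : P1 B t V) : E.inf ⊤ = E := by
  ext b v
  rw [mem_inf]
  exact ⟨fun h => h.1, fun h => ⟨h, trivial⟩⟩

theorem map_map {V'' : Type} [AddCommGroup V''] [Module F V''] [Module B V'']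
    [IsScalarTower B F V''] (E : P1 B t V) (f : V →ₗ[F] V') (g : V' →ₗ[F] V'') :
    (E.map f).map g = E.map (g ∘ₗ f) := by
  ext b w
  rw [mem_map, mem_map]
  constructor
  · rintro ⟨_, ⟨v, hv, rfl⟩, rfl⟩
    exact ⟨v, hv, rfl⟩
  · rintro ⟨v, hv, rfl⟩
    exact ⟨f v, ⟨v, hv, rfl⟩, rfl⟩

theorem FG.of_le {E E' : P1 B t V} (hE : E.FG) (h : E' ≤ E) : E'.FG := by
  intro b
  obtain ⟨s, hs⟩ := hE b
  exact ⟨s, fun v hv => hs v (h b hv)⟩

omit [Module B V] [IsScalarTower B F V] [Module B V'] [IsScalarTower B F V'] in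
/-- transport of a span along an `F`-linear map -/
theorem map_mem_span (R : Subalgebra B F) (f : V →ₗ[F] V') {s : Set V} {s' : Set V'}
    (h : ∀ v ∈ s, f v ∈ Submodule.span R s') {v : V} (hv : v ∈ Submodule.span R s) :
    f v ∈ Submodule.span R s' := by
  induction hv using Submodule.span_induction with
  | mem x hx => exact h x hx
  | zero => rw [map_zero]; exact Submodule.zero_mem _
  | add x y _ _ hx hy => rw [map_add]; exact Submodule.add_mem _ hx hy
  | smul r x _ hx =>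
    have e : f (r • x) = r • f x := map_smul f (r : F) x
    rw [e]; exact Submodule.smul_mem _ r hx

theorem FG.tw {E : P1 B t V} (hE : E.FG) (j : ℤ) : (E.tw j).FG := by
  classical
  intro b
  obtain ⟨s, hs⟩ := hE b
  refine ⟨s.image fun v => tu t j b • v, fun v hv => ?_⟩
  have h1 := map_mem_span (Algebra.adjoin B {((cs t b : Fˣ) : F)})
    (LinearMap.lsmul F V ((tu t j b : Fˣ) : F))
    (s' := ((s.image fun v => tu t j b • v : Finset V) : Set V))
    (fun w hw => Submodule.subset_span (by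
      rw [Finset.coe_image]; exact ⟨w, hw, rfl⟩)) (hs _ (mem_tw.1 hv))
  have e : LinearMap.lsmul F V ((tu t j b : Fˣ) : F) ((tu t j b)⁻¹ • v) = v :=
    smul_inv_smul (tu t j b) v
  rwa [e] at h1

theorem FG.inf {E : P1 B t V} (hE : E.FG) (U : Submodule F V) : (E.inf U).FG :=
  hE.of_le (E.inf_le U)

theorem FG.map {E : P1 B t V} (hE : E.FG) (f : V →ₗ[F] V') : (E.map f).FG := by
  classical
  intro b
  obtain ⟨s, hs⟩ := hE b
  refine ⟨s.image f, ?_⟩
  rintro _ ⟨v, hv, rfl⟩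
  exact map_mem_span _ f (fun w hw => Submodule.subset_span (by
      rw [Finset.coe_image]; exact ⟨w, hw, rfl⟩)) (hs v hv)

theorem FG.pi {E : P1 B t V} (hE : E.FG) (ι : Type) [Finite ι] : (E.pi ι).FG := by
  classical
  have := Fintype.ofFinite ι
  intro b
  obtain ⟨s, hs⟩ := hE b
  refine ⟨(Finset.univ ×ˢ s).image fun p : ι × V => Pi.single p.1 p.2, fun w hw => ?_⟩
  rw [← Finset.univ_sum_single w]
  refine Submodule.sum_mem _ fun i _ => ?_
  exact map_mem_span _ (LinearMap.single F (fun _ : ι => V) i)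
    (fun v hv => Submodule.subset_span (by
      rw [Finset.coe_image]
      exact ⟨(i, v), by simpa using hv, rfl⟩)) (hs _ (mem_pi.1 hw i))

theorem span_ch_le (E : P1 B t V) (b : Bool) :
    Submodule.span F (E.ch b : Set V) ≤ Submodule.span F (E.ch (!b) : Set V) := by
  rw [Submodule.span_le]
  intro v hv
  obtain ⟨n, hn⟩ := E.glue b v hv
  have h1 : (cs t (!b) ^ n)⁻¹ • cs t (!b) ^ n • v ∈ Submodule.span F (E.ch (!b) : Set V) :=
    Submodule.smul_mem _ _ (Submodule.subset_span hn)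
  rwa [inv_smul_smul] at h1

theorem span_ch (E : P1 B t V) (b : Bool) :
    Submodule.span F (E.ch b : Set V) = Submodule.span F (E.ch false : Set V) := by
  cases b
  · rfl
  · exact le_antisymm (E.span_ch_le true) (E.span_ch_le false)

theorem FG.finiteDimensional {E : P1 B t V} (hE : E.FG) :
    FiniteDimensional F (Submodule.span F (E.ch false : Set V)) := by
  obtain ⟨s, hs⟩ := hE false
  have h : Submodule.span F (E.ch false : Set V) ≤ Submodule.span F (s : Set V) := by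
    rw [Submodule.span_le]
    intro v hv
    exact Submodule.span_le_restrictScalars (Algebra.adjoin B {((cs t false : Fˣ) : F)}) F _ (hs v hv)
  exact Submodule.finiteDimensional_of_le h

theorem tw_ch_false (E : P1 B t V) (j : ℤ) : (E.tw j).ch false = E.ch false := by
  ext v
  rw [mem_tw, tu_false, inv_one, one_smul]

@[simp] theorem rk_tw (E : P1 B t V) (j : ℤ) : (E.tw j).rk = E.rk := by
  rw [rk, rk, tw_ch_false]

theorem rk_mono {E E' : P1 B t V} (hE : E.FG) (h : E' ≤ E) : E'.rk ≤ E.rk := by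
  have := hE.finiteDimensional
  exact Submodule.finrank_mono (Submodule.span_mono (h false))

theorem rk_eq_zero_iff {E : P1 B t V} (hE : E.FG) : E.rk = 0 ↔ ∀ b, E.ch b = ⊥ := by
  have := hE.finiteDimensional
  rw [rk, Submodule.finrank_eq_zero]
  constructor
  · intro h b
    rw [← E.span_ch b, Submodule.span_eq_bot] at h
    exact (Submodule.eq_bot_iff _).2 h
  · intro h
    rw [Submodule.span_eq_bot]
    exact (Submodule.eq_bot_iff _).1 (h false)

/-- an element of `B[t]` times a large power of `t⁻¹` lies in `B[t⁻¹]` -/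
theorem exists_inv_pow_mul_mem {q : F} (hq : q ∈ Algebra.adjoin B {(t : F)}) :
    ∃ n : ℕ, ∀ m ≥ n, ((t⁻¹ : Fˣ) : F) ^ m * q ∈ Algebra.adjoin B {((t⁻¹ : Fˣ) : F)} := by
  have hs : ((t⁻¹ : Fˣ) : F) ∈ Algebra.adjoin B {((t⁻¹ : Fˣ) : F)} :=
    Algebra.subset_adjoin rfl
  induction hq using Algebra.adjoin_induction with
  | mem x hx =>
    rw [Set.mem_singleton_iff.1 hx]
    refine ⟨1, fun m hm => ?_⟩
    obtain ⟨d, rfl⟩ := Nat.exists_eq_add_of_le' hm
    rw [pow_succ, mul_assoc, Units.inv_mul, mul_one]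
    exact pow_mem hs d
  | algebraMap r => exact ⟨0, fun m _ => mul_mem (pow_mem hs m) (Subalgebra.algebraMap_mem _ r)⟩
  | add x y _ _ hx hy =>
    obtain ⟨n, hn⟩ := hx
    obtain ⟨n', hn'⟩ := hy
    refine ⟨max n n', fun m hm => ?_⟩
    rw [mul_add]
    exact add_mem (hn m (le_of_max_le_left hm)) (hn' m (le_of_max_le_right hm))
  | mul x y _ _ hx hy =>
    obtain ⟨n, hn⟩ := hx
    obtain ⟨n', hn'⟩ := hy
    refine ⟨n + n', fun m hm => ?_⟩
    obtain ⟨d, rfl⟩ := Nat.exists_eq_add_of_le hm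
    have e : ((t⁻¹ : Fˣ) : F) ^ (n + n' + d) * (x * y) =
        (((t⁻¹ : Fˣ) : F) ^ (n + d) * x) * (((t⁻¹ : Fˣ) : F) ^ n' * y) := by ring
    rw [e]
    exact mul_mem (hn _ (Nat.le_add_right _ _)) (hn' _ le_rfl)

/-- `F` is the field of fractions of both chart rings -/
theorem frac_cs (hc : IsCoord1 B t) (b : Bool) (q : F) :
    ∃ c ∈ Algebra.adjoin B {((cs t b : Fˣ) : F)}, c ≠ 0 ∧
      q * c ∈ Algebra.adjoin B {((cs t b : Fˣ) : F)} := by
  obtain ⟨c, hc1, hc0, hc2⟩ := hc.frac q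
  cases b
  · exact ⟨c, hc1, hc0, hc2⟩
  · obtain ⟨n, hn⟩ := exists_inv_pow_mul_mem hc1
    obtain ⟨n', hn'⟩ := exists_inv_pow_mul_mem hc2
    refine ⟨((t⁻¹ : Fˣ) : F) ^ (max n n') * c, hn _ (le_max_left _ _),
      mul_ne_zero (pow_ne_zero _ (Units.ne_zero _)) hc0, ?_⟩
    rw [mul_left_comm]
    exact hn' _ (le_max_right _ _)

/-- every vector of the span has a nonzero multiple in the chart module -/
theorem exists_smul_mem_of_mem_span (hc : IsCoord1 B t) (E : P1 B t V) (b : Bool) {v : V}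
    (hv : v ∈ Submodule.span F (E.ch false : Set V)) :
    ∃ q ∈ Algebra.adjoin B {((cs t b : Fˣ) : F)}, q ≠ 0 ∧ q • v ∈ E.ch b := by
  rw [← E.span_ch b] at hv
  induction hv using Submodule.span_induction with
  | mem x hx => exact ⟨1, one_mem _, one_ne_zero, by rw [one_smul]; exact hx⟩
  | zero => exact ⟨1, one_mem _, one_ne_zero, by rw [smul_zero]; exact Submodule.zero_mem _⟩
  | add x y _ _ hx hy =>
    obtain ⟨q, hq, hq0, hx⟩ := hx
    obtain ⟨r, hr, hr0, hy⟩ := hy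
    refine ⟨q * r, mul_mem hq hr, mul_ne_zero hq0 hr0, ?_⟩
    rw [smul_add]
    refine Submodule.add_mem _ ?_ ?_
    · rw [mul_comm, mul_smul]; exact E.adjoin_smul_mem b hr hx
    · rw [mul_smul]; exact E.adjoin_smul_mem b hq hy
  | smul a x _ hx =>
    obtain ⟨q, hq, hq0, hx⟩ := hx
    obtain ⟨c, hc1, hc0, hc2⟩ := frac_cs hc b a
    refine ⟨c * q, mul_mem hc1 hq, mul_ne_zero hc0 hq0, ?_⟩
    have e : (c * q) • a • x = (a * c) • q • x := by
      rw [← mul_smul, ← mul_smul]; congr 1; ring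
    rw [e]
    exact E.adjoin_smul_mem b hc2 hx

theorem span_inf (hc : IsCoord1 B t) (E : P1 B t V) (U : Submodule F V) :
    Submodule.span F ((E.inf U).ch false : Set V) = Submodule.span F (E.ch false : Set V) ⊓ U := by
  apply le_antisymm
  · rw [Submodule.span_le]
    intro v hv
    exact ⟨Submodule.subset_span hv.1, hv.2⟩
  · rintro v ⟨hv, hU⟩
    obtain ⟨q, _, hq0, hq⟩ := exists_smul_mem_of_mem_span hc E false hv
    have h1 : q⁻¹ • q • v ∈ Submodule.span F ((E.inf U).ch false : Set V) :=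
      Submodule.smul_mem _ _ (Submodule.subset_span (mem_inf.2 ⟨hq, U.smul_mem q hU⟩))
    rwa [inv_smul_smul₀ hq0] at h1

theorem span_map (E : P1 B t V) (f : V →ₗ[F] V') :
    Submodule.span F ((E.map f).ch false : Set V') =
      (Submodule.span F (E.ch false : Set V)).map f := by
  rw [Submodule.map_span]
  rfl

theorem rk_add (hc : IsCoord1 B t) {E : P1 B t V} (hE : E.FG) (f : V →ₗ[F] V') :
    E.rk = (E.inf (LinearMap.ker f)).rk + (E.map f).rk := by
  have := hE.finiteDimensional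
  rw [rk, rk, rk, span_inf hc, span_map]
  generalize Submodule.span F (E.ch false : Set V) = W at this ⊢
  have h := LinearMap.finrank_range_add_finrank_ker (f.domRestrict W)
  rw [LinearMap.range_domRestrict, LinearMap.ker_domRestrict,
    ← Submodule.finrank_map_subtype_eq W, Submodule.map_comap_subtype] at h
  omega

/-- generators can be taken inside the chart module -/
theorem FG.exists_gens [IsNoetherianRing B] {E : P1 B t V} (hE : E.FG) (b : Bool) :
    ∃ s : Finset V, (s : Set V) ⊆ E.ch b ∧ ∀ v ∈ E.ch b,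
      v ∈ Submodule.span (Algebra.adjoin B {((cs t b : Fˣ) : F)}) (s : Set V) := by
  obtain ⟨s, hs⟩ := hE b
  have hft : Algebra.FiniteType B (Algebra.adjoin B {((cs t b : Fˣ) : F)}) :=
    Algebra.FiniteType.adjoin_of_finite (Set.finite_singleton _)
  have hn : IsNoetherianRing (Algebra.adjoin B {((cs t b : Fˣ) : F)}) :=
    Algebra.FiniteType.isNoetherianRing B _
  let N : Submodule (Algebra.adjoin B {((cs t b : Fˣ) : F)}) V :=
    { carrier := E.ch b
      add_mem' := fun h1 h2 => (E.ch b).add_mem h1 h2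
      zero_mem' := (E.ch b).zero_mem
      smul_mem' := fun c _ hv => E.adjoin_smul_mem b c.2 hv }
  have hN : N.FG := Submodule.FG.of_le (Submodule.fg_span s.finite_toSet) (fun v hv => hs v hv)
  obtain ⟨s', hs'⟩ := hN
  refine ⟨s', fun v hv => ?_, fun v hv => ?_⟩
  · have : v ∈ N := hs' ▸ Submodule.subset_span hv
    exact this
  · rw [hs']; exact hv

/-- Serre vanishing on the line, over any noetherian base -/
theorem FG.exists_ov_le [IsNoetherianRing B] {E : P1 B t V} (hE : E.FG) :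
    ∃ j0 : ℤ, ∀ j ≥ j0, E.ov ≤ (E.tw j).ch false ⊔ (E.tw j).ch true := by
  obtain ⟨s, hs1, hs2⟩ := hE.exists_gens false
  have h1 : ∀ v : s, ∃ n : ℕ, t⁻¹ ^ n • (v : V) ∈ E.ch true := fun v => E.glue false v (hs1 v.2)
  choose n hn using h1
  obtain ⟨N, hN⟩ := (Set.finite_range n).bddAbove
  have hN' : ∀ v ∈ s, t⁻¹ ^ N • v ∈ E.ch true := fun v hv =>
    pow_smul_mem_of_le (E.smul_mem true) (hN ⟨⟨v, hv⟩, rfl⟩) (hn ⟨v, hv⟩)
  refine ⟨N, fun j hj => ?_⟩
  let W : Submodule (Algebra.adjoin B {((cs t false : Fˣ) : F)}) V :=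
    { carrier := {w | ∀ i : ℤ, t ^ i • w ∈ (E.tw j).ch false ⊔ (E.tw j).ch true}
      add_mem' := fun h1 h2 i => by rw [smul_add]; exact Submodule.add_mem _ (h1 i) (h2 i)
      zero_mem' := fun i => by rw [smul_zero]; exact Submodule.zero_mem _
      smul_mem' := by
        rintro ⟨c, hc⟩ w hw
        show ∀ i : ℤ, t ^ i • c • w ∈ (E.tw j).ch false ⊔ (E.tw j).ch true
        induction hc using Algebra.adjoin_induction generalizing w with
        | mem x hx =>
          intro i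
          rw [Set.mem_singleton_iff.1 hx]
          have e : t ^ i • ((cs t false : Fˣ) : F) • w = t ^ (i + 1) • w := by
            rw [zpow_add_one, mul_smul]; rfl
          rw [e]; exact hw _
        | algebraMap r =>
          intro i
          rw [algebraMap_smul, smul_comm]
          exact Submodule.smul_mem _ r (hw i)
        | add x y _ _ hx hy =>
          intro i
          rw [add_smul, smul_add]
          exact Submodule.add_mem _ (hx hw i) (hy hw i)
        | mul x y _ _ hx hy =>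
          rw [mul_smul]
          exact hx (hy hw) }
  have hW : Submodule.span (Algebra.adjoin B {((cs t false : Fˣ) : F)}) (s : Set V) ≤ W := by
    rw [Submodule.span_le]
    intro v hv i
    rcases le_total 0 i with hi | hi
    · obtain ⟨m, rfl⟩ := Int.eq_ofNat_of_zero_le hi
      refine Submodule.mem_sup_left ?_
      rw [tw_ch_false, zpow_natCast]
      exact pow_smul_mem (E.smul_mem false) m (hs1 hv)
    · refine Submodule.mem_sup_right ?_
      rw [mem_tw, tu_true, ← mul_smul]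
      obtain ⟨m, hm⟩ := Int.eq_ofNat_of_zero_le (show 0 ≤ j - i by omega)
      have e : (t ^ j)⁻¹ * t ^ i = t⁻¹ ^ m := by
        rw [inv_pow, ← zpow_natCast, ← hm, ← zpow_neg, ← zpow_neg, ← zpow_add]
        congr 1; ring
      rw [e]
      exact pow_smul_mem_of_le (E.smul_mem true) (show N ≤ m by omega) (hN' v hv)
  intro v hv
  obtain ⟨m, hm⟩ := mem_ov.1 hv
  have h2 := hW (hs2 _ hm) (-(m : ℤ))
  rwa [zpow_neg, zpow_natCast, inv_smul_smul] at h2

end ring

section field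
variable {k : Type} [Field k] {F : Type} [Field F] [Algebra k F] {t : Fˣ}
  {V : Type} [AddCommGroup V] [Module F V] [Module k V] [IsScalarTower k F V]
  {V' : Type} [AddCommGroup V'] [Module F V'] [Module k V'] [IsScalarTower k F V']

theorem h0_eq_zero_iff {E : P1 k t V} : E.h0 = 0 ↔ E.ch false ⊓ E.ch true = ⊥ := by
  rw [h0, rdim_eq_zero_iff, le_bot_iff]

theorem h1_eq_zero_iff {E : P1 k t V} : E.h1 = 0 ↔ E.ov ≤ E.ch false ⊔ E.ch true :=
  rdim_eq_zero_iff

theorem h0_mono {E E' : P1 k t V} (h : E' ≤ E) : E'.h0 ≤ E.h0 :=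
  rdim_mono_left _ (inf_le_inf (h false) (h true))

theorem sup_le_ov (E : P1 k t V) : E.ch false ⊔ E.ch true ≤ E.ov :=
  sup_le (E.ch_le_ov false) (E.ch_le_ov true)

theorem inf_ov (E : P1 k t V) (U : Submodule F V) : (E.inf U).ov = E.ov ⊓ U.restrictScalars k := by
  ext v
  rw [Submodule.mem_inf, mem_ov, mem_ov]
  constructor
  · rintro ⟨n, h1, h2⟩
    refine ⟨⟨n, h1⟩, ?_⟩
    have h3 := U.smul_mem (((t ^ n)⁻¹ : Fˣ) : F) h2
    rwa [← Units.smul_def, inv_smul_smul] at h3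
  · rintro ⟨⟨n, h1⟩, h2⟩
    exact ⟨n, h1, U.smul_mem _ h2⟩

theorem map_ov (E : P1 k t V) (f : V →ₗ[F] V') :
    (E.map f).ov = E.ov.map (f.restrictScalars k) := by
  ext v
  rw [mem_ov]
  constructor
  · rintro ⟨n, a, ha, hav⟩
    refine ⟨(t ^ n)⁻¹ • a, mem_ov.2 ⟨n, by rwa [smul_inv_smul]⟩, ?_⟩
    have h1 : f a = t ^ n • v := hav
    change f ((t ^ n)⁻¹ • a) = v
    rw [Units.smul_def, map_smul, h1, ← Units.smul_def, inv_smul_smul]
  · rintro ⟨a, ha, rfl⟩
    obtain ⟨n, hn⟩ := mem_ov.1 ha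
    exact ⟨n, _, hn, by simp [Units.smul_def]⟩

/-- the long exact sequence in numerical form -/
theorem les1 (E : P1 k t V) (f : V →ₗ[F] V') :
    ∃ b c e : ℕ∞, E.h0 = (E.inf (LinearMap.ker f)).h0 + b ∧ (E.map f).h0 = b + c ∧
      (E.inf (LinearMap.ker f)).h1 = c + e ∧ E.h1 = e + (E.map f).h1 := by
  obtain ⟨b, c, e, h1, h2, h3, h4⟩ := les_two (f.restrictScalars k) E.sup_le_ov
  refine ⟨b, c, e, h1, h2, ?_, ?_⟩
  · rw [← h3, P1.h1, inf_ov]
    rfl
  · rw [P1.h1, P1.h1, map_ov, h4]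
    rfl

theorem mem_tw_neg_one {E : P1 k t V} {v : V} : v ∈ (E.tw (-1)).ch true ↔ t • v ∈ E.ch true := by
  rw [mem_tw, tu_true, zpow_neg_one, inv_inv]

theorem tw_neg_one_le (E : P1 k t V) : (E.tw (-1)).ch true ≤ E.ch true := by
  intro v hv
  have h1 := E.smul_mem true _ (mem_tw_neg_one.1 hv)
  rwa [cs_true, inv_smul_smul] at h1

theorem rdim_tw_ne_top {E : P1 k t V} (hE : E.FG) :
    rdim k (E.ch true) ((E.tw (-1)).ch true) ≠ ⊤ := by
  obtain ⟨s, hs, hgen⟩ := hE.exists_gens true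
  have h1 : E.ch true ≤ Submodule.span k (s : Set V) ⊔ (E.tw (-1)).ch true := by
    have key : ∀ v ∈ Submodule.span (Algebra.adjoin k {((cs t true : Fˣ) : F)}) (s : Set V),
        v ∈ E.ch true ∧ v ∈ Submodule.span k (s : Set V) ⊔ (E.tw (-1)).ch true := by
      intro v hv
      induction hv using Submodule.span_induction with
      | mem x hx => exact ⟨hs hx, Submodule.mem_sup_left (Submodule.subset_span hx)⟩
      | zero => exact ⟨zero_mem _, zero_mem _⟩
      | add x y _ _ hx hy => exact ⟨add_mem hx.1 hy.1, add_mem hx.2 hy.2⟩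
      | smul a x _ hx =>
        refine ⟨E.adjoin_smul_mem true a.2 hx.1, ?_⟩
        obtain ⟨c, r, hr, hcr⟩ := exists_eq_add_mul a.2
        rw [Subalgebra.smul_def, hcr, add_smul, algebraMap_smul]
        refine add_mem (Submodule.smul_mem _ c hx.2) (Submodule.mem_sup_right ?_)
        rw [mem_tw_neg_one, mul_smul, ← Units.smul_def, cs_true, smul_inv_smul]
        exact E.adjoin_smul_mem true hr hx.1
    exact fun v hv => (key v (hgen v hv)).2
  refine ne_top_of_le_ne_top ?_ (rdim_mono_left _ h1)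
  rw [rdim_sup]
  have h2 : rdim k (Submodule.span k (s : Set V)) ⊥ ≠ ⊤ :=
    rdim_bot_ne_top_iff.2 (Module.Finite.span_of_finite _ s.finite_toSet)
  rw [← rdim_inf]
  rw [rdim_tower bot_le (inf_le_left : Submodule.span k (s : Set V) ⊓ (E.tw (-1)).ch true ≤ _)]
    at h2
  exact (WithTop.add_ne_top.1 h2).1

theorem h0_le_h0_tw (E : P1 k t V) :
    E.h0 ≤ (E.tw (-1)).h0 + rdim k (E.ch true) ((E.tw (-1)).ch true) := by
  rw [h0, h0, tw_ch_false]
  exact rdim_inf_le_add E.tw_neg_one_le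

theorem h1_tw_le_h1 (E : P1 k t V) :
    (E.tw (-1)).h1 ≤ E.h1 + rdim k (E.ch true) ((E.tw (-1)).ch true) := by
  rw [h1, h1, tw_ch_false, tw_ov]
  exact rdim_sup_le_add E.tw_neg_one_le E.sup_le_ov

theorem exists_h0_eq_zero' (hc : IsCoord1 k t) {E : P1 k t V} (hE : E.FG) :
    ∃ c : ℕ, (E.tw (-(c : ℤ))).h0 = 0 := by
  classical
  have := hE.finiteDimensional
  obtain ⟨g, hg⟩ := LinearMap.exists_extend
    (Module.finBasis F (Submodule.span F (E.ch false : Set V))).equivFun.toLinearMap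
  obtain ⟨s0, hs0⟩ := hE false
  obtain ⟨s1, hs1⟩ := hE true
  obtain ⟨d, hd0, -, hd⟩ := hc.exists_denom
    (((s0 ∪ s1) ×ˢ Finset.univ).image fun p => g p.1 p.2)
  obtain ⟨N, hN⟩ := exists_inv_pow_mul_mem_finset (k := k) (t := t)
    (((s0 ∪ s1) ×ˢ Finset.univ).image fun p => d * g p.1 p.2) (by
      intro x hx
      obtain ⟨p, hp, rfl⟩ := Finset.mem_image.1 hx
      exact hd _ (Finset.mem_image_of_mem _ hp))
  refine ⟨N + 1, h0_eq_zero_iff.2 (eq_bot_iff.2 fun v hv => ?_)⟩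
  have hv0 : v ∈ E.ch false := by
    have h1 := hv.1
    rwa [tw_ch_false] at h1
  have hv1 : t ^ (N + 1) • v ∈ E.ch true := by
    have h1 := mem_tw.1 hv.2
    rwa [tu_true, zpow_neg, inv_inv, zpow_natCast] at h1
  have hgv : ∀ i, g v i = 0 := by
    intro i
    have a1 := map_mem_of_mem_span (Algebra.adjoin k {(t : F)})
      (d • (LinearMap.proj i ∘ₗ g)) (s := (s0 : Set V)) (fun x hx =>
        hd _ (Finset.mem_image.2 ⟨(x, i), by simp [Finset.mem_coe.1 hx], rfl⟩)) (hs0 v hv0)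
    have a2 := map_mem_of_mem_span (Algebra.adjoin k {((t⁻¹ : Fˣ) : F)})
      ((((t⁻¹ : Fˣ) : F) ^ N * d) • (LinearMap.proj i ∘ₗ g)) (s := (s1 : Set V)) (fun x hx => by
        have h1 := hN _ (Finset.mem_image.2 ⟨(x, i), by simp [Finset.mem_coe.1 hx], rfl⟩)
        rw [← mul_assoc] at h1
        exact h1) (hs1 _ hv1)
    have a3 : ((((t⁻¹ : Fˣ) : F) ^ N * d) • (LinearMap.proj i ∘ₗ g)) (t ^ (N + 1) • v) =
        (t : F) * (d * g v i) := by
      rw [Units.smul_def, map_smul]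
      change ((t ^ (N + 1) : Fˣ) : F) * ((((t⁻¹ : Fˣ) : F) ^ N * d) * g v i) = _
      rw [Units.val_pow_eq_pow_val, Units.val_inv_eq_inv_val, inv_pow]
      have := t.ne_zero
      field_simp
      ring
    rw [a3] at a2
    exact (mul_eq_zero.1 (hc.eq_zero_of_mem a1 a2)).resolve_left hd0
  have h2 : g v = (Module.finBasis F (Submodule.span F (E.ch false : Set V))).equivFun
      ⟨v, Submodule.subset_span hv0⟩ := LinearMap.congr_fun hg ⟨v, Submodule.subset_span hv0⟩
  have h3 : g v = 0 := funext hgv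
  rw [h3, eq_comm, LinearEquiv.map_eq_zero_iff] at h2
  exact congrArg Subtype.val h2

theorem h0_ne_top (hc : IsCoord1 k t) {E : P1 k t V} (hE : E.FG) : E.h0 ≠ ⊤ := by
  obtain ⟨c, h⟩ := exists_h0_eq_zero' hc hE
  induction c generalizing E with
  | zero =>
    rw [Nat.cast_zero, neg_zero, tw_zero] at h
    rw [h]
    exact ENat.zero_ne_top
  | succ c ih =>
    refine ne_top_of_le_ne_top (WithTop.add_ne_top.2 ⟨ih (hE.tw _) ?_, rdim_tw_ne_top hE⟩)
      E.h0_le_h0_tw
    rw [tw_tw, ← h]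
    congr 2
    push_cast
    ring

theorem exists_h1_eq_zero {E : P1 k t V} (hE : E.FG) :
    ∃ c : ℕ, ∀ j : ℤ, (c : ℤ) ≤ j → (E.tw j).h1 = 0 := by
  obtain ⟨j0, hj0⟩ := hE.exists_ov_le
  refine ⟨j0.toNat, fun j hj => h1_eq_zero_iff.2 ?_⟩
  rw [tw_ov]
  exact hj0 j (by omega)

theorem h1_ne_top {E : P1 k t V} (hE : E.FG) : E.h1 ≠ ⊤ := by
  obtain ⟨c, hc⟩ := exists_h1_eq_zero hE
  have h := hc c le_rfl
  clear hc
  induction c generalizing E with
  | zero =>
    rw [Nat.cast_zero, tw_zero] at h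
    rw [h]
    exact ENat.zero_ne_top
  | succ c ih =>
    have h1 := (E.tw 1).h1_tw_le_h1
    rw [tw_tw, add_neg_cancel, tw_zero] at h1
    have h2 := rdim_tw_ne_top (hE.tw 1)
    rw [tw_tw, add_neg_cancel, tw_zero] at h2
    refine ne_top_of_le_ne_top (WithTop.add_ne_top.2 ⟨ih (hE.tw 1) ?_, h2⟩) h1
    rw [tw_tw, ← h]
    congr 2
    push_cast
    ring

theorem exists_h0_eq_zero (hc : IsCoord1 k t) {E : P1 k t V} (hE : E.FG) :
    ∃ c : ℕ, (E.tw (-(c : ℤ))).h0 = 0 :=
  exists_h0_eq_zero' hc hE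

theorem deg_add (hc : IsCoord1 k t) {E : P1 k t V} (hE : E.FG) (f : V →ₗ[F] V') :
    E.deg = (E.inf (LinearMap.ker f)).deg + (E.map f).deg := by
  obtain ⟨b, c, e, h1, h2, h3, h4⟩ := les1 E f
  have a1 := h0_ne_top hc hE
  have a2 := h0_ne_top hc (hE.map f)
  have a3 := h1_ne_top (hE.inf (LinearMap.ker f))
  have a4 := h1_ne_top hE
  rw [h1] at a1
  rw [h2] at a2
  rw [h3] at a3
  rw [h4] at a4
  obtain ⟨b1, b2⟩ := WithTop.add_ne_top.1 a1
  obtain ⟨b3, b4⟩ := WithTop.add_ne_top.1 a3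
  obtain ⟨-, b5⟩ := WithTop.add_ne_top.1 a4
  rw [deg, deg, deg, h1, h2, h3, h4, ENat.toNat_add b1 b2, ENat.toNat_add b2 b3,
    ENat.toNat_add b3 b4, ENat.toNat_add b4 b5]
  push_cast
  ring

theorem h0_h1_eq_zero_of_bot {E : P1 k t V} (h : E.ch false = ⊥) : E.h0 = 0 ∧ E.h1 = 0 := by
  refine ⟨h0_eq_zero_iff.2 (by rw [h, bot_inf_eq]), h1_eq_zero_iff.2 fun v hv => ?_⟩
  obtain ⟨n, hn⟩ := mem_ov.1 hv
  rw [h, Submodule.mem_bot, smul_eq_zero_iff_eq] at hn
  rw [hn]
  exact zero_mem _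

theorem deg_eq_zero_of_rk {E : P1 k t V} (hE : E.FG) (h : E.rk = 0) : E.deg = 0 := by
  obtain ⟨h1, h2⟩ := h0_h1_eq_zero_of_bot ((rk_eq_zero_iff hE).1 h false)
  rw [deg, h1, h2]
  rfl

/-- a map that is injective on the sheaf does not change the invariants -/
theorem map_of_inj (hc : IsCoord1 k t) {E : P1 k t V} (hE : E.FG) (f : V →ₗ[F] V')
    (hf : ∀ v ∈ E.ch false, f v = 0 → v = 0) :
    (E.map f).rk = E.rk ∧ (E.map f).deg = E.deg ∧ (E.map f).h0 = E.h0 ∧ (E.map f).h1 = E.h1 := by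
  have h0 : (E.inf (LinearMap.ker f)).ch false = ⊥ :=
    eq_bot_iff.2 fun v hv => hf v hv.1 hv.2
  obtain ⟨a1, a2⟩ := h0_h1_eq_zero_of_bot h0
  obtain ⟨b, c, e, h1, h2, h3, h4⟩ := les1 E f
  rw [a2, eq_comm, add_eq_zero] at h3
  rw [a1, zero_add] at h1
  rw [h3.1, add_zero, ← h1] at h2
  rw [h3.2, zero_add] at h4
  have h5 : (E.inf (LinearMap.ker f)).rk = 0 := by
    rw [rk, h0, Submodule.bot_coe, Submodule.span_zero_singleton, finrank_bot]
  refine ⟨?_, ?_, h2, h4.symm⟩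
  · rw [rk_add hc hE f, h5, zero_add]
  · rw [deg, deg, h2, ← h4]

/-- a finitely generated torsion free module over `k[ξ]` has `dim (Q / ξ Q) = rank Q` -/
theorem rdim_tw (hc : IsCoord1 k t) {E : P1 k t V} (hE : E.FG) :
    rdim k (E.ch true) ((E.tw (-1)).ch true) = E.rk := by
  obtain ⟨s, hs, hgen⟩ := hE.exists_gens true
  obtain ⟨n, e, hli, he, hsp⟩ := exists_basis_family (u := ((t⁻¹ : Fˣ) : F)) (Q := E.ch true)
    (fun v hv => E.smul_mem true v hv) s hs hgen
  have := hc.isFractionRing_inv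
  have hF : LinearIndependent F e := (LinearIndependent.iff_fractionRing _ F).1 hli
  have hk : LinearIndependent k e := hF.restrict_scalars' k
  have h1 : E.rk = n := by
    rw [rk, ← E.span_ch true]
    have h2 : Submodule.span F (E.ch true : Set V) = Submodule.span F (Set.range e) := by
      apply le_antisymm
      · refine Submodule.span_le.2 fun v hv => ?_
        obtain ⟨r, rfl⟩ := hsp v hv
        exact Submodule.sum_mem _ fun i _ =>
          Submodule.smul_mem _ _ (Submodule.subset_span ⟨i, rfl⟩)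
      · refine Submodule.span_mono ?_
        rintro _ ⟨i, rfl⟩
        exact he i
    rw [h2, finrank_span_eq_card hF, Fintype.card_fin]
  have h2 : E.ch true ⊔ (E.tw (-1)).ch true =
      Submodule.span k (Set.range e) ⊔ (E.tw (-1)).ch true := by
    apply le_antisymm
    · refine sup_le (fun v hv => ?_) le_sup_right
      obtain ⟨r, rfl⟩ := hsp v hv
      refine Submodule.sum_mem _ fun i _ => ?_
      obtain ⟨c, r', hr, hcr⟩ := exists_eq_add_mul (r i).2
      rw [hcr, add_smul, algebraMap_smul]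
      refine Submodule.add_mem_sup (Submodule.smul_mem _ c (Submodule.subset_span ⟨i, rfl⟩)) ?_
      rw [mem_tw_neg_one, mul_smul, ← Units.smul_def, smul_inv_smul]
      exact E.adjoin_smul_mem true hr (he i)
    · refine sup_le_sup_right (Submodule.span_le.2 ?_) _
      rintro _ ⟨i, rfl⟩
      exact he i
  have h3 : rdim k (Submodule.span k (Set.range e)) ((E.tw (-1)).ch true) =
      rdim k (Submodule.span k (Set.range e)) ⊥ := by
    refine rdim_congr fun v hv => ⟨fun h => ?_, fun h => ?_⟩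
    · obtain ⟨c, rfl⟩ := (Submodule.mem_span_range_iff_exists_fun k).1 hv
      obtain ⟨r, hr⟩ := hsp _ (mem_tw_neg_one.1 h)
      have h4 : ∀ i, (t : F) * algebraMap k F (c i) = r i := by
        refine Fintype.linearIndependent_iffₛ.1 hF _ _ ?_
        rw [← hr, Units.smul_def, Finset.smul_sum]
        refine Finset.sum_congr rfl fun i _ => ?_
        rw [mul_smul, algebraMap_smul]
      rw [Submodule.mem_bot]
      refine Finset.sum_eq_zero fun i _ => ?_
      have h5 := hc.eq_zero_of_mem (Subalgebra.algebraMap_mem _ (c i)) (by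
        rw [h4 i]; exact (r i).2)
      rw [← algebraMap_smul F, h5, zero_smul]
    · rw [(Submodule.mem_bot k).1 h]
      exact zero_mem _
  rw [rdim_eq_of_sup h2, h3, h1, rdim_bot, rank_span hk, Cardinal.mk_range_eq _ hk.injective]
  simp

theorem deg_sub_deg_tw (hc : IsCoord1 k t) {E : P1 k t V} (hE : E.FG) :
    E.deg - (E.tw (-1)).deg = E.rk := by
  have h1 := h1_ne_top (hE.tw (-1))
  rw [P1.h1, tw_ch_false, tw_ov] at h1
  have h2 := (chi_step E.tw_neg_one_le E.sup_le_ov (h0_ne_top hc hE) h1).2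
  rw [rdim_tw hc hE, ENat.toNat_natCast] at h2
  rw [deg, deg, h0, P1.h1, h0, P1.h1, tw_ch_false, tw_ov]
  exact h2

theorem deg_tw (hc : IsCoord1 k t) {E : P1 k t V} (hE : E.FG) (j : ℤ) :
    (E.tw j).deg = E.rk * j + E.deg := by
  have key : ∀ i : ℤ, (E.tw i).deg - (E.tw (i - 1)).deg = E.rk := by
    intro i
    have h := deg_sub_deg_tw hc (hE.tw i)
    rwa [tw_tw, rk_tw, ← sub_eq_add_neg] at h
  induction j using Int.induction_on with
  | zero => simp
  | succ i ih =>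
    have h := key (i + 1)
    rw [add_sub_cancel_right] at h
    linarith
  | pred i ih =>
    have h := key (-i)
    linarith

theorem deg_mono (hc : IsCoord1 k t) {E E' : P1 k t V} (hE : E.FG) (h : E' ≤ E)
    (hr : E'.rk = E.rk) : E'.deg ≤ E.deg := by
  have hE' := hE.of_le h
  obtain ⟨c, h1⟩ := exists_h1_eq_zero hE
  obtain ⟨c', h2⟩ := exists_h1_eq_zero hE'
  have a1 := deg_tw hc hE (c + c')
  have a2 := deg_tw hc hE' (c + c')
  rw [deg, h1 _ (by omega)] at a1
  rw [deg, h2 _ (by omega), hr] at a2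
  have a3 := ENat.toNat_le_toNat (h0_mono (tw_mono h (c + c'))) (h0_ne_top hc (hE.tw _))
  have a4 : ((E'.tw (c + c')).h0.toNat : ℤ) ≤ (E.tw (c + c')).h0.toNat := by exact_mod_cast a3
  linarith

theorem exists_bounds (hc : IsCoord1 k t) {E : P1 k t V} (hE : E.FG) :
    ∃ c : ℕ, ∀ E' ≤ E, E'.deg ≤ c * E'.rk ∧ -(c * ((E.rk : ℤ) - E'.rk)) ≤ E.deg - E'.deg := by
  obtain ⟨c1, h1⟩ := exists_h0_eq_zero hc hE
  obtain ⟨c2, h2⟩ := exists_h1_eq_zero hE
  refine ⟨c1 + c2, fun E' h => ?_⟩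
  have hE' := hE.of_le h
  constructor
  · have a1 := deg_tw hc hE' (-(c1 : ℤ))
    have a2 : (E'.tw (-(c1 : ℤ))).h0 = 0 := nonpos_iff_eq_zero.1 (h1 ▸ h0_mono (tw_mono h _))
    rw [deg, a2] at a1
    have a3 : (0 : ℤ) ≤ (E'.tw (-(c1 : ℤ))).h1.toNat := Int.natCast_nonneg _
    have a4 : (0 : ℤ) ≤ c2 * (E'.rk : ℤ) := by positivity
    simp only [ENat.toNat_zero, Nat.cast_zero] at a1
    push_cast
    linarith
  · let U := Submodule.span F (E'.ch false : Set V)
    have b1 : E' ≤ E.inf U := fun b v hv => ⟨h b hv, by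
      change v ∈ U
      rw [show U = Submodule.span F (E'.ch b : Set V) from (E'.span_ch b).symm]
      exact Submodule.subset_span hv⟩
    have b2 : E'.rk = (E.inf U).rk := by
      rw [rk, rk, span_inf hc, inf_eq_right.2 (Submodule.span_mono (h false))]
    have b3 := deg_mono hc (hE.inf U) b1 b2
    have b4 := deg_add hc hE U.mkQ
    have b5 := rk_add hc hE U.mkQ
    rw [Submodule.ker_mkQ] at b4 b5
    obtain ⟨b, c, e, -, -, -, h4⟩ := les1 (E.tw c2) U.mkQ
    rw [h2 c2 le_rfl, eq_comm, add_eq_zero, ← map_tw] at h4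
    have b6 := deg_tw hc (hE.map U.mkQ) c2
    rw [deg, h4.2] at b6
    have b7 : (0 : ℤ) ≤ ((E.map U.mkQ).tw c2).h0.toNat := Int.natCast_nonneg _
    have b8 : (E.rk : ℤ) - E'.rk = (E.map U.mkQ).rk := by
      rw [b5, b2]
      push_cast
      ring
    have b9 : (0 : ℤ) ≤ c1 * ((E.map U.mkQ).rk : ℤ) := by positivity
    simp only [ENat.toNat_zero, Nat.cast_zero] at b6
    rw [b8]
    push_cast
    linarith

theorem h0_le_of_tw (hc : IsCoord1 k t) {E : P1 k t V} (hE : E.FG) (c : ℕ)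
    (h : (E.tw (-(c : ℤ))).h0 = 0) : E.h0.toNat ≤ E.rk * c := by
  refine ENat.toNat_le_of_le_natCast ?_
  induction c generalizing E with
  | zero =>
    rw [Nat.cast_zero, neg_zero, tw_zero] at h
    rw [h]
    exact zero_le
  | succ c ih =>
    have h1 := ih (hE.tw (-1)) (by
      rw [tw_tw, ← h]
      congr 2
      push_cast
      ring)
    refine E.h0_le_h0_tw.trans ?_
    rw [rdim_tw hc hE, Nat.mul_succ, Nat.cast_add]
    rw [rk_tw] at h1
    exact add_le_add_left h1 _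

/-- if `E / E'` is supported away from the point at infinity, its length is read on the
chart `false` -/
theorem deg_sub_eq_rdim (hc : IsCoord1 k t) {E E' : P1 k t V} (hE : E.FG) (h : E' ≤ E)
    {c : F} (hc' : c ∈ Algebra.adjoin k {((t⁻¹ : Fˣ) : F)})
    (hu : ∀ v ∈ E.ch true, (1 + ((t⁻¹ : Fˣ) : F) * c) • v ∈ E'.ch true) :
    rdim k (E.ch false) (E'.ch false) ≠ ⊤ ∧
      E.deg - E'.deg = (rdim k (E.ch false) (E'.ch false)).toNat := by
  have hE' := hE.of_le h
  have hξ : ((t⁻¹ : Fˣ) : F) ∈ Algebra.adjoin k {((t⁻¹ : Fˣ) : F)} := Algebra.subset_adjoin rfl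
  have hdec : ∀ (n : ℕ) (v : V), ∃ g ∈ Algebra.adjoin k {((t⁻¹ : Fˣ) : F)},
      v = g • (1 + ((t⁻¹ : Fˣ) : F) * c) • v + (-c) ^ n • t⁻¹ ^ n • v := by
    intro n v
    refine ⟨∑ i ∈ Finset.range n, (-(((t⁻¹ : Fˣ) : F) * c)) ^ i,
      sum_mem fun i _ => pow_mem (neg_mem (mul_mem hξ hc')) i, ?_⟩
    have h1 := geom_sum_mul_neg (-(((t⁻¹ : Fˣ) : F) * c)) n
    rw [sub_neg_eq_add] at h1
    rw [Units.smul_def, smul_smul, smul_smul, ← add_smul, h1, Units.val_pow_eq_pow_val,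
      ← mul_pow, neg_mul, mul_comm c, sub_add_cancel, one_smul]
  have a1 : ∀ v ∈ E.ch true, v ∈ E'.ov → v ∈ E'.ch true := by
    intro v hv hv'
    obtain ⟨n, hn⟩ := mem_ov'.1 hv'
    obtain ⟨g, hg, hgv⟩ := hdec n v
    rw [hgv]
    exact add_mem (E'.adjoin_smul_mem true hg (hu v hv))
      (E'.adjoin_smul_mem true (pow_mem (neg_mem hc') n) hn)
  have a2 : E.ov ≤ E'.ov ⊔ E.ch true := by
    intro v hv
    obtain ⟨n, hn⟩ := mem_ov'.1 hv
    obtain ⟨g, hg, hgv⟩ := hdec n v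
    rw [hgv]
    refine Submodule.add_mem_sup (mem_ov'.2 ⟨n, ?_⟩)
      (E.adjoin_smul_mem true (pow_mem (neg_mem hc') n) hn)
    rw [smul_comm, smul_comm (t⁻¹ ^ n)]
    exact E'.adjoin_smul_mem true hg (hu _ hn)
  have a3 : E'.ov ≤ E.ov := loc_mono t (h false)
  have b1 : E.ch true ⊓ E'.ch false = E'.ch false ⊓ E'.ch true := by
    apply le_antisymm
    · exact fun v hv => ⟨hv.2, a1 v hv.1 (E'.ch_le_ov false hv.2)⟩
    · exact fun v hv => ⟨h true hv.2, hv.1⟩
  have b2 : rdim k E.ov (E.ch true ⊔ E'.ch false) = E'.h1 := by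
    rw [rdim_eq_of_sup (P' := E'.ov), P1.h1]
    · refine rdim_congr fun v hv => ⟨fun h1 => ?_, fun h1 => ?_⟩
      · obtain ⟨b, hb, a, ha, rfl⟩ := Submodule.mem_sup.1 h1
        rw [add_comm]
        refine Submodule.add_mem_sup ha (a1 b hb ?_)
        have h2 := E'.ov.sub_mem hv (E'.ch_le_ov false ha)
        rwa [add_sub_cancel_right] at h2
      · exact (sup_le le_sup_right ((h true).trans le_sup_left) :
          _ ≤ E.ch true ⊔ E'.ch false) h1
    · apply le_antisymm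
      · exact sup_le (a2.trans (sup_le_sup_left le_sup_left _)) le_sup_right
      · exact sup_le_sup_right a3 _
  have c1 := h0_ne_top hc hE
  rw [h0, inf_comm] at c1
  have c2 := h1_ne_top hE'
  rw [← b2] at c2
  have c3 : E.ch true ⊔ E.ch false ≤ E.ov := sup_le (E.ch_le_ov true) (E.ch_le_ov false)
  obtain ⟨d1, d2⟩ := chi_step (h false) c3 c1 c2
  refine ⟨d1, ?_⟩
  rw [← d2, b1, b2, inf_comm (E.ch true), sup_comm (E.ch true)]
  rfl

end field

end P1
end Vale.Agent.P190
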