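import Mathlib

/-! Relative dimension of two subspaces and the long exact sequence count for three-term
complexes given as subcomplexes of an ambient complex. -/

namespace Vale.Agent.P190

open Submodule LinearMap

section
variable (k : Type) [Field k] {W W' : Type} [AddCommGroup W] [Module k W]
  [AddCommGroup W'] [Module k W']

/-- `rdim k P Q` is the dimension of the image of `P` in `W ⧸ Q`, that is of `P / (P ⊓ Q)`. -/
noncomputable def rdim (P Q : Submodule k W) : ℕ∞ :=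
  Cardinal.toENat (Module.rank k (P.map Q.mkQ))

variable {k}

theorem rank_map_eq_of_ker_eq {W'' : Type} [AddCommGroup W''] [Module k W'']
    (P : Submodule k W) (f : W →ₗ[k] W') (g : W →ₗ[k] W'')
    (h : ∀ v ∈ P, f v = 0 ↔ g v = 0) :
    Module.rank k (P.map f) = Module.rank k (P.map g) := by
  have h1 : ker (f.domRestrict P) = ker (g.domRestrict P) := by
    ext v; simpa using h v v.2
  have e1 := (f.domRestrict P).quotKerEquivRange
  have e2 := (g.domRestrict P).quotKerEquivRange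
  rw [range_domRestrict] at e1 e2
  rw [← e1.rank_eq, ← e2.rank_eq, h1]

theorem rdim_congr {P Q Q' : Submodule k W} (h : ∀ v ∈ P, v ∈ Q ↔ v ∈ Q') :
    rdim k P Q = rdim k P Q' := by
  unfold rdim
  rw [rank_map_eq_of_ker_eq P Q.mkQ Q'.mkQ (by simpa using h)]

theorem rdim_inf (P Q : Submodule k W) : rdim k P (P ⊓ Q) = rdim k P Q :=
  rdim_congr fun _ hv => ⟨fun h => h.2, fun h => ⟨hv, h⟩⟩

theorem rdim_sup (P Q : Submodule k W) : rdim k (P ⊔ Q) Q = rdim k P Q := by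
  unfold rdim
  rw [Submodule.map_sup, Submodule.mkQ_map_self, sup_bot_eq]

theorem rdim_eq_of_sup {P P' Q : Submodule k W} (h : P ⊔ Q = P' ⊔ Q) :
    rdim k P Q = rdim k P' Q := by
  rw [← rdim_sup P, h, rdim_sup]

theorem rdim_eq_zero_iff {P Q : Submodule k W} : rdim k P Q = 0 ↔ P ≤ Q := by
  unfold rdim
  rw [Cardinal.toENat_eq_zero, rank_zero_iff, Submodule.subsingleton_iff_eq_bot,
    ← le_bot_iff, Submodule.map_le_iff_le_comap, Submodule.comap_bot, Submodule.ker_mkQ]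

/-- transport along a linear map -/
theorem rdim_map (f : W →ₗ[k] W') (P : Submodule k W) (Q : Submodule k W') :
    rdim k (P.map f) Q = rdim k P (Q.comap f) := by
  unfold rdim
  rw [← Submodule.map_comp]
  rw [rank_map_eq_of_ker_eq P (Q.mkQ ∘ₗ f) (Q.comap f).mkQ (by simp)]

theorem rdim_map_map (f : W →ₗ[k] W') {P Q : Submodule k W} (hQ : Q ≤ P)
    (h : ∀ v ∈ P, f v = 0 → v ∈ Q) :
    rdim k (P.map f) (Q.map f) = rdim k P Q := by
  rw [rdim_map]
  refine rdim_congr fun v hv => ⟨?_, fun h => Submodule.mem_map_of_mem h⟩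
  rintro ⟨u, hu, huv⟩
  have : v - u ∈ Q := h _ (P.sub_mem hv (hQ hu)) (by simp [huv])
  simpa using Q.add_mem this hu

theorem rdim_tower {P R Q : Submodule k W} (h1 : Q ≤ R) (h2 : R ≤ P) :
    rdim k P Q = rdim k P R + rdim k R Q := by
  unfold rdim
  rw [← map_add]
  congr 1
  let f : (P.map Q.mkQ) →ₗ[k] W ⧸ R := (Submodule.factor h1).domRestrict _
  have hr : range f = P.map R.mkQ := by
    simp only [f, range_domRestrict, ← Submodule.map_comp, Submodule.factor_comp_mk]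
  have hk : Module.rank k (ker f) = Module.rank k (R.map Q.mkQ) := by
    have : (ker f).map (P.map Q.mkQ).subtype = R.map Q.mkQ := by
      ext z
      constructor
      · rintro ⟨⟨_, v, hv, rfl⟩, hz, rfl⟩
        refine ⟨v, ?_, rfl⟩
        have : (Submodule.factor h1) (Q.mkQ v) = 0 := hz
        simpa using this
      · rintro ⟨v, hv, rfl⟩
        refine ⟨⟨_, v, h2 hv, rfl⟩, ?_, rfl⟩
        change (Submodule.factor h1) (Q.mkQ v) = 0
        simpa using hv
    rw [← this, rank_map_eq (Submodule.injective_subtype _)]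
  rw [← f.rank_range_add_rank_ker, hr, hk]

theorem rdim_bot (P : Submodule k W) : rdim k P ⊥ = Cardinal.toENat (Module.rank k P) := by
  unfold rdim
  rw [rank_map_eq_of_ker_eq P (⊥ : Submodule k W).mkQ LinearMap.id (by simp), Submodule.map_id]

theorem rdim_bot_ne_top_iff {P : Submodule k W} : rdim k P ⊥ ≠ ⊤ ↔ Module.Finite k P := by
  rw [rdim_bot, Cardinal.toENat_ne_top, Module.rank_lt_aleph0_iff]

theorem rdim_bot_toNat (P : Submodule k W) : (rdim k P ⊥).toNat = Module.finrank k P := by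
  rw [rdim_bot]; rfl

theorem rdim_mono_left {P P' : Submodule k W} (Q : Submodule k W) (h : P ≤ P') :
    rdim k P Q ≤ rdim k P' Q := by
  unfold rdim
  exact OrderHomClass.mono Cardinal.toENat (Submodule.rank_mono (Submodule.map_mono h))

end

section LES
variable {k : Type} [Field k] {W0 W1 W2 W0' W1' W2' : Type}
  [AddCommGroup W0] [Module k W0] [AddCommGroup W1] [Module k W1] [AddCommGroup W2] [Module k W2]
  [AddCommGroup W0'] [Module k W0'] [AddCommGroup W1'] [Module k W1'] [AddCommGroup W2']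
  [Module k W2']

/-- The long exact sequence in numerical form. `B` is a subcomplex of the ambient complex
`W0 → W1 → W2`, `φ` a chain map to a second ambient complex, `A = B ⊓ ker φ` and `C = φ B`. -/
theorem les (d0 : W0 →ₗ[k] W1) (d1 : W1 →ₗ[k] W2) (d0' : W0' →ₗ[k] W1') (d1' : W1' →ₗ[k] W2')
    (hd : ∀ v, d1 (d0 v) = 0)
    (f0 : W0 →ₗ[k] W0') (f1 : W1 →ₗ[k] W1') (f2 : W2 →ₗ[k] W2')
    (c0 : ∀ v, f1 (d0 v) = d0' (f0 v)) (c1 : ∀ v, f2 (d1 v) = d1' (f1 v))
    (B0 : Submodule k W0) (B1 : Submodule k W1) (B2 : Submodule k W2)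
    (s0 : B0.map d0 ≤ B1) (s1 : B1.map d1 ≤ B2) :
    ∃ b c e f g i : ℕ∞,
      rdim k (B0 ⊓ ker d0) ⊥ = rdim k ((B0 ⊓ ker f0) ⊓ ker d0) ⊥ + b ∧
      rdim k (B0.map f0 ⊓ ker d0') ⊥ = b + c ∧
      rdim k ((B1 ⊓ ker f1) ⊓ ker d1) ((B0 ⊓ ker f0).map d0) = c + e ∧
      rdim k (B1 ⊓ ker d1) (B0.map d0) = e + f ∧
      rdim k (B1.map f1 ⊓ ker d1') ((B0.map f0).map d0') = f + g ∧
      rdim k (B2 ⊓ ker f2) ((B1 ⊓ ker f1).map d1) = g + i ∧
      rdim k B2 (B1.map d1) = i + rdim k (B2.map f2) ((B1.map f1).map d1') := by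
  have s0' : ∀ v ∈ B0, d0 v ∈ B1 := fun v hv => s0 ⟨v, hv, rfl⟩
  have s1' : ∀ v ∈ B1, d1 v ∈ B2 := fun v hv => s1 ⟨v, hv, rfl⟩
  set A0 := B0 ⊓ ker f0
  set A1 := B1 ⊓ ker f1
  set A2 := B2 ⊓ ker f2
  set X0 := B0 ⊓ (ker f1).comap d0
  set X1 := B1 ⊓ (ker f2).comap d1
  refine ⟨rdim k (B0 ⊓ ker d0) (A0 ⊓ ker d0), rdim k (B0.map d0 ⊓ A1) (A0.map d0),
    rdim k (A1 ⊓ ker d1) (B0.map d0 ⊓ A1), rdim k (B1 ⊓ ker d1) (B0.map d0 ⊔ (A1 ⊓ ker d1)),
    rdim k (B1.map d1 ⊓ A2) (A1.map d1), rdim k A2 (B1.map d1 ⊓ A2), ?_, ?_, ?_, ?_, ?_, ?_, ?_⟩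
  · rw [add_comm]
    exact rdim_tower bot_le (inf_le_inf_right _ inf_le_left)
  · have e1 : B0.map f0 ⊓ ker d0' = X0.map f0 := by
      ext z; constructor
      · rintro ⟨⟨v, hv, rfl⟩, hz⟩
        exact ⟨v, ⟨hv, by simpa [c0] using hz⟩, rfl⟩
      · rintro ⟨v, ⟨hv, hz⟩, rfl⟩
        exact ⟨⟨v, hv, rfl⟩, by simpa [c0] using hz⟩
    have e2 : rdim k (X0.map f0) ⊥ = rdim k X0 A0 := by
      rw [rdim_map]
      exact rdim_congr fun v hv => ⟨fun h => ⟨hv.1, h⟩, fun h => h.2⟩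
    have hA0 : A0 ≤ X0 := fun v hv => ⟨hv.1, by
      have : f0 v = 0 := hv.2
      simp [c0, this]⟩
    have hZ : B0 ⊓ ker d0 ≤ X0 := fun v hv => ⟨hv.1, by
      have : d0 v = 0 := hv.2
      simp [this]⟩
    rw [e1, e2, rdim_tower (le_sup_right : A0 ≤ (B0 ⊓ ker d0) ⊔ A0) (sup_le hZ hA0), add_comm,
      rdim_sup]
    congr 1
    · exact rdim_congr fun v hv => ⟨fun h => ⟨h, hv.2⟩, fun h => h.1⟩
    · rw [← rdim_map_map d0 (sup_le hZ hA0)
        (fun v hv h => Submodule.mem_sup_left (S := B0 ⊓ ker d0) ⟨hv.1, h⟩)]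
      congr 1
      · ext z; constructor
        · rintro ⟨v, hv, rfl⟩
          exact ⟨⟨v, hv.1, rfl⟩, s0' v hv.1, hv.2⟩
        · rintro ⟨⟨v, hv, rfl⟩, hz⟩
          exact ⟨v, ⟨hv, hz.2⟩, rfl⟩
      · rw [Submodule.map_sup, sup_eq_right]
        rintro _ ⟨v, hv, rfl⟩
        have : d0 v = 0 := hv.2
        simp [this]
  · rw [add_comm]
    refine rdim_tower ?_ ?_
    · rintro _ ⟨v, hv, rfl⟩
      have : f0 v = 0 := hv.2
      exact ⟨⟨v, hv.1, rfl⟩, s0' v hv.1, by simp [c0, this]⟩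
    · rintro _ ⟨⟨v, hv, rfl⟩, hz⟩
      exact ⟨hz, hd v⟩
  · have h1 : B0.map d0 ⊔ (A1 ⊓ ker d1) ≤ B1 ⊓ ker d1 := by
      refine sup_le ?_ (inf_le_inf_right _ inf_le_left)
      rintro _ ⟨v, hv, rfl⟩
      exact ⟨s0' v hv, hd v⟩
    rw [rdim_tower (le_sup_left : B0.map d0 ≤ B0.map d0 ⊔ (A1 ⊓ ker d1)) h1, add_comm, sup_comm,
      rdim_sup]
    congr 1
    exact rdim_congr fun v hv => ⟨fun h => ⟨h, hv.1⟩, fun h => h.1⟩
  · have e1 : B1.map f1 ⊓ ker d1' = X1.map f1 := by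
      ext z; constructor
      · rintro ⟨⟨v, hv, rfl⟩, hz⟩
        exact ⟨v, ⟨hv, by simpa [c1] using hz⟩, rfl⟩
      · rintro ⟨v, ⟨hv, hz⟩, rfl⟩
        exact ⟨⟨v, hv, rfl⟩, by simpa [c1] using hz⟩
    have hA1 : A1 ≤ X1 := fun v hv => ⟨hv.1, by
      have : f1 v = 0 := hv.2
      simp [c1, this]⟩
    have hZ : B1 ⊓ ker d1 ≤ X1 := fun v hv => ⟨hv.1, by
      have : d1 v = 0 := hv.2
      simp [this]⟩
    have hB : B0.map d0 ≤ B1 ⊓ ker d1 := by
      rintro _ ⟨v, hv, rfl⟩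
      exact ⟨s0' v hv, hd v⟩
    have e3 : (B0.map f0).map d0' = (B0.map d0 ⊔ A1).map f1 := by
      rw [Submodule.map_sup, ← Submodule.map_comp, ← Submodule.map_comp]
      have : A1.map f1 = ⊥ := by
        rw [eq_bot_iff]
        rintro _ ⟨v, hv, rfl⟩
        exact hv.2
      rw [this, sup_bot_eq]
      congr 1
      ext v; simp [c0]
    have e2 : rdim k (X1.map f1) ((B0.map d0 ⊔ A1).map f1) = rdim k X1 (B0.map d0 ⊔ A1) :=
      rdim_map_map f1 (sup_le (hB.trans hZ) hA1)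
        (fun v hv h => Submodule.mem_sup_right (S := B0.map d0) (T := A1) ⟨hv.1, h⟩)
    rw [e1, e3, e2, rdim_tower (sup_le_sup_right hB A1) (sup_le hZ hA1), add_comm]
    congr 1
    · rw [rdim_eq_of_sup (P' := B1 ⊓ ker d1)]
      · refine rdim_congr fun v hv => ⟨fun h => ?_, fun h => ?_⟩
        · obtain ⟨a, ha, b, hb, rfl⟩ := Submodule.mem_sup.1 h
          refine Submodule.add_mem_sup ha ⟨hb, ?_⟩
          have h1 : d1 (a + b) = 0 := hv.2
          have h2 : d1 a = 0 := (hB ha).2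
          simpa [h2] using h1
        · exact (sup_le_sup_left inf_le_left _ : _ ≤ B0.map d0 ⊔ A1) h
      · apply le_antisymm
        · exact sup_le (sup_le le_sup_left (le_sup_right.trans le_sup_right)) le_sup_right
        · exact sup_le (le_sup_left.trans le_sup_left) le_sup_right
    · rw [← rdim_map_map d1 (sup_le hZ hA1)
        (fun v hv h => Submodule.mem_sup_left (S := B1 ⊓ ker d1) ⟨hv.1, h⟩)]
      congr 1
      · ext z; constructor
        · rintro ⟨v, hv, rfl⟩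
          exact ⟨⟨v, hv.1, rfl⟩, s1' v hv.1, hv.2⟩
        · rintro ⟨⟨v, hv, rfl⟩, hz⟩
          exact ⟨v, ⟨hv, hz.2⟩, rfl⟩
      · rw [Submodule.map_sup, sup_eq_right]
        rintro _ ⟨v, hv, rfl⟩
        have : d1 v = 0 := hv.2
        simp [this]
  · rw [add_comm]
    refine rdim_tower ?_ inf_le_right
    rintro _ ⟨v, hv, rfl⟩
    have : f1 v = 0 := hv.2
    exact ⟨⟨v, hv.1, rfl⟩, s1' v hv.1, by simp [c1, this]⟩
  · have e3 : (B1.map f1).map d1' = (B1.map d1 ⊔ A2).map f2 := by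
      rw [Submodule.map_sup, ← Submodule.map_comp, ← Submodule.map_comp]
      have : A2.map f2 = ⊥ := by
        rw [eq_bot_iff]
        rintro _ ⟨v, hv, rfl⟩
        exact hv.2
      rw [this, sup_bot_eq]
      congr 1
      ext v; simp [c1]
    rw [e3, rdim_map_map f2 (sup_le s1 inf_le_left)
        (fun v hv h => Submodule.mem_sup_right (S := B1.map d1) (T := A2) ⟨hv, h⟩),
      rdim_tower (le_sup_left : B1.map d1 ≤ B1.map d1 ⊔ A2) (sup_le s1 inf_le_left), add_comm,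
      sup_comm, rdim_sup]
    congr 1
    exact rdim_congr fun v hv => ⟨fun h => ⟨h, hv⟩, fun h => h.1⟩

end LES

end Vale.Agent.P190
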