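import Vale.Agent.P190.RedDefs

/-! Reduction modulo a prime of rational functions in two variables. -/

namespace Vale.Agent.P190

/-- function fields in two variables exist -/
theorem exists_isCoord (k : Type) [Field k] :
    ∃ (L : Type) (_ : Field L) (_ : Algebra k L) (x y : Lˣ), IsCoord k x y := by
  let P := MvPolynomial (Fin 2) k
  have hinj : Function.Injective (algebraMap P (FractionRing P)) := IsFractionRing.injective _ _
  have hX : ∀ i, algebraMap P (FractionRing P) (MvPolynomial.X i) ≠ 0 := fun i h =>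
    MvPolynomial.X_ne_zero i (hinj (h.trans (map_zero _).symm))
  refine ⟨FractionRing P, inferInstance, inferInstance, Units.mk0 _ (hX 0), Units.mk0 _ (hX 1),
    ?_, ?_⟩
  · rw [linearIndependent_iff']
    intro s g hg n0 hn0
    obtain ⟨N, hN⟩ : ∃ N : ℕ, ∀ n ∈ s, 0 ≤ n.1 + N ∧ 0 ≤ n.2 + N := by
      refine ⟨s.sup fun n => n.1.natAbs + n.2.natAbs, fun n hn => ?_⟩
      have := Finset.le_sup (f := fun n : ℤ × ℤ => n.1.natAbs + n.2.natAbs) hn
      omega
    let d : ℤ × ℤ → Fin 2 →₀ ℕ := fun n =>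
      Finsupp.single 0 (n.1 + N).toNat + Finsupp.single 1 (n.2 + N).toNat
    have h1 : ∑ n ∈ s, MvPolynomial.monomial (d n) (g n) = (0 : P) := by
      apply hinj
      rw [map_zero, map_sum]
      have h2 := congrArg (fun q => q * (algebraMap P (FractionRing P) (MvPolynomial.X 0) ^ N *
        algebraMap P (FractionRing P) (MvPolynomial.X 1) ^ N)) hg
      simp only [zero_mul, Finset.sum_mul] at h2
      rw [← h2]
      refine Finset.sum_congr rfl fun n hn => ?_
      have e1 : MvPolynomial.monomial (d n) (g n) = g n • ((MvPolynomial.X 0 : P) ^ (n.1 + N).toNat *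
          MvPolynomial.X 1 ^ (n.2 + N).toNat) := by
        rw [MvPolynomial.X_pow_eq_monomial, MvPolynomial.X_pow_eq_monomial,
          MvPolynomial.monomial_mul, MvPolynomial.smul_monomial]
        simp [d]
      rw [e1, Algebra.smul_def, map_mul, ← IsScalarTower.algebraMap_apply, ← Algebra.smul_def,
        smul_mul_assoc, map_mul, map_pow, map_pow, ← zpow_natCast, ← zpow_natCast,
        Int.toNat_of_nonneg (hN n hn).1, Int.toNat_of_nonneg (hN n hn).2, zpow_add₀ (hX 0),
        zpow_add₀ (hX 1)]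
      simp only [Units.val_mul, Units.val_zpow_eq_zpow_val, Units.val_mk0, zpow_natCast]
      congr 1
      ring
    have h3 := congrArg (MvPolynomial.coeff (d n0)) h1
    rw [MvPolynomial.coeff_sum, Finset.sum_eq_single n0] at h3
    · simpa using h3
    · intro n hn hne
      rw [MvPolynomial.coeff_monomial, if_neg]
      intro h
      have a1 := DFunLike.congr_fun h 0
      have a2 := DFunLike.congr_fun h 1
      simp only [d, Finsupp.add_apply, Finsupp.single_eq_same, Finsupp.single_apply] at a1 a2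
      simp only [Fin.isValue, one_ne_zero, zero_ne_one, if_false, add_zero, zero_add] at a1 a2
      have := hN n hn
      have := hN n0 hn0
      exact hne (Prod.ext (by omega) (by omega))
    · intro h
      exact absurd hn0 h
  · intro q
    have hm : ∀ f : P, algebraMap P (FractionRing P) f ∈ Algebra.adjoin k
        {algebraMap P (FractionRing P) (MvPolynomial.X 0),
          algebraMap P (FractionRing P) (MvPolynomial.X 1)} := by
      intro f
      induction f using MvPolynomial.induction_on with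
      | C c => exact Subalgebra.algebraMap_mem _ c
      | add f g hf hg => rw [map_add]; exact add_mem hf hg
      | mul_X f i hf =>
        rw [map_mul]
        refine mul_mem hf (Algebra.subset_adjoin ?_)
        fin_cases i
        · exact Or.inl rfl
        · exact Or.inr rfl
    obtain ⟨a, b, hb, rfl⟩ := IsFractionRing.div_surjective (A := P) q
    have hb0 : algebraMap P (FractionRing P) b ≠ 0 := fun h =>
      nonZeroDivisors.ne_zero hb (hinj (h.trans (map_zero _).symm))
    exact ⟨_, hm b, hb0, by rw [div_mul_cancel₀ _ hb0]; exact hm a⟩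

variable {L : Type} [Field L] [Algebra ℚ L] {x y : Lˣ}

theorem exists_nat_mul_mem_adjoin {s : Set L} {q : L} (hq : q ∈ Algebra.adjoin ℚ s) :
    ∃ m : ℕ, 0 < m ∧ (m : L) * q ∈ Algebra.adjoin ℤ s := by
  have : CharZero L := algebraRat.charZero L
  induction hq using Algebra.adjoin_induction with
  | mem q hq => exact ⟨1, one_pos, by simpa using Algebra.subset_adjoin hq⟩
  | algebraMap c =>
    refine ⟨c.den, c.den_pos, ?_⟩
    rw [eq_ratCast, ← Rat.cast_natCast, ← Rat.cast_mul, Rat.den_mul_eq_num, Rat.cast_intCast]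
    exact intCast_mem _ _
  | add q q' _ _ ih ih' =>
    obtain ⟨m, hm, h⟩ := ih
    obtain ⟨m', hm', h'⟩ := ih'
    refine ⟨m * m', mul_pos hm hm', ?_⟩
    have e : ((m * m' : ℕ) : L) * (q + q') = m' * (m * q) + m * (m' * q') := by push_cast; ring
    rw [e]
    exact add_mem (mul_mem (natCast_mem _ _) h) (mul_mem (natCast_mem _ _) h')
  | mul q q' _ _ ih ih' =>
    obtain ⟨m, hm, h⟩ := ih
    obtain ⟨m', hm', h'⟩ := ih'
    refine ⟨m * m', mul_pos hm hm', ?_⟩
    have e : ((m * m' : ℕ) : L) * (q * q') = (m * q) * (m' * q') := by push_cast; ring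
    rw [e]
    exact mul_mem h h'

omit [Algebra ℚ L] in
theorem mem_adjoin_iff_ev {q : L} :
    q ∈ Algebra.adjoin ℤ {(x : L), (y : L)} ↔ ∃ a, ev x y a = q := by
  constructor
  · intro hq
    induction hq using Algebra.adjoin_induction with
    | mem q hq =>
      rcases hq with rfl | rfl
      · exact ⟨MvPolynomial.X 0, by simp [ev]⟩
      · exact ⟨MvPolynomial.X 1, by simp [ev]⟩
    | algebraMap c => exact ⟨c, by simp⟩
    | add q q' _ _ ih ih' =>
      obtain ⟨a, rfl⟩ := ih
      obtain ⟨a', rfl⟩ := ih'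
      exact ⟨a + a', map_add _ _ _⟩
    | mul q q' _ _ ih ih' =>
      obtain ⟨a, rfl⟩ := ih
      obtain ⟨a', rfl⟩ := ih'
      exact ⟨a * a', map_mul _ _ _⟩
  · rintro ⟨a, rfl⟩
    induction a using MvPolynomial.induction_on with
    | C c => simpa [ev] using intCast_mem (Algebra.adjoin ℤ {(x : L), (y : L)}) c
    | add f g hf hg => rw [map_add]; exact add_mem hf hg
    | mul_X f i hf =>
      rw [map_mul]
      refine mul_mem hf (Algebra.subset_adjoin ?_)
      fin_cases i
      · exact Or.inl (by simp [ev])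
      · exact Or.inr (by simp [ev])

theorem IsCoord.int (hc : IsCoord ℚ x y) : IsCoord ℤ x y := by
  have : CharZero L := algebraRat.charZero L
  refine ⟨hc.indep.restrict_scalars' ℤ, fun q => ?_⟩
  obtain ⟨b, hb, hb0, hq⟩ := hc.frac q
  obtain ⟨m, hm, h⟩ := exists_nat_mul_mem_adjoin hb
  obtain ⟨m', hm', h'⟩ := exists_nat_mul_mem_adjoin hq
  refine ⟨m' * (m * b), mul_mem (natCast_mem _ _) h,
    mul_ne_zero (Nat.cast_ne_zero.2 hm'.ne') (mul_ne_zero (Nat.cast_ne_zero.2 hm.ne') hb0), ?_⟩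
  have e : q * (m' * (m * b)) = m * (m' * (q * b)) := by ring
  rw [e]
  exact mul_mem (natCast_mem _ _) h'

theorem ev_injective (hc : IsCoord ℚ x y) : Function.Injective (ev x y) := by
  rw [injective_iff_map_eq_zero]
  intro f hf
  have hl := hc.int.indep.comp (fun d : Fin 2 →₀ ℕ => ((d 0 : ℤ), (d 1 : ℤ))) (by
    intro d d' h
    simp only [Prod.mk.injEq, Nat.cast_inj] at h
    ext i
    fin_cases i
    · exact h.1
    · exact h.2)
  rw [linearIndependent_iff'] at hl
  ext d
  by_cases hd : d ∈ f.support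
  · refine hl f.support (fun d => f.coeff d) ?_ d hd
    rw [← hf, ev, MvPolynomial.coe_eval₂Hom, MvPolynomial.eval₂_eq']
    refine Finset.sum_congr rfl fun d _ => ?_
    simp [Fin.prod_univ_two]
  · exact MvPolynomial.notMem_support_iff.mp hd

omit [Algebra ℚ L] in
theorem ev_mem_Oprim (a : P0) : ev x y a ∈ Oprim x y := by
  intro p _
  exact ⟨a, 1, fun hd => (prime_natCast_P0 p).not_isUnit (isUnit_of_dvd_one hd), by simp⟩

theorem natCast_dvd_iff (p : ℕ) (a : P0) : (p : P0) ∣ a ↔ ∀ d, (p : ℤ) ∣ a.coeff d := by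
  rw [← MvPolynomial.C_dvd_iff_dvd_coeff]
  simp

theorem not_dvd_X (p : ℕ) [hp : Fact p.Prime] (i : Fin 2) :
    ¬ (p : P0) ∣ MvPolynomial.X i := by
  rw [natCast_dvd_iff]
  intro h
  have := h (Finsupp.single i 1)
  rw [MvPolynomial.coeff_X, if_pos rfl] at this
  exact hp.out.one_lt.ne' (Nat.dvd_one.1 (by exact_mod_cast this))

omit [Algebra ℚ L] in
theorem zpow_mem_of {O : Subring L} {u : Lˣ} (h1 : (u : L) ∈ O) (h2 : ((u⁻¹ : Lˣ) : L) ∈ O)
    (i : ℤ) : ((u ^ i : Lˣ) : L) ∈ O := by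
  obtain ⟨n, rfl | rfl⟩ := i.eq_nat_or_neg
  · rw [zpow_natCast, Units.val_pow_eq_pow_val]; exact pow_mem h1 n
  · rw [zpow_neg, zpow_natCast, ← inv_pow, Units.val_pow_eq_pow_val]; exact pow_mem h2 n

omit [Algebra ℚ L] in
theorem unit_mem_Oprim (i j : ℤ) : ((x ^ i * y ^ j : Lˣ) : L) ∈ Oprim x y := by
  rw [Units.val_mul]
  refine mul_mem (zpow_mem_of ?_ ?_ i) (zpow_mem_of ?_ ?_ j)
  · simpa [ev] using ev_mem_Oprim (x := x) (y := y) (MvPolynomial.X 0)
  · intro p _
    exact ⟨1, MvPolynomial.X 0, not_dvd_X p 0, by simp [ev]⟩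
  · simpa [ev] using ev_mem_Oprim (x := x) (y := y) (MvPolynomial.X 1)
  · intro p _
    exact ⟨1, MvPolynomial.X 1, not_dvd_X p 1, by simp [ev]⟩

omit [Algebra ℚ L] in
theorem tu_mem_Oprim (i j : ℤ) (a b : Bool) : ((tu x i a * tu y j b : Lˣ) : L) ∈ Oprim x y := by
  cases a <;> cases b
  · simpa using one_mem (Oprim x y)
  · simpa using unit_mem_Oprim (x := x) (y := y) 0 j
  · simpa using unit_mem_Oprim (x := x) (y := y) i 0
  · exact unit_mem_Oprim i j

omit [Algebra ℚ L] in
theorem chartRing_le_Oprim (a b : Bool) {q : L} (hq : q ∈ PSh.chartRing ℤ x y a b) :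
    q ∈ Oprim x y := by
  induction hq using Algebra.adjoin_induction with
  | mem q hq =>
    rcases hq with rfl | rfl
    · cases a
      · simpa using unit_mem_Oprim (x := x) (y := y) 1 0
      · simpa using unit_mem_Oprim (x := x) (y := y) (-1) 0
    · cases b
      · simpa using unit_mem_Oprim (x := x) (y := y) 0 1
      · simpa using unit_mem_Oprim (x := x) (y := y) 0 (-1)
  | algebraMap n => rw [eq_intCast]; exact intCast_mem _ n
  | add q q' _ _ ih ih' => exact add_mem ih ih'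
  | mul q q' _ _ ih ih' => exact mul_mem ih ih'

/-- content and primitive part -/
theorem exists_primitive {b : P0} (hb : b ≠ 0) :
    ∃ (m : ℕ) (b0 : P0), 0 < m ∧ b = m * b0 ∧ ∀ (p : ℕ) [Fact p.Prime], ¬ (p : P0) ∣ b0 := by
  obtain ⟨d, hd⟩ := MvPolynomial.ne_zero_iff.1 hb
  induction hn : (b.coeff d).natAbs using Nat.strong_induction_on generalizing b with
  | _ n ih =>
    by_cases h : ∃ (p : ℕ) (_ : Fact p.Prime), (p : P0) ∣ b
    · obtain ⟨p, hp, b', rfl⟩ := h
      have e : ((p : P0) * b').coeff d = p * b'.coeff d := by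
        rw [← MvPolynomial.coeff_C_mul]; simp
      have hd' : b'.coeff d ≠ 0 := fun h0 => hd (by rw [e, h0, mul_zero])
      have hlt : (b'.coeff d).natAbs < n := by
        rw [← hn, e, Int.natAbs_mul, Int.natAbs_natCast]
        exact lt_mul_of_one_lt_left (Int.natAbs_pos.2 hd') hp.out.one_lt
      obtain ⟨m, b0, hm, rfl, h0⟩ := ih _ hlt (fun h0 => hd' (by simp [h0])) hd' rfl
      exact ⟨p * m, b0, mul_pos hp.out.pos hm, by push_cast; ring, h0⟩
    · exact ⟨1, b, one_pos, by simp, fun p hp hd => h ⟨p, hp, hd⟩⟩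

theorem exists_frac (hc : IsCoord ℚ x y) (q : L) :
    ∃ a b : P0, b ≠ 0 ∧ q * ev x y b = ev x y a := by
  obtain ⟨b, hb, hb0, hq⟩ := hc.int.frac q
  obtain ⟨b, rfl⟩ := mem_adjoin_iff_ev.1 hb
  obtain ⟨a, ha⟩ := mem_adjoin_iff_ev.1 hq
  exact ⟨a, b, fun h => hb0 (by rw [h, map_zero]), ha.symm⟩

theorem exists_nat_mul_mem (hc : IsCoord ℚ x y) (q : L) :
    ∃ m : ℕ, 0 < m ∧ (m : L) * q ∈ Oprim x y := by
  obtain ⟨a, b, hb, h⟩ := exists_frac hc q
  obtain ⟨m, b0, hm, rfl, h0⟩ := exists_primitive hb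
  refine ⟨m, hm, fun p _ => ⟨a, b0, h0 p, ?_⟩⟩
  rw [← h, map_mul, map_natCast]; ring

/-- every nonzero rational function is a unit at all primes up to a rational factor -/
theorem exists_prim (hc : IsCoord ℚ x y) {q : L} (hq : q ≠ 0) :
    ∃ c : ℚ, c ≠ 0 ∧ c • q ∈ Oprim x y ∧ (c • q)⁻¹ ∈ Oprim x y := by
  have : CharZero L := algebraRat.charZero L
  obtain ⟨a, b, hb, h⟩ := exists_frac hc q
  have ha : a ≠ 0 := by
    rintro rfl
    rw [map_zero, mul_eq_zero] at h
    exact h.elim hq fun h => hb (ev_injective hc (h.trans (map_zero _).symm))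
  obtain ⟨m, b0, hm, rfl, h0⟩ := exists_primitive hb
  obtain ⟨m', a0, hm', rfl, h0'⟩ := exists_primitive ha
  have hm0 : (m : L) ≠ 0 := Nat.cast_ne_zero.2 hm.ne'
  have hm0' : (m' : L) ≠ 0 := Nat.cast_ne_zero.2 hm'.ne'
  have key : ((m : ℚ) / m') • q * ev x y b0 = ev x y a0 := by
    rw [map_mul, map_mul, map_natCast, map_natCast] at h
    rw [Algebra.smul_def, eq_ratCast, Rat.cast_div, Rat.cast_natCast, Rat.cast_natCast]
    field_simp
    linear_combination h
  have hc0 : (m : ℚ) / m' ≠ 0 :=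
    div_ne_zero (Nat.cast_ne_zero.2 hm.ne') (Nat.cast_ne_zero.2 hm'.ne')
  refine ⟨(m : ℚ) / m', hc0, fun p _ => ⟨a0, b0, h0 p, key⟩, fun p _ => ⟨b0, a0, h0' p, ?_⟩⟩
  rw [← key, inv_mul_cancel_left₀ (smul_ne_zero hc0 hq)]

/-- Gauss lemma -/
theorem mem_chartRing_int (hc : IsCoord ℚ x y) (a b : Bool) {q : L}
    (hq : q ∈ PSh.chartRing ℚ x y a b) (h : q ∈ Oprim x y) : q ∈ PSh.chartRing ℤ x y a b := by
  have : CharZero L := algebraRat.charZero L
  obtain ⟨m, hm, hA⟩ := exists_nat_mul_mem_adjoin hq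
  induction m using Nat.strong_induction_on with
  | _ m ih =>
    by_cases h1 : m = 1
    · simpa [h1] using hA
    obtain ⟨p, hp, m', rfl⟩ := Nat.exists_prime_and_dvd h1
    have : Fact p.Prime := ⟨hp⟩
    have hp0 : (p : L) ≠ 0 := Nat.cast_ne_zero.2 hp.ne_zero
    have hm' : 0 < m' := Nat.pos_of_mul_pos_left hm
    refine ih m' (lt_mul_of_one_lt_left hm' hp.one_lt) hm' ?_
    have hx : (x : L) ∈ Algebra.adjoin ℤ {(x : L), (y : L)} := Algebra.subset_adjoin (Or.inl rfl)
    have hy : (y : L) ∈ Algebra.adjoin ℤ {(x : L), (y : L)} := Algebra.subset_adjoin (Or.inr rfl)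
    have hξ : ((cs x a : Lˣ) : L) ∈ PSh.chartRing ℤ x y a b := Algebra.subset_adjoin (Or.inl rfl)
    have hη : ((cs y b : Lˣ) : L) ∈ PSh.chartRing ℤ x y a b := Algebra.subset_adjoin (Or.inr rfl)
    obtain ⟨N, hN⟩ := SA.exists_pow_mul_mem (mul_mem hx hy) (by
      rintro _ (rfl | rfl)
      · cases a
        · exact ⟨0, by simpa using hx⟩
        · exact ⟨1, by simpa [mul_right_comm (x : L) y] using hy⟩
      · cases b
        · exact ⟨0, by simpa using hy⟩
        · exact ⟨1, by simpa using hx⟩) hA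
    obtain ⟨A', hA'⟩ := mem_adjoin_iff_ev.1 hN
    obtain ⟨a', b', hb', h'⟩ : ((x : L) * y) ^ N * (m' * q) ∈ OO p x y :=
      mul_mem (chartRing_le_Oprim false false (pow_mem (mul_mem hx hy) N) p)
        (mul_mem (natCast_mem _ _) (h p))
    have e1 : A' * b' = p * a' := by
      apply ev_injective hc
      rw [map_mul, map_mul, map_natCast, hA', ← h']; push_cast; ring
    obtain ⟨A2, rfl⟩ := ((prime_natCast_P0 p).dvd_or_dvd ⟨a', e1⟩).resolve_right hb'
    have e2 : (m' : L) * q = ev x y A2 * ((x : L)⁻¹ * (y : L)⁻¹) ^ N := by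
      rw [map_mul, map_natCast] at hA'
      have : ev x y A2 = ((x : L) * y) ^ N * (m' * q) := by
        apply mul_left_cancel₀ hp0
        rw [hA']; push_cast; ring
      rw [this, ← mul_inv, inv_pow, mul_right_comm, mul_inv_cancel₀ (by simp), one_mul]
    have m1 : (m' : L) * q ∈ Algebra.adjoin ℤ {(x : L), (y : L), (x : L)⁻¹, (y : L)⁻¹} := by
      rw [e2]
      refine mul_mem (Algebra.adjoin_mono ?_ (mem_adjoin_iff_ev.2 ⟨A2, rfl⟩))
        (pow_mem (mul_mem (Algebra.subset_adjoin (by simp)) (Algebra.subset_adjoin (by simp))) N)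
      rintro _ (rfl | rfl) <;> simp
    obtain ⟨N', hN'⟩ := SA.exists_pow_mul_mem (mul_mem hξ hη) (by
      rintro _ (rfl | rfl | rfl | rfl)
      · cases a
        · exact ⟨0, by simpa using hξ⟩
        · exact ⟨1, by simpa [mul_right_comm] using hη⟩
      · cases b
        · exact ⟨0, by simpa using hη⟩
        · exact ⟨1, by simpa using hξ⟩
      · cases a
        · exact ⟨1, by simpa [mul_right_comm] using hη⟩
        · exact ⟨0, by simpa using hξ⟩
      · cases b
        · exact ⟨1, by simpa using hξ⟩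
        · exact ⟨0, by simpa using hη⟩) m1
    obtain ⟨A3, hA3⟩ := mem_adjoin_iff_ev.1 hN'
    obtain ⟨A, hA0⟩ := mem_adjoin_iff_ev.1 hA
    have e3 : A * (MvPolynomial.X 0 * MvPolynomial.X 1) ^ N' = (p : P0) * A3 := by
      apply ev_injective (hc.chart a b)
      rw [map_mul, map_mul, map_natCast, hA3, hA0, map_pow, map_mul]
      simp only [ev, MvPolynomial.coe_eval₂Hom, MvPolynomial.eval₂_X, Matrix.cons_val_zero,
        Matrix.cons_val_one]
      push_cast; ring
    obtain ⟨A4, rfl⟩ := ((prime_natCast_P0 p).dvd_or_dvd ⟨A3, e3⟩).resolve_right fun hd =>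
      ((prime_natCast_P0 p).dvd_or_dvd ((prime_natCast_P0 p).dvd_of_dvd_pow hd)).elim
        (not_dvd_X p 0) (not_dvd_X p 1)
    refine mem_adjoin_iff_ev.2 ⟨A4, mul_left_cancel₀ hp0 ?_⟩
    rw [map_mul, map_natCast] at hA0
    rw [hA0]; push_cast; ring

variable {p : ℕ} [Fact p.Prime]

theorem inv_natCast_mem_OO {m : ℕ} (hm : ¬ p ∣ m) : (m : L)⁻¹ ∈ OO p x y := by
  have : CharZero L := algebraRat.charZero L
  have hm0 : (m : L) ≠ 0 := Nat.cast_ne_zero.2 fun h => hm (h ▸ dvd_zero _)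
  refine ⟨1, m, ?_, by simp [hm0]⟩
  rw [natCast_dvd_iff]
  intro hd
  have := hd 0
  rw [← MvPolynomial.C_eq_coe_nat, MvPolynomial.coeff_zero_C, Int.natCast_dvd_natCast] at this
  exact hm this

theorem mem_Oprim_of_mul {q : L} (hq : q ∈ OO p x y) (h : (p : L) * q ∈ Oprim x y) :
    q ∈ Oprim x y := by
  have : CharZero L := algebraRat.charZero L
  have hp0 : (p : L) ≠ 0 := Nat.cast_ne_zero.2 (Fact.out : p.Prime).ne_zero
  intro l hl
  by_cases hlp : l = p
  · subst hlp; exact hq
  · rw [← inv_mul_cancel_left₀ hp0 q]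
    exact mul_mem (inv_natCast_mem_OO fun hd =>
      hlp ((Nat.prime_dvd_prime_iff_eq hl.out Fact.out).1 hd)) (h l)

variable {L' : Type} [Field L'] [Algebra (ZMod p) L'] {x' y' : L'ˣ}

theorem ev_eq_zero_iff (hc' : IsCoord (ZMod p) x' y') (a : P0) :
    ev x' y' a = 0 ↔ (p : P0) ∣ a := by
  have hinj : Function.Injective
      (MvPolynomial.aeval ![(x' : L'), (y' : L')] : MvPolynomial (Fin 2) (ZMod p) →ₐ[ZMod p] L') := by
    rw [injective_iff_map_eq_zero]
    intro f hf
    have hli : LinearIndependent (ZMod p)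
        (fun d : Fin 2 →₀ ℕ => (x' : L') ^ d 0 * (y' : L') ^ d 1) := by
      have := hc'.indep.comp (fun d : Fin 2 →₀ ℕ => ((d 0 : ℤ), (d 1 : ℤ))) (by
        intro d d' h
        simp only [Prod.mk.injEq, Nat.cast_inj] at h
        ext i
        fin_cases i
        · exact h.1
        · exact h.2)
      simpa [Function.comp_def] using this
    rw [MvPolynomial.aeval_def, MvPolynomial.eval₂_eq'] at hf
    simp only [Fin.prod_univ_two, Matrix.cons_val_zero, Matrix.cons_val_one,
      ← Algebra.smul_def] at hf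
    ext d
    by_cases hd : d ∈ f.support
    · exact linearIndependent_iff'.1 hli _ _ hf d hd
    · simpa using hd
  have h1 : ev x' y' a = MvPolynomial.aeval ![(x' : L'), (y' : L')]
      (MvPolynomial.map (Int.castRingHom (ZMod p)) a) := by
    rw [MvPolynomial.aeval_def, MvPolynomial.eval₂_map, ev, MvPolynomial.coe_eval₂Hom]
    congr 1
    exact RingHom.ext_int _ _
  rw [h1, map_eq_zero_iff _ hinj, ← MvPolynomial.C_dvd_iff_zmod]
  simp

theorem red_spec (hc : IsCoord ℚ x y) (hc' : IsCoord (ZMod p) x' y') {q : L} {a b : P0}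
    (hb : ¬ (p : P0) ∣ b) (h : q * ev x y b = ev x y a) :
    red p x y x' y' q * ev x' y' b = ev x' y' a := by
  have hq : q ∈ OO p x y := ⟨a, b, hb, h⟩
  have h1 := hq.choose_spec.choose_spec
  have h2 : a * hq.choose_spec.choose = hq.choose * b := by
    apply ev_injective hc
    rw [map_mul, map_mul]
    linear_combination ev x y b * h1.2 - ev x y hq.choose_spec.choose * h
  have h3 : ev x' y' hq.choose_spec.choose ≠ 0 := fun h0 => h1.1 ((ev_eq_zero_iff hc' _).1 h0)
  rw [red, dif_pos hq, div_mul_eq_mul_div, div_eq_iff h3, ← map_mul, ← map_mul, h2]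

theorem red_add (hc : IsCoord ℚ x y) (hc' : IsCoord (ZMod p) x' y') {q q' : L}
    (hq : q ∈ OO p x y) (hq' : q' ∈ OO p x y) :
    red p x y x' y' (q + q') = red p x y x' y' q + red p x y x' y' q' := by
  obtain ⟨a, b, hb, h⟩ := hq
  obtain ⟨a', b', hb', h'⟩ := hq'
  have hbb : ¬ (p : P0) ∣ b * b' := fun hd => ((prime_natCast_P0 p).dvd_or_dvd hd).elim hb hb'
  have h0 : ev x' y' (b * b') ≠ 0 := fun h0 => hbb ((ev_eq_zero_iff hc' _).1 h0)
  have h1 := red_spec hc hc' (q := q + q') (a := a * b' + a' * b) hbb (by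
    rw [map_add, map_mul, map_mul, map_mul, ← h, ← h']; ring)
  apply mul_right_cancel₀ h0
  rw [h1, map_add, map_mul, map_mul, map_mul, ← red_spec hc hc' hb h, ← red_spec hc hc' hb' h']
  ring

theorem red_mul (hc : IsCoord ℚ x y) (hc' : IsCoord (ZMod p) x' y') {q q' : L}
    (hq : q ∈ OO p x y) (hq' : q' ∈ OO p x y) :
    red p x y x' y' (q * q') = red p x y x' y' q * red p x y x' y' q' := by
  obtain ⟨a, b, hb, h⟩ := hq
  obtain ⟨a', b', hb', h'⟩ := hq'
  have hbb : ¬ (p : P0) ∣ b * b' := fun hd => ((prime_natCast_P0 p).dvd_or_dvd hd).elim hb hb'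
  have h0 : ev x' y' (b * b') ≠ 0 := fun h0 => hbb ((ev_eq_zero_iff hc' _).1 h0)
  have h1 := red_spec hc hc' (q := q * q') (a := a * a') hbb (by
    rw [map_mul, map_mul, ← h, ← h']; ring)
  apply mul_right_cancel₀ h0
  rw [h1, map_mul, map_mul, ← red_spec hc hc' hb h, ← red_spec hc hc' hb' h']
  ring

theorem red_ev (hc : IsCoord ℚ x y) (hc' : IsCoord (ZMod p) x' y') (a : P0) :
    red p x y x' y' (ev x y a) = ev x' y' a := by
  have := red_spec hc hc' (q := ev x y a) (a := a) (b := 1)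
    (fun hd => (prime_natCast_P0 p).not_unit (isUnit_of_dvd_one hd)) (by simp)
  simpa using this

/-- reduction as a ring homomorphism -/
noncomputable def redH (hc : IsCoord ℚ x y) (hc' : IsCoord (ZMod p) x' y') : OO p x y →+* L' where
  toFun q := red p x y x' y' q
  map_one' := by simpa using red_ev hc hc' 1
  map_mul' q q' := red_mul hc hc' q.2 q'.2
  map_zero' := by simpa using red_ev hc hc' 0
  map_add' q q' := red_add hc hc' q.2 q'.2

theorem red_unit (hc : IsCoord ℚ x y) (hc' : IsCoord (ZMod p) x' y') (i j : ℤ) :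
    red p x y x' y' ((x ^ i * y ^ j : Lˣ) : L) = ((x' ^ i * y' ^ j : L'ˣ) : L') := by
  have hx : red p x y x' y' (x : L) = x' := by simpa [ev] using red_ev hc hc' (MvPolynomial.X 0)
  have hy : red p x y x' y' (y : L) = y' := by simpa [ev] using red_ev hc hc' (MvPolynomial.X 1)
  have mem : ∀ i j : ℤ, ((x ^ i * y ^ j : Lˣ) : L) ∈ OO p x y := fun i j => unit_mem_Oprim i j p
  let ux : (OO p x y)ˣ := ⟨⟨x, by simpa using mem 1 0⟩, ⟨(x⁻¹ : Lˣ), by simpa using mem (-1) 0⟩,
    Subtype.ext (by simp), Subtype.ext (by simp)⟩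
  let uy : (OO p x y)ˣ := ⟨⟨y, by simpa using mem 0 1⟩, ⟨(y⁻¹ : Lˣ), by simpa using mem 0 (-1)⟩,
    Subtype.ext (by simp), Subtype.ext (by simp)⟩
  have e1 : Units.map ((OO p x y).subtype : OO p x y →* L) (ux ^ i * uy ^ j) = x ^ i * y ^ j := by
    rw [map_mul, map_zpow, map_zpow]; rfl
  have e2 : Units.map (redH hc hc' : OO p x y →* L') (ux ^ i * uy ^ j) = x' ^ i * y' ^ j := by
    rw [map_mul, map_zpow, map_zpow]
    congr 2
    · exact Units.ext hx
    · exact Units.ext hy
  rw [← e1, ← e2]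
  rfl

theorem red_tu (hc : IsCoord ℚ x y) (hc' : IsCoord (ZMod p) x' y') (i j : ℤ) (a b : Bool) :
    red p x y x' y' ((tu x i a * tu y j b : Lˣ) : L) =
      ((tu x' i a * tu y' j b : L'ˣ) : L') := by
  cases a <;> cases b
  · simpa using red_unit hc hc' 0 0
  · simpa using red_unit hc hc' 0 j
  · simpa using red_unit hc hc' i 0
  · exact red_unit hc hc' i j

theorem red_intCast (hc : IsCoord ℚ x y) (hc' : IsCoord (ZMod p) x' y') (n : ℤ) :
    red p x y x' y' (n : L) = (n : L') := by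
  have := red_ev hc hc' (n : P0)
  rwa [map_intCast, map_intCast] at this

theorem red_eq_zero_iff (hc : IsCoord ℚ x y) (hc' : IsCoord (ZMod p) x' y') {q : L}
    (hq : q ∈ OO p x y) : red p x y x' y' q = 0 ↔ ∃ q' ∈ OO p x y, q = p * q' := by
  constructor
  · intro h0
    obtain ⟨a, b, hb, h⟩ := hq
    have h1 := red_spec hc hc' hb h
    rw [h0, zero_mul] at h1
    obtain ⟨a', rfl⟩ := (ev_eq_zero_iff hc' a).1 h1.symm
    have hb0 : ev x y b ≠ 0 := fun h0 => hb (by
      rw [ev_injective hc (h0.trans (map_zero _).symm)]; exact dvd_zero _)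
    refine ⟨ev x y a' / ev x y b, ⟨a', b, hb, div_mul_cancel₀ _ hb0⟩, ?_⟩
    rw [map_mul, map_natCast] at h
    rw [← mul_div_assoc, eq_div_iff hb0, h]
  · rintro ⟨q', hq', rfl⟩
    have hp : (p : L') = 0 := by
      rw [← map_natCast (algebraMap (ZMod p) L'), ZMod.natCast_self, map_zero]
    have h1 := red_intCast hc hc' (p : ℤ)
    rw [Int.cast_natCast, Int.cast_natCast, hp] at h1
    rw [red_mul hc hc' (natCast_mem _ p) hq', h1, zero_mul]

theorem inv_mem_OO (hc : IsCoord ℚ x y) (hc' : IsCoord (ZMod p) x' y') {q : L}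
    (hq : q ∈ OO p x y) (h : red p x y x' y' q ≠ 0) :
    q⁻¹ ∈ OO p x y ∧ red p x y x' y' q⁻¹ = (red p x y x' y' q)⁻¹ := by
  obtain ⟨a, b, hb, hab⟩ := hq
  have h1 := red_spec hc hc' hb hab
  have hb' : ev x' y' b ≠ 0 := fun h0 => hb ((ev_eq_zero_iff hc' _).1 h0)
  have ha' : ev x' y' a ≠ 0 := h1 ▸ mul_ne_zero h hb'
  have ha : ¬ (p : P0) ∣ a := fun hd => ha' ((ev_eq_zero_iff hc' _).2 hd)
  have hq0 : q ≠ 0 := by
    rintro rfl
    exact h (by simpa using red_intCast hc hc' 0)
  have h2 : q⁻¹ * ev x y a = ev x y b := by rw [← hab, inv_mul_cancel_left₀ hq0]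
  refine ⟨⟨b, a, ha, h2⟩, ?_⟩
  have h3 := red_spec hc hc' ha h2
  apply mul_right_cancel₀ ha'
  rw [h3, ← h1, inv_mul_cancel_left₀ h]

theorem red_chartRing (hc : IsCoord ℚ x y) (hc' : IsCoord (ZMod p) x' y') (a b : Bool) {q : L}
    (hq : q ∈ PSh.chartRing ℤ x y a b) :
    red p x y x' y' q ∈ PSh.chartRing (ZMod p) x' y' a b := by
  induction hq using Algebra.adjoin_induction with
  | mem q hq =>
    rcases hq with rfl | rfl
    · refine Algebra.subset_adjoin (Or.inl ?_)
      cases a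
      · simpa using red_unit hc hc' 1 0
      · simpa using red_unit hc hc' (-1) 0
    · refine Algebra.subset_adjoin (Or.inr ?_)
      cases b
      · simpa using red_unit hc hc' 0 1
      · simpa using red_unit hc hc' 0 (-1)
  | algebraMap n =>
    rw [eq_intCast, red_intCast hc hc']
    exact intCast_mem _ n
  | add q q' hq hq' ih ih' =>
    rw [red_add hc hc' (chartRing_le_Oprim a b hq p) (chartRing_le_Oprim a b hq' p)]
    exact add_mem ih ih'
  | mul q q' hq hq' ih ih' =>
    rw [red_mul hc hc' (chartRing_le_Oprim a b hq p) (chartRing_le_Oprim a b hq' p)]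
    exact mul_mem ih ih'

section vec
variable {V : Type} [AddCommGroup V] [Module L V] {ρ : ℕ} {bs : Module.Basis (Fin ρ) L V}

omit [Algebra ℚ L] in
theorem smul_mem_latt {O : Subring L} {q : L} (hq : q ∈ O) {v : V} (hv : v ∈ latt O bs) :
    q • v ∈ latt O bs := by
  intro s
  rw [map_smul, Finsupp.smul_apply, smul_eq_mul]
  exact O.mul_mem hq (hv s)

omit [Algebra ℚ L] in
theorem latt_prim_le : latt (Oprim x y) bs ≤ latt (OO p x y) bs := by
  intro v hv s
  exact hv s p

theorem exists_nat_smul_mem_latt (hc : IsCoord ℚ x y) (v : V) :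
    ∃ m : ℕ, 0 < m ∧ (m : ℤ) • v ∈ latt (Oprim x y) bs := by
  choose m hm h using fun s => exists_nat_mul_mem hc (bs.repr v s)
  refine ⟨∏ s, m s, Finset.prod_pos fun s _ => hm s, fun s => ?_⟩
  rw [map_zsmul, Finsupp.smul_apply, zsmul_eq_mul, Int.cast_natCast,
    ← Finset.prod_erase_mul _ _ (Finset.mem_univ s), Nat.cast_mul, mul_assoc]
  exact (Oprim x y).mul_mem (natCast_mem _ _) (h s)

theorem rv_add (hc : IsCoord ℚ x y) (hc' : IsCoord (ZMod p) x' y') {u v : V}
    (hu : u ∈ latt (OO p x y) bs) (hv : v ∈ latt (OO p x y) bs) :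
    rv p x y x' y' bs (u + v) = rv p x y x' y' bs u + rv p x y x' y' bs v := by
  funext s
  simp only [rv, map_add, Finsupp.add_apply, Pi.add_apply]
  exact red_add hc hc' (hu s) (hv s)

theorem rv_sub (hc : IsCoord ℚ x y) (hc' : IsCoord (ZMod p) x' y') {u v : V}
    (hu : u ∈ latt (OO p x y) bs) (hv : v ∈ latt (OO p x y) bs) :
    rv p x y x' y' bs (u - v) = rv p x y x' y' bs u - rv p x y x' y' bs v := by
  funext s
  simp only [rv, map_sub, Finsupp.sub_apply, Pi.sub_apply]
  exact map_sub (redH hc hc') ⟨_, hu s⟩ ⟨_, hv s⟩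

theorem rv_smul (hc : IsCoord ℚ x y) (hc' : IsCoord (ZMod p) x' y') {q : L} (hq : q ∈ OO p x y)
    {v : V} (hv : v ∈ latt (OO p x y) bs) :
    rv p x y x' y' bs (q • v) = red p x y x' y' q • rv p x y x' y' bs v := by
  funext s
  simp only [rv, map_smul, Finsupp.smul_apply, Pi.smul_apply, smul_eq_mul]
  exact red_mul hc hc' hq (hv s)

theorem rv_zsmul (hc : IsCoord ℚ x y) (hc' : IsCoord (ZMod p) x' y') (n : ℤ)
    {v : V} (hv : v ∈ latt (OO p x y) bs) :
    rv p x y x' y' bs (n • v) = n • rv p x y x' y' bs v := by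
  rw [← Int.cast_smul_eq_zsmul L, rv_smul hc hc' (intCast_mem _ n) hv, red_intCast hc hc',
    Int.cast_smul_eq_zsmul]

theorem rv_sum (hc : IsCoord ℚ x y) (hc' : IsCoord (ZMod p) x' y') {ι : Type} (s : Finset ι)
    {v : ι → V} (hv : ∀ i ∈ s, v i ∈ latt (OO p x y) bs) :
    rv p x y x' y' bs (∑ i ∈ s, v i) = ∑ i ∈ s, rv p x y x' y' bs (v i) := by
  classical
  induction s using Finset.induction_on with
  | empty => simpa using rv_zsmul hc hc' (bs := bs) 0 (Submodule.zero_mem _)
  | insert i s hi ih =>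
    rw [Finset.sum_insert hi, Finset.sum_insert hi,
      rv_add hc hc' (hv i (Finset.mem_insert_self _ _))
        (Submodule.sum_mem _ fun j hj => hv j (Finset.mem_insert_of_mem hj)),
      ih fun j hj => hv j (Finset.mem_insert_of_mem hj)]

theorem rv_eq_zero_iff (hc : IsCoord ℚ x y) (hc' : IsCoord (ZMod p) x' y') {v : V}
    (hv : v ∈ latt (Oprim x y) bs) :
    rv p x y x' y' bs v = 0 ↔ ∃ u ∈ latt (Oprim x y) bs, v = (p : ℤ) • u := by
  have : CharZero L := algebraRat.charZero L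
  have hp0 : (p : L) ≠ 0 := Nat.cast_ne_zero.2 (Fact.out : p.Prime).ne_zero
  constructor
  · intro h
    refine ⟨(p : L)⁻¹ • v, fun s => ?_, ?_⟩
    · obtain ⟨q', hq', h1⟩ := (red_eq_zero_iff hc hc' (hv s p)).1 (congrFun h s)
      rw [map_smul, Finsupp.smul_apply, smul_eq_mul, h1, inv_mul_cancel_left₀ hp0]
      exact mem_Oprim_of_mul hq' (h1 ▸ hv s)
    · rw [← Int.cast_smul_eq_zsmul L, Int.cast_natCast, smul_inv_smul₀ hp0]
  · rintro ⟨u, hu, rfl⟩
    rw [rv_zsmul hc hc' _ (latt_prim_le hu), ← Int.cast_smul_eq_zsmul L', Int.cast_natCast,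
      ← map_natCast (algebraMap (ZMod p) L'), ZMod.natCast_self, map_zero, zero_smul]

end vec

end Vale.Agent.P190
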