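import Vale.Agent.P190.Red1

/-! Reduction modulo a prime of a sheaf on the product of two lines. -/

namespace Vale.Agent.P190

variable {L : Type} [Field L] [Algebra ℚ L] {x y : Lˣ}
  {V : Type} [AddCommGroup V] [Module L V] [Module ℚ V] [IsScalarTower ℚ L V] {ρ : ℕ}

namespace PSh

/-- the integral model -/
def EZ (N : PSh ℚ x y V) (bs : Module.Basis (Fin ρ) L V) : PSh ℤ x y V where
  ch a b := (N.ch a b).restrictScalars ℤ ⊓ latt (Oprim x y) bs
  smul_x a b v hv := ⟨N.smul_x a b v hv.1, smul_mem_latt (chartRing_le_Oprim a b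
    (Algebra.subset_adjoin (Or.inl rfl))) hv.2⟩
  smul_y a b v hv := ⟨N.smul_y a b v hv.1, smul_mem_latt (chartRing_le_Oprim a b
    (Algebra.subset_adjoin (Or.inr rfl))) hv.2⟩
  glue_x a b v hv := by
    obtain ⟨n, hn⟩ := N.glue_x a b v hv.1
    exact ⟨n, hn, pow_smul_mem (fun v hv => smul_mem_latt (chartRing_le_Oprim (!a) b
      (Algebra.subset_adjoin (Or.inl rfl))) hv) n hv.2⟩
  glue_y a b v hv := by
    obtain ⟨n, hn⟩ := N.glue_y a b v hv.1
    exact ⟨n, hn, pow_smul_mem (fun v hv => smul_mem_latt (chartRing_le_Oprim a (!b)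
      (Algebra.subset_adjoin (Or.inr rfl))) hv) n hv.2⟩

theorem mem_EZ {N : PSh ℚ x y V} {bs : Module.Basis (Fin ρ) L V} {a b : Bool} {v : V} :
    v ∈ (N.EZ bs).ch a b ↔ v ∈ N.ch a b ∧ v ∈ latt (Oprim x y) bs := Iff.rfl

theorem EZ_tw (N : PSh ℚ x y V) (bs : Module.Basis (Fin ρ) L V) (i j : ℤ) :
    (N.EZ bs).tw i j = (N.tw i j).EZ bs := by
  ext a b v
  change (_ ∧ _) ↔ (_ ∧ _)
  refine and_congr Iff.rfl ⟨fun h => ?_, fun h => ?_⟩
  · have := smul_mem_latt (tu_mem_Oprim i j a b) h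
    rwa [← Units.smul_def, smul_inv_smul] at this
  · have := smul_mem_latt (tu_mem_Oprim (-i) (-j) a b) h
    rwa [← Units.smul_def, tu_neg, tu_neg, ← mul_inv] at this

/-- a bound for the integral model with a denominator that is a unit at every prime -/
theorem EZ_bound (hc : IsCoord ℚ x y) {N : PSh ℚ x y V} (hN : N.FG)
    (bs : Module.Basis (Fin ρ) L V) :
    ∃ (n : ℕ) (D : L), D ≠ 0 ∧ D ∈ Oprim x y ∧ D⁻¹ ∈ Oprim x y ∧
      ∀ a b, ∀ v ∈ (N.EZ bs).ch a b, ∀ s, ∃ c ∈ chartRing ℤ x y a b,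
        D * bs.repr v s = ((tu x n a * tu y n b : Lˣ) : L) * c := by
  obtain ⟨n, r, e, -, h⟩ := hN.exists_bound hc
  obtain ⟨D0, -, hD0, hD⟩ := SA.exists_common_den Finset.univ
    (fun q : Fin r × Fin ρ => bs.repr (e q.1) q.2) fun q _ => hc.frac _
  obtain ⟨n', hn⟩ := (Filter.eventually_all.2 fun q => Filter.eventually_all.2 fun a =>
    Filter.eventually_all.2 fun b => SA.eventually_chart (hD q (Finset.mem_univ q)) a b).exists
  obtain ⟨c0, hc0, h1, h2⟩ := exists_prim hc hD0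
  refine ⟨n + n', c0 • D0, smul_ne_zero hc0 hD0, h1, h2, fun a b v hv s => ?_⟩
  refine ⟨(((tu x (n + n' : ℕ) a * tu y (n + n' : ℕ) b)⁻¹ : Lˣ) : L) * (c0 • D0 * bs.repr v s),
    mem_chartRing_int hc a b ?_ ?_, by rw [Units.mul_inv_cancel_left]⟩
  · obtain ⟨c, hc1, hc2⟩ := h a b v hv.1
    have e1 : (((tu x (n + n' : ℕ) a * tu y (n + n' : ℕ) b)⁻¹ : Lˣ) : L) * (c0 • D0 * bs.repr v s)
        = c0 • ∑ t, c t * ((((tu x n' a * tu y n' b)⁻¹ : Lˣ) : L) * (bs.repr (e t) s * D0)) := by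
      rw [hc2, Units.smul_def, map_smul, map_sum, Finsupp.smul_apply, Finsupp.finset_sum_apply,
        Nat.cast_add, tu_add, tu_add, mul_mul_mul_comm, mul_inv, Units.val_mul, smul_mul_assoc,
        mul_smul_comm, smul_eq_mul, Finset.mul_sum, Finset.mul_sum, Finset.mul_sum]
      congr 1
      refine Finset.sum_congr rfl fun t _ => ?_
      rw [map_smul, Finsupp.smul_apply, smul_eq_mul]
      have := (tu x n a * tu y n b).inv_mul
      linear_combination (c t * ((((tu x n' a * tu y n' b)⁻¹ : Lˣ) : L) *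
        (bs.repr (e t) s * D0))) * this
    rw [e1]
    exact Subalgebra.smul_mem _ (Subalgebra.sum_mem _ fun t _ =>
      Subalgebra.mul_mem _ (hc1 t) (hn (t, s) a b)) _
  · refine Subring.mul_mem _ ?_ (Subring.mul_mem _ h1 (hv.2 s))
    have := tu_mem_Oprim (x := x) (y := y) (-((n + n' : ℕ) : ℤ)) (-((n + n' : ℕ) : ℤ)) a b
    rwa [tu_neg, tu_neg, ← mul_inv] at this

theorem FG_of_bound {B L V : Type} [CommRing B] [Field L] [Algebra B L] {x y : Lˣ} [AddCommGroup V]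
    [Module L V] [Module B V] [IsScalarTower B L V] (E : PSh B x y V)
    (bs : Module.Basis (Fin ρ) L V) (n : ℕ) {D : L} (hD : D ≠ 0)
    (h : ∀ a b, ∀ v ∈ E.ch a b, ∀ s, ∃ c ∈ chartRing B x y a b,
      D * bs.repr v s = ((tu x n a * tu y n b : Lˣ) : L) * c) : E.FG := by
  classical
  intro a b
  refine ⟨Finset.univ.image fun s => (D⁻¹ * ((tu x n a * tu y n b : Lˣ) : L)) • bs s,
    fun v hv => ?_⟩
  rw [← bs.sum_repr v]
  refine Submodule.sum_mem _ fun s _ => ?_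
  obtain ⟨c, hc, e⟩ := h a b v hv s
  have e2 : bs.repr v s = c * (D⁻¹ * ((tu x n a * tu y n b : Lˣ) : L)) := by
    rw [mul_comm c, mul_assoc, ← e, inv_mul_cancel_left₀ hD]
  rw [e2, mul_smul]
  exact Submodule.smul_mem _ (⟨c, hc⟩ : chartRing B x y a b) (Submodule.subset_span
    (Finset.mem_coe.2 (Finset.mem_image_of_mem _ (Finset.mem_univ s))))

theorem EZ_FG (hc : IsCoord ℚ x y) {N : PSh ℚ x y V} (hN : N.FG)
    (bs : Module.Basis (Fin ρ) L V) : (N.EZ bs).FG := by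
  obtain ⟨n, D, hD, -, -, h⟩ := EZ_bound hc hN bs
  exact FG_of_bound _ bs n hD h

variable {p : ℕ} [Fact p.Prime] {L' : Type} [Field L'] [Algebra (ZMod p) L'] {x' y' : L'ˣ}

theorem rv_cs_pow (hc : IsCoord ℚ x y) (hc' : IsCoord (ZMod p) x' y')
    {bs : Module.Basis (Fin ρ) L V} (a b : Bool) (m n : ℕ) {v : V}
    (hv : v ∈ latt (Oprim x y) bs) :
    rv p x y x' y' bs ((cs x a ^ m * cs y b ^ n) • v) =
      (cs x' a ^ m * cs y' b ^ n) • rv p x y x' y' bs v := by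
  have h : ∃ i j : ℤ, cs x a ^ m * cs y b ^ n = x ^ i * y ^ j ∧
      cs x' a ^ m * cs y' b ^ n = x' ^ i * y' ^ j :=
    ⟨if a then -m else m, if b then -n else n, by cases a <;> cases b <;> simp,
      by cases a <;> cases b <;> simp⟩
  obtain ⟨i, j, h1, h2⟩ := h
  rw [h1, h2, Units.smul_def, Units.smul_def,
    rv_smul hc hc' (unit_mem_Oprim i j p) (latt_prim_le hv), red_unit hc hc']

/-- the chart modules of the reduction -/
def redCh (hc : IsCoord ℚ x y) (hc' : IsCoord (ZMod p) x' y') {bs : Module.Basis (Fin ρ) L V}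
    (Q : Submodule ℤ V) (hQ : Q ≤ latt (Oprim x y) bs) : Submodule (ZMod p) (Fin ρ → L') where
  carrier := rv p x y x' y' bs '' Q
  add_mem' := by
    rintro _ _ ⟨u, hu, rfl⟩ ⟨v, hv, rfl⟩
    exact ⟨u + v, Q.add_mem hu hv, rv_add hc hc' (latt_prim_le (hQ hu)) (latt_prim_le (hQ hv))⟩
  zero_mem' := ⟨0, Q.zero_mem, by
    simpa using rv_zsmul hc hc' (bs := bs) 0 (Submodule.zero_mem _)⟩
  smul_mem' := by
    rintro c _ ⟨v, hv, rfl⟩
    obtain ⟨n, rfl⟩ := ZMod.intCast_surjective c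
    exact ⟨n • v, Q.smul_mem n hv, by
      rw [rv_zsmul hc hc' n (latt_prim_le (hQ hv)), Int.cast_smul_eq_zsmul]⟩

/-- the reduction modulo `p` -/
def Np (hc : IsCoord ℚ x y) (hc' : IsCoord (ZMod p) x' y') (N : PSh ℚ x y V)
    (bs : Module.Basis (Fin ρ) L V) : PSh (ZMod p) x' y' (Fin ρ → L') where
  ch a b := redCh hc hc' ((N.EZ bs).ch a b) inf_le_right
  smul_x := by
    rintro a b _ ⟨v, hv, rfl⟩
    exact ⟨_, (N.EZ bs).smul_x a b v hv, by simpa using rv_cs_pow hc hc' a b 1 0 hv.2⟩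
  smul_y := by
    rintro a b _ ⟨v, hv, rfl⟩
    exact ⟨_, (N.EZ bs).smul_y a b v hv, by simpa using rv_cs_pow hc hc' a b 0 1 hv.2⟩
  glue_x := by
    rintro a b _ ⟨v, hv, rfl⟩
    obtain ⟨n, hn⟩ := (N.EZ bs).glue_x a b v hv
    exact ⟨n, _, hn, by simpa using rv_cs_pow hc hc' (!a) b n 0 hv.2⟩
  glue_y := by
    rintro a b _ ⟨v, hv, rfl⟩
    obtain ⟨n, hn⟩ := (N.EZ bs).glue_y a b v hv
    exact ⟨n, _, hn, by simpa using rv_cs_pow hc hc' a (!b) 0 n hv.2⟩

theorem mem_Np {hc : IsCoord ℚ x y} {hc' : IsCoord (ZMod p) x' y'} {N : PSh ℚ x y V}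
    {bs : Module.Basis (Fin ρ) L V} {a b : Bool} {w : Fin ρ → L'} :
    w ∈ (Np hc hc' N bs).ch a b ↔ ∃ v ∈ (N.EZ bs).ch a b, rv p x y x' y' bs v = w := Iff.rfl

theorem Np_tw (hc : IsCoord ℚ x y) (hc' : IsCoord (ZMod p) x' y') (N : PSh ℚ x y V)
    (bs : Module.Basis (Fin ρ) L V) (i j : ℤ) :
    (Np hc hc' N bs).tw i j = Np hc hc' (N.tw i j) bs := by
  ext a b w
  rw [mem_tw, mem_Np, mem_Np, ← EZ_tw]
  constructor
  · rintro ⟨v, hv, e⟩
    refine ⟨(tu x i a * tu y j b) • v, by rwa [mem_tw, inv_smul_smul], ?_⟩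
    rw [Units.smul_def, rv_smul hc hc' (tu_mem_Oprim i j a b p) (latt_prim_le hv.2), red_tu hc hc',
      e, ← Units.smul_def, smul_inv_smul]
  · rintro ⟨v, hv, rfl⟩
    refine ⟨_, hv, ?_⟩
    rw [EZ_tw] at hv
    rw [mul_inv, mul_inv, ← tu_neg, ← tu_neg, ← tu_neg, ← tu_neg, Units.smul_def, Units.smul_def,
      rv_smul hc hc' (tu_mem_Oprim _ _ a b p) (latt_prim_le hv.2), red_tu hc hc']

theorem Np_bound (hc : IsCoord ℚ x y) (hc' : IsCoord (ZMod p) x' y') {N : PSh ℚ x y V}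
    {bs : Module.Basis (Fin ρ) L V} {n : ℕ} {D : L} (hD : D ≠ 0) (h1 : D ∈ Oprim x y)
    (h2 : D⁻¹ ∈ Oprim x y) (h : ∀ a b, ∀ v ∈ (N.EZ bs).ch a b, ∀ s, ∃ c ∈ chartRing ℤ x y a b,
      D * bs.repr v s = ((tu x n a * tu y n b : Lˣ) : L) * c) :
    red p x y x' y' D ≠ 0 ∧ ∀ a b, ∀ w ∈ (Np hc hc' N bs).ch a b, ∀ s,
      ∃ c ∈ chartRing (ZMod p) x' y' a b,
        red p x y x' y' D * w s = ((tu x' n a * tu y' n b : L'ˣ) : L') * c := by
  constructor
  · have e := red_mul hc hc' (h1 p) (h2 p)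
    rw [mul_inv_cancel₀ hD, ← Int.cast_one, red_intCast hc hc', Int.cast_one] at e
    exact left_ne_zero_of_mul_eq_one e.symm
  · rintro a b _ ⟨v, hv, rfl⟩ s
    obtain ⟨c, hc1, hc2⟩ := h a b v hv s
    refine ⟨_, red_chartRing hc hc' a b hc1, ?_⟩
    rw [← red_tu hc hc', ← red_mul hc hc' (tu_mem_Oprim _ _ a b p) (chartRing_le_Oprim a b hc1 p),
      ← hc2, red_mul hc hc' (h1 p) (hv.2 s p)]
    rfl

theorem Np_FG (hc : IsCoord ℚ x y) (hc' : IsCoord (ZMod p) x' y') {N : PSh ℚ x y V} (hN : N.FG)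
    (bs : Module.Basis (Fin ρ) L V) : (Np hc hc' N bs).FG := by
  obtain ⟨n, D, hD, h1, h2, h⟩ := EZ_bound hc hN bs
  obtain ⟨h3, h4⟩ := Np_bound hc hc' hD h1 h2 h
  exact FG_of_bound _ (Pi.basisFun L' (Fin ρ)) n h3 (by simpa using h4)

theorem EZ_div {N : PSh ℚ x y V} {bs : Module.Basis (Fin ρ) L V} {a b : Bool} {m : ℕ}
    (hm : m ≠ 0) {u : Lˣ} (hu : (u : L) ∈ Oprim x y) {v : V} (hv : v ∈ latt (Oprim x y) bs)
    (h : u • (m : ℤ) • v ∈ N.ch a b) : u • v ∈ (N.EZ bs).ch a b := by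
  refine ⟨?_, smul_mem_latt hu hv⟩
  have h1 := (N.ch a b).smul_mem (m : ℚ)⁻¹ h
  rwa [smul_comm u, ← Int.cast_smul_eq_zsmul ℚ, Int.cast_natCast,
    inv_smul_smul₀ (Nat.cast_ne_zero.mpr hm)] at h1

theorem finrank_H0_EZ (hc : IsCoord ℚ x y) (N : PSh ℚ x y V) (bs : Module.Basis (Fin ρ) L V)
    {r : ℕ} (b : Module.Basis (Fin r) ℤ (N.EZ bs).H0) : Module.finrank ℚ N.H0 = r := by
  have h1 : LinearIndependent ℚ fun i => (b i : V) :=
    (LinearIndependent.iff_fractionRing ℤ ℚ).mp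
      (b.linearIndependent.map' (N.EZ bs).H0.subtype (Submodule.ker_subtype _))
  have h2 : N.H0 = Submodule.span ℚ (Set.range fun i => (b i : V)) := by
    refine le_antisymm (fun v hv => ?_) (Submodule.span_le.mpr ?_)
    · obtain ⟨m, hm, h⟩ := exists_nat_smul_mem_latt (bs := bs) hc v
      have h3 : (m : ℤ) • v ∈ (N.EZ bs).H0 :=
        mem_H0.2 fun a b => ⟨zsmul_mem (mem_H0.1 hv a b) _, h⟩
      have h4 := congrArg Subtype.val (b.sum_repr ⟨_, h3⟩)
      have h5 : v = (m : ℚ)⁻¹ • (m : ℤ) • v := by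
        rw [← Int.cast_smul_eq_zsmul ℚ, Int.cast_natCast,
          inv_smul_smul₀ (Nat.cast_ne_zero.mpr hm.ne')]
      simp only [Submodule.coe_sum, Submodule.coe_smul] at h4
      rw [h5, ← h4]
      exact Submodule.smul_mem _ _ (Submodule.sum_mem _ fun i _ =>
        zsmul_mem (Submodule.subset_span (Set.mem_range_self i)) _)
    · rintro _ ⟨i, rfl⟩
      exact mem_H0.2 fun a c => (mem_H0.1 (b i).2 a c).1
  rw [h2, finrank_span_eq_card h1, Fintype.card_fin]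

theorem exists_lift_H0 (hc : IsCoord ℚ x y) (hc' : IsCoord (ZMod p) x' y') {N : PSh ℚ x y V}
    (bs : Module.Basis (Fin ρ) L V) (h1 : (N.EZ bs).H1Z) {w : Fin ρ → L'}
    (hw : w ∈ (Np hc hc' N bs).H0) : ∃ u ∈ (N.EZ bs).H0, rv p x y x' y' bs u = w := by
  have hp : p ≠ 0 := (Fact.out : p.Prime).ne_zero
  choose v hv hv' using fun a b => mem_Np.1 (mem_H0.1 hw a b)
  have key : ∀ a b a' b', ∃ u ∈ latt (Oprim x y) bs, v a b - v a' b' = (p : ℤ) • u :=
    fun a b a' b' => (rv_eq_zero_iff hc hc' (sub_mem (hv a b).2 (hv a' b').2)).1 (by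
      rw [rv_sub hc hc' (latt_prim_le (hv a b).2) (latt_prim_le (hv a' b').2), hv', hv', sub_self])
  choose α hα hα' using fun b => key false b true b
  choose β hβ hβ' using fun a => key a false a true
  obtain ⟨γ, hγ, hγ1, hγ2⟩ := h1 α β
    (fun b => by
      obtain ⟨n, hn⟩ := mem_lx.1 (sub_mem (ch_le_lx _ _ _ (hv false b)) (ch_le_lx _ _ _ (hv true b)))
      rw [hα'] at hn
      exact mem_lx.2 ⟨n, EZ_div hp (by simpa using unit_mem_Oprim (x := x) (y := y) n 0)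
        (hα b) hn.1⟩)
    (fun a => by
      obtain ⟨n, hn⟩ := mem_ly.1 (sub_mem (ch_le_ly _ _ _ (hv a false)) (ch_le_ly _ _ _ (hv a true)))
      rw [hβ'] at hn
      exact mem_ly.2 ⟨n, EZ_div hp (by simpa using unit_mem_Oprim (x := x) (y := y) 0 n)
        (hβ a) hn.1⟩)
    (by
      refine smul_right_injective V (r := (p : ℚ)) (Nat.cast_ne_zero.mpr hp) ?_
      simp only [Nat.cast_smul_eq_nsmul, ← natCast_zsmul, smul_sub, ← hα', ← hβ']
      abel)
  have e1 : ∀ b, v true b - (p : ℤ) • γ true b = v false b - (p : ℤ) • γ false b := fun b => by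
    have := hα' b
    rw [← hγ1, smul_sub] at this
    rw [eq_comm, sub_eq_sub_iff_sub_eq_sub, this]
  have e2 : ∀ a, v a true - (p : ℤ) • γ a true = v a false - (p : ℤ) • γ a false := fun a => by
    have := hβ' a
    rw [← hγ2, smul_sub] at this
    rw [eq_comm, sub_eq_sub_iff_sub_eq_sub, this]
  have e3 : ∀ a b, v a b - (p : ℤ) • γ a b ∈ (N.EZ bs).ch a b := fun a b =>
    sub_mem (hv a b) (zsmul_mem (hγ a b) _)
  refine ⟨v false false - (p : ℤ) • γ false false, mem_H0.2 fun a b => ?_, ?_⟩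
  · have := e3 a b
    cases a <;> cases b <;> simpa only [e1, e2] using this
  · have h2 := zsmul_mem (hγ false false).2 (p : ℤ)
    rw [rv_sub hc hc' (latt_prim_le (hv _ _).2) (latt_prim_le h2), hv',
      (rv_eq_zero_iff hc hc' h2).2 ⟨_, (hγ false false).2, rfl⟩, sub_zero]

theorem finrank_H0_Np (hc : IsCoord ℚ x y) (hc' : IsCoord (ZMod p) x' y') {N : PSh ℚ x y V}
    (hN : N.FG) (bs : Module.Basis (Fin ρ) L V) (h1 : (N.EZ bs).H1Z) :
    Module.finrank (ZMod p) (Np hc hc' N bs).H0 = Module.finrank ℚ N.H0 := by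
  have hp : p ≠ 0 := (Fact.out : p.Prime).ne_zero
  have : Module.Finite ℤ (N.EZ bs).H0 := Module.Finite.iff_fg.mpr ((EZ_FG hc hN bs).H0_fg hc.int)
  have : Module.IsTorsionFree ℤ V := .trans_faithfulSMul ℤ ℚ V
  let b := Module.finBasis ℤ (N.EZ bs).H0
  have hb : ∀ i, (b i : V) ∈ latt (Oprim x y) bs := fun i => (mem_H0.1 (b i).2 false false).2
  have hr : ∀ c : _ → ℤ, rv p x y x' y' bs (∑ i, c i • b i : (N.EZ bs).H0) =
      ∑ i, (c i : ZMod p) • rv p x y x' y' bs (b i) := fun c => by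
    simp only [Submodule.coe_sum, Submodule.coe_smul]
    rw [rv_sum hc hc' _ fun i _ => latt_prim_le (zsmul_mem (hb i) _)]
    exact Finset.sum_congr rfl fun i _ => by
      rw [rv_zsmul hc hc' _ (latt_prim_le (hb i)), Int.cast_smul_eq_zsmul]
  have h2 : LinearIndependent (ZMod p) fun i => rv p x y x' y' bs (b i) := by
    refine Fintype.linearIndependent_iff.mpr fun g hg i => ?_
    choose c hc1 using fun i => ZMod.intCast_surjective (g i)
    have h3 := mem_H0.1 (∑ i, c i • b i).2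
    obtain ⟨u, hu, hu'⟩ := (rv_eq_zero_iff hc hc' (h3 false false).2).1 (by
      rw [hr]
      simpa only [hc1] using hg)
    have h4 : u ∈ (N.EZ bs).H0 := mem_H0.2 fun a b => by
      have := EZ_div (N := N) (a := a) (b := b) hp (u := 1) (one_mem _) hu
        (by rw [one_smul, ← hu']; exact (h3 a b).1)
      rwa [one_smul] at this
    have h5 : ∑ i, c i • b i = (p : ℤ) • (⟨u, h4⟩ : (N.EZ bs).H0) := Subtype.ext hu'
    have h6 := congrArg (b.repr · i) h5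
    simp only [b.repr_sum_self, map_smul, Finsupp.smul_apply, smul_eq_mul] at h6
    rw [← hc1, h6]
    simp
  have h3 : (Np hc hc' N bs).H0 =
      Submodule.span (ZMod p) (Set.range fun i => rv p x y x' y' bs (b i)) := by
    refine le_antisymm (fun w hw => ?_) (Submodule.span_le.mpr ?_)
    · obtain ⟨u, hu, rfl⟩ := exists_lift_H0 hc hc' bs h1 hw
      have h4 := hr (b.repr ⟨u, hu⟩)
      rw [b.sum_repr] at h4
      rw [h4]
      exact Submodule.sum_mem _ fun i _ =>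
        Submodule.smul_mem _ _ (Submodule.subset_span (Set.mem_range_self i))
    · rintro _ ⟨i, rfl⟩
      exact mem_H0.2 fun a c => ⟨_, mem_H0.1 (b i).2 a c, rfl⟩
  rw [h3, finrank_span_eq_card h2, Fintype.card_fin, finrank_H0_EZ hc N bs b]

theorem Np_coeff (hc : IsCoord ℚ x y) (hc' : IsCoord (ZMod p) x' y') {N : PSh ℚ x y V}
    (hN : N.FG) (bs : Module.Basis (Fin ρ) L V) :
    (Np hc hc' N bs).rk = N.rk ∧ (Np hc hc' N bs).alp = N.alp ∧ (Np hc hc' N bs).bet = N.bet ∧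
      (Np hc hc' N bs).gam = N.gam := by
  obtain ⟨j1, h1⟩ := (EZ_FG hc hN bs).serre hc.int
  obtain ⟨j2, h2⟩ := hp_eq_finrank hc hN
  obtain ⟨j3, h3⟩ := hp_eq_finrank hc' (Np_FG hc hc' hN bs)
  have key := biaffine_ext (A := (Np hc hc' N bs).rk - N.rk) (B := (Np hc hc' N bs).alp - N.alp)
    (C := (Np hc hc' N bs).bet - N.bet) (D := (Np hc hc' N bs).gam - N.gam)
    ⟨max j1 (max j2 j3), fun j hj => by
      obtain ⟨i1, h1⟩ := h1 j (by omega)
      obtain ⟨i2, h2⟩ := h2 j (by omega)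
      obtain ⟨i3, h3⟩ := h3 j (by omega)
      refine ⟨max i1 (max i2 i3), fun i hi => ?_⟩
      have h4 := (h1 i (by omega)).1
      have h5 := h2 i (by omega)
      have h6 := h3 i (by omega)
      rw [EZ_tw] at h4
      rw [Np_tw, finrank_H0_Np hc hc' (hN.tw i j) bs h4, ← h5, hp_eq hc hN,
        hp_eq hc' (Np_FG hc hc' hN bs)] at h6
      linear_combination h6⟩
  omega

theorem Np_full (hc : IsCoord ℚ x y) (hc' : IsCoord (ZMod p) x' y') {N : PSh ℚ x y V}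
    (hN : N.FG) (hf : N.Full) (bs : Module.Basis (Fin ρ) L V) : (Np hc hc' N bs).Full := by
  refine Submodule.eq_top_of_finrank_eq ?_
  have h := (Np_coeff hc hc' hN bs).1
  rw [rk, rk, hf, finrank_top, Module.finrank_eq_card_basis bs] at h
  rw [h, Module.finrank_fintype_fun_eq_card]

theorem fib_common {k L V : Type} [Field k] [Field L] [Algebra k L] {x y : Lˣ} [AddCommGroup V]
    [Module L V] [Module k V] [IsScalarTower k L V] (E : PSh k x y V) {w : V}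
    (h1 : w ∈ E.fib.ch false) (h2 : w ∈ E.fib.ch true) :
    ∃ z ∈ Algebra.adjoin k {((cs x false : Lˣ) : L)}, z ≠ 0 ∧ z • w ∈ E.ch false false ∧
      z • w ∈ E.ch false true := by
  obtain ⟨z1, a1, a2, a3⟩ := (mem_fib false false).1 h1
  obtain ⟨z2, b1, b2, b3⟩ := (mem_fib false true).1 h2
  refine ⟨z1 * z2, mul_mem a1 b1, mul_ne_zero a2 b2, ?_, ?_⟩
  · rw [mul_comm, mul_smul]
    exact E.chartRing_smul_mem _ _ (adjoin_le_chartRing_x _ _ b1) a3
  · rw [mul_smul]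
    exact E.chartRing_smul_mem _ _ (adjoin_le_chartRing_x _ _ a1) b3

/-- sections of the generic fibre of the reduction lift, when the first direct image of the
integral model vanishes -/
theorem Np_fib_H0 (hc : IsCoord ℚ x y) (hc' : IsCoord (ZMod p) x' y') (N : PSh ℚ x y V)
    (bs : Module.Basis (Fin ρ) L V)
    (h : (N.EZ bs).ly false ≤ (N.EZ bs).ch false false ⊔ (N.EZ bs).ch false true) :
    (Np hc hc' N bs).fib.ch false ⊓ (Np hc hc' N bs).fib.ch true ≤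
      Submodule.span (Kx (ZMod p) x') (rv p x y x' y' bs '' (N.EZ bs).dirx.ch false) := by
  intro w hw
  obtain ⟨z, hz, hz0, ⟨v1, hv1, e1⟩, v2, hv2, e2⟩ := fib_common _ hw.1 hw.2
  obtain ⟨u, hu, e3⟩ := (rv_eq_zero_iff hc hc' (sub_mem hv1.2 hv2.2)).1 (by
    rw [rv_sub hc hc' (latt_prim_le hv1.2) (latt_prim_le hv2.2), e1, e2, sub_self])
  have hp0 : (p : ℚ) ≠ 0 := Nat.cast_ne_zero.2 (Fact.out : p.Prime).ne_zero
  have h1 : u ∈ N.ly false := by
    have h2 := (N.ly false).smul_mem (p : ℚ)⁻¹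
      (sub_mem (N.ch_le_ly false false hv1.1) (N.ch_le_ly false true hv2.1))
    rwa [e3, ← Int.cast_smul_eq_zsmul ℚ, Int.cast_natCast, inv_smul_smul₀ hp0] at h2
  obtain ⟨m, hm⟩ := mem_ly.1 h1
  have h3 : u ∈ (N.EZ bs).ly false := mem_ly.2 ⟨m, hm, by
    have := smul_mem_latt (unit_mem_Oprim (x := x) (y := y) 0 m) hu
    rwa [← Units.smul_def, zpow_zero, one_mul, zpow_natCast] at this⟩
  obtain ⟨u1, hu1, u2, hu2, rfl⟩ := Submodule.mem_sup.1 (h h3)
  have h4 : v1 - (p : ℤ) • u1 ∈ (N.EZ bs).dirx.ch false := by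
    refine ⟨sub_mem hv1 (Submodule.smul_mem _ _ hu1), ?_⟩
    have : v1 - (p : ℤ) • u1 = v2 + (p : ℤ) • u2 := by
      rw [smul_add] at e3
      rw [sub_eq_iff_eq_add'.1 e3]
      abel
    rw [this]
    exact add_mem hv2 (Submodule.smul_mem _ _ hu2)
  have h5 : rv p x y x' y' bs (v1 - (p : ℤ) • u1) = z • w := by
    rw [rv_sub hc hc' (latt_prim_le hv1.2) (Submodule.smul_mem _ _ (latt_prim_le hu1.2)),
      (rv_eq_zero_iff hc hc' (Submodule.smul_mem _ _ hu1.2)).2 ⟨u1, hu1.2, rfl⟩, sub_zero, e1]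
  have h6 := Submodule.smul_mem (Submodule.span (Kx (ZMod p) x')
    (rv p x y x' y' bs '' (N.EZ bs).dirx.ch false))
    (⟨z⁻¹, (Kx (ZMod p) x').inv_mem (adjoin_cs_le_Kx false hz)⟩ : Kx (ZMod p) x')
    (Submodule.subset_span ⟨_, h4, h5⟩)
  have h7 : (⟨z⁻¹, (Kx (ZMod p) x').inv_mem (adjoin_cs_le_Kx false hz)⟩ : Kx (ZMod p) x') •
      z • w = w := inv_smul_smul₀ hz0 w
  rwa [h7] at h6

omit [Fact p.Prime] [Field L'] [Algebra (ZMod p) L'] in
/-- bounds that are uniform in `p` -/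
theorem Np_uniform (hc : IsCoord ℚ x y) {N : PSh ℚ x y V} (hN : N.FG)
    (bs : Module.Basis (Fin ρ) L V) :
    ∃ n : ℕ, ∀ (p : ℕ) [Fact p.Prime] (L' : Type) [Field L'] [Algebra (ZMod p) L'] (x' y' : L'ˣ)
      (hc' : IsCoord (ZMod p) x' y'),
      (Np hc hc' N bs).X0 (-(n : ℤ)) ∧ ((Np hc hc' N bs).fib.tw (-(n : ℤ))).h0 = 0 := by
  obtain ⟨n, D, hD, h1, h2, h⟩ := EZ_bound hc hN bs
  refine ⟨n + 1, fun p _ L' _ _ x' y' hc' => ?_⟩
  obtain ⟨h3, h4⟩ := Np_bound hc hc' hD h1 h2 h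
  generalize red p x y x' y' D = D' at h3 h4
  constructor
  · intro v hv hv'
    funext s
    obtain ⟨c, c1, c2⟩ := h4 _ _ v hv s
    obtain ⟨d, d1, d2⟩ := h4 _ _ _ hv' s
    rw [Pi.smul_apply, mul_smul_comm, inv_smul_eq_iff, Units.smul_def, smul_eq_mul,
      ← mul_assoc, ← Units.val_mul, ← mul_assoc, tu_true, ← zpow_add, ← tu_true] at d2
    refine (mul_eq_zero.1 (SA.eq_zero_of_MS hc' (c2 ▸ SA.tu_mul_mem _ _ _ _ c1)
      (d2 ▸ SA.tu_mul_mem _ _ _ _ d1) ?_)).resolve_left h3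
    rintro q ⟨h5, -⟩ ⟨h6, -⟩
    simp only [SA.box] at h5 h6
    omega
  · rw [← fib_tw _ 0, P1.h0_eq_zero_iff, eq_bot_iff]
    intro v hv
    obtain ⟨z, -, hz0, hv1, hv2⟩ := fib_common _ hv.1 hv.2
    rw [mem_tw, tu_false, tu_false, mul_one, inv_one, one_smul] at hv1
    rw [mem_tw, tu_false, one_mul, tu_true] at hv2
    refine (smul_eq_zero.1 (?_ : z • v = 0)).resolve_left hz0
    generalize z • v = w at hv1 hv2
    funext s
    obtain ⟨c, c1, c2⟩ := h4 _ _ w hv1 s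
    obtain ⟨d, d1, d2⟩ := h4 _ _ _ hv2 s
    rw [Pi.smul_apply, mul_smul_comm, inv_smul_eq_iff, Units.smul_def, smul_eq_mul,
      ← mul_assoc, ← Units.val_mul, mul_left_comm, tu_true, ← zpow_add, ← tu_true] at d2
    refine (mul_eq_zero.1 (SA.eq_zero_of_MS hc' (c2 ▸ SA.tu_mul_mem _ _ _ _ c1)
      (d2 ▸ SA.tu_mul_mem _ _ _ _ d1) ?_)).resolve_left h3
    rintro q ⟨-, h5⟩ ⟨-, h6⟩
    simp only [SA.box] at h5 h6
    omega

end PSh
end Vale.Agent.P190
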