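import Vale.Agent.P190.SurfChi

/-! Reduction modulo a prime of rational functions in two variables. Definitions. -/

namespace Vale.Agent.P190

/-- integral polynomials in two variables -/
abbrev P0 : Type := MvPolynomial (Fin 2) ℤ

section
variable {L : Type} [Field L]

/-- evaluation of integral polynomials at the coordinates -/
noncomputable def ev (x y : Lˣ) : P0 →+* L :=
  MvPolynomial.eval₂Hom (Int.castRingHom L) ![(x : L), (y : L)]

theorem prime_natCast_P0 (p : ℕ) [hp : Fact p.Prime] : Prime (p : P0) := by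
  have h := (MvPolynomial.prime_C_iff (Fin 2) (r := (p : ℤ))).2 (Nat.prime_iff_prime_int.1 hp.out)
  simpa using h

/-- the local ring of the Gauss valuation at `p` -/
def OO (p : ℕ) [Fact p.Prime] (x y : Lˣ) : Subring L where
  carrier := {q | ∃ a b : P0, ¬ (p : P0) ∣ b ∧ q * ev x y b = ev x y a}
  mul_mem' := by
    rintro q q' ⟨a, b, hb, h⟩ ⟨a', b', hb', h'⟩
    refine ⟨a * a', b * b', fun hd => ((prime_natCast_P0 p).dvd_or_dvd hd).elim hb hb', ?_⟩
    rw [map_mul, map_mul, ← h, ← h']; ring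
  one_mem' := ⟨1, 1, fun hd => (prime_natCast_P0 p).not_unit (isUnit_of_dvd_one hd), by simp⟩
  add_mem' := by
    rintro q q' ⟨a, b, hb, h⟩ ⟨a', b', hb', h'⟩
    refine ⟨a * b' + a' * b, b * b',
      fun hd => ((prime_natCast_P0 p).dvd_or_dvd hd).elim hb hb', ?_⟩
    rw [map_add, map_mul, map_mul, map_mul, ← h, ← h']; ring
  zero_mem' := ⟨0, 1, fun hd => (prime_natCast_P0 p).not_unit (isUnit_of_dvd_one hd), by simp⟩
  neg_mem' := by
    rintro q ⟨a, b, hb, h⟩
    exact ⟨-a, b, hb, by rw [map_neg, ← h]; ring⟩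

theorem mem_OO {p : ℕ} [Fact p.Prime] {x y : Lˣ} {q : L} :
    q ∈ OO p x y ↔ ∃ a b : P0, ¬ (p : P0) ∣ b ∧ q * ev x y b = ev x y a := Iff.rfl

/-- rational functions that are integral at every prime -/
def Oprim (x y : Lˣ) : Subring L where
  carrier := {q | ∀ (p : ℕ) [Fact p.Prime], q ∈ OO p x y}
  mul_mem' := fun ha hb p _ => (OO p x y).mul_mem (ha p) (hb p)
  one_mem' := fun p _ => (OO p x y).one_mem
  add_mem' := fun ha hb p _ => (OO p x y).add_mem (ha p) (hb p)
  zero_mem' := fun p _ => (OO p x y).zero_mem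
  neg_mem' := fun ha p _ => (OO p x y).neg_mem (ha p)

theorem mem_Oprim {x y : Lˣ} {q : L} :
    q ∈ Oprim x y ↔ ∀ (p : ℕ) [Fact p.Prime], q ∈ OO p x y := Iff.rfl

open Classical in
/-- reduction modulo `p`, extended by zero -/
noncomputable def red (p : ℕ) [Fact p.Prime] (x y : Lˣ) {L' : Type} [Field L'] (x' y' : L'ˣ)
    (q : L) : L' :=
  if h : q ∈ OO p x y then ev x' y' h.choose / ev x' y' h.choose_spec.choose else 0

end

section
variable {L : Type} [Field L] {V : Type} [AddCommGroup V] [Module L V] {ρ : ℕ}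

/-- vectors whose coordinates lie in the subring `O` -/
def latt (O : Subring L) (bs : Module.Basis (Fin ρ) L V) : Submodule ℤ V where
  carrier := {v | ∀ s, bs.repr v s ∈ O}
  add_mem' := fun {u v} hu hv s => by simpa using O.add_mem (hu s) (hv s)
  zero_mem' := fun s => by simp
  smul_mem' := fun c v hv s => by simpa using O.zsmul_mem (hv s) c

theorem mem_latt {O : Subring L} {bs : Module.Basis (Fin ρ) L V} {v : V} :
    v ∈ latt O bs ↔ ∀ s, bs.repr v s ∈ O := Iff.rfl

/-- reduction of vectors -/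
noncomputable def rv (p : ℕ) [Fact p.Prime] (x y : Lˣ) {L' : Type} [Field L'] (x' y' : L'ˣ)
    (bs : Module.Basis (Fin ρ) L V) (v : V) : Fin ρ → L' :=
  fun s => red p x y x' y' (bs.repr v s)

end

end Vale.Agent.P190
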