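import Vale.Agent.P190.Red2
import Vale.Agent.P190.Geo

/-! Reduction modulo a prime of the operators. -/

namespace Vale.Agent.P190

variable {L : Type} [Field L] [Algebra ℚ L] {x y : Lˣ}
  {V : Type} [AddCommGroup V] [Module L V] [Module ℚ V] [IsScalarTower ℚ L V] {ρ : ℕ}
  {A : Type} [CommRing A] [Algebra L A] [Module A V] [IsScalarTower L A V]

omit [Module ℚ V] [IsScalarTower ℚ L V] in
/-- an integer multiple of every operator preserves the integral lattice -/
theorem exists_nat_op (hc : IsCoord ℚ x y) (bs : Module.Basis (Fin ρ) L V) (g : A) :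
    ∃ m : ℕ, 0 < m ∧ ∀ v ∈ latt (Oprim x y) bs, (m : ℤ) • g • v ∈ latt (Oprim x y) bs := by
  choose m hm h using fun t => exists_nat_smul_mem_latt (bs := bs) hc (g • bs t)
  refine ⟨∏ t, m t, Finset.prod_pos fun t _ => hm t, fun v hv => ?_⟩
  rw [← bs.sum_repr v, Finset.smul_sum, Finset.smul_sum]
  refine Submodule.sum_mem _ fun t _ => ?_
  rw [smul_comm g, smul_comm, ← Finset.prod_erase_mul _ _ (Finset.mem_univ t), Nat.cast_mul,
    mul_smul]
  exact smul_mem_latt (hv t) (Submodule.smul_mem _ _ (h t))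

section
variable {L' : Type} [Field L'] {A' : Type} [CommRing A'] [Algebra L' A']
  [Module A' (Fin ρ → L')]

/-- the operator `g'` is the reduction of `g` -/
def RedOp (p : ℕ) [Fact p.Prime] (x y : Lˣ) (x' y' : L'ˣ) (bs : Module.Basis (Fin ρ) L V)
    (g : A) (g' : A') : Prop :=
  ∀ v ∈ latt (OO p x y) bs, g • v ∈ latt (OO p x y) bs ∧
    rv p x y x' y' bs (g • v) = g' • rv p x y x' y' bs v

/-- the surface `G'` is the reduction of `G` -/
structure Compat (p : ℕ) [Fact p.Prime] {x' y' : L'ˣ} (bs : Module.Basis (Fin ρ) L V)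
    (G : Geo false false x y A) (G' : Geo false false x' y' A') : Prop where
  s : ∀ i, RedOp p x y x' y' bs (G.s i) (G'.s i)
  t : ∀ i, RedOp p x y x' y' bs (G.t i) (G'.t i)
  w : ∀ ε, RedOp p x y x' y' bs (G.ww ε) (G'.ww ε)

variable {p : ℕ} [Fact p.Prime] {x' y' : L'ˣ} {bs : Module.Basis (Fin ρ) L V}

omit [Algebra ℚ L] [Module ℚ V] [IsScalarTower ℚ L V] [Algebra L A] [IsScalarTower L A V]
  [Algebra L' A'] in
theorem RedOp.one : RedOp p x y x' y' bs (1 : A) (1 : A') := by
  intro v hv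
  rw [one_smul, one_smul]
  exact ⟨hv, rfl⟩

omit [Algebra ℚ L] [Module ℚ V] [IsScalarTower ℚ L V] [Algebra L A] [IsScalarTower L A V]
  [Algebra L' A'] in
theorem RedOp.mul {g h : A} {g' h' : A'} (h1 : RedOp p x y x' y' bs g g')
    (h2 : RedOp p x y x' y' bs h h') : RedOp p x y x' y' bs (g * h) (g' * h') := by
  intro v hv
  rw [mul_smul, mul_smul, ← (h2 v hv).2]
  exact h1 _ (h2 v hv).1

variable [Algebra (ZMod p) L'] [IsScalarTower L' A' (Fin ρ → L')]

omit [Algebra (ZMod p) L'] [Module ℚ V] [IsScalarTower ℚ L V] in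
theorem exists_nat_smul_mem_of_OO (hc : IsCoord ℚ x y) {u : V} (hu : u ∈ latt (OO p x y) bs) :
    ∃ m : ℕ, ¬ p ∣ m ∧ (m : ℤ) • u ∈ latt (Oprim x y) bs := by
  obtain ⟨m, hm, h⟩ := exists_nat_smul_mem_latt (bs := bs) hc u
  induction m using Nat.strong_induction_on with
  | _ m ih =>
    by_cases hp : p ∣ m
    · obtain ⟨m', rfl⟩ := hp
      have hm' : 0 < m' := Nat.pos_of_mul_pos_left hm
      refine ih m' ((lt_mul_iff_one_lt_left hm').2 (Fact.out : p.Prime).one_lt) hm' fun s => ?_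
      refine mem_Oprim_of_mul (p := p) (Submodule.smul_mem _ _ hu s) ?_
      have h1 := h s
      rw [Nat.cast_mul, mul_smul, map_zsmul, Finsupp.smul_apply, zsmul_eq_mul,
        Int.cast_natCast] at h1
      exact h1
    · exact ⟨m, hp, h⟩

omit [Module ℚ V] [IsScalarTower ℚ L V] [Algebra L A] [IsScalarTower L A V] [Algebra L' A']
  [IsScalarTower L' A' (Fin ρ → L')] in
theorem RedOp.add (hc : IsCoord ℚ x y) (hc' : IsCoord (ZMod p) x' y') {g h : A} {g' h' : A'}
    (h1 : RedOp p x y x' y' bs g g') (h2 : RedOp p x y x' y' bs h h') :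
    RedOp p x y x' y' bs (g + h) (g' + h') := by
  intro v hv
  rw [add_smul, add_smul, ← (h1 v hv).2, ← (h2 v hv).2]
  exact ⟨Submodule.add_mem _ (h1 v hv).1 (h2 v hv).1, rv_add hc hc' (h1 v hv).1 (h2 v hv).1⟩

omit [Module ℚ V] [IsScalarTower ℚ L V] [Algebra L A] [IsScalarTower L A V] [Algebra L' A']
  [IsScalarTower L' A' (Fin ρ → L')] in
theorem RedOp.sub (hc : IsCoord ℚ x y) (hc' : IsCoord (ZMod p) x' y') {g h : A} {g' h' : A'}
    (h1 : RedOp p x y x' y' bs g g') (h2 : RedOp p x y x' y' bs h h') :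
    RedOp p x y x' y' bs (g - h) (g' - h') := by
  intro v hv
  rw [sub_smul, sub_smul, ← (h1 v hv).2, ← (h2 v hv).2]
  exact ⟨Submodule.sub_mem _ (h1 v hv).1 (h2 v hv).1, rv_sub hc hc' (h1 v hv).1 (h2 v hv).1⟩

omit [Module ℚ V] [IsScalarTower ℚ L V] in
theorem RedOp.smul (hc : IsCoord ℚ x y) (hc' : IsCoord (ZMod p) x' y') {q : L}
    (hq : q ∈ OO p x y) {g : A} {g' : A'} (h : RedOp p x y x' y' bs g g') :
    RedOp p x y x' y' bs (q • g) (red p x y x' y' q • g') := by
  intro v hv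
  rw [smul_assoc, smul_assoc, ← (h v hv).2]
  exact ⟨smul_mem_latt hq (h v hv).1, rv_smul hc hc' hq (h v hv).1⟩

omit [Module ℚ V] [IsScalarTower ℚ L V] in
theorem RedOp.ev (hc : IsCoord ℚ x y) (hc' : IsCoord (ZMod p) x' y') (a : P0) :
    RedOp p x y x' y' bs (algebraMap L A (ev x y a)) (algebraMap L' A' (ev x' y' a)) := by
  rw [Algebra.algebraMap_eq_smul_one, Algebra.algebraMap_eq_smul_one, ← red_ev hc hc']
  exact RedOp.one.smul hc hc' (ev_mem_Oprim a p)

omit [Module ℚ V] [IsScalarTower ℚ L V] [Algebra L A] [IsScalarTower L A V] [Algebra L' A']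
  [IsScalarTower L' A' (Fin ρ → L')] in
theorem RedOp.hh (hc : IsCoord ℚ x y) (hc' : IsCoord (ZMod p) x' y') {s t : Ix → A}
    {s' t' : Ix → A'} (hs : ∀ i, RedOp p x y x' y' bs (s i) (s' i))
    (ht : ∀ i, RedOp p x y x' y' bs (t i) (t' i)) (e : Fin 3) (σ : Bool) :
    RedOp p x y x' y' bs (hh s t e σ) (hh s' t' e σ) := by
  cases σ
  · exact ((hs _).mul (ht _)).sub hc hc' ((hs _).mul (ht _))
  · exact ((hs _).mul (ht _)).add hc hc' ((hs _).mul (ht _))

theorem RedOp.stable (hc : IsCoord ℚ x y) (hc' : IsCoord (ZMod p) x' y') {g : A} {g' : A'}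
    (h : RedOp p x y x' y' bs g g') {N : PSh ℚ x y V} {d e : ℕ} (hN : N.Stable g d e) :
    (PSh.Np hc hc' N bs).Stable g' d e := by
  rintro a b _ ⟨v, hv, rfl⟩
  have hq : (((tu x d a * tu y e b)⁻¹ : Lˣ) : L) ∈ OO p x y := by
    rw [mul_inv, ← tu_neg, ← tu_neg]
    exact tu_mem_Oprim _ _ a b p
  have hq' : red p x y x' y' (((tu x d a * tu y e b)⁻¹ : Lˣ) : L) =
      (((tu x' d a * tu y' e b)⁻¹ : L'ˣ) : L') := by
    rw [mul_inv, mul_inv, ← tu_neg, ← tu_neg, ← tu_neg, ← tu_neg, red_tu hc hc']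
  obtain ⟨h1, h2⟩ := h.smul hc hc' hq v (latt_prim_le hv.2)
  rw [hq'] at h2
  obtain ⟨m, hm, hmu⟩ := exists_nat_smul_mem_of_OO hc h1
  have h3 : rv p x y x' y' bs ((m : ℤ) • PSh.chop x y a b g d e • v) ∈
      (PSh.Np hc hc' N bs).ch a b :=
    ⟨_, ⟨((N.ch a b).restrictScalars ℤ).smul_mem _ (hN a b v hv.1), hmu⟩, rfl⟩
  have h4 := Submodule.smul_mem _ (m : ZMod p)⁻¹ h3
  have hm0 : (m : ZMod p) ≠ 0 := fun h0 => hm ((ZMod.natCast_eq_zero_iff m p).1 h0)
  rw [PSh.chop, rv_zsmul hc hc' _ h1, h2, ← Int.cast_smul_eq_zsmul (ZMod p), Int.cast_natCast,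
    inv_smul_smul₀ hm0] at h4
  exact h4

theorem Compat.stab (hc : IsCoord ℚ x y) (hc' : IsCoord (ZMod p) x' y')
    {G : Geo false false x y A} {G' : Geo false false x' y' A'} (h : Compat p bs G G')
    {N : PSh ℚ x y V} (hN : G.Stab N) : G'.Stab (PSh.Np hc hc' N bs) :=
  ⟨fun i => (h.s i).stable hc hc' (hN.s i), fun i => (h.t i).stable hc hc' (hN.t i),
    fun ε => (h.w ε).stable hc hc' (hN.w ε)⟩

end

section
variable {p : ℕ} [Fact p.Prime] {L' : Type} [Field L'] [Algebra (ZMod p) L'] {x' y' : L'ˣ}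
  {bs : Module.Basis (Fin ρ) L V}

omit [Algebra ℚ L] [Module ℚ V] [IsScalarTower ℚ L V] in
theorem bs_mem_latt (O : Subring L) (t : Fin ρ) : bs t ∈ latt O bs := by
  intro s
  rw [bs.repr_self, Finsupp.single_apply]
  split_ifs
  · exact O.one_mem
  · exact O.zero_mem

omit [Module ℚ V] [IsScalarTower ℚ L V] in
theorem rv_bs (hc : IsCoord ℚ x y) (hc' : IsCoord (ZMod p) x' y') (t : Fin ρ) :
    rv p x y x' y' bs (bs t) = Pi.single t 1 := by
  funext s
  rw [rv, bs.repr_self, Finsupp.single_apply, Pi.single_apply]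
  by_cases h : t = s
  · rw [if_pos h, if_pos h.symm]
    simpa using red_intCast hc hc' 1
  · rw [if_neg h, if_neg (Ne.symm h)]
    simpa using red_intCast hc hc' 0

omit [Module ℚ V] [IsScalarTower ℚ L V] in
theorem end_ext (hc : IsCoord ℚ x y) (hc' : IsCoord (ZMod p) x' y')
    {f f' : Module.End L' (Fin ρ → L')}
    (h : ∀ v ∈ latt (OO p x y) bs, f (rv p x y x' y' bs v) = f' (rv p x y x' y' bs v)) :
    f = f' := by
  refine (Pi.basisFun L' (Fin ρ)).ext fun t => ?_
  rw [Pi.basisFun_apply, ← rv_bs (bs := bs) hc hc']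
  exact h _ (bs_mem_latt _ t)

omit [Module ℚ V] [IsScalarTower ℚ L V] in
theorem exists_end (hc : IsCoord ℚ x y) (hc' : IsCoord (ZMod p) x' y') {g : A} {m : ℕ}
    (hm : ¬ p ∣ m) (h : ∀ v ∈ latt (Oprim x y) bs, (m : ℤ) • g • v ∈ latt (Oprim x y) bs) :
    ∃ f : Module.End L' (Fin ρ → L'), ∀ v ∈ latt (OO p x y) bs, g • v ∈ latt (OO p x y) bs ∧
      rv p x y x' y' bs (g • v) = f (rv p x y x' y' bs v) := by
  have : CharZero L := algebraRat.charZero L
  have hm0 : (m : L) ≠ 0 := Nat.cast_ne_zero.2 fun h0 => hm (h0 ▸ dvd_zero p)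
  have h1 : ∀ t, g • bs t ∈ latt (OO p x y) bs := fun t => by
    have h2 := smul_mem_latt (inv_natCast_mem_OO hm) (latt_prim_le (h _ (bs_mem_latt _ t)))
    rwa [← Int.cast_smul_eq_zsmul L, Int.cast_natCast, inv_smul_smul₀ hm0] at h2
  refine ⟨Fintype.linearCombination L' fun t => rv p x y x' y' bs (g • bs t), fun v hv => ?_⟩
  have e : g • v = ∑ t, bs.repr v t • g • bs t := by
    conv_lhs => rw [← bs.sum_repr v, Finset.smul_sum]
    exact Finset.sum_congr rfl fun t _ => smul_comm _ _ _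
  have h3 : ∀ t, bs.repr v t • g • bs t ∈ latt (OO p x y) bs := fun t =>
    smul_mem_latt (hv t) (h1 t)
  rw [e, rv_sum hc hc' _ fun t _ => h3 t, Fintype.linearCombination_apply]
  exact ⟨Submodule.sum_mem _ fun t _ => h3 t,
    Finset.sum_congr rfl fun t _ => rv_smul hc hc' (hv t) (h1 t)⟩

end

theorem ev_Px {K : Type} [Field K] (u v : Kˣ) (i : Ix) :
    ev u v (Px false (MvPolynomial.X 0) i) = Px false (u : K) i := by
  have h : ev u v (MvPolynomial.X 0) = u := by simp [ev]
  simp only [Px, map_add, map_mul, map_pow, map_intCast, h]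

theorem ev_Py {K : Type} [Field K] (u v : Kˣ) (i : Ix) :
    ev u v (Py false (MvPolynomial.X 1) i) = Py false (v : K) i := by
  have h : ev u v (MvPolynomial.X 1) = v := by simp [ev]
  simp only [Py, map_add, map_mul, map_pow, map_intCast, h]

theorem ev_del {K : Type} [Field K] (u v : Kˣ) :
    ev u v (del false false (MvPolynomial.X 0) (MvPolynomial.X 1)) =
      del false false (u : K) (v : K) := by
  have h : ev u v (MvPolynomial.X 0) = u := by simp [ev]
  have h' : ev u v (MvPolynomial.X 1) = v := by simp [ev]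
  simp only [del, map_add, map_mul, map_pow, map_intCast, h, h']

omit [Module ℚ V] [IsScalarTower ℚ L V] in
/-- the surface can be reduced modulo all large primes -/
theorem exists_compat (hc : IsCoord ℚ x y) (bs : Module.Basis (Fin ρ) L V)
    (G : Geo false false x y A) :
    ∃ m0 : ℕ, ∀ (p : ℕ) [Fact p.Prime], m0 < p →
      ∀ (L' : Type) [Field L'] [Algebra (ZMod p) L'] (x' y' : L'ˣ), IsCoord (ZMod p) x' y' →
      ∃ (A' : Type) (_ : CommRing A') (_ : Algebra L' A') (_ : Module A' (Fin ρ → L'))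
        (_ : IsScalarTower L' A' (Fin ρ → L')) (G' : Geo false false x' y' A'),
        Compat p bs G G' := by
  let g : (Ix ⊕ Ix) ⊕ Unit → A := Sum.elim (Sum.elim G.s G.t) fun _ => G.w
  choose m hm hmg using fun j => exists_nat_op hc bs (g j)
  refine ⟨11 + ∑ j, m j, fun p _ hp L' _ _ x' y' hc' => ?_⟩
  have hpm : ∀ j, ¬ p ∣ m j := fun j hd => by
    have h1 := Nat.le_of_dvd (hm j) hd
    have h2 := Finset.single_le_sum (f := m) (fun _ _ => Nat.zero_le _) (Finset.mem_univ j)
    omega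
  choose f hf using fun j => exists_end hc hc' (hpm j) (hmg j)
  let A' := Algebra.adjoin L' (Set.range f)
  have hcomm : IsMulCommutative A' := Algebra.isMulCommutative_adjoin L' (by
    rintro _ ⟨i, rfl⟩ _ ⟨j, rfl⟩
    refine end_ext (bs := bs) hc hc' fun v hv => ?_
    rw [Module.End.mul_apply, Module.End.mul_apply, ← (hf j v hv).2, ← (hf i v hv).2,
      ← (hf i _ (hf j v hv).1).2, ← (hf j _ (hf i v hv).1).2, smul_comm])
  let instA : CommRing A' := { (inferInstance : Ring A') with mul_comm := hcomm.is_comm.comm }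
  let f' : (Ix ⊕ Ix) ⊕ Unit → A' := fun j => ⟨f j, Algebra.subset_adjoin ⟨j, rfl⟩⟩
  have hf' : ∀ j, RedOp p x y x' y' bs (g j) (f' j) := hf
  have uniq : ∀ {a : A} {a1 a2 : A'}, RedOp p x y x' y' bs a a1 → RedOp p x y x' y' bs a a2 →
      a1 = a2 := fun h1 h2 => Subtype.ext (end_ext (bs := bs) hc hc' fun v hv =>
        (h1 v hv).2.symm.trans (h2 v hv).2)
  have hs : ∀ i, RedOp p x y x' y' bs (G.s i) (f' (.inl (.inl i))) := fun i => hf' (.inl (.inl i))
  have ht : ∀ i, RedOp p x y x' y' bs (G.t i) (f' (.inl (.inr i))) := fun i => hf' (.inl (.inr i))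
  have hw : RedOp p x y x' y' bs G.w (f' (.inr ())) := hf' (.inr ())
  let G' : Geo false false x' y' A' :=
    { s := fun i => f' (.inl (.inl i))
      t := fun i => f' (.inl (.inr i))
      w := f' (.inr ())
      s_sq := fun i => by
        have h1 := RedOp.ev (bs := bs) (A := A) (A' := A') hc hc' (Px false (MvPolynomial.X 0) i)
        rw [ev_Px, ev_Px, ← G.s_sq, sq] at h1
        rw [sq]
        exact uniq ((hs i).mul (hs i)) h1
      t_sq := fun i => by
        have h1 := RedOp.ev (bs := bs) (A := A) (A' := A') hc hc' (Py false (MvPolynomial.X 1) i)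
        rw [ev_Py, ev_Py, ← G.t_sq, sq] at h1
        rw [sq]
        exact uniq ((ht i).mul (ht i)) h1
      w_sq := by
        have h1 := ((RedOp.hh hc hc' hs ht 0 true).mul (RedOp.hh hc hc' hs ht 1 true)).mul
          (RedOp.hh hc hc' hs ht 2 true)
        rw [← G.w_sq, sq] at h1
        rw [sq]
        exact uniq (hw.mul hw) h1
      gen := by
        rw [eq_top_iff]
        rintro ⟨a, ha⟩ -
        induction ha using Algebra.adjoin_induction with
        | mem a ha =>
          obtain ⟨(i | i) | _, rfl⟩ := ha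
          · exact Algebra.subset_adjoin (Or.inl (Or.inl ⟨i, rfl⟩))
          · exact Algebra.subset_adjoin (Or.inl (Or.inr ⟨i, rfl⟩))
          · exact Algebra.subset_adjoin (Or.inr rfl)
        | algebraMap q => exact Subalgebra.algebraMap_mem _ q
        | add u v _ _ hu hv => exact Subalgebra.add_mem _ hu hv
        | mul u v _ _ hu hv => exact Subalgebra.mul_mem _ hu hv }
  refine ⟨A', instA, inferInstance, inferInstance, inferInstance, G', hs, ht, ?_⟩
  rintro (_ | e)
  · exact hw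
  · have h1 := red_ev hc hc' (del false false (MvPolynomial.X 0) (MvPolynomial.X 1))
    have h2 := ev_mem_Oprim (x := x) (y := y)
      (del false false (MvPolynomial.X 0) (MvPolynomial.X 1)) p
    rw [ev_del] at h1 h2
    rw [ev_del] at h1
    obtain ⟨h3, h4⟩ := inv_mem_OO hc hc' h2
      (h1 ▸ del_ne_zero (good_zmod p (by omega)) hc' false false)
    have h5 := ((hw.mul (RedOp.hh hc hc' hs ht (e + 1) false)).mul
      (RedOp.hh hc hc' hs ht (e + 2) false)).smul hc hc' h3
    rw [h4, h1] at h5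
    exact h5

end Vale.Agent.P190
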