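import Mathlib

/-! Auxiliary lemmas for the spreading lemma. -/

namespace Vale.Agent.P190.SpreadAux

open Module

/-- a subspace with the rank conditions gives a solution of the matrix equations -/
theorem solve_of_subspace {Ω : Type} [Field Ω] {R N : ℕ} {ι : Type}
    (B0 : Matrix (Fin R) (Fin N) Ω) (B : ι → Matrix (Fin R) (Fin N) Ω) {d D0 : ℕ}
    (S : Submodule Ω (Fin N → Ω)) (h1 : d ≤ finrank Ω (S.map B0.mulVecLin))
    (h2 : finrank Ω ↥(⨆ α, S.map (B α).mulVecLin) ≤ D0) :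
    ∃ (c : Matrix (Fin N) (Fin d) Ω) (Z : Matrix (Fin d) (Fin R) Ω)
      (X : Matrix (Fin R) (Fin D0) Ω) (Y : ι → Matrix (Fin D0) (Fin d) Ω),
      Z * (B0 * c) = 1 ∧ ∀ α, B α * c = X * Y α := by
  classical
  set U : Submodule Ω (Fin R → Ω) := ⨆ α, S.map (B α).mulVecLin with hU
  obtain ⟨j0, hj0⟩ := (finrank_le_iff_exists_linearMap (R := Ω) (M := Fin d → Ω)
    (M' := S.map B0.mulVecLin)).1 (by simpa using h1)
  obtain ⟨j1, hj1⟩ := (finrank_le_iff_exists_linearMap (R := Ω) (M := U)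
    (M' := Fin D0 → Ω)).1 (by simpa using h2)
  obtain ⟨r, hr⟩ := (B0.mulVecLin.submoduleMap S).exists_rightInverse_of_surjective
    (LinearMap.range_eq_top.2 (LinearMap.submoduleMap_surjective _ _))
  obtain ⟨l, hl⟩ := j1.exists_leftInverse_of_injective (LinearMap.ker_eq_bot.2 hj1)
  let cl : (Fin d → Ω) →ₗ[Ω] (Fin N → Ω) := S.subtype ∘ₗ r ∘ₗ j0
  have hcl : ∀ x, cl x ∈ S := fun x => (r (j0 x)).2
  have hB0 : ∀ x, B0.mulVecLin (cl x) = (j0 x : Fin R → Ω) := fun x =>
    congrArg Subtype.val (LinearMap.congr_fun hr (j0 x))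
  obtain ⟨z, hz⟩ := (B0.mulVecLin ∘ₗ cl).exists_leftInverse_of_injective
    (LinearMap.ker_eq_bot.2 fun x y hxy => hj0 (Subtype.ext (by rw [← hB0, ← hB0]; exact hxy)))
  have hmem : ∀ α x, ((B α).mulVecLin ∘ₗ cl) x ∈ U := fun α x =>
    (le_iSup (fun α => S.map (B α).mulVecLin) α) ⟨cl x, hcl x, rfl⟩
  refine ⟨LinearMap.toMatrix' cl, LinearMap.toMatrix' z, LinearMap.toMatrix' (U.subtype ∘ₗ l),
    fun α => LinearMap.toMatrix' (j1 ∘ₗ LinearMap.codRestrict U _ (hmem α)), ?_, fun α => ?_⟩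
  · have := congrArg LinearMap.toMatrix' hz
    rw [LinearMap.toMatrix'_comp, LinearMap.toMatrix'_comp, LinearMap.toMatrix'_id,
      ← Matrix.toLin'_apply', LinearMap.toMatrix'_toLin'] at this
    exact this
  · rw [← LinearMap.toMatrix'_comp]
    have : (U.subtype ∘ₗ l) ∘ₗ j1 ∘ₗ LinearMap.codRestrict U _ (hmem α) =
        (B α).mulVecLin ∘ₗ cl := by
      refine LinearMap.ext fun x => ?_
      have h3 := LinearMap.congr_fun hl (LinearMap.codRestrict U _ (hmem α) x)
      exact congrArg Subtype.val h3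
    rw [this, LinearMap.toMatrix'_comp, ← Matrix.toLin'_apply', LinearMap.toMatrix'_toLin']

/-- a polynomial system solvable away from any nonzero constant is solvable over a finite
extension of the fraction field -/
theorem exists_point {Λ K σ : Type} [CommRing Λ] [Field K] [Finite σ] (ψ0 : Λ →+* K)
    (hinj : Function.Injective ψ0) (hfr : ∀ q : K, ∃ a b : Λ, b ≠ 0 ∧ q * ψ0 b = ψ0 a)
    (T : Set (MvPolynomial σ Λ))
    (h : ∀ c : Λ, c ≠ 0 → ∃ (Ω : Type) (_ : Field Ω) (φ : MvPolynomial σ Λ →+* Ω),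
      φ (MvPolynomial.C c) ≠ 0 ∧ ∀ t ∈ T, φ t = 0) :
    ∃ (K' : Type) (_ : Field K') (_ : Algebra K K') (_ : Module.Finite K K')
      (φ : MvPolynomial σ Λ →+* K'),
      (∀ a, φ (MvPolynomial.C a) = algebraMap K K' (ψ0 a)) ∧ ∀ t ∈ T, φ t = 0 := by
  let : Algebra Λ K := ψ0.toAlgebra
  have : FaithfulSMul Λ K := (faithfulSMul_iff_algebraMap_injective Λ K).2 hinj
  have : Nontrivial Λ := ψ0.domain_nontrivial
  have : IsFractionRing Λ K := IsFractionRing.of_field Λ K fun q => by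
    obtain ⟨a, b, hb, hq⟩ := hfr q
    refine ⟨a, b, ?_⟩
    have hb' : ψ0 b ≠ 0 := (map_ne_zero_iff _ hinj).2 hb
    change q = ψ0 a / ψ0 b
    rw [eq_div_iff hb', hq]
  let : Algebra (MvPolynomial σ Λ) (MvPolynomial σ K) := MvPolynomial.algebraMvPolynomial
  have hJ : (Ideal.span T).map (algebraMap (MvPolynomial σ Λ) (MvPolynomial σ K)) ≠ ⊤ := by
    intro htop
    have h1 : (1 : MvPolynomial σ K) ∈
        (Ideal.span T).map (algebraMap (MvPolynomial σ Λ) (MvPolynomial σ K)) := by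
      rw [htop]; trivial
    obtain ⟨⟨i, ⟨_, m, hm, rfl⟩⟩, hx⟩ := (IsLocalization.mem_map_algebraMap_iff
      ((nonZeroDivisors Λ).map (MvPolynomial.C (σ := σ))) (MvPolynomial σ K)).1 h1
    rw [one_mul] at hx
    have hx' : MvPolynomial.C m = (i : MvPolynomial σ Λ) := MvPolynomial.map_injective ψ0 hinj hx
    obtain ⟨Ω, _, φ, hφ, hT⟩ := h m (nonZeroDivisors.ne_zero hm)
    have hle : Ideal.span T ≤ RingHom.ker φ := Ideal.span_le.2 hT
    exact hφ (hx' ▸ hle i.2)
  obtain ⟨M, hM, hJM⟩ := Ideal.exists_le_maximal _ hJ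
  let : Field (MvPolynomial σ K ⧸ M) := Ideal.Quotient.field M
  refine ⟨MvPolynomial σ K ⧸ M, inferInstance, inferInstance,
    finite_of_finite_type_of_isJacobsonRing K _,
    (Ideal.Quotient.mk M).comp (MvPolynomial.map ψ0), fun a => ?_, fun t ht => ?_⟩
  · rw [RingHom.comp_apply, MvPolynomial.map_C]
    rfl
  · exact Ideal.Quotient.eq_zero_iff_mem.2
      (hJM (Ideal.mem_map_of_mem _ (Ideal.subset_span ht)))

section

variable {K K' : Type} [Field K] [Field K'] [Algebra K K'] {n : ℕ} (e0 : K' ≃ₗ[K] (Fin n → K))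

/-- coordinates of vectors over an extension field -/
def coordE (M : ℕ) : (Fin M → K') →ₗ[K] (Fin n → Fin M → K) where
  toFun v a m := e0 (v m) a
  map_add' v w := by
    funext a m
    simp
  map_smul' c v := by
    funext a m
    simp

theorem coordE_injective (M : ℕ) : Function.Injective (coordE e0 M) := by
  intro v w h
  funext m
  apply e0.injective
  funext a
  exact congrFun (congrFun h a) m

theorem coordE_mulVec {R N : ℕ} (B : Matrix (Fin R) (Fin N) K) :
    B.mulVecLin.compLeft (Fin n) ∘ₗ coordE e0 N =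
      coordE e0 R ∘ₗ (B.map (algebraMap K K')).mulVecLin.restrictScalars K := by
  refine LinearMap.ext fun v => ?_
  funext a r
  simp [coordE, Matrix.mulVec, dotProduct, ← Algebra.smul_def]

include e0 in
/-- a solution over a finite extension gives a subspace of several copies -/
theorem subspace_of_solve {R N : ℕ} {ι : Type}
    (B0 : Matrix (Fin R) (Fin N) K) (B : ι → Matrix (Fin R) (Fin N) K) {d D0 : ℕ}
    (c : Matrix (Fin N) (Fin d) K') (Z : Matrix (Fin d) (Fin R) K')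
    (X : Matrix (Fin R) (Fin D0) K') (Y : ι → Matrix (Fin D0) (Fin d) K')
    (h1 : Z * (B0.map (algebraMap K K') * c) = 1)
    (h2 : ∀ α, (B α).map (algebraMap K K') * c = X * Y α) :
    ∃ S : Submodule K (Fin n → Fin N → K),
      n * d ≤ finrank K (S.map (B0.mulVecLin.compLeft (Fin n))) ∧
        finrank K ↥(⨆ α, S.map ((B α).mulVecLin.compLeft (Fin n))) ≤ n * D0 := by
  classical
  have : Module.Finite K K' := Module.Finite.equiv e0.symm
  have hn : finrank K K' = n := by simpa using e0.finrank_eq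
  have hdim : ∀ M : ℕ, finrank K (Fin M → K') = n * M := fun M => by
    rw [Module.finrank_pi_fintype]
    simp [hn, mul_comm]
  have key : ∀ C : Matrix (Fin R) (Fin N) K,
      (LinearMap.range (coordE e0 N ∘ₗ c.mulVecLin.restrictScalars K)).map
        (C.mulVecLin.compLeft (Fin n)) =
      LinearMap.range (coordE e0 R ∘ₗ
        (C.map (algebraMap K K') * c).mulVecLin.restrictScalars K) := fun C => by
    rw [← LinearMap.range_comp, ← LinearMap.comp_assoc, coordE_mulVec, Matrix.mulVecLin_mul]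
    rfl
  refine ⟨LinearMap.range (coordE e0 N ∘ₗ c.mulVecLin.restrictScalars K), ?_, ?_⟩
  · rw [key, LinearMap.finrank_range_of_inj, hdim]
    refine (coordE_injective e0 R).comp fun x y hxy => ?_
    have := congrArg Z.mulVec hxy
    simpa [Matrix.mulVec_mulVec, h1] using this
  · have hle : (⨆ α, (LinearMap.range (coordE e0 N ∘ₗ c.mulVecLin.restrictScalars K)).map
        ((B α).mulVecLin.compLeft (Fin n))) ≤
        LinearMap.range (coordE e0 R ∘ₗ X.mulVecLin.restrictScalars K) := by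
      refine iSup_le fun α => ?_
      rw [key, h2, Matrix.mulVecLin_mul]
      rintro _ ⟨x, rfl⟩
      exact ⟨(Y α).mulVecLin x, rfl⟩
    refine (Submodule.finrank_mono hle).trans ?_
    rw [← hdim]
    exact LinearMap.finrank_range_le _

end

theorem spread_aux {Λ K : Type} [CommRing Λ] [Field K] (ψ0 : Λ →+* K)
    (hinj : Function.Injective ψ0) (hfr : ∀ q : K, ∃ a b : Λ, b ≠ 0 ∧ q * ψ0 b = ψ0 a)
    {R N : ℕ} {ι : Type} [Fintype ι] (B0 : Matrix (Fin R) (Fin N) Λ)
    (B : ι → Matrix (Fin R) (Fin N) Λ) (d D0 : ℕ)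
    (h : ∀ c : Λ, c ≠ 0 → ∃ (Ω : Type) (_ : Field Ω) (ψ : Λ →+* Ω), ψ c ≠ 0 ∧
      ∃ S : Submodule Ω (Fin N → Ω), d ≤ Module.finrank Ω (S.map (B0.map ψ).mulVecLin) ∧
        Module.finrank Ω ↥(⨆ α, S.map ((B α).map ψ).mulVecLin) ≤ D0) :
    ∃ n : ℕ, 0 < n ∧ ∃ S : Submodule K (Fin n → Fin N → K),
      n * d ≤ Module.finrank K (S.map ((B0.map ψ0).mulVecLin.compLeft (Fin n))) ∧
        Module.finrank K ↥(⨆ α, S.map (((B α).map ψ0).mulVecLin.compLeft (Fin n))) ≤ n * D0 := by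
  classical
  let σ : Type := (Fin N × Fin d) ⊕ (Fin d × Fin R) ⊕ (Fin R × Fin D0) ⊕ (ι × Fin D0 × Fin d)
  let cP : Matrix (Fin N) (Fin d) (MvPolynomial σ Λ) :=
    Matrix.of fun i j => MvPolynomial.X (Sum.inl (i, j))
  let ZP : Matrix (Fin d) (Fin R) (MvPolynomial σ Λ) :=
    Matrix.of fun i j => MvPolynomial.X (Sum.inr (Sum.inl (i, j)))
  let XP : Matrix (Fin R) (Fin D0) (MvPolynomial σ Λ) :=
    Matrix.of fun i j => MvPolynomial.X (Sum.inr (Sum.inr (Sum.inl (i, j))))
  let YP : ι → Matrix (Fin D0) (Fin d) (MvPolynomial σ Λ) := fun α =>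
    Matrix.of fun i j => MvPolynomial.X (Sum.inr (Sum.inr (Sum.inr (α, i, j))))
  let CC : Λ →+* MvPolynomial σ Λ := MvPolynomial.C
  let T : Set (MvPolynomial σ Λ) :=
    {t | (∃ i j, t = (ZP * (B0.map CC * cP)) i j -
        (1 : Matrix (Fin d) (Fin d) (MvPolynomial σ Λ)) i j) ∨
      ∃ α i j, t = ((B α).map CC * cP) i j - (XP * YP α) i j}
  have hT : ∀ (Ω : Type) [Field Ω] (φ : MvPolynomial σ Λ →+* Ω), (∀ t ∈ T, φ t = 0) ↔
      ZP.map φ * (B0.map (φ.comp MvPolynomial.C) * cP.map φ) = 1 ∧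
        ∀ α, (B α).map (φ.comp MvPolynomial.C) * cP.map φ = XP.map φ * (YP α).map φ := by
    intro Ω _ φ
    have e1 : ZP.map φ * (B0.map (φ.comp MvPolynomial.C) * cP.map φ) =
        (ZP * (B0.map CC * cP)).map φ := by
      rw [Matrix.map_mul, Matrix.map_mul, Matrix.map_map]
      rfl
    have e2 : ∀ α, (B α).map (φ.comp MvPolynomial.C) * cP.map φ =
        ((B α).map CC * cP).map φ := fun α => by
      rw [Matrix.map_mul, Matrix.map_map]
      rfl
    have e3 : (1 : Matrix (Fin d) (Fin d) Ω) =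
        (1 : Matrix (Fin d) (Fin d) (MvPolynomial σ Λ)).map φ :=
      (Matrix.map_one φ (map_zero φ) (map_one φ)).symm
    simp only [e1, e2, ← Matrix.map_mul]
    rw [e3]
    constructor
    · intro H
      refine ⟨Matrix.ext fun i j => ?_, fun α => Matrix.ext fun i j => ?_⟩
      · have := H _ (Or.inl ⟨i, j, rfl⟩)
        rwa [map_sub, sub_eq_zero] at this
      · have := H _ (Or.inr ⟨α, i, j, rfl⟩)
        rwa [map_sub, sub_eq_zero] at this
    · rintro ⟨H1, H2⟩ t (⟨i, j, rfl⟩ | ⟨α, i, j, rfl⟩)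
      · rw [map_sub, sub_eq_zero]
        exact congrFun (congrFun H1 i) j
      · rw [map_sub, sub_eq_zero]
        exact congrFun (congrFun (H2 α) i) j
  obtain ⟨K', _, _, _, φ, hφ, hφT⟩ := exists_point ψ0 hinj hfr T (by
    intro a ha
    obtain ⟨Ω, _, ψ, hψ, S, h1, h2⟩ := h a ha
    obtain ⟨c, Z, X, Y, h3, h4⟩ := solve_of_subspace _ _ S h1 h2
    let x : σ → Ω := Sum.elim (fun p => c p.1 p.2) (Sum.elim (fun p => Z p.1 p.2)
      (Sum.elim (fun p => X p.1 p.2) fun p => Y p.1 p.2.1 p.2.2))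
    refine ⟨Ω, inferInstance, MvPolynomial.eval₂Hom ψ x, by simpa using hψ, (hT Ω _).2 ?_⟩
    have e0 : (MvPolynomial.eval₂Hom ψ x).comp MvPolynomial.C = ψ :=
      MvPolynomial.eval₂Hom_comp_C ψ x
    have e1 : cP.map (MvPolynomial.eval₂Hom ψ x) = c := by
      ext i j
      simp [cP, x]
    have e2 : ZP.map (MvPolynomial.eval₂Hom ψ x) = Z := by
      ext i j
      simp [ZP, x]
    have e3 : XP.map (MvPolynomial.eval₂Hom ψ x) = X := by
      ext i j
      simp [XP, x]
    have e4 : ∀ α, (YP α).map (MvPolynomial.eval₂Hom ψ x) = Y α := fun α => by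
      ext i j
      simp [YP, x]
    simp only [e0, e1, e2, e3, e4]
    exact ⟨h3, h4⟩)
  obtain ⟨h1, h2⟩ := (hT K' φ).1 hφT
  have e0 : ∀ C : Matrix (Fin R) (Fin N) Λ,
      C.map (φ.comp MvPolynomial.C) = (C.map ψ0).map (algebraMap K K') := fun C => by
    ext i j
    exact hφ _
  simp only [e0] at h1 h2
  exact ⟨finrank K K', Module.finrank_pos,
    subspace_of_solve (Module.finBasis K K').equivFun _ _ _ _ _ _ h1 h2⟩

end Vale.Agent.P190.SpreadAux
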