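import Vale.Agent.P190.P1Ops
import Vale.Agent.P190.SpreadAux

/-! Spreading out a linear algebra condition, and dimension certificates for destabilizing
subsheaves. -/

namespace Vale.Agent.P190

/-- If a rank condition can be met over fields under `Λ` avoiding any given nonzero element,
then it can be met over the fraction field, after passing to several copies. -/
theorem spread {Λ K : Type} [CommRing Λ] [Field K] (ψ0 : Λ →+* K) (hinj : Function.Injective ψ0)
    (hfr : ∀ q : K, ∃ a b : Λ, b ≠ 0 ∧ q * ψ0 b = ψ0 a)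
    {R N : ℕ} {ι : Type} [Fintype ι] (B0 : Matrix (Fin R) (Fin N) Λ)
    (B : ι → Matrix (Fin R) (Fin N) Λ) (d D0 : ℕ)
    (h : ∀ c : Λ, c ≠ 0 → ∃ (Ω : Type) (_ : Field Ω) (ψ : Λ →+* Ω), ψ c ≠ 0 ∧
      ∃ S : Submodule Ω (Fin N → Ω), d ≤ Module.finrank Ω (S.map (B0.map ψ).mulVecLin) ∧
        Module.finrank Ω ↥(⨆ α, S.map ((B α).map ψ).mulVecLin) ≤ D0) :
    ∃ n : ℕ, 0 < n ∧ ∃ S : Submodule K (Fin n → Fin N → K),
      n * d ≤ Module.finrank K (S.map ((B0.map ψ0).mulVecLin.compLeft (Fin n))) ∧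
        Module.finrank K ↥(⨆ α, S.map (((B α).map ψ0).mulVecLin.compLeft (Fin n))) ≤ n * D0 :=
  SpreadAux.spread_aux ψ0 hinj hfr B0 B d D0 h

namespace P1
variable {k : Type} [Field k] {F : Type} [Field F] [Algebra k F] {t : Fˣ}
  {V : Type} [AddCommGroup V] [Module F V] [Module k V] [IsScalarTower k F V]
  {A : Type} [CommRing A] [Algebra F A] [Module A V] [IsScalarTower F A V]

variable (k V) in
/-- the operator `t ^ i * g` as a `k`-linear map -/
def opT (t : Fˣ) (g : A) (i : ℕ) : V →ₗ[k] V :=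
  (PSh.opL F V (((t : F) ^ i) • g)).restrictScalars k

theorem opT_apply (g : A) (i : ℕ) (v : V) : opT k V t g i v = (t : F) ^ i • g • v := by
  simp [opT]

theorem sb_op_mem {E : P1 k t V} {g : A} {e : ℕ} (hg : E.OpStable g e) {T i : ℕ} (hi : i ≤ T)
    {b : Bool} {v : V} (hv : v ∈ E.ch b) :
    opT k V t g i v ∈ (E.tw ((e + T : ℕ) : ℤ)).ch b := by
  rw [opT_apply, mem_tw]
  have h := hg b v hv
  cases b
  · have h2 := pow_smul_mem (E.smul_mem false) i h
    simpa [Units.smul_def] using h2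
  · have h2 := pow_smul_mem (E.smul_mem true) (T - i) h
    obtain ⟨d, rfl⟩ := Nat.exists_eq_add_of_le hi
    rw [Nat.add_sub_cancel_left, ← mul_smul] at h2
    rw [← Units.val_pow_eq_pow_val, ← Units.smul_def, ← mul_smul]
    have e1 : (tu t ((e + (i + d) : ℕ) : ℤ) true)⁻¹ * t ^ i =
        cs t true ^ d * (tu t (e : ℤ) true)⁻¹ := by
      rw [tu_true, tu_true, cs_true, zpow_natCast, zpow_natCast, pow_add, pow_add, inv_pow,
        mul_comm (t ^ i), ← mul_assoc, mul_inv, inv_mul_cancel_right, mul_inv, mul_comm]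
    rwa [e1]

theorem sb_sup_le {E : P1 k t V} {Γ : Type} (g : Γ → A) {e : ℕ} (hge : ∀ γ, E.OpStable (g γ) e)
    (S : Submodule k V) (hS : S ≤ E.ch false ⊓ E.ch true) (T : ℕ) :
    (⨆ α : Fin (T + 1) × Γ, S.map (opT k V t (g α.2) α.1)) ≤
      (E.tw ((e + T : ℕ) : ℤ)).ch false ⊓ (E.tw ((e + T : ℕ) : ℤ)).ch true := by
  refine iSup_le fun α => ?_
  rintro _ ⟨v, hv, rfl⟩
  have hi : (α.1 : ℕ) ≤ T := Nat.lt_succ_iff.1 α.1.2
  exact ⟨sb_op_mem (hge _) hi (hS hv).1, sb_op_mem (hge _) hi (hS hv).2⟩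

theorem sb_finite (hc : IsCoord1 k t) {E : P1 k t V} (hE : E.FG) :
    Module.Finite k ↥(E.ch false ⊓ E.ch true) :=
  rdim_bot_ne_top_iff.1 (h0_ne_top hc hE)

theorem sb_finrank_le (hc : IsCoord1 k t) {E : P1 k t V} (hE : E.FG) {S : Submodule k V}
    (hS : S ≤ E.ch false ⊓ E.ch true) : Module.finrank k S ≤ E.h0.toNat := by
  haveI := sb_finite hc hE
  rw [h0, rdim_bot_toNat]
  exact Submodule.finrank_mono hS

/-- spaces of sections of a sheaf with bounded slopes grow under the operators -/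
theorem growth (hc : IsCoord1 k t) {E : P1 k t V} (hE : E.FG) {Γ : Type} [Fintype Γ] (g : Γ → A)
    (hg : Submodule.span F (Set.range g) = ⊤) {e : ℕ} (hge : ∀ γ, E.OpStable (g γ) e) {μ : ℚ}
    (h : E.SubLe A μ) (hμ : (e : ℚ) ≤ μ) (S : Submodule k V) (hS : S ≤ E.ch false ⊓ E.ch true)
    (T : ℕ) :
    ((T : ℚ) + 1) * Module.finrank k S ≤
      μ * Module.finrank k ↥(⨆ α : Fin (T + 1) × Γ, S.map (opT k V t (g α.2) α.1)) := by
  set W := ⨆ α : Fin (T + 1) × Γ, S.map (opT k V t (g α.2) α.1) with hW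
  haveI := sb_finite hc (hE.tw ((e + T : ℕ) : ℤ))
  haveI : Module.Finite k W := Submodule.finiteDimensional_of_le (sb_sup_le g hge S hS T)
  let G : Set V := {v | ∃ γ, ∃ s ∈ S, g γ • s = v}
  let U : Submodule A V := Submodule.span A (S : Set V)
  have h1 : ∀ s ∈ S, ∀ a : A, a • s ∈ Submodule.span F G := by
    intro s hs a
    have ha : a ∈ Submodule.span F (Set.range g) := hg ▸ Submodule.mem_top
    induction ha using Submodule.span_induction with
    | mem a ha =>
      obtain ⟨γ, rfl⟩ := ha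
      exact Submodule.subset_span ⟨γ, s, hs, rfl⟩
    | zero => simp
    | add a b _ _ ha hb =>
      rw [add_smul]
      exact Submodule.add_mem _ ha hb
    | smul c a _ ha =>
      rw [smul_assoc]
      exact Submodule.smul_mem _ c ha
  have h2 : U.restrictScalars F ≤ Submodule.span F G := by
    intro v hv
    have key : ∀ a : A, a • v ∈ Submodule.span F G := by
      change v ∈ Submodule.span A (S : Set V) at hv
      induction hv using Submodule.span_induction with
      | mem s hs => exact h1 s hs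
      | zero => simp
      | add u v _ _ hu hv =>
        intro a
        rw [smul_add]
        exact Submodule.add_mem _ (hu a) (hv a)
      | smul c v _ hv =>
        intro a
        rw [← mul_smul]
        exact hv _
    simpa using key 1
  obtain ⟨b, hb1, hb2, hb3⟩ := exists_linearIndependent F G
  have h3 : LinearIndependent k fun i : Fin (T + 1) => (t : F) ^ (i : ℕ) := by
    have h4 := hc.indep.comp (fun i : Fin (T + 1) => ((i : ℕ) : ℤ))
      (fun i j hij => Fin.ext (Int.ofNat_inj.1 hij))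
    simpa [Function.comp_def] using h4
  have h4 := linearIndependent_smul h3 hb3
  have h5 : ∀ p : Fin (T + 1) × b, (t : F) ^ (p.1 : ℕ) • (p.2 : V) ∈ W := by
    intro p
    obtain ⟨γ, s, hs, h6⟩ := hb1 p.2.2
    rw [← h6, ← opT_apply (k := k)]
    exact Submodule.mem_iSup_of_mem (p.1, γ) (Submodule.mem_map_of_mem hs)
  have h6 : LinearIndependent k fun p : Fin (T + 1) × b => (⟨_, h5 p⟩ : W) :=
    LinearIndependent.of_comp W.subtype h4
  haveI : Finite (Fin (T + 1) × b) := h6.finite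
  haveI : Finite b := Finite.prod_right (Fin (T + 1))
  haveI := Fintype.ofFinite b
  have h7 := h6.fintype_card_le_finrank
  rw [Fintype.card_prod, Fintype.card_fin] at h7
  have h8 : (E.inf (U.restrictScalars F)).rk ≤ Fintype.card b := by
    haveI : Module.Finite F (Submodule.span F b) := Module.Finite.span_of_finite F (Set.toFinite b)
    rw [rk, span_inf hc]
    refine (Submodule.finrank_mono (inf_le_right.trans (h2.trans hb2.ge))).trans ?_
    rw [← Set.toFinset_card]
    exact finrank_span_le_card b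
  have ho : E.Ops A e := by
    refine ⟨(Set.finite_range g).toFinset, by rw [Set.Finite.coe_toFinset, hg], fun a ha => ?_⟩
    obtain ⟨i, rfl⟩ := (Set.Finite.mem_toFinset _).mp ha
    exact hge i
  have h9 := h0_le_of_subLe hc (hE.inf _) (ho.inf U) (h.inf U) hμ
  have h10 : Module.finrank k S ≤ (E.inf (U.restrictScalars F)).h0.toNat :=
    sb_finrank_le hc (hE.inf _) fun v hv =>
      ⟨⟨(hS hv).1, Submodule.subset_span hv⟩, ⟨(hS hv).2, Submodule.subset_span hv⟩⟩
  have hμ0 : (0 : ℚ) ≤ μ := le_trans (Nat.cast_nonneg e) hμ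
  have h11 : (Module.finrank k S : ℚ) ≤ μ * Fintype.card b :=
    (Nat.cast_le.2 h10).trans (h9.trans (mul_le_mul_of_nonneg_left (Nat.cast_le.2 h8) hμ0))
  have h12 : ((T : ℚ) + 1) * Fintype.card b ≤ Module.finrank k W := by exact_mod_cast h7
  have h13 := mul_le_mul_of_nonneg_left h11 (by positivity : (0 : ℚ) ≤ T + 1)
  have h14 := mul_le_mul_of_nonneg_left h12 hμ0
  linarith

/-- the sections of a stable subsheaf do not grow much -/
theorem certificate (hc : IsCoord1 k t) {E : P1 k t V} (hE : E.FG) {Γ : Type} [Fintype Γ]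
    (g : Γ → A) {e : ℕ} (hge : ∀ γ, E.OpStable (g γ) e) (c : ℕ)
    (h0 : (E.tw (-(c : ℤ))).h0 = 0) (U : Submodule A V) (j T : ℕ) :
    ∃ S : Submodule k V, S ≤ (E.tw j).ch false ⊓ (E.tw j).ch true ∧
      (E.inf (U.restrictScalars F)).deg + (E.inf (U.restrictScalars F)).rk * j ≤
        Module.finrank k S ∧
      Module.finrank k ↥(⨆ α : Fin (T + 1) × Γ, S.map (opT k V t (g α.2) α.1)) ≤
        (E.inf (U.restrictScalars F)).rk * (c + j + e + T) := by
  set E' := E.inf (U.restrictScalars F) with hE'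
  have hF : E'.FG := hE.inf _
  refine ⟨(E'.tw j).ch false ⊓ (E'.tw j).ch true,
    inf_le_inf (tw_mono (E.inf_le _) j false) (tw_mono (E.inf_le _) j true), ?_, ?_⟩
  · have h1 := deg_tw hc hF j
    rw [deg, P1.h0, rdim_bot_toNat] at h1
    have h2 : (0 : ℤ) ≤ (E'.tw j).h1.toNat := Int.natCast_nonneg _
    linarith
  · have h1 : ∀ γ, (E'.tw j).OpStable (g γ) e := by
      intro γ b v hv
      have h2 := mem_tw.mp hv
      rw [mem_tw, smul_comm (tu t j b)⁻¹ (tu t e b)⁻¹, smul_comm (tu t j b)⁻¹ (g γ)]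
      exact ⟨hge γ b _ h2.1, (U.restrictScalars F).smul_mem _ (U.smul_mem _ h2.2)⟩
    refine (sb_finrank_le hc ((hF.tw j).tw _) (sb_sup_le g h1 _ le_rfl T)).trans ?_
    have h2 := h0_le_of_tw hc ((hF.tw j).tw ((e + T : ℕ) : ℤ)) (c + j + e + T) (by
      rw [tw_tw, tw_tw]
      have e1 : (j : ℤ) + (((e + T : ℕ) : ℤ) + -((c + j + e + T : ℕ) : ℤ)) = -(c : ℤ) := by
        push_cast
        ring
      rw [e1]
      exact nonpos_iff_eq_zero.1 (h0 ▸ h0_mono (tw_mono (E.inf_le _) _)))
    rwa [rk_tw, rk_tw] at h2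

end P1
end Vale.Agent.P190
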