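import Vale.Agent.P190.StepDefs
import Vale.Agent.P190.SurfChi

/-! The comparison of Frobenius pullbacks along one double cover, and the reflexive hull. -/

namespace Vale.Agent.P190

section
variable {k : Type} [Field k] {A : Type} [CommRing A] [Algebra k A]
  {V : Type} [AddCommGroup V] [Module k V] [Module A V] [IsScalarTower k A V]

theorem HasDer.add {D : V →+ V} {g g' h h' : A} (h1 : HasDer D g g') (h2 : HasDer D h h') :
    HasDer D (g + h) (g' + h') := by
  intro v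
  rw [add_smul, map_add, h1, h2, add_smul, add_smul]; abel

theorem HasDer.mul {D : V →+ V} {g g' h h' : A} (h1 : HasDer D g g') (h2 : HasDer D h h') :
    HasDer D (g * h) (g' * h + g * h') := by
  intro v
  rw [mul_smul, h1, h2, add_smul, smul_add, mul_smul, mul_smul, mul_smul, add_assoc]

theorem HasDer.neg {D : V →+ V} {g g' : A} (h1 : HasDer D g g') : HasDer D (-g) (-g') := by
  intro v
  rw [neg_smul, map_neg, h1, neg_smul, neg_smul, neg_add]

theorem HasDer.pow {D : V →+ V} {g g' : A} (h1 : HasDer D g g') (n : ℕ) :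
    HasDer D (g ^ n) (n * g ^ (n - 1) * g') := by
  induction n with
  | zero => intro v; simp
  | succ n ih =>
    have := ih.mul h1
    rw [← pow_succ] at this
    have e : ((n + 1 : ℕ) : A) * g ^ (n + 1 - 1) * g' = n * g ^ (n - 1) * g' * g + g ^ n * g' := by
      cases n with
      | zero => simp
      | succ n => simp only [Nat.add_sub_cancel]; push_cast; ring
    rw [e]; exact this

theorem stab_le_loc {Q : Submodule k V} (g : A) : stab A Q ≤ stab A (loc g Q) := by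
  rintro a ha v ⟨n, hn⟩
  exact ⟨n, fun m hm => by rw [smul_comm]; exact ha _ (hn m hm)⟩

/-- a derivation preserving `Q` preserves `Q[1/g]` -/
theorem HasDer.loc_mem {D : V →+ V} {Q : Submodule k V} (hD : ∀ v ∈ Q, D v ∈ Q) {g g' : A}
    (hg : g ∈ stab A Q) (hg' : g' ∈ stab A Q) (h : HasDer D g g') {v : V} (hv : v ∈ loc g Q) :
    D v ∈ loc g Q := by
  obtain ⟨n, hn⟩ := (mem_loc hg).mp hv
  refine (mem_loc hg).mpr ⟨n + 1, ?_⟩
  have h1 := h.pow (n + 1) v
  have h2 : g ^ (n + 1) • v ∈ Q := by rw [pow_succ', mul_smul]; exact hg _ hn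
  have h3 : (((n + 1 : ℕ) : A) * g ^ (n + 1 - 1) * g') • v ∈ Q := by
    rw [Nat.add_sub_cancel, mul_right_comm, mul_smul]
    exact (stab A Q).mul_mem (natCast_mem _ _) hg' _ hn
  rw [eq_sub_of_add_eq' h1.symm]
  exact Q.sub_mem (hD _ h2) h3

theorem inv_mem_stab_loc {Q : Submodule k V} {g : Aˣ} (hg : (g : A) ∈ stab A Q) :
    ((g⁻¹ : Aˣ) : A) ∈ stab A (loc (g : A) Q) := by
  intro v hv
  obtain ⟨n, hn⟩ := (mem_loc hg).mp hv
  refine (mem_loc hg).mpr ⟨n + 1, ?_⟩
  rwa [smul_smul, pow_succ, mul_assoc, Units.mul_inv, mul_one]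

/-- membership can be checked on a cover by basic open sets -/
theorem mem_of_cover {Q : Submodule k V} {J : Type} [Fintype J] {g : J → A}
    (hcov : ∀ n : ℕ, ∃ c : J → A, (∀ j, c j ∈ stab A Q) ∧ ∑ j, c j * g j ^ n = 1)
    {v : V} (hv : ∀ j, v ∈ loc (g j) Q) : v ∈ Q := by
  choose n hn using hv
  obtain ⟨c, hc, h1⟩ := hcov (Finset.univ.sup n)
  rw [← one_smul A v, ← h1, Finset.sum_smul]
  refine Q.sum_mem fun j _ => ?_
  rw [mul_smul]
  exact hc j _ (hn j _ (Finset.le_sup (Finset.mem_univ j)))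

/-- The substitute for flatness of Frobenius. -/
theorem key_lemma (p : ℕ) [Fact p.Prime] [CharP k p] {Q : Submodule k V} {D : V →+ V}
    (hD : ∀ v ∈ Q, D v ∈ Q) {f u u' c π : A} (hf : f ∈ stab A Q) (hu : u ∈ stab A Q)
    (hu' : u' ∈ stab A Q) (hc : c ∈ stab A Q) (hder : HasDer D f u) (huu : u' * u = 1 + c * f)
    (hπ : HasDer D π 0) {n : ℕ} (hn : n < p) {v v' : V} (hv : v ∈ Q) (hv' : v' ∈ Q)
    (h : f ^ n • v = π • v') : ∃ q ∈ Q, ∃ q' ∈ Q, v = f • q + π • q' := by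
  induction n generalizing v v' with
  | zero => exact ⟨0, Q.zero_mem, v', hv', by simpa using h⟩
  | succ n ih =>
    have h1 := congrArg D h
    rw [hder.pow (n + 1) v, hπ, zero_smul, zero_add, Nat.add_sub_cancel] at h1
    have hn' : ((n + 1 : ℕ) : k) ≠ 0 := fun h0 =>
      absurd (Nat.le_of_dvd (Nat.succ_pos n) ((CharP.cast_eq_zero_iff k p _).mp h0)) (by omega)
    have hw : (((n + 1 : ℕ) : A) * u) • v + f • D v ∈ Q :=
      Q.add_mem ((stab A Q).mul_mem (natCast_mem _ _) hu _ hv) (hf _ (hD _ hv))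
    obtain ⟨q, hq, q', hq', h2⟩ := ih (by omega) hw (hD _ hv') (by
      rw [← h1, smul_add, smul_smul, smul_smul, ← pow_succ]
      congr 2; ring)
    set a : A := algebraMap k A ((n + 1 : ℕ) : k)⁻¹ with ha
    have ha1 : a * ((n + 1 : ℕ) : A) = 1 := by
      rw [ha, ← map_natCast (algebraMap k A), ← map_mul, inv_mul_cancel₀ hn', map_one]
    have haS : a ∈ stab A Q := (stab A Q).algebraMap_mem _
    refine ⟨(a * u') • (q - D v) - c • v,
      Q.sub_mem ((stab A Q).mul_mem haS hu' _ (Q.sub_mem hq (hD _ hv))) (hc _ hv),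
      (a * u') • q', (stab A Q).mul_mem haS hu' _ hq', ?_⟩
    have h3 : (a * u') • ((((n + 1 : ℕ) : A) * u) • v) = v + (c * f) • v := by
      rw [smul_smul, mul_mul_mul_comm, ha1, one_mul, huu, add_smul, one_smul]
    have h4 := congrArg (fun z => (a * u') • z) h2
    simp only [smul_add, h3] at h4
    linear_combination (norm := module) h4

theorem stepB_inv_pow_mem {Q : Submodule k V} {g : Aˣ} (hg : (g : A) ∈ stab A Q) (m : ℕ) {u : V}
    (hu : u ∈ loc (g : A) Q) : ((g⁻¹ : Aˣ) : A) ^ m • u ∈ loc (g : A) Q :=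
  (stab A (loc (g : A) Q)).pow_mem (inv_mem_stab_loc hg) m u hu

theorem stepB_inv_pow_smul (g : Aˣ) (m : ℕ) (v : V) :
    ((g⁻¹ : Aˣ) : A) ^ m • (g : A) ^ m • v = v := by
  rw [smul_smul, ← mul_pow, Units.inv_mul, one_pow, one_smul]

theorem stepB_mem_loc_sup {Q Q' : Submodule k V} {g : A} (hu : IsUnit g) (hg : g ∈ stab A Q)
    (hg' : g ∈ stab A Q') {v : V} :
    v ∈ loc g (Q ⊔ Q') ↔ ∃ u ∈ loc g Q, ∃ u' ∈ loc g Q', u + u' = v := by
  obtain ⟨g, rfl⟩ := hu
  constructor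
  · rintro ⟨n, hn⟩
    obtain ⟨u, hu, u', hu', h⟩ := Submodule.mem_sup.1 (hn n le_rfl)
    refine ⟨_, stepB_inv_pow_mem hg n (le_loc hg hu), _,
      stepB_inv_pow_mem hg' n (le_loc hg' hu'), ?_⟩
    rw [← smul_add, h, stepB_inv_pow_smul]
  · rintro ⟨u, hu, u', hu', rfl⟩
    exact add_mem (loc_mono _ le_sup_left hu) (loc_mono _ le_sup_right hu')

theorem stepB_stab_sup {Q Q' : Submodule k V} {g : A} (hg : g ∈ stab A Q) (hg' : g ∈ stab A Q') :
    g ∈ stab A (Q ⊔ Q') := by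
  intro v hv
  obtain ⟨u, hu, u', hu', rfl⟩ := Submodule.mem_sup.1 hv
  rw [smul_add]
  exact Submodule.add_mem_sup (hg u hu) (hg' u' hu')

end

namespace PSh
variable {k : Type} [Field k] {L : Type} [Field L] [Algebra k L] {x y : Lˣ}
  {V : Type} [AddCommGroup V] [Module L V] [Module k V] [IsScalarTower k L V]
  {A : Type} [CommRing A] [Algebra L A] [Module A V] [IsScalarTower L A V]
  {ι : Type} [Fintype ι]

@[simp] theorem NN_zero (w : ι → A) (d e : ℕ) (E : PSh k x y V) : NN w d e 0 E = E := rfl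

theorem NN_succ (w : ι → A) (d e n : ℕ) (E : PSh k x y V) :
    NN w d e (n + 1) E = (NN w d e n E).mulF w d e := Function.iterate_succ_apply' _ _ _

theorem NN_add (w : ι → A) (d e n m : ℕ) (E : PSh k x y V) :
    NN w d e (n + m) E = NN w d e n (NN w d e m E) := Function.iterate_add_apply _ _ _ _

theorem NN_mono (w : ι → A) (d e n : ℕ) {E E' : PSh k x y V} (h : E' ≤ E) :
    NN w d e n E' ≤ NN w d e n E := by
  induction n with
  | zero => exact h
  | succ n ih => rw [NN_succ, NN_succ]; exact mulF_mono ih _ _ _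

theorem NN_sup (w : ι → A) (d e n : ℕ) (E E' : PSh k x y V) :
    NN w d e n (E ⊔ E') = NN w d e n E ⊔ NN w d e n E' := by
  induction n with
  | zero => rfl
  | succ n ih => rw [NN_succ, NN_succ, NN_succ, ih, mulF_sup]

theorem FG.NN {E : PSh k x y V} (hE : E.FG) (w : ι → A) (d e n : ℕ) : (NN w d e n E).FG := by
  induction n with
  | zero => exact hE
  | succ n ih => rw [NN_succ]; exact ih.mulF _ _ _

theorem FG.YY {W : PSh k x y V} (hW : W.FG) (w : ι → A) (d e n : ℕ) : (YY w d e W n).FG :=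
  (hW.sup (hW.mulF _ _ _)).NN _ _ _ _

theorem YY_succ (w : ι → A) (d e : ℕ) (W : PSh k x y V) (n : ℕ) :
    YY w d e W (n + 1) = (YY w d e W n).mulF w d e := NN_succ _ _ _ _ _

theorem Stable.NN {E : PSh k x y V} {g : A} {d' e' : ℕ} (h : E.Stable g d' e') (w : ι → A)
    (d e n : ℕ) : (NN w d e n E).Stable g d' e' := by
  induction n with
  | zero => exact h
  | succ n ih => rw [NN_succ]; exact ih.mulF _ _ _

theorem Stable.YY {W : PSh k x y V} {g : A} {d' e' : ℕ} (h : W.Stable g d' e') (w : ι → A)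
    (d e n : ℕ) : (YY w d e W n).Stable g d' e' :=
  (h.sup (h.mulF _ _ _)).NN _ _ _ _

theorem YY_succ_le {W : PSh k x y V} {w : ι → A} {d e : ℕ}
    (h2 : ∀ i j, W.Stable (w i * w j) (d + d) (e + e)) (n : ℕ) :
    YY w d e W (n + 1) ≤ YY w d e W n := by
  have h0 : (W ⊔ W.mulF w d e).mulF w d e ≤ W ⊔ W.mulF w d e := by
    rw [mulF_sup]
    refine sup_le le_sup_right (le_trans ?_ le_sup_left)
    intro a b v hv
    obtain ⟨u, hu, rfl⟩ := mem_mulF.mp hv
    refine Submodule.sum_mem _ fun i _ => ?_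
    obtain ⟨u', hu', h⟩ := mem_mulF.mp (hu i)
    rw [← h, Finset.smul_sum]
    refine Submodule.sum_mem _ fun j _ => ?_
    rw [smul_smul, ← chop_mul]
    exact h2 i j a b _ (hu' j)
  exact (NN_add w d e n 1 _).le.trans (NN_mono w d e n h0)

theorem stable_YY {W : PSh k x y V} {w : ι → A} {d e : ℕ}
    (h2 : ∀ i j, W.Stable (w i * w j) (d + d) (e + e)) (n : ℕ) (i : ι) :
    (YY w d e W n).Stable (w i) d e := by
  classical
  intro a b v hv
  refine YY_succ_le h2 n a b ?_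
  rw [YY_succ, mem_mulF]
  refine ⟨Pi.single i v, fun j => ?_, ?_⟩
  · by_cases hj : j = i
    · subst hj; simpa using hv
    · simp [hj]
  · rw [Finset.sum_eq_single i (fun j _ hj => by simp [hj]) (by simp), Pi.single_eq_same]

theorem Full.YY [Nonempty ι] {W : PSh k x y V} (h : W.Full) {w : ι → A} (hw : ∀ i, IsUnit (w i))
    (d e n : ℕ) : (YY w d e W n).Full := by
  classical
  induction n with
  | zero =>
    exact top_unique (h.ge.trans (Submodule.span_mono fun v hv => Submodule.mem_sup_left hv))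
  | succ n ih =>
    obtain ⟨i⟩ := ‹Nonempty ι›
    obtain ⟨u, hu⟩ := hw i
    rw [YY_succ]
    refine top_unique fun v _ => ?_
    have h1 : ((u⁻¹ : Aˣ) : A) • v ∈
        Submodule.span L ((PSh.YY w d e W n).ch false false : Set V) := ih.ge trivial
    have h2 := Submodule.mem_map_of_mem (f := opL L V (w i)) h1
    rw [Submodule.map_span, opL_apply, smul_smul, ← hu, Units.mul_inv, one_smul] at h2
    refine Submodule.span_mono ?_ h2
    rintro _ ⟨z, hz, rfl⟩
    refine mem_mulF.mpr ⟨Pi.single i z, fun j => ?_, ?_⟩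
    · by_cases hj : j = i
      · subst hj; simpa using hz
      · simp [hj]
    · rw [Finset.sum_eq_single i (fun j _ hj => by simp [hj]) (by simp), Pi.single_eq_same,
        chop_false, hu, opL_apply]

theorem Full.rk_eq {W : PSh k x y V} (h : W.Full) : W.rk = Module.finrank L V := by
  rw [rk, h, finrank_top]

theorem stepB_mul_le_mulF (E : PSh k x y V) (w : ι → A) (d e : ℕ) (i : ι) :
    E.mul (w i) d e ≤ E.mulF w d e :=
  Finset.le_sup (f := fun i => E.mul (w i) d e) (Finset.mem_univ i)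

theorem stepB_YY_eq (W : PSh k x y V) (w : ι → A) (d e n : ℕ) :
    YY w d e W n = NN w d e n W ⊔ NN w d e (n + 1) W := by
  rw [YY, NN_sup, NN_add]
  rfl

theorem stepB_NN_two_le {W : PSh k x y V} {w : ι → A} {d e : ℕ}
    (h2 : ∀ i j, W.Stable (w i * w j) (d + d) (e + e)) : NN w d e 2 W ≤ W := by
  intro a b v hv
  obtain ⟨u, hu, rfl⟩ := mem_mulF.1 (show v ∈ ((W.mulF w d e).mulF w d e).ch a b from hv)
  refine sum_mem fun i _ => ?_
  obtain ⟨u', hu', h⟩ := mem_mulF.1 (hu i)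
  rw [← h, Finset.smul_sum]
  refine sum_mem fun j _ => ?_
  rw [smul_smul, ← chop_mul]
  exact h2 i j a b _ (hu' j)

theorem stepB_YY_anti {W : PSh k x y V} {w : ι → A} {d e : ℕ}
    (h2 : ∀ i j, W.Stable (w i * w j) (d + d) (e + e)) {m n : ℕ} (h : m ≤ n) :
    YY w d e W n ≤ YY w d e W m := by
  induction n, h using Nat.le_induction with
  | base => exact le_rfl
  | succ n _ ih => exact (YY_succ_le h2 n).trans ih

theorem stepB_mulF_unit (E : PSh k x y V) (s : A) (d e : ℕ) :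
    E.mulF (fun _ : Unit => s) d e = E.mul s d e := by
  simp [mulF]

theorem stepB_mul_one (E : PSh k x y V) : E.mul (1 : A) 0 0 = E := by
  ext a b v
  rw [mem_mul]
  simp [chop]

theorem stepB_NN_unit (E : PSh k x y V) (s : A) (d e n : ℕ) :
    NN (fun _ : Unit => s) d e n E = E.mul (s ^ n) (n * d) (n * e) := by
  induction n with
  | zero => simp [stepB_mul_one]
  | succ n ih =>
    rw [NN_succ, ih, stepB_mulF_unit, mul_mul, pow_succ', Nat.succ_mul, Nat.succ_mul,
      add_comm d, add_comm e]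

variable [Algebra k A] [IsScalarTower k A V]

theorem stab_le_mulF (E : PSh k x y V) (w : ι → A) (d e : ℕ) (a b : Bool) :
    stab A (E.ch a b) ≤ stab A ((E.mulF w d e).ch a b) := by
  intro g hg v hv
  obtain ⟨u, hu, rfl⟩ := mem_mulF.mp hv
  refine mem_mulF.mpr ⟨fun i => g • u i, fun i => hg _ (hu i), ?_⟩
  rw [Finset.smul_sum]
  exact Finset.sum_congr rfl fun i _ => smul_comm _ _ _

theorem stab_le_NN (E : PSh k x y V) (w : ι → A) (d e n : ℕ) (a b : Bool) :
    stab A (E.ch a b) ≤ stab A ((NN w d e n E).ch a b) := by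
  induction n with
  | zero => exact le_rfl
  | succ n ih => rw [NN_succ]; exact ih.trans (stab_le_mulF _ _ _ _ _ _)

theorem stab_le_YY (W : PSh k x y V) (w : ι → A) (d e n : ℕ) (a b : Bool) :
    stab A (W.ch a b) ≤ stab A ((YY w d e W n).ch a b) := by
  refine le_trans ?_ (stab_le_NN _ w d e n a b)
  intro g hg v hv
  obtain ⟨u, hu, u', hu', rfl⟩ := Submodule.mem_sup.mp hv
  rw [smul_add]
  exact Submodule.add_mem_sup (hg _ hu) (stab_le_mulF W w d e a b hg _ hu')

/-- on a basic open set the ideal is principal -/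
theorem mem_loc_NN {E : PSh k x y V} {w : ι → A} {d e : ℕ} {a b : Bool} {g : A} {i0 : ι}
    (hg : g ∈ stab A (E.ch a b))
    (hflip : ∀ i, ∃ c ∈ stab A (E.ch a b), g * chop x y a b (w i) d e =
      c * chop x y a b (w i0) d e) (hu : IsUnit g) (n : ℕ) {v : V} :
    v ∈ loc g ((NN w d e n E).ch a b) ↔
      ∃ u ∈ loc g (E.ch a b), chop x y a b (w i0) d e ^ n • u = v := by
  obtain ⟨g, rfl⟩ := hu
  choose c hc hcw using hflip
  induction n generalizing v with
  | zero => simp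
  | succ n ih =>
    have hgn := stab_le_NN E w d e n a b hg
    have hgn' := stab_le_NN E w d e (n + 1) a b hg
    constructor
    · rintro ⟨m, hm⟩
      have h1 := hm m le_rfl
      rw [NN_succ] at h1
      obtain ⟨u, hu, h⟩ := mem_mulF.1 h1
      have h2 : ∑ i, c i • u i ∈ (NN w d e n E).ch a b :=
        sum_mem fun i _ => stab_le_NN E w d e n a b (hc i) _ (hu i)
      obtain ⟨u', hu', h3⟩ := ih.1 (le_loc hgn h2)
      refine ⟨_, stepB_inv_pow_mem hg (m + 1) hu', ?_⟩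
      have h4 : (g : A) ^ (m + 1) • v = chop x y a b (w i0) d e ^ (n + 1) • u' := by
        rw [pow_succ', mul_smul, ← h, pow_succ', mul_smul, h3, Finset.smul_sum, Finset.smul_sum]
        refine Finset.sum_congr rfl fun i _ => ?_
        rw [smul_smul, smul_smul, hcw, mul_comm]
      rw [smul_comm, ← h4, stepB_inv_pow_smul]
    · rintro ⟨u, hu, rfl⟩
      obtain ⟨m, hm⟩ := (mem_loc hgn).1 (ih.2 ⟨u, hu, rfl⟩)
      refine (mem_loc hgn').2 ⟨m, ?_⟩
      rw [NN_succ]
      refine stepB_mul_le_mulF _ w d e i0 a b (mem_mul.2 ⟨_, hm, ?_⟩)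
      rw [pow_succ', mul_smul, smul_comm]

theorem mem_loc_YY {p : ℕ} {W : PSh k x y V} {w : ι → A} {d e : ℕ} {a b : Bool} {g : A} {i0 : ι}
    (h : LocData p (W.ch a b) (fun i => chop x y a b (w i) d e) g i0) (n : ℕ) {v : V} :
    v ∈ loc g ((YY w d e W n).ch a b) ↔ ∃ u ∈ loc g (W.ch a b), ∃ u' ∈ loc g (W.ch a b),
      chop x y a b (w i0) d e ^ n • (u + chop x y a b (w i0) d e • u') = v := by
  rw [stepB_YY_eq, sup_ch, stepB_mem_loc_sup h.unit_g (stab_le_NN W w d e n a b h.g_stab)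
    (stab_le_NN W w d e (n + 1) a b h.g_stab)]
  constructor
  · rintro ⟨u1, h1, u2, h2, rfl⟩
    obtain ⟨u, hu, rfl⟩ := (mem_loc_NN h.g_stab h.flip h.unit_g n).1 h1
    obtain ⟨u', hu', rfl⟩ := (mem_loc_NN h.g_stab h.flip h.unit_g (n + 1)).1 h2
    exact ⟨u, hu, u', hu', by rw [smul_add, pow_succ, mul_smul]⟩
  · rintro ⟨u, hu, u', hu', rfl⟩
    exact ⟨_, (mem_loc_NN h.g_stab h.flip h.unit_g n).2 ⟨u, hu, rfl⟩, _,
      (mem_loc_NN h.g_stab h.flip h.unit_g (n + 1)).2 ⟨u', hu', rfl⟩,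
      by rw [smul_add, pow_succ, mul_smul]⟩

/-- every chart is covered by basic open sets with good local structure -/
def Covered (p : ℕ) (W : PSh k x y V) (w : ι → A) (d e : ℕ) : Prop :=
  ∀ a b, ∃ (J : Type) (_ : Fintype J) (g : J → A) (i0 : J → ι),
    (∀ n : ℕ, ∃ c : J → A, (∀ j, c j ∈ stab A (W.ch a b)) ∧ ∑ j, c j * g j ^ n = 1) ∧
    ∀ j, LocData p (W.ch a b) (fun i => chop x y a b (w i) d e) (g j) (i0 j)

theorem step_le (p : ℕ) [Fact p.Prime] (hp : p ≠ 2) {W : PSh k x y V} {w : ι → A} {d e : ℕ}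
    (h2 : ∀ i j, W.Stable (w i * w j) (d + d) (e + e)) (hcov : W.Covered p w d e) :
    YY w d e W (p - 1) ≤ W := by
  intro a b v hv
  obtain ⟨J, _, g, i0, hg, hloc⟩ := hcov a b
  obtain ⟨h, hh⟩ := (Fact.out : p.Prime).odd_of_ne_two hp
  refine mem_of_cover hg fun j => ?_
  obtain ⟨u, hu, u', hu', rfl⟩ := (mem_loc_YY (hloc j) (p - 1)).1
    (le_loc (stab_le_YY W w d e (p - 1) a b (hloc j).g_stab) hv)
  rw [smul_add, smul_smul, ← pow_succ, show p - 1 + 1 = p by omega, show p - 1 = 2 * h by omega,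
    pow_mul]
  exact add_mem ((stab A _).pow_mem (stab_le_loc _ (hloc j).sq) h u hu)
    (stab_le_loc _ (hloc j).pw u' hu')

theorem stepB_inf_le (p : ℕ) [Fact p.Prime] [CharP k p] {h : ℕ} (hh : p = 2 * h + 1)
    {W : PSh k x y V} {w : ι → A} {d e : ℕ} (hcov : W.Covered p w d e) {l : ℕ} (hl : l < h) :
    (NN w d e (2 * l) W ⊔ NN w d e p W) ⊓ YY w d e W (2 * l + 1) ≤
      NN w d e (2 * (l + 1)) W ⊔ NN w d e p W := by
  rintro a b v ⟨hv1, hv2⟩
  obtain ⟨J, _, g, i0, hg, hloc⟩ := hcov a b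
  have hst : ∀ n, stab A (W.ch a b) ≤ stab A ((NN w d e n W ⊔ NN w d e p W).ch a b) :=
    fun n c hc => stepB_stab_sup (stab_le_NN W w d e n a b hc) (stab_le_NN W w d e p a b hc)
  refine mem_of_cover (g := g) (fun n => ?_) fun j => ?_
  · obtain ⟨c, hc, h1⟩ := hg n
    exact ⟨c, fun j => hst _ (hc j), h1⟩
  have H := hloc j
  have hN := fun n v => mem_loc_NN (v := v) H.g_stab H.flip H.unit_g n
  have hS := fun n v => stepB_mem_loc_sup (v := v) H.unit_g (stab_le_NN W w d e n a b H.g_stab)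
    (stab_le_NN W w d e p a b H.g_stab)
  obtain ⟨v1, h1, v2, h2, h3⟩ := (hS _ _).1 (le_loc (hst _ H.g_stab) hv1)
  obtain ⟨qa, hqa, rfl⟩ := (hN _ _).1 h1
  obtain ⟨qb, hqb, rfl⟩ := (hN _ _).1 h2
  obtain ⟨qc, hqc, qd, hqd, h4⟩ := (mem_loc_YY H (2 * l + 1)).1
    (le_loc (stab_le_YY W w d e _ a b H.g_stab) hv2)
  obtain ⟨D, hD, hπ, u, hu, u', hu', c, hc, hder, huu⟩ := H.der
  have hf := stab_le_loc (g j) H.sq
  have hw := H.unit_w
  generalize chop x y a b (w (i0 j)) d e = w0 at *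
  obtain ⟨m, rfl⟩ := Nat.exists_eq_add_of_lt hl
  have ha' : qa - w0 ^ 2 • qd ∈ loc (g j) (W.ch a b) := sub_mem hqa (hf _ hqd)
  have hc' : qc - (w0 ^ 2) ^ (m + 1) • qb ∈ loc (g j) (W.ch a b) :=
    sub_mem hqc ((stab A _).pow_mem hf _ _ hqb)
  have h5 : qa - w0 ^ 2 • qd = w0 • (qc - (w0 ^ 2) ^ (m + 1) • qb) := by
    refine ((hw.pow (2 * l)).smul_left_cancel).1 ?_
    have h6 := h3.trans h4.symm
    rw [hh] at h6
    simp only [smul_add, smul_sub, smul_smul] at h6 ⊢
    have e1 : w0 ^ (2 * l + 1) * w0 = w0 ^ (2 * l) * w0 ^ 2 := by ring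
    have e2 : w0 ^ (2 * l + 1) = w0 ^ (2 * l) * w0 := by ring
    have e3 : w0 ^ (2 * (l + m + 1) + 1) = w0 ^ (2 * l) * (w0 * (w0 ^ 2) ^ (m + 1)) := by ring
    rw [e1, e2, e3] at h6
    rw [sub_eq_sub_iff_add_eq_add, h6]
  have h7 : (w0 ^ 2) ^ (l + m + 1) • (qa - w0 ^ 2 • qd) =
      w0 ^ p • (qc - (w0 ^ 2) ^ (m + 1) • qb) := by
    rw [h5, smul_smul, hh, ← pow_mul, ← pow_succ]
  obtain ⟨q, hq, q', hq', h8⟩ := key_lemma p hD hf hu hu' hc hder huu hπ (by omega) ha' hc' h7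
  refine (hS _ _).2 ⟨_, (hN _ _).2 ⟨qd + q, add_mem hqd hq, rfl⟩, _,
    (hN _ _).2 ⟨(w0 ^ 2) ^ l • q' + qb, add_mem ((stab A _).pow_mem hf _ _ hq') hqb, rfl⟩, ?_⟩
  rw [← h3, sub_eq_iff_eq_add.1 h8]
  simp only [smul_add, smul_smul]
  have e1 : w0 ^ (2 * (l + 1)) = w0 ^ (2 * l) * w0 ^ 2 := by ring
  have e2 : w0 ^ p * (w0 ^ 2) ^ l = w0 ^ (2 * l) * w0 ^ p := by ring
  rw [e1, e2]
  abel

/-- The comparison along a double cover. -/
theorem step (hc : IsCoord k x y) (p : ℕ) [Fact p.Prime] [CharP k p] (hp : p ≠ 2)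
    {W : PSh k x y V} (hW : W.FG) {w : ι → A} {d e : ℕ}
    (h2 : ∀ i j, W.Stable (w i * w j) (d + d) (e + e)) (hcov : W.Covered p w d e) (i j : ℤ) :
    W.hp i j = (YY w d e W (p - 1)).hp i j + ∑ l ∈ Finset.range ((p - 1) / 2),
      ((YY w d e W (2 * l)).hp i j - (YY w d e W (2 * l + 1)).hp i j) := by
  obtain ⟨h, hh⟩ := (Fact.out : p.Prime).odd_of_ne_two hp
  have hp1 : p - 1 = 2 * h := by omega
  have hNp : NN w d e p W ≤ YY w d e W (2 * h) := by
    rw [stepB_YY_eq, ← hh]; exact le_sup_right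
  have key : ∀ m ≤ h, W.hp i j = (NN w d e (2 * m) W ⊔ NN w d e p W).hp i j +
      ∑ l ∈ Finset.range m, ((YY w d e W (2 * l)).hp i j - (YY w d e W (2 * l + 1)).hp i j) := by
    intro m hm
    induction m with
    | zero =>
      have : NN w d e p W ≤ W := hNp.trans (hp1 ▸ step_le p hp h2 hcov)
      simp [sup_eq_left.2 this]
    | succ l ih =>
      have hl : l < h := hm
      have e1 : (NN w d e (2 * l) W ⊔ NN w d e p W) ⊔ YY w d e W (2 * l + 1) =
          YY w d e W (2 * l) := by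
        apply le_antisymm
        · refine sup_le (sup_le ?_ (hNp.trans (stepB_YY_anti h2 (by omega)))) (YY_succ_le h2 _)
          rw [stepB_YY_eq]; exact le_sup_left
        · rw [stepB_YY_eq W w d e (2 * l), stepB_YY_eq W w d e (2 * l + 1)]
          exact sup_le (le_sup_left.trans le_sup_left) (le_sup_left.trans le_sup_right)
      have e2 : (NN w d e (2 * l) W ⊔ NN w d e p W) ⊓ YY w d e W (2 * l + 1) =
          NN w d e (2 * (l + 1)) W ⊔ NN w d e p W := by
        refine le_antisymm (stepB_inf_le p hh hcov hl) (le_inf (sup_le_sup_right ?_ _) ?_)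
        · rw [show 2 * (l + 1) = 2 * l + 2 by ring, NN_add]
          exact NN_mono _ _ _ _ (stepB_NN_two_le h2)
        · refine sup_le ?_ (hNp.trans (stepB_YY_anti h2 (by omega)))
          rw [stepB_YY_eq]; exact le_sup_right
      have e3 := hp_modular hc ((hW.NN w d e (2 * l)).sup (hW.NN w d e p))
        (hW.YY w d e (2 * l + 1)) i j
      rw [e1, e2] at e3
      rw [Finset.sum_range_succ, ih hl.le]
      linarith
  rw [hp1, show 2 * h / 2 = h by omega, key h le_rfl, stepB_YY_eq W w d e (2 * h), ← hh]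

/-- The comparison along a double cover branched along fibres. -/
theorem step_principal (hc : IsCoord k x y) (p : ℕ) [Fact p.Prime] [CharP k p] (hp : p ≠ 2)
    {W : PSh k x y V} (hW : W.FG) {s : A} (hs : IsUnit s) {d e : ℕ} (hde : d * e = 0)
    (h2 : W.Stable (s * s) (d + d) (e + e))
    (hloc : ∀ a b, LocData p (W.ch a b) (fun _ : Unit => chop x y a b s d e) 1 ()) :
    (∀ i j, (W ⊔ W.mul s d e).hp i j =
      W.hp (i + ((p - 1) / 2 : ℕ) * d) (j + ((p - 1) / 2 : ℕ) * e)) ∧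
    (W ⊔ W.mul s d e).mul (s ^ (p - 1)) ((p - 1) * d) ((p - 1) * e) ≤ W := by
  have hcov : W.Covered p (fun _ : Unit => s) d e := fun a b =>
    ⟨Unit, inferInstance, fun _ => 1, fun _ => (),
      fun n => ⟨fun _ => 1, fun _ => one_mem _, by simp⟩, fun _ => hloc a b⟩
  have hY : ∀ n, YY (fun _ : Unit => s) d e W n =
      (W ⊔ W.mul s d e).mul (s ^ n) (n * d) (n * e) := fun n => by
    rw [YY, stepB_mulF_unit, stepB_NN_unit]
  refine ⟨fun i j => ?_, hY _ ▸ step_le p hp (fun _ _ => h2) hcov⟩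
  obtain ⟨h, hh⟩ := (Fact.out : p.Prime).odd_of_ne_two hp
  have hp1 : p - 1 = 2 * h := by omega
  have hE := hW.sup (hW.mul s d e)
  have hde' : (d : ℤ) * e = 0 := by exact_mod_cast hde
  rw [step hc p hp hW (fun _ _ => h2) hcov, hp1, show 2 * h / 2 = h by omega]
  simp only [hY, hp_mul _ (hs.pow _), hp_eq hc hE]
  generalize ((W ⊔ W.mul s d e).rk : ℤ) = r
  generalize (W ⊔ W.mul s d e).alp = α
  generalize (W ⊔ W.mul s d e).bet = β
  generalize (W ⊔ W.mul s d e).gam = γ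
  rw [Finset.sum_congr rfl (g := fun _ => r * ((i + h * d) * e + (j + h * e) * d) + α * d + β * e)
    (fun l _ => by push_cast; linear_combination (-(r * (4 * l + 1))) * hde')]
  simp only [Finset.sum_const, Finset.card_range, nsmul_eq_mul]
  push_cast
  linear_combination (-(r * (3 * h ^ 2))) * hde'

omit [Algebra k A] [IsScalarTower k A V] in
theorem X0.of_mul_le {W W' : PSh k x y V} {g : A} (hg : IsUnit g) {d e : ℕ}
    (h : W'.mul g d e ≤ W) {i : ℤ} (hX : W.X0 i) : W'.X0 (i - d) := by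
  intro v hv hv'
  have h1 := h false false (mem_mul.mpr ⟨v, hv, rfl⟩)
  have h2 := h true false (mem_mul.mpr ⟨_, hv', rfl⟩)
  rw [chop_false] at h1
  have e1 : chop x y true false g d e • (x ^ (i - d))⁻¹ • v = (x ^ i)⁻¹ • g • v := by
    simp only [chop, tu_true, tu_false, mul_one, Units.smul_def, smul_assoc]
    rw [smul_comm g, smul_smul, ← Units.val_mul, ← mul_inv, ← zpow_add, add_sub_cancel]
  rw [e1] at h2
  exact (hg.smul_eq_zero).mp (hX _ h1 h2)

/-! ### the reflexive hull -/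

theorem mem_satX (W : PSh k x y V) (a b : Bool) (v : V) : v ∈ W.satX.ch a b ↔
    ∃ z ∈ Algebra.adjoin k {((cs x a : Lˣ) : L)}, z ≠ 0 ∧ z • v ∈ W.ch a b := by
  have hle : Algebra.adjoin k {((cs x a : Lˣ) : L)} ≤ chartRing k x y a b :=
    Algebra.adjoin_mono (by simp)
  constructor
  · intro hv
    replace hv : v ∈ Submodule.span (Kx k x) (W.ch a b : Set V) := hv
    induction hv using Submodule.span_induction with
    | mem v hv => exact ⟨1, one_mem _, one_ne_zero, by simpa using hv⟩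
    | zero => exact ⟨1, one_mem _, one_ne_zero, by simp⟩
    | add u v _ _ hu hv =>
      obtain ⟨z, a1, a2, a3⟩ := hu
      obtain ⟨z', b1, b2, b3⟩ := hv
      refine ⟨z * z', mul_mem a1 b1, mul_ne_zero a2 b2, ?_⟩
      rw [smul_add]
      refine Submodule.add_mem _ ?_ ?_
      · rw [mul_comm, mul_smul]; exact W.chartRing_smul_mem _ _ (hle b1) a3
      · rw [mul_smul]; exact W.chartRing_smul_mem _ _ (hle a1) b3
    | smul c v _ hv =>
      obtain ⟨z, a1, a2, a3⟩ := hv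
      obtain ⟨z', b1, b2, b3⟩ := exists_den_Kx a c
      refine ⟨z' * z, mul_mem b1 a1, mul_ne_zero b2 a2, ?_⟩
      have e : (z' * z) • c • v = ((c : L) * z') • z • v := by
        change (z' * z) • (c : L) • v = _
        rw [smul_smul, smul_smul]; congr 1; ring
      rw [e]
      exact W.chartRing_smul_mem _ _ (hle b3) a3
  · rintro ⟨z, h1, h2, h3⟩
    have h4 := Submodule.smul_mem (Submodule.span (Kx k x) (W.ch a b : Set V))
      (⟨z⁻¹, (Kx k x).inv_mem (adjoin_cs_le_Kx a h1)⟩ : Kx k x) (Submodule.subset_span h3)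
    have h5 : (⟨z⁻¹, (Kx k x).inv_mem (adjoin_cs_le_Kx a h1)⟩ : Kx k x) • z • v = v :=
      inv_smul_smul₀ h2 v
    rw [h5] at h4
    exact h4

theorem mem_hull {W : PSh k x y V} {a b : Bool} {v : V} :
    v ∈ W.hull.ch a b ↔
      (∃ z ∈ Algebra.adjoin k {((cs x a : Lˣ) : L)}, z ≠ 0 ∧ z • v ∈ W.ch a b) ∧
      ∃ z ∈ Algebra.adjoin k {((cs y b : Lˣ) : L)}, z ≠ 0 ∧ z • v ∈ W.ch a b := by
  exact and_congr (mem_satX W a b v) (mem_satX W.swap b a v)

theorem le_hull (W : PSh k x y V) : W ≤ W.hull := by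
  intro a b v hv
  exact mem_hull.mpr ⟨⟨1, one_mem _, one_ne_zero, by simpa using hv⟩,
    ⟨1, one_mem _, one_ne_zero, by simpa using hv⟩⟩

theorem isHull_hull (W : PSh k x y V) : W.hull.IsHull := by
  intro a b v z hz z' hz' h0 h0' h1 h2
  obtain ⟨z1, a1, a2, a3⟩ := (mem_hull.mp h1).1
  obtain ⟨z2, b1, b2, b3⟩ := (mem_hull.mp h2).2
  exact mem_hull.mpr ⟨⟨z1 * z, mul_mem a1 hz, mul_ne_zero a2 h0, by rwa [mul_smul]⟩,
    ⟨z2 * z', mul_mem b1 hz', mul_ne_zero b2 h0', by rwa [mul_smul]⟩⟩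

theorem FG.hull (hc : IsCoord k x y) {W : PSh k x y V} (hW : W.FG) : W.hull.FG := by
  classical
  obtain ⟨n, r, e, he, hb⟩ := hW.exists_bound hc
  intro a b
  obtain ⟨τ, hτ⟩ : ∃ τ : Lˣ, τ = tu x n a * tu y n b := ⟨_, rfl⟩
  refine ⟨Finset.univ.image fun s => τ • e s, fun v hv => ?_⟩
  obtain ⟨⟨z, z1, z2, z3⟩, z', z1', z2', z3'⟩ := mem_hull.mp hv
  obtain ⟨c, hc1, hc2⟩ := hb a b _ z3
  obtain ⟨c', hc1', hc2'⟩ := hb a b _ z3'
  rw [← hτ] at hc2 hc2'
  have e1 : v = ∑ s, (z⁻¹ * c s) • τ • e s := by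
    rw [← inv_smul_smul₀ z2 v, hc2, Finset.smul_sum, Finset.smul_sum]
    exact Finset.sum_congr rfl fun s _ => by rw [mul_smul, smul_comm τ]
  have e2 : ∀ s, z' * (z⁻¹ * c s) = c' s := by
    have h3 : ∑ s, (z' * (z⁻¹ * c s) - c' s) • e s = 0 := by
      have h4 : τ • ∑ s, (z' * (z⁻¹ * c s)) • e s = τ • ∑ s, c' s • e s := by
        rw [← hc2', e1, Finset.smul_sum, Finset.smul_sum]
        exact Finset.sum_congr rfl fun s _ => by rw [smul_comm τ, mul_smul]
      simp only [sub_smul, Finset.sum_sub_distrib]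
      exact sub_eq_zero.mpr (MulAction.injective τ h4)
    exact fun s => sub_eq_zero.mp (Fintype.linearIndependent_iff.mp he _ h3 s)
  rw [e1]
  refine Submodule.sum_mem _ fun s _ => ?_
  have h5 : z⁻¹ * c s ∈ chartRing k x y a b :=
    (hc.chart a b).mem_of_mul_mem z1 z2 z1' z2'
      (by rw [mul_inv_cancel_left₀ z2]; exact hc1 s) (by rw [e2]; exact hc1' s)
  exact Submodule.smul_mem _ (⟨_, h5⟩ : chartRing k x y a b)
    (Submodule.subset_span (Finset.mem_coe.mpr (Finset.mem_image_of_mem _ (Finset.mem_univ s))))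

theorem fib_hull (W : PSh k x y V) : W.hull.fib = W.fib := by
  ext b v
  rw [mem_fib false b, mem_fib false b]
  constructor
  · rintro ⟨z, h1, h2, h3⟩
    obtain ⟨z1, a1, a2, a3⟩ := (mem_hull.mp h3).1
    exact ⟨z1 * z, mul_mem a1 h1, mul_ne_zero a2 h2, by rwa [mul_smul]⟩
  · rintro ⟨z, h1, h2, h3⟩
    exact ⟨z, h1, h2, le_hull W _ _ h3⟩

theorem hull_coeff (hc : IsCoord k x y) {W : PSh k x y V} (hW : W.FG) :
    W.hull.rk = W.rk ∧ W.hull.alp = W.alp ∧ W.hull.bet = W.bet ∧ W.gam ≤ W.hull.gam := by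
  have hH := hW.hull hc
  have h1 : W.hull.rk = W.rk := by rw [← rk_fib, fib_hull, rk_fib]
  have h2 : W.hull.alp = W.alp := by rw [alp_eq_deg hc hH, alp_eq_deg hc hW, fib_hull]
  have h3 : W.hull.bet = W.bet := by
    have e : W.hull.swap = W.swap.hull := by
      ext a b v
      exact (mem_hull (W := W)).trans (and_comm.trans (mem_hull (W := W.swap)).symm)
    rw [← alp_swap, ← alp_swap, alp_eq_deg hc.swap hH.swap, alp_eq_deg hc.swap hW.swap, e,
      fib_hull]
  exact ⟨h1, h2, h3, gam_mono hc hH (le_hull W) h1.symm h2.symm h3.symm⟩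

theorem X0.hull {W : PSh k x y V} {i : ℤ} (h : W.X0 i) : W.hull.X0 i := by
  intro v hv hv'
  obtain ⟨z, a1, a2, a3⟩ := (mem_hull.mp hv).2
  obtain ⟨z', b1, b2, b3⟩ := (mem_hull.mp hv').2
  have hle : ∀ a, Algebra.adjoin k {((cs y false : Lˣ) : L)} ≤ chartRing k x y a false :=
    fun a => Algebra.adjoin_mono (by simp)
  have h1 : (z' * z) • v ∈ W.ch false false := by
    rw [mul_smul]; exact W.chartRing_smul_mem _ _ (hle _ b1) a3
  have h2 : (x ^ i)⁻¹ • (z' * z) • v ∈ W.ch true false := by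
    rw [smul_comm, mul_comm, mul_smul]; exact W.chartRing_smul_mem _ _ (hle _ a1) b3
  exact (smul_eq_zero.mp (h _ h1 h2)).resolve_left (mul_ne_zero b2 a2)

omit [Algebra k A] [IsScalarTower k A V] in
theorem Stable.hull {W : PSh k x y V} {g : A} {d e : ℕ} (h : W.Stable g d e) :
    W.hull.Stable g d e := by
  intro a b v hv
  obtain ⟨⟨z, a1, a2, a3⟩, z', b1, b2, b3⟩ := mem_hull.mp hv
  exact mem_hull.mpr ⟨⟨z, a1, a2, by rw [smul_comm]; exact h a b _ a3⟩,
    z', b1, b2, by rw [smul_comm]; exact h a b _ b3⟩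

/-- an additive map preserving a chart of `W`, with a Leibniz rule for polynomials in either
coordinate whose derivative terms preserve the chart, preserves the chart of the hull -/
theorem hull_der {W : PSh k x y V} {a b : Bool} (D : V →+ V)
    (hD : ∀ v ∈ W.ch a b, D v ∈ W.ch a b)
    (hL : ∀ z ∈ chartRing k x y a b, ∃ z' ∈ stab A (W.ch a b), HasDer D (algebraMap L A z) z')
    {v : V} (hv : v ∈ W.hull.ch a b) : D v ∈ W.hull.ch a b := by
  have key : ∀ z ∈ chartRing k x y a b, z • v ∈ W.ch a b → (z * z) • D v ∈ W.ch a b := by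
    intro z hz hzv
    obtain ⟨z', h1, h2⟩ := hL z hz
    have h3 := h2 v
    rw [algebraMap_smul, algebraMap_smul] at h3
    have h4 : (z * z) • D v = z • D (z • v) - z' • z • v := by
      rw [h3, smul_add, mul_smul, smul_comm z z', add_sub_cancel_left]
    rw [h4]
    exact Submodule.sub_mem _ (W.chartRing_smul_mem _ _ hz (hD _ hzv)) (h1 _ hzv)
  obtain ⟨⟨z, a1, a2, a3⟩, z', b1, b2, b3⟩ := mem_hull.mp hv
  exact mem_hull.mpr ⟨⟨z * z, mul_mem a1 a1, mul_ne_zero a2 a2,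
    key z (Algebra.adjoin_mono (by simp) a1) a3⟩, z' * z', mul_mem b1 b1, mul_ne_zero b2 b2,
    key z' (Algebra.adjoin_mono (by simp) b1) b3⟩

end PSh
end Vale.Agent.P190
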