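import Vale.Agent.P190.GeoDefs

/-! Definitions for the comparison of Frobenius pullbacks along a double cover. -/

namespace Vale.Agent.P190

section
variable {k : Type} [Field k] {A : Type} [CommRing A] [Algebra k A]
  {V : Type} [AddCommGroup V] [Module k V] [Module A V] [IsScalarTower k A V]

/-- `D` satisfies the Leibniz rule for `g` with derivative `g'` -/
def HasDer (D : V →+ V) (g g' : A) : Prop := ∀ v, D (g • v) = g' • v + g • D v

variable (A) in
/-- the operators preserving `Q` -/
def stab (Q : Submodule k V) : Subalgebra k A where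
  carrier := {g | ∀ v ∈ Q, g • v ∈ Q}
  mul_mem' := fun {g g'} hg hg' v hv => by rw [mul_smul]; exact hg _ (hg' v hv)
  add_mem' := fun {g g'} hg hg' v hv => by rw [add_smul]; exact Q.add_mem (hg v hv) (hg' v hv)
  algebraMap_mem' := fun c v hv => by rw [algebraMap_smul]; exact Q.smul_mem c hv

theorem mem_stab {Q : Submodule k V} {g : A} : g ∈ stab A Q ↔ ∀ v ∈ Q, g • v ∈ Q := Iff.rfl

/-- Local structure of a double cover on the basic open set `g ≠ 0`: the ramification ideal
is generated by `w i0`, and some derivation has unit value on `w i0 ^ 2`. -/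
structure LocData (p : ℕ) (Q : Submodule k V) {ι : Type} (w : ι → A) (g : A) (i0 : ι) :
    Prop where
  unit_g : IsUnit g
  g_stab : g ∈ stab A Q
  unit_w : IsUnit (w i0)
  flip : ∀ i, ∃ c ∈ stab A Q, g * w i = c * w i0
  sq : w i0 ^ 2 ∈ stab A Q
  pw : w i0 ^ p ∈ stab A Q
  der : ∃ D : V →+ V, (∀ v ∈ loc g Q, D v ∈ loc g Q) ∧ HasDer D (w i0 ^ p) 0 ∧
    ∃ u ∈ stab A (loc g Q), ∃ u' ∈ stab A (loc g Q), ∃ c ∈ stab A (loc g Q),
      HasDer D (w i0 ^ 2) u ∧ u' * u = 1 + c * w i0 ^ 2

end

namespace PSh
variable {k : Type} [Field k] {L : Type} [Field L] [Algebra k L] {x y : Lˣ}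
  {V : Type} [AddCommGroup V] [Module L V] [Module k V] [IsScalarTower k L V]
  {A : Type} [CommRing A] [Algebra L A] [Module A V] [IsScalarTower L A V]

/-- the `n`-th power of the ideal generated by the family `w`, applied to `E` -/
def NN {ι : Type} [Fintype ι] (w : ι → A) (d e : ℕ) (n : ℕ) (E : PSh k x y V) : PSh k x y V :=
  (fun E' : PSh k x y V => E'.mulF w d e)^[n] E

/-- the `n`-th power of the ideal applied to the module generated by `W` on the double cover -/
def YY {ι : Type} [Fintype ι] (w : ι → A) (d e : ℕ) (W : PSh k x y V) (n : ℕ) : PSh k x y V :=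
  NN w d e n (W ⊔ W.mulF w d e)

instance isScalarTower_Kx : IsScalarTower k (Kx k x) V :=
  ⟨fun c q v => smul_assoc c (q : L) v⟩

/-- saturation along the generic fibre of the first projection -/
def satX (W : PSh k x y V) : PSh k x y V where
  ch a b := (Submodule.span (Kx k x) (W.ch a b : Set V)).restrictScalars k
  smul_x a b v hv := by
    have : ((cs x a : Lˣ) : L) ∈ Kx k x := by
      have hx : (x : L) ∈ Kx k x := IntermediateField.subset_adjoin k _ rfl
      cases a
      · exact hx
      · simpa using (Kx k x).inv_mem hx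
    exact Submodule.smul_mem _ (⟨_, this⟩ : Kx k x) hv
  smul_y a b v hv := by
    rw [Submodule.restrictScalars_mem] at hv ⊢
    induction hv using Submodule.span_induction with
    | mem v hv => exact Submodule.subset_span (W.smul_y a b v hv)
    | zero => simp
    | add u v _ _ hu hv => rw [smul_add]; exact Submodule.add_mem _ hu hv
    | smul c v _ hv => rw [smul_comm]; exact Submodule.smul_mem _ c hv
  glue_x a b v hv := by
    refine ⟨0, ?_⟩
    rw [Submodule.restrictScalars_mem] at hv ⊢
    rw [pow_zero, one_smul]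
    refine Submodule.span_le.2 (fun u hu => ?_) hv
    obtain ⟨n, hn⟩ := W.glue_x a b u hu
    have : ((cs x a : Lˣ) : L) ∈ Kx k x := by
      have hx : (x : L) ∈ Kx k x := IntermediateField.subset_adjoin k _ rfl
      cases a
      · exact hx
      · simpa using (Kx k x).inv_mem hx
    have h2 := Submodule.smul_mem (Submodule.span (Kx k x) (W.ch (!a) b : Set V))
      ((⟨_, this⟩ : Kx k x) ^ n) (Submodule.subset_span hn)
    have h3 : ((⟨_, this⟩ : Kx k x) ^ n) • cs x (!a) ^ n • u = u := by
      change (((cs x a : Lˣ) : L) ^ n) • cs x (!a) ^ n • u = u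
      rw [← Units.val_pow_eq_pow_val, ← Units.smul_def, cs_not, inv_pow, smul_inv_smul]
    rwa [h3] at h2
  glue_y a b v hv := by
    have hs : ∀ v ∈ Submodule.span (Kx k x) (W.ch a (!b) : Set V),
        cs y (!b) • v ∈ Submodule.span (Kx k x) (W.ch a (!b) : Set V) := by
      intro v hv
      induction hv using Submodule.span_induction with
      | mem v hv => exact Submodule.subset_span (W.smul_y a _ v hv)
      | zero => simp
      | add u v _ _ hu hv => rw [smul_add]; exact Submodule.add_mem _ hu hv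
      | smul c v _ hv => rw [smul_comm]; exact Submodule.smul_mem _ c hv
    simp only [Submodule.restrictScalars_mem] at hv ⊢
    induction hv using Submodule.span_induction with
    | mem v hv =>
      obtain ⟨n, hn⟩ := W.glue_y a b v hv
      exact ⟨n, Submodule.subset_span hn⟩
    | zero => exact ⟨0, by simp⟩
    | add u v _ _ hu hv =>
      obtain ⟨n, hn⟩ := hu
      obtain ⟨n', hn'⟩ := hv
      refine ⟨max n n', ?_⟩
      rw [smul_add]
      exact Submodule.add_mem _ (pow_smul_mem_of_le hs (le_max_left _ _) hn)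
        (pow_smul_mem_of_le hs (le_max_right _ _) hn')
    | smul c v _ hv =>
      obtain ⟨n, hn⟩ := hv
      exact ⟨n, by rw [smul_comm]; exact Submodule.smul_mem _ c hn⟩

/-- the reflexive hull -/
def hull (W : PSh k x y V) : PSh k x y V := W.satX ⊓ W.swap.satX.swap

/-- a depth two property -/
def IsHull (W : PSh k x y V) : Prop :=
  ∀ a b, ∀ v : V, ∀ z ∈ Algebra.adjoin k {((cs x a : Lˣ) : L)},
    ∀ z' ∈ Algebra.adjoin k {((cs y b : Lˣ) : L)}, z ≠ 0 → z' ≠ 0 →
      z • v ∈ W.ch a b → z' • v ∈ W.ch a b → v ∈ W.ch a b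

end PSh

/-- Frobenius pullback data: `V` is the pullback of `V0` along the Frobenius of `L`, with its
canonical connection. -/
structure Frob (p : ℕ) {L : Type} [Field L] {x y : Lˣ} {A0 A : Type} [CommRing A0] [Algebra L A0]
    [CommRing A] [Algebra L A] (G0 : Geo false false x y A0) (G : Geo false false x y A)
    (V0 V : Type) [AddCommGroup V0] [Module L V0] [Module A0 V0]
    [AddCommGroup V] [Module L V] [Module A V] where
  φ : V0 →+ V
  φ_inj : Function.Injective φ
  φ_smul : ∀ (q : L) v, φ (q • v) = q ^ p • φ v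
  φ_s : ∀ i v, φ (G0.s i • v) = G.s i ^ p • φ v
  φ_t : ∀ i v, φ (G0.t i • v) = G.t i ^ p • φ v
  φ_w : ∀ v, φ (G0.w • v) = G.w ^ p • φ v
  dx : Derivation ℤ L L
  dy : Derivation ℤ L L
  dx_x : dx (x : L) = 1
  dx_y : dx (y : L) = 0
  dy_x : dy (x : L) = 0
  dy_y : dy (y : L) = 1
  Dx : V →+ V
  Dy : V →+ V
  Dx_smul : ∀ (q : L) v, Dx (q • v) = dx q • v + q • Dx v
  Dy_smul : ∀ (q : L) v, Dy (q • v) = dy q • v + q • Dy v
  Dx_φ : ∀ v, Dx (φ v) = 0
  Dy_φ : ∀ v, Dy (φ v) = 0
  surj : ∀ v, ∃ u : Fin p × Fin p → V0,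
    v = ∑ c, ((x : L) ^ (c.1 : ℕ) * (y : L) ^ (c.2 : ℕ)) • φ (u c)

namespace Geo
variable {L : Type} [Field L] {a b : Bool} {x y : Lˣ} {A : Type} [CommRing A] [Algebra L A]

/-- the generators `s` and `t` in one family -/
def st (G : Geo a b x y A) : Ix ⊕ Ix → A := Sum.elim G.s G.t

end Geo

/-- first degree of the generators `s` and `t` -/
def stD : Ix ⊕ Ix → ℕ := Sum.elim (fun _ => 2 * m4) fun _ => 0
/-- second degree of the generators `s` and `t` -/
def stE : Ix ⊕ Ix → ℕ := Sum.elim (fun _ => 0) fun _ => 2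

namespace Geo
variable {L : Type} [Field L] {x y : Lˣ} {A : Type} [CommRing A] [Algebra L A]

/-- the chart ring of the intermediate cover given by the generators in `T` -/
def ringT (G : Geo false false x y A) (k : Type) [Field k] [Algebra k A] (T : Finset (Ix ⊕ Ix))
    (a b : Bool) : Subalgebra k A :=
  Algebra.adjoin k ({algebraMap L A (cs x a : Lˣ), algebraMap L A (cs y b : Lˣ)} ∪
    (fun i => PSh.chop x y a b (G.st i) (stD i) (stE i)) '' T)

end Geo

end Vale.Agent.P190
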