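import Vale.Agent.P190.Defs

/-! Auxiliary algebra for `SurfBasic`: coordinates, monomial spans, lattices. -/

namespace Vale.Agent.P190
namespace SA

section coord
variable {B : Type} [CommRing B] {L : Type} [Field L] [Algebra B L] {x y : Lˣ}

theorem exists_pow_mul_mem {S : Subalgebra B L} {u : L} (hu : u ∈ S) {s : Set L}
    (hs : ∀ z ∈ s, ∃ n : ℕ, u ^ n * z ∈ S) {p : L} (hp : p ∈ Algebra.adjoin B s) :
    ∃ n : ℕ, u ^ n * p ∈ S := by
  induction hp using Algebra.adjoin_induction with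
  | mem z hz => exact hs z hz
  | algebraMap r => exact ⟨0, by simp⟩
  | add p q _ _ hp hq =>
    obtain ⟨n, hn⟩ := hp
    obtain ⟨m, hm⟩ := hq
    refine ⟨n + m, ?_⟩
    have e : u ^ (n + m) * (p + q) = u ^ m * (u ^ n * p) + u ^ n * (u ^ m * q) := by ring
    rw [e]
    exact S.add_mem (S.mul_mem (S.pow_mem hu _) hn) (S.mul_mem (S.pow_mem hu _) hm)
  | mul p q _ _ hp hq =>
    obtain ⟨n, hn⟩ := hp
    obtain ⟨m, hm⟩ := hq
    refine ⟨n + m, ?_⟩
    have e : u ^ (n + m) * (p * q) = (u ^ n * p) * (u ^ m * q) := by ring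
    rw [e]
    exact S.mul_mem hn hm

theorem frac_change {S : Subalgebra B L} {u : L} (hu : u ∈ S) (hu0 : u ≠ 0) {s : Set L}
    (hs : ∀ z ∈ s, ∃ n : ℕ, u ^ n * z ∈ S) {q : L}
    (hq : ∃ b ∈ Algebra.adjoin B s, b ≠ 0 ∧ q * b ∈ Algebra.adjoin B s) :
    ∃ b ∈ S, b ≠ 0 ∧ q * b ∈ S := by
  obtain ⟨b, hb, hb0, hqb⟩ := hq
  obtain ⟨n, hn⟩ := exists_pow_mul_mem hu hs hb
  obtain ⟨m, hm⟩ := exists_pow_mul_mem hu hs hqb
  refine ⟨u ^ m * (u ^ n * b), S.mul_mem (S.pow_mem hu _) hn, by simp [hu0, hb0], ?_⟩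
  have e : q * (u ^ m * (u ^ n * b)) = u ^ n * (u ^ m * (q * b)) := by ring
  rw [e]
  exact S.mul_mem (S.pow_mem hu _) hm

theorem isCoord_swap (h : IsCoord B x y) : IsCoord B y x := by
  refine ⟨?_, fun q => by rw [Set.pair_comm]; exact h.frac q⟩
  have := h.indep.comp Prod.swap Prod.swap_injective
  simpa only [Function.comp_def, Prod.fst_swap, Prod.snd_swap, mul_comm] using this

theorem isCoord_inv (h : IsCoord B x y) : IsCoord B x⁻¹ y := by
  refine ⟨?_, fun q => frac_change (u := ((x⁻¹ : Lˣ) : L)) (Algebra.subset_adjoin (by simp))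
    (Units.ne_zero _) ?_ (h.frac q)⟩
  · have := h.indep.comp (fun n : ℤ × ℤ => (-n.1, n.2)) (by
      intro n m e
      simp only [Prod.mk.injEq, neg_inj] at e
      exact Prod.ext e.1 e.2)
    simpa only [Function.comp_def, inv_zpow'] using this
  · rintro z (rfl | rfl)
    · exact ⟨1, by simp⟩
    · exact ⟨0, by rw [pow_zero, one_mul]; exact Algebra.subset_adjoin (by simp)⟩

theorem isCoord_chart (h : IsCoord B x y) (a b : Bool) : IsCoord B (cs x a) (cs y b) := by
  cases a <;> cases b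
  · exact h
  · exact isCoord_swap (isCoord_inv (isCoord_swap h))
  · exact isCoord_inv h
  · exact isCoord_swap (isCoord_inv (isCoord_swap (isCoord_inv h)))

theorem frac_cs (a : Bool) {q : L} (hq : ∃ b ∈ Algebra.adjoin B {(x : L)}, b ≠ 0 ∧
    q * b ∈ Algebra.adjoin B {(x : L)}) : ∃ b ∈ Algebra.adjoin B {((cs x a : Lˣ) : L)}, b ≠ 0 ∧
      q * b ∈ Algebra.adjoin B {((cs x a : Lˣ) : L)} := by
  cases a
  · exact hq
  · refine frac_change (u := ((x⁻¹ : Lˣ) : L)) (Algebra.subset_adjoin (by simp))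
      (Units.ne_zero _) ?_ hq
    rintro z rfl
    exact ⟨1, by simp⟩

theorem isCoord1_chart {t : Lˣ} (h : IsCoord1 B t) (a : Bool) : IsCoord1 B (cs t a) := by
  refine ⟨?_, fun q => frac_cs a (h.frac q)⟩
  cases a
  · exact h.indep
  · have := h.indep.comp (fun n : ℤ => -n) neg_injective
    simpa only [Function.comp_def, cs_true, inv_zpow'] using this

theorem mem_adjoin_pair_iff {u v : L} {q : L} :
    q ∈ Algebra.adjoin B {u, v} ↔
      q ∈ Submodule.span B (Set.range fun n : ℕ × ℕ => u ^ n.1 * v ^ n.2) := by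
  have : (Submonoid.closure {u, v} : Set L) = Set.range fun n : ℕ × ℕ => u ^ n.1 * v ^ n.2 := by
    ext z
    simp [Submonoid.mem_closure_pair]
  rw [← Subalgebra.mem_toSubmodule, Algebra.adjoin_eq_span, this]

theorem mem_adjoin_single_iff {u : L} {q : L} :
    q ∈ Algebra.adjoin B {u} ↔ q ∈ Submodule.span B (Set.range fun n : ℕ => u ^ n) := by
  have : (Submonoid.closure {u} : Set L) = Set.range fun n : ℕ => u ^ n := by
    ext z
    simp [Submonoid.mem_closure_singleton]
  rw [← Subalgebra.mem_toSubmodule, Algebra.adjoin_eq_span, this]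

variable (B x y) in
/-- the span of the Laurent monomials with exponents in `T` -/
def MS (T : Set (ℤ × ℤ)) : Submodule B L :=
  Submodule.span B ((fun n : ℤ × ℤ => ((x ^ n.1 * y ^ n.2 : Lˣ) : L)) '' T)

theorem MS_mono {T T' : Set (ℤ × ℤ)} (h : T ⊆ T') : MS B x y T ≤ MS B x y T' :=
  Submodule.span_mono (Set.image_mono h)

theorem mem_MS_inter (hc : IsCoord B x y) {T T' : Set (ℤ × ℤ)} {q : L} (h : q ∈ MS B x y T)
    (h' : q ∈ MS B x y T') : q ∈ MS B x y (T ∩ T') := by
  unfold MS at h h' ⊢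
  rw [Finsupp.span_image_eq_map_linearCombination] at h h' ⊢
  rw [Finsupp.supported_inter, Submodule.map_inf _ hc.indep]
  exact ⟨h, h'⟩

theorem eq_zero_of_MS (hc : IsCoord B x y) {T T' : Set (ℤ × ℤ)} {q : L} (h : q ∈ MS B x y T)
    (h' : q ∈ MS B x y T') (hT : ∀ n ∈ T, n ∉ T') : q = 0 := by
  have := mem_MS_inter hc h h'
  rwa [Set.eq_empty_of_forall_notMem (s := T ∩ T') fun n hn => hT n hn.1 hn.2, MS,
    Set.image_empty, Submodule.span_empty, Submodule.mem_bot] at this

theorem mul_mem_MS {T T' : Set (ℤ × ℤ)} (i j : ℤ) (hT : ∀ n ∈ T, (i + n.1, j + n.2) ∈ T')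
    {q : L} (h : q ∈ MS B x y T) : ((x ^ i * y ^ j : Lˣ) : L) * q ∈ MS B x y T' := by
  refine Submodule.span_le.2 (?_ : _ ⊆ ((MS B x y T').comap
    (LinearMap.mulLeft B ((x ^ i * y ^ j : Lˣ) : L)) : Set L)) h
  rintro _ ⟨n, hn, rfl⟩
  refine Submodule.subset_span ⟨_, hT n hn, ?_⟩
  simp only [LinearMap.mulLeft_apply, ← Units.val_mul, zpow_add]
  congr 1
  exact mul_mul_mul_comm _ _ _ _

/-- the exponents allowed on the chart `a` of `O(n)` -/
def box (n : ℤ) : Bool → ℤ → Prop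
  | false => fun i => 0 ≤ i
  | true => fun i => i ≤ n

theorem exists_zpow (x : Lˣ) (n : ℤ) (a : Bool) (m : ℕ) :
    ∃ i, box n a i ∧ tu x n a * cs x a ^ m = x ^ i := by
  cases a
  · exact ⟨m, Int.natCast_nonneg m, by simp⟩
  · exact ⟨n - m, by simp [box], by simp [zpow_sub]⟩

theorem exists_pow (x : Lˣ) (n : ℤ) (a : Bool) {i : ℤ} (h : box n a i) :
    ∃ m : ℕ, x ^ i = cs x a ^ m * tu x n a := by
  cases a
  · exact ⟨i.toNat, by rw [cs_false, tu_false, mul_one, ← zpow_natCast, Int.toNat_of_nonneg h]⟩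
  · refine ⟨(n - i).toNat, ?_⟩
    rw [cs_true, tu_true, ← zpow_natCast, Int.toNat_of_nonneg (sub_nonneg.2 h), inv_zpow',
      ← zpow_add]
    congr 1
    ring

theorem tu_mul_mem (n m : ℤ) (a b : Bool) {c : L} (hc : c ∈ PSh.chartRing B x y a b) :
    ((tu x n a * tu y m b : Lˣ) : L) * c ∈ MS B x y {p | box n a p.1 ∧ box m b p.2} := by
  rw [mem_adjoin_pair_iff] at hc
  refine Submodule.span_le.2 (?_ : _ ⊆ ((MS B x y {p | box n a p.1 ∧ box m b p.2}).comap
    (LinearMap.mulLeft B ((tu x n a * tu y m b : Lˣ) : L)) : Set L)) hc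
  rintro _ ⟨p, rfl⟩
  obtain ⟨i, hi, ei⟩ := exists_zpow x n a p.1
  obtain ⟨j, hj, ej⟩ := exists_zpow y m b p.2
  refine Submodule.subset_span ⟨(i, j), ⟨hi, hj⟩, ?_⟩
  simp only [LinearMap.mulLeft_apply, ← ei, ← ej, Units.val_mul, Units.val_pow_eq_pow_val]
  ring

theorem coeff_eq_zero (hc : IsCoord B x y) {ι : Type} (s : Finset ι) (d : ι → ℤ)
    (hd : Function.Injective d) (p : ι → L) (hp : ∀ i ∈ s, p i ∈ Algebra.adjoin B {(x : L)})
    (h : ∑ i ∈ s, p i * ((y ^ d i : Lˣ) : L) = 0) : ∀ i ∈ s, p i = 0 := by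
  classical
  have h1 : ∀ i ∈ s, p i * ((y ^ d i : Lˣ) : L) ∈ MS B x y {n | n.2 = d i} := by
    intro i hi
    have h0 : p i ∈ MS B x y {n | n.2 = 0} := by
      refine Submodule.span_mono ?_ (mem_adjoin_single_iff.1 (hp i hi))
      rintro _ ⟨m, rfl⟩
      exact ⟨(m, 0), rfl, by simp⟩
    have := mul_mem_MS (T' := {n | n.2 = d i}) 0 (d i) (fun n hn => by simpa using hn) h0
    rwa [zpow_zero, one_mul, mul_comm] at this
  intro i hi
  rw [← Finset.add_sum_erase s _ hi, add_eq_zero_iff_eq_neg] at h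
  have h2 : p i * ((y ^ d i : Lˣ) : L) ∈ MS B x y {n | n.2 ≠ d i} := by
    rw [h]
    refine Submodule.neg_mem _ (Submodule.sum_mem _ fun j hj => MS_mono ?_
      (h1 j (Finset.mem_of_mem_erase hj)))
    intro n hn e
    exact Finset.ne_of_mem_erase hj (hd (hn.symm.trans e))
  exact (Units.mul_left_eq_zero _).1 (eq_zero_of_MS hc (h1 i hi) h2 fun n hn hn' => hn' hn)

theorem exists_common_den {S : Subalgebra B L} {ι : Type} (s : Finset ι) (q : ι → L)
    (h : ∀ i ∈ s, ∃ b ∈ S, b ≠ 0 ∧ q i * b ∈ S) : ∃ D ∈ S, D ≠ 0 ∧ ∀ i ∈ s, q i * D ∈ S := by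
  classical
  induction s using Finset.induction_on with
  | empty => exact ⟨1, S.one_mem, one_ne_zero, by simp⟩
  | insert i s _ ih =>
    obtain ⟨D, hD, hD0, hq⟩ := ih fun j hj => h j (Finset.mem_insert_of_mem hj)
    obtain ⟨b, hb, hb0, hqb⟩ := h i (Finset.mem_insert_self i s)
    refine ⟨b * D, S.mul_mem hb hD, mul_ne_zero hb0 hD0, fun j hj => ?_⟩
    rcases Finset.mem_insert.1 hj with rfl | hj
    · rw [← mul_assoc]
      exact S.mul_mem hqb hD
    · rw [mul_left_comm]
      exact S.mul_mem hb (hq j hj)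

theorem eventually_chart {p : L} (hp : p ∈ Algebra.adjoin B {(x : L), (y : L)}) (a b : Bool) :
    ∀ᶠ n : ℕ in Filter.atTop,
      (((tu x n a * tu y n b)⁻¹ : Lˣ) : L) * p ∈ PSh.chartRing B x y a b := by
  have hx : ((cs x a : Lˣ) : L) ∈ PSh.chartRing B x y a b := Algebra.subset_adjoin (by simp)
  have hy : ((cs y b : Lˣ) : L) ∈ PSh.chartRing B x y a b := Algebra.subset_adjoin (by simp)
  have h1 : ∀ (t : Lˣ) (c : Bool), ((cs t c : Lˣ) : L) ∈ PSh.chartRing B x y a b →
      (((tu t 1 c)⁻¹ : Lˣ) : L) ∈ PSh.chartRing B x y a b ∧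
      (((tu t 1 c)⁻¹ : Lˣ) : L) * t ∈ PSh.chartRing B x y a b := by
    intro t c h
    cases c
    · simpa using h
    · simpa using h
  have h2 : ∀ (t : Lˣ) (c : Bool) (n : ℕ), tu t n c = tu t 1 c ^ n := by
    intro t c n
    cases c <;> simp
  have hu := Subalgebra.mul_mem _ (h1 x a hx).1 (h1 y b hy).1
  obtain ⟨n, hn⟩ := exists_pow_mul_mem hu (by
    rintro z (rfl | rfl)
    · refine ⟨1, ?_⟩
      rw [pow_one, mul_right_comm]
      exact Subalgebra.mul_mem _ (h1 x a hx).2 (h1 y b hy).1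
    · refine ⟨1, ?_⟩
      rw [pow_one, mul_assoc]
      exact Subalgebra.mul_mem _ (h1 x a hx).1 (h1 y b hy).2) hp
  refine Filter.eventually_atTop.2 ⟨n, fun m hm => ?_⟩
  obtain ⟨d, rfl⟩ := Nat.exists_eq_add_of_le' hm
  rw [h2, h2, ← mul_pow, ← inv_pow, mul_inv, Units.val_pow_eq_pow_val, Units.val_mul, pow_add,
    mul_assoc]
  exact Subalgebra.mul_mem _ (Subalgebra.pow_mem _ hu _) hn

end coord

section modules
variable {B : Type} [CommRing B] {L : Type} [Field L] [Algebra B L] {x y : Lˣ}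
  {V : Type} [AddCommGroup V] [Module L V] [Module B V] [IsScalarTower B L V]

theorem adjoin_smul_mem {Q : Submodule B V} {s : Set L} (h : ∀ u ∈ s, ∀ v ∈ Q, u • v ∈ Q)
    {q : L} (hq : q ∈ Algebra.adjoin B s) : ∀ v ∈ Q, q • v ∈ Q := by
  induction hq using Algebra.adjoin_induction with
  | mem z hz => exact h z hz
  | algebraMap r => intro v hv; rw [algebraMap_smul]; exact Q.smul_mem r hv
  | add p q _ _ hp hq => intro v hv; rw [add_smul]; exact Q.add_mem (hp v hv) (hq v hv)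
  | mul p q _ _ hp hq => intro v hv; rw [mul_smul]; exact hp _ (hq v hv)

/-- a submodule stable under the generators as a module over the generated algebra -/
def up (Q : Submodule B V) {s : Set L} (h : ∀ u ∈ s, ∀ v ∈ Q, u • v ∈ Q) :
    Submodule (Algebra.adjoin B s) V where
  carrier := Q
  add_mem' := Q.add_mem
  zero_mem' := Q.zero_mem
  smul_mem' c v hv := adjoin_smul_mem h c.2 v hv

theorem noeth_chart [IsNoetherianRing B] (a b : Bool) :
    IsNoetherianRing (PSh.chartRing B x y a b) := by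
  classical
  refine isNoetherianRing_of_fg ?_
  have := Subalgebra.fg_adjoin_finset (R := B)
    ({((cs x a : Lˣ) : L), ((cs y b : Lˣ) : L)} : Finset L)
  rwa [Finset.coe_pair] at this

theorem exists_lattice (hc : IsCoord B x y) (t : Finset V) :
    ∃ (n : ℕ) (r : ℕ) (e : Fin r → V), LinearIndependent L e ∧ ∀ a b,
      ∀ v ∈ Submodule.span (PSh.chartRing B x y a b) (t : Set V),
      ∃ c : Fin r → L, (∀ s, c s ∈ PSh.chartRing B x y a b) ∧
        v = (tu x n a * tu y n b) • ∑ s, c s • e s := by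
  have : FiniteDimensional L (Submodule.span L (t : Set V)) :=
    FiniteDimensional.span_finset L t
  let e := Module.finBasis L (Submodule.span L (t : Set V))
  let q : t × Fin (Module.finrank L (Submodule.span L (t : Set V))) → L := fun p =>
    e.repr ⟨p.1, Submodule.subset_span p.1.2⟩ p.2
  obtain ⟨D, -, hD0, hD⟩ := exists_common_den Finset.univ q fun p _ => hc.frac (q p)
  obtain ⟨n, hn⟩ := (Filter.eventually_all.2 fun p => Filter.eventually_all.2 fun a =>
    Filter.eventually_all.2 fun b => eventually_chart (hD p (Finset.mem_univ p)) a b).exists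
  refine ⟨n, _, fun s => D⁻¹ • (e s : V), ?_, fun a b v hv => ?_⟩
  · have h1 := e.linearIndependent.map' (Submodule.subtype _) (Submodule.ker_subtype _)
    exact h1.units_smul fun _ => Units.mk0 D⁻¹ (inv_ne_zero hD0)
  · induction hv using Submodule.span_induction with
    | mem g hg =>
      refine ⟨fun s => (((tu x n a * tu y n b)⁻¹ : Lˣ) : L) * (q (⟨g, hg⟩, s) * D),
        fun s => hn _ a b, ?_⟩
      have h1 := congrArg Subtype.val (e.sum_repr ⟨g, Submodule.subset_span hg⟩)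
      rw [Submodule.coe_sum] at h1
      refine h1.symm.trans ?_
      rw [Finset.smul_sum]
      refine Finset.sum_congr rfl fun s _ => ?_
      rw [Units.smul_def, smul_smul, smul_smul, Units.mul_inv_cancel_left,
        mul_inv_cancel_right₀ hD0]
      rfl
    | zero => exact ⟨0, fun _ => Subalgebra.zero_mem _, by simp⟩
    | add u v _ _ hu hv =>
      obtain ⟨c, hc, rfl⟩ := hu
      obtain ⟨c', hc', rfl⟩ := hv
      exact ⟨c + c', fun s => Subalgebra.add_mem _ (hc s) (hc' s), by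
        simp only [Pi.add_apply, add_smul, Finset.sum_add_distrib, smul_add]⟩
    | smul r v _ hv =>
      obtain ⟨c, hc, rfl⟩ := hv
      refine ⟨fun s => r * c s, fun s => Subalgebra.mul_mem _ r.2 (hc s), ?_⟩
      rw [Subalgebra.smul_def, smul_comm]
      simp only [Finset.smul_sum, mul_smul]

/-- coefficients with respect to an independent family -/
theorem coeff_mem {r : ℕ} {e : Fin r → V} (he : LinearIndependent L e) {n m : ℤ} {a b : Bool}
    {q : Fin r → L} (h : ∃ c : Fin r → L, (∀ s, c s ∈ PSh.chartRing B x y a b) ∧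
      ∑ s, q s • e s = (tu x n a * tu y m b) • ∑ s, c s • e s) (s : Fin r) :
    q s ∈ MS B x y {p | box n a p.1 ∧ box m b p.2} := by
  obtain ⟨c, hc, h⟩ := h
  simp only [Finset.smul_sum, Units.smul_def, smul_smul] at h
  rw [Fintype.linearIndependent_iffₛ.1 he _ _ h s]
  exact tu_mul_mem n m a b (hc s)

theorem exists_coeff {r : ℕ} {e : Fin r → V} {u : Lˣ} {P : (Fin r → L) → Prop} {v : V}
    (h : ∃ c : Fin r → L, P c ∧ v = u • ∑ s, c s • e s) : ∃ q : Fin r → L, v = ∑ s, q s • e s := by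
  obtain ⟨c, -, rfl⟩ := h
  exact ⟨fun s => u * c s, by simp only [Finset.smul_sum, Units.smul_def, smul_smul]⟩

theorem smul_mem_of_MS {T : Set (ℤ × ℤ)} {q : L} (hq : q ∈ MS B x y T) {v : V}
    (Q : Submodule B V) (h : ∀ p ∈ T, (x ^ p.1 * y ^ p.2) • v ∈ Q) : q • v ∈ Q := by
  refine Submodule.span_le.2 (?_ : _ ⊆ (Q.comap
    ((LinearMap.toSpanSingleton L V v).restrictScalars B) : Set L)) hq
  rintro _ ⟨p, hp, rfl⟩
  exact h p hp

end modules

section field
variable {k : Type} [Field k] {L : Type} [Field L] [Algebra k L] {x y : Lˣ}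

theorem exists_den_Kx (a : Bool) (q : PSh.Kx k x) :
    ∃ z ∈ Algebra.adjoin k {((cs x a : Lˣ) : L)}, z ≠ 0 ∧
      (q : L) * z ∈ Algebra.adjoin k {((cs x a : Lˣ) : L)} := by
  refine frac_cs a ?_
  obtain ⟨r, hr, s, hs, e⟩ := IntermediateField.mem_adjoin_iff_div.1 q.2
  by_cases h : s = 0
  · exact ⟨1, Subalgebra.one_mem _, one_ne_zero, by simp [e, h]⟩
  · exact ⟨s, hs, h, by rwa [e, div_mul_cancel₀ _ h]⟩

theorem adjoin_cs_le_Kx (a : Bool) {z : L} (hz : z ∈ Algebra.adjoin k {((cs x a : Lˣ) : L)}) :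
    z ∈ PSh.Kx k x := by
  refine Algebra.adjoin_le (S := (PSh.Kx k x).toSubalgebra) ?_ hz
  rintro _ rfl
  have h : (x : L) ∈ PSh.Kx k x := IntermediateField.subset_adjoin k _ rfl
  cases a
  · exact h
  · simpa using h

theorem isCoord_fib (h : IsCoord k x y) : IsCoord1 (PSh.Kx k x) y := by
  refine ⟨linearIndependent_iff'.2 fun s g hg i hi => ?_, fun q => ?_⟩
  · obtain ⟨D, -, hD0, hD⟩ := exists_common_den s (fun i => (g i : L))
      fun i _ => exists_den_Kx false (g i)
    have := coeff_eq_zero h s id Function.injective_id _ hD (by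
      have := congrArg (· * D) hg
      simp only [Finset.sum_mul, zero_mul] at this
      refine Eq.trans (Finset.sum_congr rfl fun j _ => ?_) this
      rw [IntermediateField.smul_def, smul_eq_mul, mul_right_comm]
      rfl) i hi
    exact Subtype.ext ((mul_eq_zero.1 this).resolve_right hD0)
  · have key : Algebra.adjoin k {(x : L), (y : L)} ≤
        (Algebra.adjoin (PSh.Kx k x) {(y : L)}).restrictScalars k := by
      refine Algebra.adjoin_le ?_
      rintro _ (rfl | rfl)
      · exact Subalgebra.algebraMap_mem (Algebra.adjoin (PSh.Kx k x) {(y : L)})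
          ⟨x, IntermediateField.subset_adjoin k _ rfl⟩
      · exact Algebra.subset_adjoin (R := PSh.Kx k x) rfl
    obtain ⟨b, hb, hb0, hq⟩ := h.frac q
    exact ⟨b, key hb, hb0, key hq⟩

theorem mem_of_mul_mem (h : IsCoord k x y) {q z z' : L}
    (hz : z ∈ Algebra.adjoin k {(x : L)}) (hz0 : z ≠ 0)
    (hz' : z' ∈ Algebra.adjoin k {(y : L)}) (hz0' : z' ≠ 0)
    (h1 : z * q ∈ Algebra.adjoin k {(x : L), (y : L)})
    (h2 : z' * q ∈ Algebra.adjoin k {(x : L), (y : L)}) :
    q ∈ Algebra.adjoin k {(x : L), (y : L)} := by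
  have hinj : ∀ p : Polynomial (Algebra.adjoin k {(x : L)}), Polynomial.aeval (y : L) p = 0 →
      p = 0 := by
    intro p hp
    rw [Polynomial.aeval_eq_sum_range] at hp
    have := coeff_eq_zero h (Finset.range (p.natDegree + 1)) Nat.cast Nat.cast_injective
      (fun i => (p.coeff i : L)) (fun i _ => (p.coeff i).2) (by
        simpa [Subalgebra.smul_def] using hp)
    rw [← Polynomial.leadingCoeff_eq_zero]
    exact Subtype.ext (this _ (Finset.self_mem_range_succ _))
  have hr : ∀ w : L, w ∈ Algebra.adjoin k {(x : L), (y : L)} ↔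
      ∃ p : Polynomial (Algebra.adjoin k {(x : L)}), Polynomial.aeval (y : L) p = w := by
    intro w
    rw [← Set.singleton_union, Algebra.adjoin_union_eq_adjoin_adjoin,
      Subalgebra.mem_restrictScalars,
      Algebra.adjoin_singleton_eq_range_aeval (Algebra.adjoin k {(x : L)}) (y : L)]
    rfl
  obtain ⟨f, hf⟩ := (hr _).1 h1
  obtain ⟨g, hg⟩ := (hr _).1 h2
  obtain ⟨p, rfl⟩ := Algebra.adjoin_mem_exists_aeval k _ hz'
  have hp : p ≠ 0 := fun e => hz0' (by rw [e, map_zero])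
  have hm := (Polynomial.monic_mul_leadingCoeff_inv hp).map
    (algebraMap k (Algebra.adjoin k {(x : L)}))
  have e : (p * Polynomial.C p.leadingCoeff⁻¹).map (algebraMap k (Algebra.adjoin k {(x : L)})) * f
      = Polynomial.C ⟨z, hz⟩ * (g * Polynomial.C (algebraMap k _ p.leadingCoeff⁻¹)) := by
    rw [← sub_eq_zero]
    refine hinj _ ?_
    simp only [map_sub, map_mul, Polynomial.aeval_map_algebraMap, Polynomial.aeval_C, hf, hg,
      ← IsScalarTower.algebraMap_apply]
    change _ - z * _ = 0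
    ring
  have e2 := congrArg (Polynomial.map (Ideal.Quotient.mk
    (Ideal.span {(⟨z, hz⟩ : Algebra.adjoin k {(x : L)})}))) e
  rw [Polynomial.map_mul, Polynomial.map_mul _ (p := Polynomial.C _), Polynomial.map_C,
    Ideal.Quotient.eq_zero_iff_mem.2 (Ideal.mem_span_singleton_self _), Polynomial.C_0, zero_mul,
    (hm.map _).mul_right_eq_zero_iff] at e2
  obtain ⟨f', rfl⟩ : Polynomial.C (⟨z, hz⟩ : Algebra.adjoin k {(x : L)}) ∣ f := by
    rw [Polynomial.C_dvd_iff_dvd_coeff]
    intro i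
    rw [← Ideal.mem_span_singleton, ← Ideal.Quotient.eq_zero_iff_mem, ← Polynomial.coeff_map, e2,
      Polynomial.coeff_zero]
  rw [map_mul, Polynomial.aeval_C] at hf
  exact (hr q).2 ⟨f', mul_left_cancel₀ hz0 hf⟩

end field

end SA
end Vale.Agent.P190
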