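import Vale.Agent.P190.P1Basic
import Vale.Agent.P190.SurfAuxA

/-! Formal properties of lattice sheaves on the product of two projective lines: coordinates,
operations, coherence, Serre vanishing over a noetherian base. -/

namespace Vale.Agent.P190

section coord
variable {B : Type} [CommRing B] {L : Type} [Field L] [Algebra B L] {x y : Lˣ}

theorem IsCoord.swap (h : IsCoord B x y) : IsCoord B y x :=
  SA.isCoord_swap h

theorem IsCoord.chart (h : IsCoord B x y) (a b : Bool) : IsCoord B (cs x a) (cs y b) :=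
  SA.isCoord_chart h a b

theorem IsCoord1.chart {t : Lˣ} (h : IsCoord1 B t) (a : Bool) : IsCoord1 B (cs t a) :=
  SA.isCoord1_chart h a

/-- elements of a chart ring are the `B`-combinations of the monomials -/
theorem mem_adjoin_pair_iff {u v : L} {q : L} :
    q ∈ Algebra.adjoin B {u, v} ↔
      q ∈ Submodule.span B (Set.range fun n : ℕ × ℕ => u ^ n.1 * v ^ n.2) :=
  SA.mem_adjoin_pair_iff

theorem mem_adjoin_single_iff {u : L} {q : L} :
    q ∈ Algebra.adjoin B {u} ↔ q ∈ Submodule.span B (Set.range fun n : ℕ => u ^ n) :=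
  SA.mem_adjoin_single_iff

end coord

section fieldcoord
variable {k : Type} [Field k] {L : Type} [Field L] [Algebra k L] {x y : Lˣ}

variable (k x) in
/-- `x` as a unit of the function field of the `x`-line -/
noncomputable def xK : (PSh.Kx k x)ˣ :=
  Units.mk0 ⟨(x : L), IntermediateField.subset_adjoin k _ rfl⟩
    (fun h => x.ne_zero (congrArg Subtype.val h))

theorem IsCoord.fib (h : IsCoord k x y) : IsCoord1 (PSh.Kx k x) y :=
  SA.isCoord_fib h

theorem IsCoord.base (h : IsCoord k x y) : IsCoord1 k (xK k x) := by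
  have key : ∀ z : PSh.Kx k x, (z : L) ∈ Algebra.adjoin k {(x : L)} →
      z ∈ Algebra.adjoin k {((xK k x : (PSh.Kx k x)ˣ) : PSh.Kx k x)} := by
    intro z hz
    have e : (Algebra.adjoin k {((xK k x : (PSh.Kx k x)ˣ) : PSh.Kx k x)}).map (PSh.Kx k x).val =
        Algebra.adjoin k {(x : L)} := AlgHom.map_adjoin_singleton _ _
    rw [← e] at hz
    obtain ⟨w, hw, ew⟩ := hz
    rwa [← Subtype.ext ew]
  refine ⟨LinearIndependent.of_comp (PSh.Kx k x).val.toLinearMap ?_, fun q => ?_⟩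
  · have := h.indep.comp (fun n : ℤ => (n, (0 : ℤ))) fun n m e => congrArg Prod.fst e
    have e : (PSh.Kx k x).val.toLinearMap ∘ (fun n : ℤ => ((xK k x ^ n : (PSh.Kx k x)ˣ) :
        PSh.Kx k x)) = (fun n : ℤ × ℤ => ((x ^ n.1 * y ^ n.2 : Lˣ) : L)) ∘ fun n => (n, 0) := by
      ext n
      simp only [Function.comp, Units.val_zpow_eq_zpow_val, AlgHom.toLinearMap_apply, map_zpow₀,
        zpow_zero, mul_one]
      rfl
    rwa [e]
  · obtain ⟨z, hz, hz0, hq⟩ := SA.exists_den_Kx false q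
    exact ⟨⟨z, SA.adjoin_cs_le_Kx false hz⟩, key _ hz, fun e => hz0 (congrArg Subtype.val e),
      key _ hq⟩

/-- elements of `k(x)` are quotients of polynomials in the chart coordinate -/
theorem exists_den_Kx (a : Bool) (q : PSh.Kx k x) :
    ∃ z ∈ Algebra.adjoin k {((cs x a : Lˣ) : L)}, z ≠ 0 ∧
      (q : L) * z ∈ Algebra.adjoin k {((cs x a : Lˣ) : L)} :=
  SA.exists_den_Kx a q

theorem adjoin_cs_le_Kx (a : Bool) {z : L} (hz : z ∈ Algebra.adjoin k {((cs x a : Lˣ) : L)}) :
    z ∈ PSh.Kx k x :=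
  SA.adjoin_cs_le_Kx a hz

/-- a rational function that becomes polynomial after multiplication by a nonzero polynomial in
`x` and also after multiplication by a nonzero polynomial in `y` is polynomial -/
theorem IsCoord.mem_of_mul_mem (h : IsCoord k x y) {q z z' : L}
    (hz : z ∈ Algebra.adjoin k {(x : L)}) (hz0 : z ≠ 0)
    (hz' : z' ∈ Algebra.adjoin k {(y : L)}) (hz0' : z' ≠ 0)
    (h1 : z * q ∈ Algebra.adjoin k {(x : L), (y : L)})
    (h2 : z' * q ∈ Algebra.adjoin k {(x : L), (y : L)}) :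
    q ∈ Algebra.adjoin k {(x : L), (y : L)} :=
  SA.mem_of_mul_mem h hz hz0 hz' hz0' h1 h2

end fieldcoord

namespace PSh
variable {B : Type} [CommRing B] {L : Type} [Field L] [Algebra B L] {x y : Lˣ}
  {V : Type} [AddCommGroup V] [Module L V] [Module B V] [IsScalarTower B L V]
  {V' : Type} [AddCommGroup V'] [Module L V'] [Module B V'] [IsScalarTower B L V']

theorem chartRing_smul_mem (E : PSh B x y V) (a b : Bool) {q : L} (hq : q ∈ chartRing B x y a b)
    {v : V} (hv : v ∈ E.ch a b) : q • v ∈ E.ch a b := by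
  induction hq using Algebra.adjoin_induction generalizing v with
  | mem z hz =>
    rcases hz with rfl | rfl
    · exact E.smul_x a b v hv
    · exact E.smul_y a b v hv
  | algebraMap r => rw [algebraMap_smul]; exact (E.ch a b).smul_mem r hv
  | add p q _ _ hp hq => rw [add_smul]; exact (E.ch a b).add_mem (hp hv) (hq hv)
  | mul p q _ _ hp hq => rw [mul_smul]; exact hp (hq hv)

theorem mem_lx {E : PSh B x y V} {b : Bool} {v : V} :
    v ∈ E.lx b ↔ ∃ n : ℕ, x ^ n • v ∈ E.ch false b := mem_loc (E.smul_x false b)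

theorem mem_ly {E : PSh B x y V} {a : Bool} {v : V} :
    v ∈ E.ly a ↔ ∃ n : ℕ, y ^ n • v ∈ E.ch a false := mem_loc (E.smul_y a false)

theorem mem_lxy {E : PSh B x y V} {v : V} :
    v ∈ E.lxy ↔ ∃ n : ℕ, (x * y) ^ n • v ∈ E.ch false false :=
  mem_loc fun v hv => by
    rw [mul_smul]; exact E.smul_x false false _ (E.smul_y false false _ hv)

theorem row_flip {t : Lˣ} (E : P1 B t V) (a : Bool) {v : V}
    (h : ∃ n : ℕ, cs t a ^ n • v ∈ E.ch a) : ∃ n : ℕ, cs t (!a) ^ n • v ∈ E.ch (!a) := by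
  obtain ⟨n, hn⟩ := h
  obtain ⟨m, hm⟩ := E.glue a _ hn
  refine ⟨m, ?_⟩
  have := pow_smul_mem (E.smul_mem (!a)) n hm
  rwa [smul_comm, cs_not t a, inv_pow _ n, inv_smul_smul, ← cs_not t a] at this

theorem row_flip_iff {t : Lˣ} (E : P1 B t V) (a : Bool) {v : V} :
    (∃ n : ℕ, cs t false ^ n • v ∈ E.ch false) ↔ ∃ n : ℕ, cs t a ^ n • v ∈ E.ch a := by
  cases a
  · exact Iff.rfl
  · exact ⟨row_flip E false, row_flip E true⟩

theorem two_pow_iff {E : PSh B x y V} (a b : Bool) {v : V} :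
    (∃ n : ℕ, (cs x a * cs y b) ^ n • v ∈ E.ch a b) ↔
      ∃ m n : ℕ, cs x a ^ n • cs y b ^ m • v ∈ E.ch a b := by
  constructor
  · rintro ⟨n, hn⟩
    exact ⟨n, n, by rwa [mul_pow, mul_smul] at hn⟩
  · rintro ⟨m, n, h⟩
    refine ⟨max m n, ?_⟩
    have h1 := pow_smul_mem_of_le (E.smul_x a b) (le_max_right m n) h
    rw [smul_comm] at h1
    have h2 := pow_smul_mem_of_le (E.smul_y a b) (le_max_left m n) h1
    rwa [mul_pow, mul_smul, smul_comm]

/-- the overlaps can be computed from any chart -/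
theorem mem_lx' {E : PSh B x y V} (a : Bool) {b : Bool} {v : V} :
    v ∈ E.lx b ↔ ∃ n : ℕ, cs x a ^ n • v ∈ E.ch a b := by
  rw [mem_lx]
  exact row_flip_iff (E.row b) a

theorem mem_ly' {E : PSh B x y V} {a : Bool} (b : Bool) {v : V} :
    v ∈ E.ly a ↔ ∃ n : ℕ, cs y b ^ n • v ∈ E.ch a b := by
  rw [mem_ly]
  exact row_flip_iff (E.col a) b

theorem mem_lxy' {E : PSh B x y V} (a b : Bool) {v : V} :
    v ∈ E.lxy ↔ ∃ n : ℕ, (cs x a * cs y b) ^ n • v ∈ E.ch a b := by
  rw [mem_lxy]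
  refine (two_pow_iff (E := E) false false).trans (Iff.trans ?_ (two_pow_iff a b).symm)
  refine (exists_congr fun m => row_flip_iff (E.row false) a).trans ?_
  rw [exists_comm, exists_comm (p := fun m n : ℕ => cs x a ^ n • cs y b ^ m • v ∈ E.ch a b)]
  refine exists_congr fun n => ?_
  simp only [smul_comm (cs x a ^ n)]
  exact row_flip_iff (E.col a) b

theorem ch_le_lx (E : PSh B x y V) (a b : Bool) : E.ch a b ≤ E.lx b := by
  intro v hv
  exact (mem_lx' a).2 ⟨0, by simpa using hv⟩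

theorem ch_le_ly (E : PSh B x y V) (a b : Bool) : E.ch a b ≤ E.ly a := by
  intro v hv
  exact (mem_ly' b).2 ⟨0, by simpa using hv⟩

theorem lx_le_lxy (E : PSh B x y V) (b : Bool) : E.lx b ≤ E.lxy := by
  intro v hv
  obtain ⟨n, hn⟩ := (mem_lx' false).1 hv
  exact (mem_lxy' false b).2 ((two_pow_iff false b).2 ⟨0, n, by simpa using hn⟩)

theorem ly_le_lxy (E : PSh B x y V) (a : Bool) : E.ly a ≤ E.lxy := by
  intro v hv
  obtain ⟨n, hn⟩ := (mem_ly' false).1 hv
  exact (mem_lxy' a false).2 ((two_pow_iff a false).2 ⟨n, 0, by simpa using hn⟩)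

theorem mem_H0 {E : PSh B x y V} {v : V} : v ∈ E.H0 ↔ ∀ a b, v ∈ E.ch a b := by
  simp [H0]

@[simp] theorem swap_swap (E : PSh B x y V) : E.swap.swap = E := rfl

@[simp] theorem tw_zero (E : PSh B x y V) : E.tw 0 0 = E := by
  ext a b v
  simp [mem_tw]

theorem tw_tw (E : PSh B x y V) (i j i' j' : ℤ) :
    (E.tw i j).tw i' j' = E.tw (i + i') (j + j') := by
  ext a b v
  simp only [mem_tw, tu_add, smul_smul]
  rw [← mul_inv, mul_mul_mul_comm]

theorem tw_mono {E E' : PSh B x y V} (h : E' ≤ E) (i j : ℤ) : E'.tw i j ≤ E.tw i j := by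
  intro a b v hv
  exact h a b hv

theorem swap_tw (E : PSh B x y V) (i j : ℤ) : (E.tw i j).swap = E.swap.tw j i := by
  ext a b v
  show (tu x i b * tu y j a)⁻¹ • v ∈ E.ch b a ↔ (tu y j a * tu x i b)⁻¹ • v ∈ E.ch b a
  rw [mul_comm]

theorem inf_tw (E : PSh B x y V) (U : Submodule L V) (i j : ℤ) :
    (E.inf U).tw i j = (E.tw i j).inf U := by
  ext a b v
  show (_ ∧ (tu x i a * tu y j b)⁻¹ • v ∈ U) ↔ (_ ∧ v ∈ U)
  rw [Units.smul_def, U.smul_mem_iff (Units.ne_zero _)]
  exact Iff.rfl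

theorem map_tw (E : PSh B x y V) (f : V →ₗ[L] V') (i j : ℤ) :
    (E.map f).tw i j = (E.tw i j).map f := by
  ext a b v
  constructor
  · rintro ⟨u, hu, h⟩
    refine ⟨(tu x i a * tu y j b) • u, ?_, ?_⟩
    · show (tu x i a * tu y j b)⁻¹ • (tu x i a * tu y j b) • u ∈ E.ch a b
      rw [inv_smul_smul]; exact hu
    · have h' : f u = (tu x i a * tu y j b)⁻¹ • v := h
      show f ((tu x i a * tu y j b) • u) = v
      rw [Units.smul_def, map_smul, ← Units.smul_def, h', smul_inv_smul]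
  · rintro ⟨u, hu, rfl⟩
    exact ⟨_, hu, f.map_smul _ u⟩

theorem comap_tw (E : PSh B x y V') (f : V →ₗ[L] V') (i j : ℤ) :
    (E.comap f).tw i j = (E.tw i j).comap f := by
  ext a b v
  show f ((tu x i a * tu y j b)⁻¹ • v) ∈ E.ch a b ↔ (tu x i a * tu y j b)⁻¹ • f v ∈ E.ch a b
  rw [Units.smul_def, map_smul, ← Units.smul_def]

theorem sup_tw (E E' : PSh B x y V) (i j : ℤ) : (E ⊔ E').tw i j = E.tw i j ⊔ E'.tw i j := by
  ext a b v
  rw [mem_tw, sup_ch, sup_ch, Submodule.mem_sup, Submodule.mem_sup]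
  constructor
  · rintro ⟨u, hu, u', hu', h⟩
    refine ⟨(tu x i a * tu y j b) • u, ?_, (tu x i a * tu y j b) • u', ?_, ?_⟩
    · rw [mem_tw, inv_smul_smul]; exact hu
    · rw [mem_tw, inv_smul_smul]; exact hu'
    · rw [← smul_add, h, smul_inv_smul]
  · rintro ⟨u, hu, u', hu', rfl⟩
    exact ⟨_, hu, _, hu', (smul_add _ _ _).symm⟩

theorem min_tw (E E' : PSh B x y V) (i j : ℤ) : (E ⊓ E').tw i j = E.tw i j ⊓ E'.tw i j := by
  ext a b v
  exact Iff.rfl

theorem inf_le (E : PSh B x y V) (U : Submodule L V) : E.inf U ≤ E := fun _ _ => inf_le_left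

theorem inf_mono {E E' : PSh B x y V} (h : E' ≤ E) {U U' : Submodule L V} (hU : U' ≤ U) :
    E'.inf U' ≤ E.inf U := by
  intro a b v hv
  exact ⟨h a b hv.1, hU hv.2⟩

theorem inf_inf (E : PSh B x y V) (U U' : Submodule L V) :
    (E.inf U).inf U' = E.inf (U ⊓ U') := by
  ext a b v
  exact and_assoc

@[simp] theorem inf_top (E : PSh B x y V) : E.inf ⊤ = E := by
  ext a b v
  exact ⟨fun h => h.1, fun h => ⟨h, trivial⟩⟩

theorem map_mono {E E' : PSh B x y V} (h : E' ≤ E) (f : V →ₗ[L] V') : E'.map f ≤ E.map f := by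
  intro a b
  exact Submodule.map_mono (h a b)

theorem map_map {V'' : Type} [AddCommGroup V''] [Module L V''] [Module B V'']
    [IsScalarTower B L V''] (E : PSh B x y V) (f : V →ₗ[L] V') (g : V' →ₗ[L] V'') :
    (E.map f).map g = E.map (g ∘ₗ f) := by
  ext a b v
  constructor
  · rintro ⟨_, ⟨u, hu, rfl⟩, rfl⟩
    exact ⟨u, hu, rfl⟩
  · rintro ⟨u, hu, rfl⟩
    exact ⟨_, ⟨u, hu, rfl⟩, rfl⟩

theorem map_sup (E E' : PSh B x y V) (f : V →ₗ[L] V') :
    (E ⊔ E').map f = E.map f ⊔ E'.map f := by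
  refine PSh.ext (funext fun a => funext fun b => ?_)
  exact Submodule.map_sup _ _ _

theorem FG.of_le {E E' : PSh B x y V} (hE : E.FG) (h : E' ≤ E) : E'.FG := by
  intro a b
  obtain ⟨s, hs⟩ := hE a b
  exact ⟨s, fun v hv => hs v (h a b hv)⟩

omit [Module B V] [IsScalarTower B L V] [Module B V'] [IsScalarTower B L V'] in
theorem map_mem_span (R : Subalgebra B L) (f : V →ₗ[L] V') {s : Set V} {v : V}
    (hv : v ∈ Submodule.span R s) : f v ∈ Submodule.span R (f '' s) := by
  induction hv using Submodule.span_induction with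
  | mem v hv => exact Submodule.subset_span ⟨v, hv, rfl⟩
  | zero => simp
  | add u v _ _ hu hv => rw [map_add]; exact Submodule.add_mem _ hu hv
  | smul c v _ hv =>
    have : f (c • v) = c • f v := f.map_smul (c : L) v
    rw [this]; exact Submodule.smul_mem _ c hv

theorem FG.tw {E : PSh B x y V} (hE : E.FG) (i j : ℤ) : (E.tw i j).FG := by
  classical
  intro a b
  obtain ⟨s, hs⟩ := hE a b
  refine ⟨s.image (LinearMap.lsmul L V ((tu x i a * tu y j b : Lˣ) : L)), fun v hv => ?_⟩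
  have := map_mem_span _ (LinearMap.lsmul L V ((tu x i a * tu y j b : Lˣ) : L)) (hs _ hv)
  rw [LinearMap.lsmul_apply, ← Units.smul_def, smul_inv_smul] at this
  rwa [Finset.coe_image]

theorem FG.inf {E : PSh B x y V} (hE : E.FG) (U : Submodule L V) : (E.inf U).FG :=
  hE.of_le (E.inf_le U)

theorem FG.map {E : PSh B x y V} (hE : E.FG) (f : V →ₗ[L] V') : (E.map f).FG := by
  classical
  intro a b
  obtain ⟨s, hs⟩ := hE a b
  refine ⟨s.image f, ?_⟩
  rintro _ ⟨v, hv, rfl⟩
  rw [Finset.coe_image]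
  exact map_mem_span _ f (hs _ hv)

theorem FG.comap [IsNoetherianRing B] {E : PSh B x y V'} (hE : E.FG) (f : V →ₗ[L] V')
    (hf : Function.Injective f) : (E.comap f).FG := by
  intro a b
  obtain ⟨s, hs⟩ := hE a b
  have := SA.noeth_chart (B := B) (x := x) (y := y) a b
  let g := f.restrictScalars (chartRing B x y a b)
  obtain ⟨t, ht⟩ := Submodule.fg_of_fg_map_injective g hf (Submodule.FG.of_le
    (Submodule.fg_span s.finite_toSet) (Submodule.map_comap_le g _))
  exact ⟨t, fun v hv => by rw [ht]; exact hs _ hv⟩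

theorem FG.sup {E E' : PSh B x y V} (hE : E.FG) (hE' : E'.FG) : (E ⊔ E').FG := by
  classical
  intro a b
  obtain ⟨s, hs⟩ := hE a b
  obtain ⟨s', hs'⟩ := hE' a b
  refine ⟨s ∪ s', fun v hv => ?_⟩
  obtain ⟨u, hu, u', hu', rfl⟩ := Submodule.mem_sup.1 hv
  rw [Finset.coe_union, Submodule.span_union]
  exact Submodule.add_mem_sup (hs u hu) (hs' u' hu')

theorem FG.bot : (⊥ : PSh B x y V).FG := by
  intro a b
  exact ⟨∅, fun v hv => by simpa using hv⟩

theorem FG.swap {E : PSh B x y V} (hE : E.FG) : E.swap.FG := by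
  intro a b
  obtain ⟨s, hs⟩ := hE b a
  refine ⟨s, fun v hv => ?_⟩
  have e : chartRing B y x a b = chartRing B x y b a := by
    unfold chartRing
    rw [Set.pair_comm]
  rw [e]
  exact hs v hv

theorem FG.prod {E : PSh B x y V} {E' : PSh B x y V'} (hE : E.FG) (hE' : E'.FG) :
    (E.prod E').FG := by
  refine ((hE.map (LinearMap.inl L V V')).sup (hE'.map (LinearMap.inr L V V'))).of_le ?_
  rintro a b ⟨u, u'⟩ ⟨h1, h2⟩
  refine Submodule.mem_sup.2 ⟨(u, 0), ⟨u, h1, rfl⟩, (0, u'), ⟨u', h2, rfl⟩, by simp⟩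

theorem FG.exists_gens [IsNoetherianRing B] {E : PSh B x y V} (hE : E.FG) (a b : Bool) :
    ∃ s : Finset V, (s : Set V) ⊆ E.ch a b ∧ ∀ v ∈ E.ch a b,
      v ∈ Submodule.span (chartRing B x y a b) (s : Set V) := by
  obtain ⟨s, hs⟩ := hE a b
  have := SA.noeth_chart (B := B) (x := x) (y := y) a b
  obtain ⟨t, ht⟩ : (SA.up (E.ch a b) fun u hu v hv =>
      E.chartRing_smul_mem a b (Algebra.subset_adjoin hu) hv).FG :=
    Submodule.FG.of_le (Submodule.fg_span s.finite_toSet) hs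
  exact ⟨t, fun v hv => ht.le (Submodule.subset_span hv), fun v hv => ht.ge hv⟩

theorem span_ch (E : PSh B x y V) (a b : Bool) :
    Submodule.span L (E.ch a b : Set V) = Submodule.span L (E.ch false false : Set V) := by
  apply le_antisymm
  · refine Submodule.span_le.2 fun v hv => ?_
    obtain ⟨n, hn⟩ := mem_lxy.1 (E.lx_le_lxy b (E.ch_le_lx a b hv))
    have := (Submodule.span L (E.ch false false : Set V)).smul_mem
      ((((x * y) ^ n)⁻¹ : Lˣ) : L) (Submodule.subset_span hn)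
    rwa [← Units.smul_def, inv_smul_smul] at this
  · refine Submodule.span_le.2 fun v hv => ?_
    obtain ⟨n, hn⟩ := (mem_lxy' a b).1 (E.lx_le_lxy false (E.ch_le_lx false false hv))
    have := (Submodule.span L (E.ch a b : Set V)).smul_mem
      ((((cs x a * cs y b) ^ n)⁻¹ : Lˣ) : L) (Submodule.subset_span hn)
    rwa [← Units.smul_def, inv_smul_smul] at this

theorem FG.finiteDimensional {E : PSh B x y V} (hE : E.FG) :
    FiniteDimensional L (Submodule.span L (E.ch false false : Set V)) := by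
  obtain ⟨s, hs⟩ := hE false false
  have : Submodule.span L (E.ch false false : Set V) ≤ Submodule.span L (s : Set V) :=
    Submodule.span_le.2 fun v hv =>
      Submodule.span_le_restrictScalars (chartRing B x y false false) L _ (hs v hv)
  exact Submodule.finiteDimensional_of_le this

@[simp] theorem rk_tw (E : PSh B x y V) (i j : ℤ) : (E.tw i j).rk = E.rk := by
  have : (E.tw i j).ch false false = E.ch false false := by
    ext v
    simp [mem_tw]
  rw [rk, this, rk]

theorem eq_bot_of_rk {E : PSh B x y V} (hE : E.FG) (h : E.rk = 0) : E = ⊥ := by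
  have := hE.finiteDimensional
  have h0 : Submodule.span L (E.ch false false : Set V) = ⊥ := Submodule.finrank_eq_zero.1 h
  ext a b v
  constructor
  · intro hv
    have : v ∈ Submodule.span L (E.ch a b : Set V) := Submodule.subset_span hv
    rwa [span_ch, h0] at this
  · intro hv
    have : v = 0 := hv
    rw [this]; exact (E.ch a b).zero_mem

theorem exists_smul_mem_of_mem_span (hc : IsCoord B x y) (E : PSh B x y V) (a b : Bool) {v : V}
    (hv : v ∈ Submodule.span L (E.ch false false : Set V)) :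
    ∃ q ∈ chartRing B x y a b, q ≠ 0 ∧ q • v ∈ E.ch a b := by
  rw [← span_ch E a b] at hv
  induction hv using Submodule.span_induction with
  | mem v hv => exact ⟨1, Subalgebra.one_mem _, one_ne_zero, by rwa [one_smul]⟩
  | zero => exact ⟨1, Subalgebra.one_mem _, one_ne_zero, by simp⟩
  | add u v _ _ hu hv =>
    obtain ⟨p, hp, hp0, hu⟩ := hu
    obtain ⟨q, hq, hq0, hv⟩ := hv
    refine ⟨p * q, Subalgebra.mul_mem _ hp hq, mul_ne_zero hp0 hq0, ?_⟩
    rw [smul_add]
    refine Submodule.add_mem _ ?_ ?_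
    · rw [mul_comm, mul_smul]
      exact E.chartRing_smul_mem a b hq hu
    · rw [mul_smul]
      exact E.chartRing_smul_mem a b hp hv
  | smul c v _ hv =>
    obtain ⟨q, hq, hq0, hv⟩ := hv
    obtain ⟨p, hp, hp0, hcp⟩ := (hc.chart a b).frac c
    refine ⟨p * q, Subalgebra.mul_mem _ hp hq, mul_ne_zero hp0 hq0, ?_⟩
    rw [smul_smul, mul_right_comm, mul_comm p, mul_smul]
    exact E.chartRing_smul_mem a b hcp hv

/-- a coherent sheaf lies in a lattice spanned by an `L`-linearly independent family, up to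
bounded twists -/
theorem FG.exists_bound (hc : IsCoord B x y) {E : PSh B x y V} (hE : E.FG) :
    ∃ (n : ℕ) (r : ℕ) (e : Fin r → V), LinearIndependent L e ∧ ∀ a b, ∀ v ∈ E.ch a b,
      ∃ c : Fin r → L, (∀ s, c s ∈ chartRing B x y a b) ∧
        v = (tu x n a * tu y n b) • ∑ s, c s • e s := by
  classical
  choose s hs using hE
  obtain ⟨n, r, e, he, h⟩ := SA.exists_lattice hc
    (Finset.univ.biUnion fun p : Bool × Bool => s p.1 p.2)
  refine ⟨n, r, e, he, fun a b v hv => h a b v (Submodule.span_mono ?_ (hs a b v hv))⟩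
  exact Finset.subset_biUnion_of_mem (fun p : Bool × Bool => s p.1 p.2) (Finset.mem_univ (a, b))

theorem FG.H0_fg [IsNoetherianRing B] (hc : IsCoord B x y) {E : PSh B x y V} (hE : E.FG) :
    E.H0.FG := by
  obtain ⟨n, r, e, he, h⟩ := hE.exists_bound hc
  have hfin : ((fun p : (ℤ × ℤ) × Fin r => (x ^ p.1.1 * y ^ p.1.2) • e p.2) ''
      ((Set.Icc (0 : ℤ) n ×ˢ Set.Icc (0 : ℤ) n) ×ˢ Set.univ)).Finite :=
    (((Set.finite_Icc _ _).prod (Set.finite_Icc _ _)).prod Set.finite_univ).image _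
  refine Submodule.FG.of_le (Submodule.fg_span hfin) fun v hv => ?_
  have h1 := h false false v (mem_H0.1 hv _ _)
  have h2 := h true true v (mem_H0.1 hv _ _)
  obtain ⟨q, rfl⟩ := SA.exists_coeff h1
  refine Submodule.sum_mem _ fun s _ => SA.smul_mem_of_MS
    (SA.mem_MS_inter hc (SA.coeff_mem he h1 s) (SA.coeff_mem he h2 s)) _ ?_
  rintro p ⟨⟨h3, h4⟩, h5, h6⟩
  exact Submodule.subset_span ⟨(p, s), ⟨⟨⟨h3, h5⟩, h4, h6⟩, trivial⟩, rfl⟩

theorem FG.exists_X0 (hc : IsCoord B x y) {E : PSh B x y V} (hE : E.FG) :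
    ∃ n : ℕ, E.X0 (-(n : ℤ)) := by
  obtain ⟨n, r, e, he, h⟩ := hE.exists_bound hc
  refine ⟨n + 1, fun v hv hv' => ?_⟩
  have h1 := h _ _ v hv
  obtain ⟨q, rfl⟩ := SA.exists_coeff h1
  obtain ⟨c, hc1, hc2⟩ := h _ _ _ hv'
  rw [inv_smul_eq_iff, smul_smul, ← mul_assoc, tu_true, ← zpow_add, ← tu_true] at hc2
  refine Finset.sum_eq_zero fun s _ => ?_
  rw [SA.eq_zero_of_MS hc (SA.coeff_mem he h1 s) (SA.coeff_mem he ⟨c, hc1, hc2⟩ s), zero_smul]
  rintro p ⟨h3, -⟩ ⟨h4, -⟩
  simp only [SA.box] at h3 h4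
  omega

theorem X0.H0_eq_bot {E : PSh B x y V} {i : ℤ} (h : E.X0 i) {i' : ℤ} (hi : i' ≤ i) (j : ℤ) :
    (E.tw i' j).H0 = ⊥ := by
  refine eq_bot_iff.2 fun v hv => h v (by simpa [mem_tw] using mem_H0.1 hv false false) ?_
  obtain ⟨d, rfl⟩ := Int.le.dest hi
  have h1 := pow_smul_mem (E.smul_x true false) d (mem_H0.1 hv true false)
  rw [tu_false, mul_one, tu_true, cs_true, smul_smul, inv_pow, ← mul_inv, mul_comm] at h1
  rwa [zpow_add, zpow_natCast]

/-- the direct image along the second projection of the twist `E(0, j)` -/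
def dirx (E : PSh B x y V) : P1 B x V where
  ch a := E.ch a false ⊓ E.ch a true
  smul_mem a v hv := ⟨E.smul_x a _ v hv.1, E.smul_x a _ v hv.2⟩
  glue a v hv := by
    obtain ⟨n, hn⟩ := E.glue_x a _ v hv.1
    obtain ⟨n', hn'⟩ := E.glue_x a _ v hv.2
    exact ⟨max n n', pow_smul_mem_of_le (E.smul_x _ _) (le_max_left _ _) hn,
      pow_smul_mem_of_le (E.smul_x _ _) (le_max_right _ _) hn'⟩

theorem FG.dirx [IsNoetherianRing B] (hc : IsCoord B x y) {E : PSh B x y V} (hE : E.FG) :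
    E.dirx.FG := by
  classical
  obtain ⟨n, r, e, he, h⟩ := hE.exists_bound hc
  intro a
  refine ⟨(Finset.Icc (0 : ℤ) n ×ˢ Finset.univ).image
    fun p : ℤ × Fin r => (tu x n a * y ^ p.1) • e p.2, fun v hv => ?_⟩
  have h1 := h a false v hv.1
  have h2 := h a true v hv.2
  obtain ⟨q, rfl⟩ := SA.exists_coeff h1
  refine Submodule.sum_mem _ fun s _ => (Submodule.restrictScalars_mem B _ _).1
    (SA.smul_mem_of_MS (SA.mem_MS_inter hc (SA.coeff_mem he h1 s) (SA.coeff_mem he h2 s)) _ ?_)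
  rintro p ⟨⟨h3, h4⟩, -, h6⟩
  obtain ⟨m, hm⟩ := SA.exists_pow x n a h3
  rw [hm, mul_assoc, mul_smul]
  refine pow_smul_mem (fun w hw => Submodule.smul_mem _
    (⟨_, Algebra.subset_adjoin rfl⟩ : Algebra.adjoin B {((cs x a : Lˣ) : L)}) hw) m
    (Submodule.subset_span ?_)
  exact Finset.mem_image.2 ⟨(p.2, s), Finset.mem_product.2
    ⟨Finset.mem_Icc.2 ⟨h4, h6⟩, Finset.mem_univ _⟩, rfl⟩

/-- vanishing of the first direct image for large twists -/
theorem FG.exists_ly_le [IsNoetherianRing B] {E : PSh B x y V} (hE : E.FG) :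
    ∃ j0 : ℤ, ∀ j ≥ j0, ∀ a, E.ly a ≤ (E.tw 0 j).ch a false ⊔ (E.tw 0 j).ch a true := by
  have key : ∀ a, ∃ j0 : ℤ, ∀ j ≥ j0,
      E.ly a ≤ (E.tw 0 j).ch a false ⊔ (E.tw 0 j).ch a true := by
    intro a
    have := Algebra.FiniteType.adjoin_of_finite (R := B) (Set.finite_singleton ((cs x a : Lˣ) : L))
    have := Algebra.FiniteType.isNoetherianRing B (Algebra.adjoin B {((cs x a : Lˣ) : L)})
    let F : P1 (Algebra.adjoin B {((cs x a : Lˣ) : L)}) y V :=
      ⟨fun b => SA.up (E.ch a b) (by rintro _ rfl; exact E.smul_x a b), fun b => E.smul_y a b,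
        fun b => E.glue_y a b⟩
    have hF : F.FG := by
      intro b
      obtain ⟨s, hs⟩ := hE a b
      refine ⟨s, fun v hv => ?_⟩
      have h := hs v hv
      clear hv
      induction h using Submodule.span_induction with
      | mem v hv => exact Submodule.subset_span hv
      | zero => exact Submodule.zero_mem _
      | add u v _ _ hu hv => exact Submodule.add_mem _ hu hv
      | smul c v _ hv =>
        have hc : (c : L) ∈ Algebra.adjoin B ({((cs x a : Lˣ) : L)} ∪ {((cs y b : Lˣ) : L)}) := c.2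
        rw [Algebra.adjoin_union_eq_adjoin_adjoin] at hc
        exact Submodule.smul_mem _ (⟨c, hc⟩ : Algebra.adjoin _ {((cs y b : Lˣ) : L)}) hv
    obtain ⟨j0, hj⟩ := hF.exists_ov_le
    refine ⟨j0, fun j h v hv => ?_⟩
    obtain ⟨u, hu, w, hw, rfl⟩ := Submodule.mem_sup.1 (hj j h (show v ∈ F.ov from hv))
    refine Submodule.add_mem_sup ?_ ?_
    · rw [mem_tw, tu_zero, one_mul]
      exact hu
    · rw [mem_tw, tu_zero, one_mul]
      exact hw
  choose j0 hj using key
  refine ⟨max (j0 false) (j0 true), fun j h a => hj a j ?_⟩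
  cases a
  · exact le_of_max_le_left h
  · exact le_of_max_le_right h

theorem vanish_of_le {E : PSh B x y V} (h1 : ∀ a, E.ly a ≤ E.ch a false ⊔ E.ch a true)
    (h2 : E.dirx.ov ≤ E.dirx.ch false ⊔ E.dirx.ch true) : E.H1Z ∧ E.H2Z := by
  constructor
  · intro α β hα hβ e
    choose u hu w hw huw using fun a => Submodule.mem_sup.1 (h1 a (hβ a))
    have h3 : α false - (u false - u true) ∈ E.lx false :=
      Submodule.sub_mem _ (hα _) (Submodule.sub_mem _ (E.ch_le_lx _ _ (hu _))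
        (E.ch_le_lx _ _ (hu _)))
    have h4 : α true + (w false - w true) ∈ E.lx true :=
      Submodule.add_mem _ (hα _) (Submodule.sub_mem _ (E.ch_le_lx _ _ (hw _))
        (E.ch_le_lx _ _ (hw _)))
    have e1 : α true + (w false - w true) = α false - (u false - u true) := by
      rw [← huw, ← huw, sub_eq_iff_eq_add] at e
      rw [e]
      abel
    obtain ⟨n, hn⟩ := mem_lx.1 h3
    obtain ⟨m, hm⟩ := mem_lx.1 (e1 ▸ h4)
    obtain ⟨p, hp, q, hq, e2⟩ := Submodule.mem_sup.1 (h2 (P1.mem_ov.2 ⟨max n m,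
      pow_smul_mem_of_le (E.smul_x false false) (le_max_left _ _) hn,
      pow_smul_mem_of_le (E.smul_x false true) (le_max_right _ _) hm⟩))
    refine ⟨fun a b => (bif b then -w a else u a) + (bif a then -q else p), ?_, ?_, ?_⟩
    · rintro (_ | _) (_ | _)
      · exact Submodule.add_mem _ (hu _) hp.1
      · exact Submodule.add_mem _ (Submodule.neg_mem _ (hw _)) hp.2
      · exact Submodule.add_mem _ (hu _) (Submodule.neg_mem _ hq.1)
      · exact Submodule.add_mem _ (Submodule.neg_mem _ (hw _)) (Submodule.neg_mem _ hq.2)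
    · rintro (_ | _)
      · rw [eq_sub_iff_add_eq] at e2
        simp only [← e2, cond_false, cond_true]
        abel
      · rw [← e1, ← sub_eq_iff_eq_add] at e2
        simp only [← e2, cond_false, cond_true]
        abel
    · intro a
      simp only [← huw, cond_false, cond_true]
      abel
  · intro v hv
    obtain ⟨n, hn⟩ := mem_lxy.1 hv
    rw [mul_pow, mul_comm, mul_smul] at hn
    obtain ⟨u, hu, w, hw, e⟩ := Submodule.mem_sup.1 (h1 false (mem_ly.2 ⟨n, hn⟩))
    rw [← inv_smul_eq_iff, smul_add] at e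
    rw [← e]
    exact Submodule.mem_sup_left (Submodule.add_mem_sup
      (mem_lx.2 ⟨n, by rwa [smul_inv_smul]⟩) (mem_lx.2 ⟨n, by rwa [smul_inv_smul]⟩))

/-- Serre vanishing -/
theorem FG.serre [IsNoetherianRing B] (hc : IsCoord B x y) {E : PSh B x y V} (hE : E.FG) :
    ∃ j0 : ℤ, ∀ j ≥ j0, ∃ i0 : ℤ, ∀ i ≥ i0, (E.tw i j).H1Z ∧ (E.tw i j).H2Z := by
  obtain ⟨j0, hj⟩ := hE.exists_ly_le
  refine ⟨j0, fun j h => ?_⟩
  obtain ⟨i0, hi⟩ := ((hE.tw 0 j).dirx hc).exists_ov_le
  refine ⟨i0, fun i h' => vanish_of_le (fun a v hv => ?_) ?_⟩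
  · have h1 : (tu x i a)⁻¹ • v ∈ E.ly a := by
      obtain ⟨n, hn⟩ := mem_ly.1 hv
      refine mem_ly.2 ⟨n, ?_⟩
      rwa [mem_tw, tu_false, mul_one, smul_comm] at hn
    obtain ⟨u, hu, w, hw, e⟩ := Submodule.mem_sup.1 (hj j h a h1)
    rw [eq_inv_smul_iff, smul_add] at e
    rw [← e]
    refine Submodule.add_mem_sup ?_ ?_
    · rw [mem_tw, tu_zero, one_mul] at hu
      rwa [mem_tw, mul_inv_rev, mul_smul, inv_smul_smul]
    · rw [mem_tw, tu_zero, one_mul] at hw
      rwa [mem_tw, mul_inv_rev, mul_smul, inv_smul_smul]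
  · have e : (E.tw i j).dirx = (E.tw 0 j).dirx.tw i := by
      ext a v
      show (_ ∈ E.ch a false ∧ _ ∈ E.ch a true) ↔ (_ ∈ E.ch a false ∧ _ ∈ E.ch a true)
      simp only [tu_zero, one_mul, mul_inv_rev, mul_smul]
    rw [e, P1.tw_ov]
    exact hi i h'

section ops
variable {A : Type} [CommRing A] [Algebra L A] [Module A V] [IsScalarTower L A V]

theorem chop_mul (a b : Bool) (g g' : A) (d e d' e' : ℕ) :
    chop x y a b (g * g') (d + d') (e + e') = chop x y a b g d e * chop x y a b g' d' e' := by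
  simp only [chop, Nat.cast_add, tu_add]
  rw [smul_mul_smul_comm, ← Units.val_mul, ← mul_inv, mul_mul_mul_comm]

theorem chop_pow (a b : Bool) (g : A) (d e n : ℕ) :
    chop x y a b (g ^ n) (n * d) (n * e) = chop x y a b g d e ^ n := by
  induction n with
  | zero => simp [chop]
  | succ n ih => rw [pow_succ, pow_succ, add_mul, add_mul, one_mul, one_mul, chop_mul, ih]

theorem chop_add (a b : Bool) (g g' : A) (d e : ℕ) :
    chop x y a b (g + g') d e = chop x y a b g d e + chop x y a b g' d e := by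
  simp only [chop, smul_add]

@[simp] theorem chop_false (g : A) (d e : ℕ) : chop x y false false g d e = g := by
  simp [chop]

theorem chop_swap (a b : Bool) (g : A) (d e : ℕ) : chop y x b a g e d = chop x y a b g d e := by
  simp only [chop]
  rw [mul_comm]

theorem stable_iff {E : PSh B x y V} {g : A} {d e : ℕ} : E.Stable g d e ↔ E.mul g d e ≤ E := by
  constructor
  · intro h a b v hv
    obtain ⟨u, hu, rfl⟩ := mem_mul.1 hv
    exact h a b u hu
  · intro h a b v hv
    exact h a b (mem_mul.2 ⟨v, hv, rfl⟩)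

theorem Stable.mul {E : PSh B x y V} {g g' : A} {d e d' e' : ℕ} (h : E.Stable g d e)
    (h' : E.Stable g' d' e') : E.Stable (g * g') (d + d') (e + e') := by
  intro a b v hv
  rw [chop_mul, mul_smul]
  exact h a b _ (h' a b v hv)

theorem Stable.mono {E : PSh B x y V} {g : A} {d e d' e' : ℕ} (h : E.Stable g d e)
    (hd : d ≤ d') (he : e ≤ e') : E.Stable g d' e' := by
  obtain ⟨p, rfl⟩ := Nat.exists_eq_add_of_le hd
  obtain ⟨q, rfl⟩ := Nat.exists_eq_add_of_le he
  have h1 : E.Stable (1 : A) p q := by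
    intro a b v hv
    rw [chop, smul_assoc, one_smul, ← Units.smul_def, mul_inv, mul_smul]
    have hy : (tu y q b)⁻¹ • v ∈ E.ch a b := by
      cases b
      · simpa using hv
      · simpa using pow_smul_mem (E.smul_y a true) q hv
    cases a
    · simpa using hy
    · simpa using pow_smul_mem (E.smul_x true b) p hy
  simpa using h.mul h1

theorem Stable.tw {E : PSh B x y V} {g : A} {d e : ℕ} (h : E.Stable g d e) (i j : ℤ) :
    (E.tw i j).Stable g d e := by
  intro a b v hv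
  rw [mem_tw, Units.smul_def, smul_comm]
  exact h a b _ hv

theorem Stable.inf {E : PSh B x y V} {g : A} {d e : ℕ} (h : E.Stable g d e) (U : Submodule A V) :
    (E.inf (U.restrictScalars L)).Stable g d e := by
  intro a b v hv
  exact ⟨h a b v hv.1, U.smul_mem _ hv.2⟩

theorem Stable.map [Module A V'] [IsScalarTower L A V'] {E : PSh B x y V} {g : A} {d e : ℕ}
    (h : E.Stable g d e) (f : V →ₗ[A] V') : (E.map (f.restrictScalars L)).Stable g d e := by
  rintro a b _ ⟨v, hv, rfl⟩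
  exact ⟨_, h a b v hv, f.map_smul _ v⟩

theorem Stable.comap [Module A V'] [IsScalarTower L A V'] {E : PSh B x y V'} {g : A} {d e : ℕ}
    (h : E.Stable g d e) (f : V →ₗ[A] V') : (E.comap (f.restrictScalars L)).Stable g d e := by
  intro a b v hv
  show f (chop x y a b g d e • v) ∈ E.ch a b
  rw [map_smul]
  exact h a b _ hv

theorem FG.mul {E : PSh B x y V} (hE : E.FG) (g : A) (d e : ℕ) : (E.mul g d e).FG :=
  (hE.tw _ _).map _

theorem mul_mono {E E' : PSh B x y V} (h : E' ≤ E) (g : A) (d e : ℕ) :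
    E'.mul g d e ≤ E.mul g d e := map_mono (tw_mono h _ _) _

theorem mul_sup (E E' : PSh B x y V) (g : A) (d e : ℕ) :
    (E ⊔ E').mul g d e = E.mul g d e ⊔ E'.mul g d e := by
  rw [mul, sup_tw, map_sup]; rfl

theorem mul_mul (E : PSh B x y V) (g g' : A) (d e d' e' : ℕ) :
    (E.mul g d e).mul g' d' e' = E.mul (g' * g) (d' + d) (e' + e) := by
  ext a b v
  simp only [mem_mul, chop_mul, mul_smul]
  constructor
  · rintro ⟨_, ⟨u, hu, rfl⟩, rfl⟩
    exact ⟨u, hu, rfl⟩
  · rintro ⟨u, hu, rfl⟩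
    exact ⟨_, ⟨u, hu, rfl⟩, rfl⟩

theorem finset_sup_ch {ι : Type} (s : Finset ι) (f : ι → PSh B x y V) (a b : Bool) :
    (s.sup f).ch a b = s.sup fun i => (f i).ch a b := by
  classical
  induction s using Finset.induction_on with
  | empty => simp
  | insert i s _ ih => rw [Finset.sup_insert, Finset.sup_insert, sup_ch, ih]

theorem mem_mulF {ι : Type} [Fintype ι] {E : PSh B x y V} {g : ι → A} {d e : ℕ} {a b : Bool}
    {v : V} : v ∈ (E.mulF g d e).ch a b ↔
      ∃ u : ι → V, (∀ i, u i ∈ E.ch a b) ∧ ∑ i, chop x y a b (g i) d e • u i = v := by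
  rw [mulF, finset_sup_ch, Finset.sup_eq_iSup, Submodule.mem_iSup_finset_iff_exists_sum]
  constructor
  · rintro ⟨μ, rfl⟩
    choose u hu using fun i => mem_mul.1 (μ i).2
    exact ⟨u, fun i => (hu i).1, Finset.sum_congr rfl fun i _ => (hu i).2⟩
  · rintro ⟨u, hu, rfl⟩
    exact ⟨fun i => ⟨_, mem_mul.2 ⟨u i, hu i, rfl⟩⟩, rfl⟩

theorem FG.mulF {ι : Type} [Fintype ι] {E : PSh B x y V} (hE : E.FG) (g : ι → A) (d e : ℕ) :
    (E.mulF g d e).FG := by
  exact Finset.sup_induction FG.bot (fun _ h _ h' => h.sup h') (fun i _ => hE.mul _ _ _)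

theorem mulF_mono {ι : Type} [Fintype ι] {E E' : PSh B x y V} (h : E' ≤ E) (g : ι → A)
    (d e : ℕ) : E'.mulF g d e ≤ E.mulF g d e := by
  exact Finset.sup_mono_fun fun i _ => mul_mono h _ _ _

theorem mulF_sup {ι : Type} [Fintype ι] (E E' : PSh B x y V) (g : ι → A) (d e : ℕ) :
    (E ⊔ E').mulF g d e = E.mulF g d e ⊔ E'.mulF g d e := by
  simp only [mulF, mul_sup]
  exact Finset.sup_sup

theorem Stable.mulF {ι : Type} [Fintype ι] {E : PSh B x y V} {g : A} {d e : ℕ}
    (h : E.Stable g d e) (g' : ι → A) (d' e' : ℕ) : (E.mulF g' d' e').Stable g d e := by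
  intro a b v hv
  obtain ⟨u, hu, rfl⟩ := mem_mulF.1 hv
  refine mem_mulF.2 ⟨fun i => chop x y a b g d e • u i, fun i => h a b _ (hu i), ?_⟩
  rw [Finset.smul_sum]
  exact Finset.sum_congr rfl fun i _ => smul_comm _ _ _

theorem Stable.sup {E E' : PSh B x y V} {g : A} {d e : ℕ} (h : E.Stable g d e)
    (h' : E'.Stable g d e) : (E ⊔ E').Stable g d e := by
  intro a b v hv
  obtain ⟨u, hu, u', hu', rfl⟩ := Submodule.mem_sup.1 hv
  rw [smul_add]
  exact Submodule.add_mem_sup (h a b u hu) (h' a b u' hu')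

end ops

end PSh
end Vale.Agent.P190
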