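import Vale.Agent.P190.DStep

/-! A lower bound for the degree of the ramification curve on the generic fibre, by a trace
argument. -/

namespace Vale.Agent.P190

open Polynomial

attribute [local irreducible] m4

/-- the trace after restriction of scalars -/
theorem trace_restrictScalars {K R M : Type} [Field K] [CommRing R] [Algebra K R]
    [FiniteDimensional K R] [AddCommGroup M] [Module R M] [Module K M] [IsScalarTower K R M]
    [Module.Free R M] [Module.Finite R M] (f : M →ₗ[R] M) :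
    LinearMap.trace K M (f.restrictScalars K) = Algebra.trace K R (LinearMap.trace R M f) := by
  classical
  let b := Module.finBasis K R
  let c := Module.Free.chooseBasis R M
  rw [LinearMap.trace_eq_matrix_trace K (b.smulTower c), LinearMap.trace_eq_matrix_trace R c,
    Matrix.trace, Matrix.trace, map_sum, Fintype.sum_prod_type_right]
  refine Finset.sum_congr rfl fun j _ => ?_
  rw [Algebra.trace_eq_matrix_trace b, Matrix.trace]
  refine Finset.sum_congr rfl fun i _ => ?_
  simp [LinearMap.toMatrix_apply, Algebra.leftMulMatrix_eq_repr_mul, mul_comm]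

/-- an operator whose square is a scalar that is not a square has trace zero -/
theorem trace_eq_zero_of_sq {L V : Type} [Field L] [AddCommGroup V] [Module L V]
    [FiniteDimensional L V] (f : V →ₗ[L] V) (D : L) (hD : ¬ IsSquare D)
    (hf : ∀ v, f (f v) = D • v) : LinearMap.trace L V f = 0 := by
  have hirr : Irreducible (X ^ 2 - C D : L[X]) :=
    X_pow_sub_C_irreducible_of_prime Nat.prime_two fun b hb => hD ⟨b, by rw [← hb, sq]⟩
  have hm : (X ^ 2 - C D : L[X]).Monic := monic_X_pow_sub_C D two_ne_zero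
  have : Fact (Irreducible (X ^ 2 - C D : L[X])) := ⟨hirr⟩
  have h0 : aeval f (X ^ 2 - C D : L[X]) = 0 := by
    ext v
    simp [sq, hf]
  let φ : AdjoinRoot (X ^ 2 - C D : L[X]) →+* Module.End L V :=
    Ideal.Quotient.lift _ (aeval f).toRingHom fun a ha => by
      obtain ⟨b, rfl⟩ := Ideal.mem_span_singleton.mp ha
      simp [h0]
  have hφ : ∀ p, φ (AdjoinRoot.mk _ p) = aeval f p := fun _ => rfl
  let : Module (AdjoinRoot (X ^ 2 - C D : L[X])) V := Module.compHom V φ
  have hs : ∀ (r : AdjoinRoot (X ^ 2 - C D : L[X])) (v : V), r • v = φ r v := fun _ _ => rfl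
  have : IsScalarTower L (AdjoinRoot (X ^ 2 - C D : L[X])) V := ⟨fun c r v => by
    obtain ⟨p, rfl⟩ := AdjoinRoot.mk_surjective r
    rw [hs, hs, AdjoinRoot.smul_mk, hφ, hφ, map_smul, LinearMap.smul_apply]⟩
  have : Module.Finite (AdjoinRoot (X ^ 2 - C D : L[X])) V :=
    Module.Finite.of_restrictScalars_finite L _ _
  have := (AdjoinRoot.powerBasis hirr.ne_zero).finite
  have e : f = (AdjoinRoot.root (X ^ 2 - C D : L[X]) • LinearMap.id :
      V →ₗ[AdjoinRoot (X ^ 2 - C D : L[X])] V).restrictScalars L := by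
    ext v
    rw [LinearMap.restrictScalars_apply, LinearMap.smul_apply, hs, ← AdjoinRoot.mk_X, hφ, aeval_X]
    rfl
  have h1 := (AdjoinRoot.powerBasis hirr.ne_zero).trace_gen_eq_nextCoeff_minpoly
  rw [AdjoinRoot.minpoly_powerBasis_gen_of_monic hm, AdjoinRoot.powerBasis_gen,
    nextCoeff_of_natDegree_pos (by simp), natDegree_X_pow_sub_C] at h1
  rw [e, trace_restrictScalars, map_smul, LinearMap.trace_id, smul_eq_mul, mul_comm, ← nsmul_eq_mul,
    map_nsmul, h1]
  simp [coeff_X_pow]

/-- an involution of trace zero on a space of small dimension has eigenspaces of equal size -/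
theorem finrank_fixed_of_trace {K Q : Type} [Field K] [AddCommGroup Q] [Module K Q]
    [FiniteDimensional K Q] (ι : Q →ₗ[K] Q) (hι : ∀ v, ι (ι v) = v)
    (htr : LinearMap.trace K Q ι = 0) (h2 : (2 : K) ≠ 0)
    (hn : ∀ n : ℕ, 0 < n → n ≤ Module.finrank K Q → (n : K) ≠ 0)
    (S : Submodule K Q) (hS : ∀ v ∈ S, ι v = v) :
    2 * Module.finrank K S ≤ Module.finrank K Q := by
  let P : Submodule K Q := LinearMap.ker (ι - LinearMap.id)
  have hP : ∀ v, v ∈ P ↔ ι v = v := fun v => by simp [P, sub_eq_zero]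
  have hproj : LinearMap.IsProj P ((2 : K)⁻¹ • (LinearMap.id + ι)) :=
    ⟨fun v => by simp [hP, hι, add_comm], fun v hv => by
      simp only [LinearMap.smul_apply, LinearMap.add_apply, LinearMap.id_apply, (hP v).mp hv]
      rw [← two_smul K, smul_smul, inv_mul_cancel₀ h2, one_smul]⟩
  have h1 := hproj.trace
  rw [map_smul, map_add, htr, add_zero, LinearMap.trace_id, smul_eq_mul,
    inv_mul_eq_iff_eq_mul₀ h2] at h1
  have h3 : Module.finrank K S ≤ Module.finrank K P :=
    Submodule.finrank_mono fun v hv => (hP v).mpr (hS v hv)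
  have h4 := P.finrank_le
  by_contra h5
  refine hn (2 * Module.finrank K P - Module.finrank K Q) (by omega) (by omega) ?_
  rw [Nat.cast_sub (by omega), h1]
  simp

theorem IsCoord1.aeval_injective {K F : Type} [Field K] [Field F] [Algebra K F] {t : Fˣ}
    (hc : IsCoord1 K t) : Function.Injective (aeval (t : F) : K[X] →ₐ[K] F) := by
  refine (injective_iff_map_eq_zero _).mpr fun p hp => ?_
  have h1 := hc.indep.comp (fun n : ℕ => (n : ℤ)) Nat.cast_injective
  rw [aeval_eq_sum_range] at hp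
  have h2 := linearIndependent_iff'.mp h1 (Finset.range (p.natDegree + 1)) p.coeff
    (by simpa using hp)
  exact leadingCoeff_eq_zero.mp (h2 _ (Finset.self_mem_range_succ _))

theorem exists_aeval_eq {K F : Type} [Field K] [Field F] [Algebra K F] {u q : F}
    (hq : q ∈ Algebra.adjoin K {u}) : ∃ p : K[X], aeval u p = q := by
  rwa [Algebra.adjoin_singleton_eq_range_aeval] at hq

theorem IsCoord1.not_isSquare {K F : Type} [Field K] [Field F] [Algebra K F] {t : Fˣ}
    (hc : IsCoord1 K t) {p : K[X]} (hp : Squarefree p) (hu : ¬ IsUnit p) :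
    ¬ IsSquare (aeval (t : F) p) := by
  rintro ⟨q, hq⟩
  obtain ⟨b, hb, hb0, ha⟩ := hc.frac q
  obtain ⟨B, rfl⟩ := exists_aeval_eq hb
  obtain ⟨A, hA⟩ := exists_aeval_eq ha
  have h1 : A ^ 2 = B ^ 2 * p := hc.aeval_injective (by
    rw [map_mul, map_pow, map_pow, hA, hq]; ring)
  obtain ⟨c, rfl⟩ := (IsIntegrallyClosed.pow_dvd_pow_iff two_ne_zero).mp ⟨p, h1⟩
  have hB : B ≠ 0 := by rintro rfl; simp at hb0
  rw [mul_pow, mul_right_inj' (pow_ne_zero 2 hB)] at h1
  exact hu (h1 ▸ (hp c ⟨1, by rw [← h1]; ring⟩).pow 2)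

/-- the trace argument on the affine line -/
theorem trace_core {K L V : Type} [Field K] [Field L] [Algebra K L] {t : Lˣ} [AddCommGroup V]
    [Module L V] [Module K V] [IsScalarTower K L V] (hc : IsCoord1 K t) {E : P1 K t V}
    (hE : E.FG) (hfull : Submodule.span L (E.ch false : Set V) = ⊤) {Q2 : Submodule K V}
    (f : V →ₗ[L] V) (hf : ∀ v ∈ E.ch false, f v ∈ E.ch false) (htr : LinearMap.trace L V f = 0)
    {δ θ D : K[X]} (hδ : δ ≠ 0) (hsq : ∀ v, f (f v) = aeval (t : L) D • v)
    (hD : AdjoinRoot.mk δ D = AdjoinRoot.mk δ θ ^ 2) (hθ : IsUnit (AdjoinRoot.mk δ θ))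
    (h1 : ∀ v ∈ E.ch false, aeval (t : L) δ • v ∈ Q2) (h2 : Q2 ≤ E.ch false)
    (h3 : ∀ v ∈ Q2, ∃ u ∈ E.ch false, f v - aeval (t : L) θ • v = aeval (t : L) δ • u)
    (two : (2 : K) ≠ 0) (hn : ∀ n : ℕ, 0 < n → n ≤ δ.natDegree * E.rk → (n : K) ≠ 0) :
    δ.natDegree * E.rk ≤ 2 * (rdim K (E.ch false) Q2).toNat := by
  classical
  obtain ⟨s, hs, hs'⟩ := hE.exists_gens false
  obtain ⟨n, e, he, he', hgen⟩ := exists_basis_family (u := (t : L)) (E.smul_mem false) s hs hs'
  have : IsFractionRing (Algebra.adjoin K {(t : L)}) L := by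
    have := (IsCoord1.chart hc true).isFractionRing_inv
    rwa [cs_true, inv_inv] at this
  have heL : LinearIndependent L e := (LinearIndependent.iff_fractionRing _ L).mp he
  let ψ : (Fin n → K[X]) →ₗ[K] V :=
    { toFun := fun r => ∑ i, aeval (t : L) (r i) • e i
      map_add' := fun r r' => by simp [add_smul, Finset.sum_add_distrib]
      map_smul' := fun c r => by simp [Finset.smul_sum] }
  have hψ : ∀ r, ψ r = ∑ i, aeval (t : L) (r i) • e i := fun _ => rfl
  have hψs : ∀ (p : K[X]) r, ψ (p • r) = aeval (t : L) p • ψ r := fun p r => by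
    simp [hψ, Finset.smul_sum, mul_smul]
  have hψi : ∀ r, ψ r = 0 → r = 0 := fun r hr => funext fun i =>
    hc.aeval_injective (by simpa using Fintype.linearIndependent_iff.mp heL _ hr i)
  have hψm : ∀ r, ψ r ∈ E.ch false := fun r => by
    rw [hψ]
    exact Submodule.sum_mem _ fun i _ => E.adjoin_smul_mem false (q := aeval (t : L) (r i))
      (aeval_mem_adjoin_singleton K (t : L)) (he' i)
  have hψr : ∀ v ∈ E.ch false, ∃ r, ψ r = v := fun v hv => by
    obtain ⟨r, rfl⟩ := hgen v hv
    choose p hp using fun i => exists_aeval_eq (r i).2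
    exact ⟨p, by simp [hψ, hp]⟩
  let b : Module.Basis (Fin n) L V := Module.Basis.mk heL (by
    rw [← hfull, Submodule.span_le]
    intro v hv
    obtain ⟨r, rfl⟩ := hψr v hv
    rw [hψ]
    exact Submodule.sum_mem _ fun i _ =>
      Submodule.smul_mem _ _ (Submodule.subset_span (Set.mem_range_self i)))
  have hrk : E.rk = n := by
    rw [P1.rk, hfull, finrank_top, Module.finrank_eq_card_basis b, Fintype.card_fin]
  choose col hcol using fun j => hψr _ (hf _ (he' j))
  let m : Matrix (Fin n) (Fin n) K[X] := Matrix.of fun i j => col j i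
  have hm : ∀ r, ψ (m.mulVec r) = f (ψ r) := fun r => by
    have : m.mulVec r = ∑ j, r j • col j := by
      funext i
      simp [m, Matrix.mulVec, dotProduct, mul_comm]
    rw [this, map_sum, hψ r, map_sum]
    simp only [hψs, hcol, map_smul]
  have hmt : m.trace = 0 := by
    refine hc.aeval_injective ?_
    rw [map_zero, ← htr, LinearMap.trace_eq_matrix_trace L b, Matrix.trace, Matrix.trace, map_sum]
    refine Finset.sum_congr rfl fun j _ => ?_
    have h4 : f (b j) = ∑ i, aeval (t : L) (col j i) • b i := by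
      simp only [b, Module.Basis.mk_apply]
      exact (hcol j).symm
    rw [Matrix.diag_apply, Matrix.diag_apply, LinearMap.toMatrix_apply, h4, b.repr_sum_self]
    rfl
  have := (AdjoinRoot.powerBasis hδ).finite
  let ρ : (Fin n → K[X]) →ₗ[K] (Fin n → AdjoinRoot δ) :=
    { toFun := fun r i => AdjoinRoot.mk δ (r i)
      map_add' := fun r r' => by funext i; simp
      map_smul' := fun c r => by funext i; simp [AdjoinRoot.smul_mk] }
  have hρ : ∀ r i, ρ r i = AdjoinRoot.mk δ (r i) := fun _ _ => rfl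
  have hρs : ∀ (p : K[X]) r, ρ (p • r) = AdjoinRoot.mk δ p • ρ r := fun p r => by
    funext i; simp [hρ]
  have hρm : ∀ r, ρ (m.mulVec r) = (m.map (AdjoinRoot.mk δ)).mulVec (ρ r) := fun r => by
    funext i; simp [hρ, Matrix.mulVec, dotProduct]
  have hρr : Function.Surjective ρ := fun w => by
    choose r hr using fun i => AdjoinRoot.mk_surjective (w i)
    exact ⟨r, funext hr⟩
  obtain ⟨c, hc'⟩ := hθ.exists_left_inv
  let ι := (c • Matrix.toLin' (m.map (AdjoinRoot.mk δ))).restrictScalars K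
  have hι : ∀ r, ι (ρ r) = c • ρ (m.mulVec r) := fun r => by simp [ι, hρm]
  have hιs : ∀ (a : AdjoinRoot δ) w, ι (a • w) = a • ι w := fun a w =>
    (c • Matrix.toLin' (m.map (AdjoinRoot.mk δ))).map_smul a w
  have hfr : Module.finrank K (Fin n → AdjoinRoot δ) = δ.natDegree * E.rk := by
    rw [Module.finrank_pi_fintype, hrk, (AdjoinRoot.powerBasis hδ).finrank]
    simp [mul_comm]
  have key := finrank_fixed_of_trace ι (fun w => by
      obtain ⟨r, rfl⟩ := hρr w
      have h4 : m.mulVec (m.mulVec r) = D • r :=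
        sub_eq_zero.mp (hψi _ (by rw [map_sub, hm, hm, hsq, hψs, sub_self]))
      rw [hι, hιs, hι, h4, hρs, hD, smul_smul, smul_smul,
        show c * c * AdjoinRoot.mk δ θ ^ 2 = (c * AdjoinRoot.mk δ θ) ^ 2 by ring, hc', one_pow,
        one_smul])
    (by
      rw [trace_restrictScalars, map_smul, Matrix.trace_toLin'_eq, ← AddMonoidHom.map_trace, hmt]
      simp) two (by rw [hfr]; exact hn) ((Q2.comap ψ).map ρ) (by
      rintro _ ⟨r, hr, rfl⟩
      obtain ⟨u, hu, hu'⟩ := h3 _ hr
      obtain ⟨r', rfl⟩ := hψr u hu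
      have h4 : m.mulVec r = θ • r + δ • r' :=
        sub_eq_zero.mp (hψi _ (by rw [map_sub, map_add, hm, hψs, hψs, ← hu']; abel))
      rw [hι, h4, map_add, hρs, hρs, AdjoinRoot.mk_self, zero_smul, add_zero, smul_smul, hc',
        one_smul])
  have hker : (⊥ : Submodule K _).comap ρ ≤ Q2.comap ψ := fun r hr => by
    have h4 : ∀ i, δ ∣ r i := fun i => AdjoinRoot.mk_eq_zero.mp (congrFun hr i)
    choose r' hr' using h4
    have h5 : r = δ • r' := funext hr'
    rw [Submodule.mem_comap, h5, hψs]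
    exact h1 _ (hψm _)
  have t1 := rdim_tower hker (le_top : Q2.comap ψ ≤ ⊤)
  have t2 : E.ch false = (⊤ : Submodule K _).map ψ := le_antisymm
    (fun v hv => by obtain ⟨r, rfl⟩ := hψr v hv; exact ⟨r, trivial, rfl⟩)
    (by rintro _ ⟨r, -, rfl⟩; exact hψm r)
  rw [← rdim_map ρ, ← rdim_map ρ, ← rdim_map ψ, ← t2, Submodule.map_top,
    LinearMap.range_eq_top.mpr hρr] at t1
  have f1 : rdim K (⊤ : Submodule K (Fin n → AdjoinRoot δ)) ⊥ ≠ ⊤ :=
    rdim_bot_ne_top_iff.mpr inferInstance
  have t3 := congrArg ENat.toNat t1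
  rw [t1] at f1
  rw [ENat.toNat_add (WithTop.add_ne_top.mp f1).1 (WithTop.add_ne_top.mp f1).2, rdim_bot_toNat,
    rdim_bot_toNat, finrank_top] at t3
  omega

variable {k : Type} [Field k] {L : Type} [Field L] [Algebra k L] {x y : Lˣ}

theorem Px_xK_ne_zero (hk : Good k) (hc : IsCoord k x y) (i : Ix) :
    Px false (xK k x : PSh.Kx k x) i ≠ 0 := fun h => Px_ne_zero hk hc false i (by
  have := Geo.map_Px (algebraMap (PSh.Kx k x) L) false (xK k x : PSh.Kx k x) i
  rw [h, map_zero] at this
  exact this.symm)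

theorem aeval_Px (i : Ix) :
    aeval (y : L) (Px false (C (xK k x : PSh.Kx k x)) i) = Px false (x : L) i := by
  rw [← AlgHom.coe_toRingHom, Geo.map_Px, AlgHom.coe_toRingHom, aeval_C]
  rfl

theorem aeval_Py (i : Ix) :
    aeval (y : L) (Py false (X : (PSh.Kx k x)[X]) i) = Py false (y : L) i := by
  rw [← AlgHom.coe_toRingHom, Geo.map_Py, AlgHom.coe_toRingHom, aeval_X]

theorem not_isSquare_prod (hk : Good k) (hc : IsCoord k x y) :
    ¬ IsSquare ((∏ i, Px false (x : L) i) * ∏ i, Py false (y : L) i) := by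
  have hK : Good (PSh.Kx k x) := Geo.good_of_ringHom hk (algebraMap k _)
  have h1 : (∏ i, Py false (X : (PSh.Kx k x)[X]) i).Separable := by
    refine separable_prod (fun i j hij => ?_) fun i => ?_
    · obtain ⟨c, c', h⟩ := Py_bezout hK false (X : (PSh.Kx k x)[X]) hij
      exact ⟨C c, C c', by simpa only [smul_eq_C_mul] using h⟩
    · obtain ⟨c, c', h⟩ := Py_sep hK false (X : (PSh.Kx k x)[X]) i
      refine ⟨C c, C c' * X, ?_⟩
      rw [← h, smul_eq_C_mul, smul_eq_C_mul, mul_assoc]
      congr 3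
      simp only [Py, derivative_add, derivative_intCast, derivative_intCast_mul, zero_add,
        derivative_X_pow]
      rfl
  have h2 : IsUnit (∏ i, Px false (C (xK k x : PSh.Kx k x)) i) :=
    IsUnit.prod_univ_iff.mpr fun i => by
      rw [← Geo.map_Px]
      exact isUnit_C.mpr (Px_xK_ne_zero hk hc i).isUnit
  have h3 := hc.fib.not_isSquare (p := (∏ i, Px false (C (xK k x : PSh.Kx k x)) i) *
    ∏ i, Py false X i) ((associated_unit_mul_right _ _ h2).squarefree_iff.mp h1.squarefree)
    fun h => by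
      obtain ⟨r, -, hr⟩ := Polynomial.isUnit_iff.mp
        (IsUnit.prod_univ_iff.mp (isUnit_of_mul_isUnit_right h) (0, false))
      have h4 := congrArg (coeff · 4) hr
      simp only [Py, ← C_eq_intCast, coeff_add, coeff_C_mul, coeff_X_pow_self, coeff_C] at h4
      refine hK.intCast_ne_zero (n := cY (!false) - av (0, false)) (by decide) (by decide) ?_
      simpa using h4.symm
  simpa only [map_mul, map_prod, aeval_Px, aeval_Py] using h3

section
variable {R S : Type} [CommRing R] [CommRing S]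

/-- the two coefficients of the ramification polynomial -/
def dco (b : Bool) (u : R) : R := (cX false - cY b : ℤ) + (cX true - cY b : ℤ) * u ^ (4 * m4)

theorem map_dco (f : R →+* S) (b : Bool) (u : R) : f (dco b u) = dco b (f u) := by
  simp only [dco, map_add, map_mul, map_pow, map_intCast]

theorem del_eq_dco (b : Bool) (u w : R) : del false b u w = dco (!b) u * w ^ 4 + dco b u := by
  simp only [del, dco, Bool.not_false]
  ring

theorem del_map_eq_dco (f : R →+* S) (b : Bool) (u : R) (w : S) :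
    del false b (f u) w = f (dco (!b) u) * w ^ 4 + f (dco b u) := by
  rw [del_eq_dco, map_dco, map_dco]

theorem del_PQ (φ : R →+* S) {u w : R} (h : φ (del false false u w) = 0) (i j : Ix) :
    φ (Px false u i) * φ (Py false w j) = φ (Px false u j) * φ (Py false w i) := by
  rw [← sub_eq_zero, ← map_mul, ← map_mul, ← map_sub, Px_mul_Py_sub, map_mul, h, mul_zero]

theorem del_Q (φ : R →+* S) {u w : R} (h : φ (del false false u w) = 0) {i j : Ix} {c c' : R}
    (h1 : c * Py false w i + c' * Py false w j = 1) (h2 : IsUnit (φ (Px false u i))) :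
    IsUnit (φ (Py false w i)) := by
  have h5 := congrArg φ h1
  rw [map_add, map_mul, map_mul, map_one] at h5
  refine isUnit_of_dvd_unit ⟨φ c * φ (Px false u i) + φ c' * φ (Px false u j), ?_⟩ h2
  linear_combination (-φ (Px false u i)) * h5 + φ c' * del_PQ φ h i j

end

theorem mk_prod_sq {K : Type} [Field K] (δ : K[X]) (P Q : Ix → K[X])
    (h : ∀ i j, AdjoinRoot.mk δ (P i) * AdjoinRoot.mk δ (Q j) =
      AdjoinRoot.mk δ (P j) * AdjoinRoot.mk δ (Q i)) :
    AdjoinRoot.mk δ ((∏ i, P i) * ∏ i, Q i) =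
      AdjoinRoot.mk δ (∏ e : Fin 3, P (e, false) * Q (e, true)) ^ 2 := by
  simp only [map_mul, map_prod, Fintype.prod_prod_type, Fintype.prod_bool]
  rw [← Finset.prod_mul_distrib, ← Finset.prod_pow]
  refine Finset.prod_congr rfl fun e _ => ?_
  linear_combination (AdjoinRoot.mk δ (P (e, false)) * AdjoinRoot.mk δ (Q (e, true))) *
    h (e, true) (e, false)

/-- the ramification polynomial on the generic fibre -/
noncomputable def delK (k : Type) [Field k] [Algebra k L] (x : Lˣ) : (PSh.Kx k x)[X] :=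
  del false false (C (xK k x : PSh.Kx k x)) X

theorem dco_ne_zero (hk : Good k) (hc : IsCoord k x y) :
    dco true (xK k x : PSh.Kx k x) ≠ 0 := fun h =>
  hc.four_ne_zero (N := 4 * m4) (M := 1) (c0 := cX false - cY true)
    (c1 := cX true - cY true) (c2 := 0) (c3 := 0) (by have := m4_pos; omega) one_pos
    (hk.intCast_ne_zero (by decide) (by decide)) (by
      have := map_dco (algebraMap _ L) true (xK k x : PSh.Kx k x)
      rw [h, map_zero, dco] at this
      simp only [Int.cast_zero, zero_mul, add_zero]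
      exact this.symm)

theorem natDegree_del {K : Type} [Field K] {u : K} (h : dco true u ≠ 0) :
    (del false false (C u) X).natDegree = 4 := by
  rw [del_map_eq_dco C, natDegree_add_C, Bool.not_false, natDegree_C_mul_X_pow _ _ h]

theorem natDegree_delK (hk : Good k) (hc : IsCoord k x y) : (delK k x).natDegree = 4 :=
  natDegree_del (dco_ne_zero hk hc)

theorem aeval_delK : aeval (y : L) (delK k x) = del false false (x : L) (y : L) := by
  rw [delK, ← AlgHom.coe_toRingHom, Geo.map_del, AlgHom.coe_toRingHom, aeval_X, aeval_C]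
  rfl

theorem delK_P (hk : Good k) (hc : IsCoord k x y) (i : Ix) :
    IsUnit (AdjoinRoot.mk (delK k x) (Px false (C (xK k x : PSh.Kx k x)) i)) := by
  rw [← Geo.map_Px]
  exact (isUnit_C.mpr (Px_xK_ne_zero hk hc i).isUnit).map _

theorem delK_Q (hk : Good k) (hc : IsCoord k x y) (i : Ix) :
    IsUnit (AdjoinRoot.mk (delK k x) (Py false X i)) := by
  have hK : Good (PSh.Kx k x) := Geo.good_of_ringHom hk (algebraMap k _)
  obtain ⟨c, c', h⟩ := Py_bezout hK false (X : (PSh.Kx k x)[X]) (i := i) (j := (i.1, !i.2))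
    (fun h => by simpa using congrArg Prod.snd h)
  rw [smul_eq_C_mul, smul_eq_C_mul] at h
  exact del_Q _ AdjoinRoot.mk_self h (delK_P hk hc i)

variable {A : Type} [CommRing A] [Algebra L A]
  {V : Type} [AddCommGroup V] [Module L V] [Module k V] [IsScalarTower k L V] [Module A V]
  [IsScalarTower L A V]

theorem PSh.fib_lift {Z Z' : PSh k x y V} (b : Bool) (g : A)
    (h : ∀ v ∈ Z.ch false b, g • v ∈ Z'.ch false b) : ∀ v ∈ Z.fib.ch b, g • v ∈ Z'.fib.ch b := by
  intro v hv
  obtain ⟨z, hz, hz0, hv⟩ := (PSh.mem_fib false b).1 hv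
  exact (PSh.mem_fib false b).2 ⟨z, hz, hz0, by rw [smul_comm]; exact h _ hv⟩

theorem Geo.fib_dl (G : Geo false false x y A) {Y Y2 : PSh k x y V}
    (h1 : Y.mul G.dl (4 * m4) 4 ≤ Y2) (b : Bool) : ∀ v ∈ Y.fib.ch b,
      del false b ((cs x false : Lˣ) : L) ((cs y b : Lˣ) : L) • v ∈ Y2.fib.ch b := by
  have hdl := PSh.fib_lift b _ fun v hv => h1 false b (PSh.mem_mul.mpr ⟨v, hv, rfl⟩)
  simpa only [G.chop_dl, algebraMap_smul] using hdl

theorem Geo.vt_mem (G : Geo false false x y A) {Y : PSh k x y V}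
    (hs : ∀ i, Y.Stable (G.s i) (2 * m4) 0) (ht : ∀ i, Y.Stable (G.t i) 0 2) :
    ∀ v ∈ Y.ch false false, G.vt • v ∈ Y.ch false false := by
  have h4 : ∀ (g : Ix → A), (∀ i, ∀ v ∈ Y.ch false false, g i • v ∈ Y.ch false false) →
      ∀ v ∈ Y.ch false false, (∏ i, g i) • v ∈ Y.ch false false := fun g hg =>
    Finset.prod_induction g (fun a => ∀ v ∈ Y.ch false false, a • v ∈ Y.ch false false)
      (fun a b ha hb v hv => by rw [mul_smul]; exact ha _ (hb v hv))
      (fun v hv => by rwa [one_smul]) fun i _ => hg i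
  intro v hv
  rw [Geo.vt, mul_smul]
  exact h4 _ (fun i => by simpa using hs i false false) _
    (h4 _ (fun i => by simpa using ht i false false) v hv)

theorem Geo.vt_vt (G : Geo false false x y A) (v : V) : G.vt • G.vt • v =
    ((∏ i, Px false (x : L) i) * ∏ i, Py false (y : L) i) • v := by
  rw [← mul_smul, ← sq, Geo.vt, mul_pow, ← Finset.prod_pow, ← Finset.prod_pow]
  simp only [G.s_sq, G.t_sq, ← map_prod, ← map_mul, algebraMap_smul]

theorem one_add_dco {K F : Type} [Field K] [Field F] [Algebra K F] {u : K} (h : dco true u ≠ 0)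
    (w : F) : (dco true u)⁻¹ • del false true (algebraMap K F u) w =
      1 + w * (((dco true u)⁻¹ * dco false u) • w ^ 3) := by
  have h8 : algebraMap K F (dco true u)⁻¹ * algebraMap K F (dco true u) = 1 := by
    rw [← map_mul, inv_mul_cancel₀ h, map_one]
  rw [del_eq_dco, ← map_dco, ← map_dco, Algebra.smul_def, Algebra.smul_def, map_mul, Bool.not_true]
  linear_combination h8

theorem deg_sub_dco {K F W : Type} [Field K] [Field F] [Algebra K F] {t : Fˣ} [AddCommGroup W]
    [Module F W] [Module K W] [IsScalarTower K F W] (hc : IsCoord1 K t) {E E' : P1 K t W}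
    (hE : E.FG) (h : E' ≤ E) {u : K} (hu : dco true u ≠ 0) {z : F} (hz : algebraMap K F u = z)
    (h1 : ∀ v ∈ E.ch true, del false true z ((t⁻¹ : Fˣ) : F) • v ∈ E'.ch true) :
    E.deg - E'.deg = (rdim K (E.ch false) (E'.ch false)).toNat := by
  have h0 : ((t⁻¹ : Fˣ) : F) ∈ Algebra.adjoin K {((t⁻¹ : Fˣ) : F)} := Algebra.subset_adjoin rfl
  refine (P1.deg_sub_eq_rdim hc hE h
    (Subalgebra.smul_mem _ (pow_mem h0 3) ((dco true u)⁻¹ * dco false u)) fun v hv => ?_).2
  rw [← one_add_dco hu, smul_assoc, hz]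
  exact (E'.ch true).smul_mem _ (h1 v hv)

theorem Geo.alp_sub (hk : Good k) (hc : IsCoord k x y) (G : Geo false false x y A)
    {Y Y2 : PSh k x y V} (hY : Y.FG) (h1 : Y.mul G.dl (4 * m4) 4 ≤ Y2) (h2 : Y2 ≤ Y) :
    Y.alp - Y2.alp = (rdim (PSh.Kx k x) (Y.fib.ch false) (Y2.fib.ch false)).toNat := by
  rw [PSh.alp_eq_deg hc hY, PSh.alp_eq_deg hc (hY.of_le h2)]
  refine deg_sub_dco hc.fib hY.fib (PSh.fib_mono h2) (dco_ne_zero hk hc) (z := x) rfl ?_
  simpa only [cs_false, cs_true] using G.fib_dl h1 true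

theorem Geo.fib_vt_sub (G : Geo false false x y A) {Y Y2 : PSh k x y V}
    (h3 : ∀ v ∈ Y2.ch false false, ∃ u ∈ Y.ch false false, (G.vt - G.Th ^ 2) • v = G.dl • u) :
    ∀ v ∈ Y2.fib.ch false, ∃ u ∈ Y.fib.ch false, G.vt • v - aeval (y : L)
      (∏ e : Fin 3, Px false (C (xK k x : PSh.Kx k x)) (e, false) * Py false X (e, true)) • v =
      aeval (y : L) (delK k x) • u := fun v hv => by
  obtain ⟨z, hz, hz0, hv⟩ := (PSh.mem_fib false false).1 hv
  obtain ⟨w, hw, hw'⟩ := h3 _ hv
  refine ⟨z⁻¹ • w, (PSh.mem_fib false false).2 ⟨z, hz, hz0, by rwa [smul_inv_smul₀ hz0]⟩, ?_⟩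
  rw [smul_comm, Geo.dl, algebraMap_smul, sub_smul, Geo.Th, ← Finset.prod_pow] at hw'
  simp only [mul_pow, G.s_sq, G.t_sq, ← map_mul, ← map_prod, algebraMap_smul] at hw'
  rw [aeval_delK, smul_comm _ z⁻¹, ← hw', inv_smul_smul₀ hz0]
  simp only [map_mul, map_prod, aeval_Px, aeval_Py]

theorem Geo.trace_bound (hk : Good k) (hc : IsCoord k x y) (G : Geo false false x y A)
    {Y Y2 : PSh k x y V} (hY : Y.FG) (hfull : Y.Full)
    (hs : ∀ i, Y.Stable (G.s i) (2 * m4) 0) (ht : ∀ i, Y.Stable (G.t i) 0 2)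
    (h1 : Y.mul G.dl (4 * m4) 4 ≤ Y2) (h2 : Y2 ≤ Y)
    (h3 : ∀ v ∈ Y2.ch false false, ∃ u ∈ Y.ch false false, (G.vt - G.Th ^ 2) • v = G.dl • u)
    (hn : ∀ n : ℕ, 0 < n → n ≤ 4 * Y.rk → (n : k) ≠ 0) :
    2 * (Y.rk : ℤ) ≤ Y.alp - Y2.alp := by
  have hK : Good (PSh.Kx k x) := Geo.good_of_ringHom hk (algebraMap k _)
  have hfull' : Submodule.span L (Y.fib.ch false : Set V) = ⊤ := by rw [PSh.span_fib, hfull]
  have : FiniteDimensional L V := by
    have := hY.fib.finiteDimensional
    rw [hfull'] at this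
    exact Module.finite_def.mpr (Module.Finite.iff_fg.mp this)
  have hdeg := natDegree_delK hk hc
  have e1 : ∀ v, PSh.opL L V G.vt (PSh.opL L V G.vt v) = aeval (y : L)
      ((∏ i, Px false (C (xK k x : PSh.Kx k x)) i) * ∏ i, Py false X i) • v := fun v => by
    simpa only [map_mul, map_prod, aeval_Px, aeval_Py, PSh.opL_apply] using G.vt_vt v
  have e2 : IsUnit (AdjoinRoot.mk (delK k x)
      (∏ e : Fin 3, Px false (C (xK k x : PSh.Kx k x)) (e, false) * Py false X (e, true))) := by
    simp only [map_mul, map_prod]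
    exact IsUnit.prod_univ_iff.mpr fun e => (delK_P hk hc _).mul (delK_Q hk hc _)
  have e3 : ∀ v ∈ Y.fib.ch false, aeval (y : L) (delK k x) • v ∈ Y2.fib.ch false := by
    simpa only [aeval_delK, cs_false] using G.fib_dl h1 false
  have e4 : delK k x ≠ 0 := fun h => by
    rw [h, natDegree_zero] at hdeg
    omega
  have key := trace_core hc.fib hY.fib hfull' (Q2 := Y2.fib.ch false) (PSh.opL L V G.vt)
    (PSh.fib_lift false _ (G.vt_mem hs ht))
    (trace_eq_zero_of_sq _ _ (not_isSquare_prod hk hc) G.vt_vt) e4 e1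
    (mk_prod_sq _ _ _ (del_PQ _ AdjoinRoot.mk_self)) e2 e3 (PSh.fib_mono h2 false) (G.fib_vt_sub h3)
    (by exact_mod_cast hK 2 (by norm_num) (by norm_num))
    (fun n h0 h => by
      rw [hdeg, PSh.rk_fib] at h
      rw [← map_natCast (algebraMap k (PSh.Kx k x))]
      exact (_root_.map_ne_zero _).mpr (hn n h0 h))
  rw [G.alp_sub hk hc hY h1 h2]
  rw [hdeg, PSh.rk_fib] at key
  omega

end Vale.Agent.P190
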