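import Vale.Agent.P190.RedOp
import Vale.Agent.P190.Spread

/-! Slope bounds persist after reduction modulo almost all primes. -/

namespace Vale.Agent.P190

variable {L : Type} [Field L] [Algebra ℚ L] {x y : Lˣ}
  {V : Type} [AddCommGroup V] [Module L V] [Module ℚ V] [IsScalarTower ℚ L V] {ρ : ℕ}
  {A : Type} [CommRing A] [Algebra L A] [Module A V] [IsScalarTower L A V]

/-- evaluation of integral polynomials in the function field of the first line -/
noncomputable def evK (k : Type) [Field k] {L : Type} [Field L] [Algebra k L] (x : Lˣ) :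
    Polynomial ℤ →+* PSh.Kx k x :=
  Polynomial.eval₂RingHom (Int.castRingHom _) (xK k x : PSh.Kx k x)

theorem ta_evK_eq (k : Type) [Field k] {L : Type} [Field L] [Algebra k L] (x y : Lˣ)
    (c : Polynomial ℤ) : (evK k x c : L) = ev x y (Polynomial.toMvPolynomial 0 c) := by
  have h : (algebraMap (PSh.Kx k x) L).comp (evK k x) =
      (ev x y).comp (Polynomial.toMvPolynomial (R := ℤ) (0 : Fin 2)).toRingHom := by
    refine Polynomial.ringHom_ext' (RingHom.ext_int _ _) ?_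
    simp [evK, ev, xK]
  exact DFunLike.congr_fun h c

theorem ta_exists_nat {w : L} (hw : w ∈ Algebra.adjoin ℚ {(x : L)}) :
    ∃ m : ℕ, 0 < m ∧ ∃ c : Polynomial ℤ, (evK ℚ x c : L) = m * w := by
  induction hw using Algebra.adjoin_induction with
  | mem z hz =>
    rw [Set.mem_singleton_iff.1 hz]
    exact ⟨1, one_pos, Polynomial.X, by simp [evK, xK]⟩
  | algebraMap r =>
    refine ⟨r.den, r.den_pos, r.num, ?_⟩
    rw [← map_natCast (algebraMap ℚ L), ← map_mul, Rat.den_mul_eq_num]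
    simp
  | add u v _ _ hu hv =>
    obtain ⟨m, hm, c, h⟩ := hu
    obtain ⟨m', hm', c', h'⟩ := hv
    refine ⟨m * m', mul_pos hm hm', m' * c + m * c', ?_⟩
    push_cast [map_add, map_mul, map_natCast, h, h']
    ring
  | mul u v _ _ hu hv =>
    obtain ⟨m, hm, c, h⟩ := hu
    obtain ⟨m', hm', c', h'⟩ := hv
    refine ⟨m * m', mul_pos hm hm', c * c', ?_⟩
    push_cast [map_mul, h, h']
    ring

theorem evK_injective (hc : IsCoord ℚ x y) : Function.Injective (evK ℚ x) := by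
  intro c c' h
  refine Polynomial.toMvPolynomial_injective (0 : Fin 2) (ev_injective hc ?_)
  rw [← ta_evK_eq ℚ x y, ← ta_evK_eq ℚ x y, h]

theorem evK_frac (q : PSh.Kx ℚ x) :
    ∃ a b : Polynomial ℤ, b ≠ 0 ∧ q * evK ℚ x b = evK ℚ x a := by
  have := algebraRat.charZero L
  obtain ⟨z, hz, hz0, hq⟩ := exists_den_Kx false q
  obtain ⟨m, hm, b, hb⟩ := ta_exists_nat (x := x) hz
  obtain ⟨m', hm', a, ha⟩ := ta_exists_nat (x := x) hq
  refine ⟨m * a, m' * b, mul_ne_zero (Nat.cast_ne_zero.2 hm'.ne') fun h => ?_, Subtype.ext ?_⟩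
  · rw [h, map_zero, eq_comm] at hb
    exact mul_ne_zero (Nat.cast_ne_zero.2 hm.ne') hz0 hb
  · push_cast [map_mul, map_natCast, ha, hb]
    ring

theorem evK_ne_zero {c : Polynomial ℤ} (hc0 : c ≠ 0) : ∃ m : ℕ, ∀ (p : ℕ) [Fact p.Prime], m < p →
    ∀ (L' : Type) [Field L'] [Algebra (ZMod p) L'] (x' y' : L'ˣ), IsCoord (ZMod p) x' y' →
      evK (ZMod p) x' c ≠ 0 := by
  refine ⟨c.leadingCoeff.natAbs, fun p _ hp L' _ _ x' y' hc' h => ?_⟩
  have h1 := ta_evK_eq (ZMod p) x' y' c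
  rw [h, eq_comm, ZeroMemClass.coe_zero, ev_eq_zero_iff hc'] at h1
  have h2 := map_dvd (MvPolynomial.aeval (R := ℤ) fun _ : Fin 2 => (Polynomial.X : Polynomial ℤ)) h1
  rw [map_natCast, MvPolynomial.aeval_toMvPolynomial, Polynomial.aeval_X_left_apply,
    ← map_natCast (Polynomial.C (R := ℤ)), Polynomial.C_dvd_iff_dvd_coeff] at h2
  have h3 := Nat.le_of_dvd (Int.natAbs_pos.2 (Polynomial.leadingCoeff_ne_zero.2 hc0))
    (Int.natCast_dvd.1 (h2 c.natDegree))
  omega

theorem evK_mem (c : Polynomial ℤ) : (evK ℚ x c : L) ∈ Oprim x y := by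
  rw [ta_evK_eq ℚ x y]
  exact ev_mem_Oprim _

theorem red_evK {p : ℕ} [Fact p.Prime] {L' : Type} [Field L'] [Algebra (ZMod p) L'] {x' y' : L'ˣ}
    (hc : IsCoord ℚ x y) (hc' : IsCoord (ZMod p) x' y') (c : Polynomial ℤ) :
    red p x y x' y' (evK ℚ x c : L) = (evK (ZMod p) x' c : L') := by
  rw [ta_evK_eq ℚ x y, ta_evK_eq (ZMod p) x' y', red_ev hc hc']

theorem mem_adjoin_int_iff {q : L} :
    q ∈ Algebra.adjoin ℤ {(x : L)} ↔ ∃ c : Polynomial ℤ, (evK ℚ x c : L) = q := by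
  rw [Algebra.adjoin_singleton_eq_range_aeval, AlgHom.mem_range]
  refine exists_congr fun c => ?_
  have h : (algebraMap (PSh.Kx ℚ x) L).comp (evK ℚ x) =
      (Polynomial.aeval (R := ℤ) (x : L)).toRingHom := by
    refine Polynomial.ringHom_ext' (RingHom.ext_int _ _) ?_
    simp [evK, xK]
  rw [show (evK ℚ x c : L) = Polynomial.aeval (x : L) c from DFunLike.congr_fun h c]

theorem ta_indep {k : Type} [Field k] {L : Type} [Field L] [Algebra k L] {x y : Lˣ}
    (hc : IsCoord k x y) {V : Type} [AddCommGroup V] [Module L V] {ρ : ℕ}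
    (bs : Module.Basis (Fin ρ) L V) {u : L} (hu : u ≠ 0) (n : ℕ) :
    LinearIndependent (PSh.Kx k x)
      fun i : Fin (n + 1) × Fin ρ => (u * (y : L) ^ (i.1 : ℕ)) • bs i.2 := by
  have h0 : LinearIndependent (PSh.Kx k x) fun e : Fin (n + 1) => (y : L) ^ (e : ℕ) := by
    have h := hc.fib.indep.comp (fun e : Fin (n + 1) => ((e : ℕ) : ℤ))
      (fun e e' h => Fin.ext (Int.ofNat_inj.1 h))
    simpa [Function.comp_def] using h
  have h2 : LinearIndependent (PSh.Kx k x) fun e : Fin (n + 1) => u * (y : L) ^ (e : ℕ) :=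
    h0.map' (LinearMap.mulLeft (PSh.Kx k x) u) (LinearMap.ker_eq_bot.2 (mul_right_injective₀ hu))
  have : IsScalarTower (PSh.Kx k x) L V := ⟨fun c q v => mul_smul (c : L) q v⟩
  exact linearIndependent_smul (R := PSh.Kx k x) (S := L) (A := V) h2 bs.linearIndependent

/-- coordinates for the sections of the direct image, valid in every characteristic -/
theorem exists_frame (hc : IsCoord ℚ x y) {N : PSh ℚ x y V} (hN : N.FG)
    (bs : Module.Basis (Fin ρ) L V) (J : ℤ) :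
    ∃ (R : ℕ) (f : Fin R → V), LinearIndependent (PSh.Kx ℚ x) f ∧
      (∀ r, f r ∈ latt (Oprim x y) bs) ∧
      (∀ (p : ℕ) [Fact p.Prime] (L' : Type) [Field L'] [Algebra (ZMod p) L'] (x' y' : L'ˣ),
        IsCoord (ZMod p) x' y' →
        LinearIndependent (PSh.Kx (ZMod p) x') fun r => rv p x y x' y' bs (f r)) ∧
      ∀ v ∈ ((N.tw 0 J).EZ bs).dirx.ch false, ∃ c : Fin R → Polynomial ℤ,
        v = ∑ r, evK ℚ x (c r) • f r := by
  obtain ⟨n, D, hD0, hD1, hD2, hb⟩ := PSh.EZ_bound hc (hN.tw 0 J) bs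
  let f : Fin (n + 1) × Fin ρ → V := fun i => (D⁻¹ * (y : L) ^ (i.1 : ℕ)) • bs i.2
  have hy : ∀ e : ℕ, (y : L) ^ e ∈ Oprim x y := fun e => by
    simpa using unit_mem_Oprim (x := x) (y := y) 0 e
  have hbs : ∀ s, bs s ∈ latt (Oprim x y) bs := fun s t => by
    rw [Module.Basis.repr_self, Finsupp.single_apply]
    split_ifs
    · exact one_mem _
    · exact zero_mem _
  refine ⟨_, f ∘ finProdFinEquiv.symm,
    (ta_indep hc bs (inv_ne_zero hD0) n).comp _ finProdFinEquiv.symm.injective,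
    fun r => smul_mem_latt (mul_mem hD2 (hy _)) (hbs _), fun p _ L' _ _ x' y' hc' => ?_,
    fun v hv => ?_⟩
  · have h1 : red p x y x' y' (1 : L) = 1 := by simpa using red_intCast hc hc' 1
    have h0 : red p x y x' y' (0 : L) = 0 := by simpa using red_intCast hc hc' 0
    have h2 : red p x y x' y' D⁻¹ ≠ 0 := by
      intro h
      have h3 := red_mul hc hc' (hD2 p) (hD1 p)
      rw [inv_mul_cancel₀ hD0, h1, h, zero_mul] at h3
      exact one_ne_zero h3
    have h3 : (fun r => rv p x y x' y' bs ((f ∘ finProdFinEquiv.symm) r)) =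
        (fun i : Fin (n + 1) × Fin ρ => (red p x y x' y' D⁻¹ * (y' : L') ^ (i.1 : ℕ)) •
          Pi.basisFun L' (Fin ρ) i.2) ∘ finProdFinEquiv.symm := by
      funext r
      simp only [Function.comp_apply, f]
      generalize finProdFinEquiv.symm r = i
      have k4 : red p x y x' y' ((y : L) ^ (i.1 : ℕ)) = (y' : L') ^ (i.1 : ℕ) := by
        simpa using red_unit hc hc' 0 (i.1 : ℕ)
      rw [rv_smul hc hc' (mul_mem hD2 (hy _) p) (latt_prim_le (hbs _)),
        red_mul hc hc' (hD2 p) (hy _ p), k4]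
      congr 1
      funext t
      rw [rv, Module.Basis.repr_self, Finsupp.single_apply, Pi.basisFun_apply, Pi.single_apply]
      by_cases h : i.2 = t
      · rw [if_pos h, if_pos h.symm, h1]
      · rw [if_neg h, if_neg (Ne.symm h), h0]
    rw [h3]
    exact (ta_indep hc' _ h2 n).comp _ finProdFinEquiv.symm.injective
  · have key : ∀ s, ∃ c : Fin (n + 1) → Polynomial ℤ,
        D * bs.repr v s = ∑ e, (evK ℚ x (c e) : L) * (y : L) ^ (e : ℕ) := by
      intro s
      obtain ⟨c1, h1, h2⟩ := hb false false v hv.1 s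
      obtain ⟨c2, h3, h4⟩ := hb false true v hv.2 s
      have h5 := SA.mem_MS_inter hc.int (h2 ▸ SA.tu_mul_mem n n false false h1)
        (h4 ▸ SA.tu_mul_mem n n false true h3)
      have h6 : D * bs.repr v s ∈ (Submodule.span (Algebra.adjoin ℤ {(x : L)})
          (Set.range fun e : Fin (n + 1) => (y : L) ^ (e : ℕ))).restrictScalars ℤ := by
        refine Submodule.span_le.2 ?_ h5
        rintro _ ⟨⟨i, j⟩, ⟨⟨hi, hj⟩, -, hj'⟩, rfl⟩
        obtain ⟨i, rfl⟩ := Int.eq_ofNat_of_zero_le (show 0 ≤ i from hi)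
        obtain ⟨j, rfl⟩ := Int.eq_ofNat_of_zero_le (show 0 ≤ j from hj)
        have hj2 : j < n + 1 := Nat.lt_succ_of_le (Int.ofNat_le.1 hj')
        have h7 := Submodule.smul_mem (Submodule.span (Algebra.adjoin ℤ {(x : L)})
          (Set.range fun e : Fin (n + 1) => (y : L) ^ (e : ℕ)))
          ⟨(x : L) ^ i, pow_mem (Algebra.subset_adjoin (Set.mem_singleton _)) i⟩
          (Submodule.subset_span ⟨⟨j, hj2⟩, rfl⟩)
        simpa [Subalgebra.smul_def] using h7
      obtain ⟨c, h7⟩ := (Submodule.mem_span_range_iff_exists_fun _).1 h6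
      choose c' hc' using fun e => mem_adjoin_int_iff.1 (c e).2
      exact ⟨c', h7.symm.trans (Finset.sum_congr rfl fun e _ => by rw [hc']; rfl)⟩
    choose c hc1 using key
    refine ⟨(fun i : Fin (n + 1) × Fin ρ => c i.2 i.1) ∘ finProdFinEquiv.symm, ?_⟩
    rw [← Equiv.sum_comp finProdFinEquiv]
    simp only [Function.comp_apply, Equiv.symm_apply_apply, f]
    rw [Fintype.sum_prod_type_right]
    refine (bs.sum_repr v).symm.trans (Finset.sum_congr rfl fun s _ => ?_)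
    rw [← inv_mul_cancel_left₀ hD0 (bs.repr v s), hc1, Finset.mul_sum, Finset.sum_smul]
    refine Finset.sum_congr rfl fun e _ => ?_
    rw [mul_left_comm, mul_smul]
    rfl

/-- the reduced monomials -/
noncomputable def Geo.mon {L : Type} [Field L] {x y : Lˣ} {A : Type} [CommRing A] [Algebra L A]
    (G : Geo false false x y A) (c : Finset Ix × Finset Ix × Bool) : A :=
  (∏ i ∈ c.1, G.s i) * (∏ i ∈ c.2.1, G.t i) * (if c.2.2 then G.w else 1)

theorem Geo.Stab.mon {k : Type} [Field k] {L : Type} [Field L] [Algebra k L] {x y : Lˣ}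
    {A : Type} [CommRing A] [Algebra L A] {V : Type} [AddCommGroup V] [Module L V] [Module k V]
    [IsScalarTower k L V] [Module A V] [IsScalarTower L A V] {G : Geo false false x y A}
    {E : PSh k x y V} (h : G.Stab E) (c : Finset Ix × Finset Ix × Bool) :
    ∃ d, E.Stable (G.mon c) d 15 := by
  have h1 : E.Stable (if c.2.2 then G.w else 1) (3 * m4) 3 := by
    split_ifs
    · exact h.w none
    · exact (stable_one E).mono (Nat.zero_le _) (Nat.zero_le _)
  have h2 : c.2.1.card ≤ 6 := (Finset.card_le_univ _).trans (by simp)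
  exact ⟨_, (((stable_prod h.s c.1).mul (stable_prod h.t c.2.1)).mul h1).mono le_rfl (by omega)⟩

theorem sb_frame_comp {Ω W : Type} [Field Ω] [AddCommGroup W] [Module Ω W] {R N : ℕ}
    (f : Fin R → W) (b : Fin N → W) (T : W →ₗ[Ω] W) (B : Matrix (Fin R) (Fin N) Ω)
    (hB : ∀ n, T (b n) = ∑ r, B r n • f r) :
    (Fintype.linearCombination Ω f).comp B.mulVecLin = T.comp (Fintype.linearCombination Ω b) := by
  refine LinearMap.ext fun c => ?_
  simp only [LinearMap.comp_apply, Fintype.linearCombination_apply, Matrix.mulVecLin_apply,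
    Matrix.mulVec, dotProduct, map_sum, map_smul, hB, Finset.smul_sum, Finset.sum_smul, smul_smul]
  rw [Finset.sum_comm]
  exact Finset.sum_congr rfl fun n _ => Finset.sum_congr rfl fun r _ => by rw [mul_comm]

theorem sb_finrank {Ω X Y Z ι : Type} [Field Ω] [AddCommGroup X] [Module Ω X] [AddCommGroup Y]
    [Module Ω Y] [AddCommGroup Z] [Module Ω Z] (Φ : Y →ₗ[Ω] Z) (hΦ : Function.Injective Φ)
    (Ψ : X →ₗ[Ω] Z) (T : ι → Z →ₗ[Ω] Z) (B : ι → X →ₗ[Ω] Y)
    (h : ∀ α, Φ.comp (B α) = (T α).comp Ψ) (S : Submodule Ω X) :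
    Module.finrank Ω ↥(⨆ α, S.map (B α)) = Module.finrank Ω ↥(⨆ α, (S.map Ψ).map (T α)) := by
  have e : (⨆ α, S.map (B α)).map Φ = ⨆ α, (S.map Ψ).map (T α) := by
    rw [Submodule.map_iSup]
    exact iSup_congr fun α => by rw [← Submodule.map_comp, h, Submodule.map_comp]
  rw [(Submodule.equivMapOfInjective Φ hΦ _).finrank_eq, e]

/-- passing between subspaces of a space with a frame and coordinates -/
theorem finrank_frame {Ω W ι : Type} [Field Ω] [AddCommGroup W] [Module Ω W] {R N : ℕ}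
    (f : Fin R → W) (hf : LinearIndependent Ω f) (b : Fin N → W) (T : ι → W →ₗ[Ω] W)
    (B : ι → Matrix (Fin R) (Fin N) Ω) (hB : ∀ α n, T α (b n) = ∑ r, B α r n • f r) (m : ℕ)
    (S : Submodule Ω (Fin m → Fin N → Ω)) :
    Module.finrank Ω ↥(⨆ α, S.map ((B α).mulVecLin.compLeft (Fin m))) =
      Module.finrank Ω ↥(⨆ α, (S.map ((Fintype.linearCombination Ω b).compLeft (Fin m))).map
        ((T α).compLeft (Fin m))) := by
  have h1 : Function.Injective (Fintype.linearCombination Ω f) :=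
    hf.fintypeLinearCombination_injective
  refine sb_finrank ((Fintype.linearCombination Ω f).compLeft (Fin m))
    (fun u v huv => funext fun i => h1 (congrFun huv i)) _ _ _ (fun α => ?_) S
  exact LinearMap.ext fun c => funext fun i =>
    LinearMap.congr_fun (sb_frame_comp f b (T α) (B α) (hB α)) (c i)

theorem finrank_frame_one {Ω W ι : Type} [Field Ω] [AddCommGroup W] [Module Ω W] {R N : ℕ}
    (f : Fin R → W) (hf : LinearIndependent Ω f) (b : Fin N → W) (T : ι → W →ₗ[Ω] W)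
    (B : ι → Matrix (Fin R) (Fin N) Ω) (hB : ∀ α n, T α (b n) = ∑ r, B α r n • f r)
    (S : Submodule Ω (Fin N → Ω)) :
    Module.finrank Ω ↥(⨆ α, S.map (B α).mulVecLin) =
      Module.finrank Ω ↥(⨆ α, (S.map (Fintype.linearCombination Ω b)).map (T α)) :=
  sb_finrank (Fintype.linearCombination Ω f) (hf.fintypeLinearCombination_injective) _ _ _
    (fun α => sb_frame_comp f b (T α) (B α) (hB α)) S

theorem P1.tb_op_mem {B F : Type} [CommRing B] [Field F] [Algebra B F] {t : Fˣ} {V : Type}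
    [AddCommGroup V] [Module F V] [Module B V] [IsScalarTower B F V] {A : Type} [CommRing A]
    [Algebra F A] [Module A V] [IsScalarTower F A V] {E : P1 B t V} {g : A} {e : ℕ}
    (hg : E.OpStable g e) {T i : ℕ} (hi : i ≤ T) {b : Bool} {v : V} (hv : v ∈ E.ch b) :
    (t : F) ^ i • g • v ∈ (E.tw ((e + T : ℕ) : ℤ)).ch b := by
  rw [P1.mem_tw]
  have h := hg b v hv
  cases b
  · have h2 := pow_smul_mem (E.smul_mem false) i h
    simpa [Units.smul_def] using h2
  · have h2 := pow_smul_mem (E.smul_mem true) (T - i) h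
    obtain ⟨d, rfl⟩ := Nat.exists_eq_add_of_le hi
    rw [Nat.add_sub_cancel_left, ← mul_smul] at h2
    rw [← Units.val_pow_eq_pow_val, ← Units.smul_def, ← mul_smul]
    have e1 : (tu t ((e + (i + d) : ℕ) : ℤ) true)⁻¹ * t ^ i =
        cs t true ^ d * (tu t (e : ℤ) true)⁻¹ := by
      rw [tu_true, tu_true, cs_true, zpow_natCast, zpow_natCast, pow_add, pow_add, inv_pow,
        mul_comm (t ^ i), ← mul_assoc, mul_inv, inv_mul_cancel_right, mul_inv, mul_comm]
    rwa [e1]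

theorem tb_redOp_mon {L' : Type} [Field L'] {A' : Type} [CommRing A'] [Algebra L' A']
    [Module A' (Fin ρ → L')] {p : ℕ} [Fact p.Prime] {x' y' : L'ˣ} {bs : Module.Basis (Fin ρ) L V}
    {G : Geo false false x y A} {G' : Geo false false x' y' A'} (h : Compat p bs G G')
    (c : Finset Ix × Finset Ix × Bool) : RedOp p x y x' y' bs (G.mon c) (G'.mon c) := by
  have key : ∀ (g : Ix → A) (g' : Ix → A'), (∀ i, RedOp p x y x' y' bs (g i) (g' i)) →
      ∀ s : Finset Ix, RedOp p x y x' y' bs (∏ i ∈ s, g i) (∏ i ∈ s, g' i) := by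
    intro g g' hg s
    induction s using Finset.induction_on with
    | empty => simpa using RedOp.one
    | insert i s hi ih =>
      rw [Finset.prod_insert hi, Finset.prod_insert hi]
      exact (hg i).mul ih
  refine ((key _ _ h.s _).mul (key _ _ h.t _)).mul ?_
  cases c.2.2
  · exact RedOp.one
  · exact h.w none

theorem tb_zero {k F : Type} [Field k] [Field F] [Algebra k F] {t : Fˣ} {V : Type}
    [AddCommGroup V] [Module F V] [Module k V] [IsScalarTower k F V] {A : Type} [CommRing A]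
    [Algebra F A] [Module A V] [IsScalarTower F A V] (hc : IsCoord1 k t) {E : P1 k t V}
    (hE : E.FG) {Γ : Type} [Fintype Γ] (g : Γ → A) (hg : Submodule.span F (Set.range g) = ⊤)
    {e : ℕ} (hge : ∀ γ, E.OpStable (g γ) e) (ho : E.Ops A e) {μ : ℚ} (h : E.SubLe A μ)
    (hμ : (e : ℚ) ≤ μ) {R N : ℕ} (f : Fin R → V) (hf : LinearIndependent k f) (b : Fin N → V)
    (hb : ∀ n a, b n ∈ E.ch a) (T : ℕ) {m : k} (hm : m ≠ 0) (B0 : Matrix (Fin R) (Fin N) k)
    (B : Fin (T + 1) × Γ → Matrix (Fin R) (Fin N) k) (hB0 : ∀ n, b n = ∑ r, B0 r n • f r)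
    (hB : ∀ α n, m • (t : F) ^ (α.1 : ℕ) • g α.2 • b n = ∑ r, B α r n • f r) (n : ℕ)
    (S : Submodule k (Fin n → Fin N → k)) :
    ((T : ℚ) + 1) * Module.finrank k (S.map (B0.mulVecLin.compLeft (Fin n))) ≤
      μ * Module.finrank k ↥(⨆ α, S.map ((B α).mulVecLin.compLeft (Fin n))) := by
  have h1 := finrank_frame f hf b (fun _ : Unit => LinearMap.id) (fun _ => B0)
    (fun _ n => hB0 n) n S
  have h2 := finrank_frame f hf b (fun α => m • P1.opT k V t (g α.2) α.1) B
    (fun α n => by rw [← hB, LinearMap.smul_apply, P1.opT_apply]) n S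
  have e1 : (LinearMap.id : V →ₗ[k] V).compLeft (Fin n) = LinearMap.id := rfl
  have e2 : ∀ α : Fin (T + 1) × Γ, (m • P1.opT k V t (g α.2) α.1).compLeft (Fin n) =
      m • P1.opT k (Fin n → V) t (g α.2) α.1 := fun α => rfl
  rw [iSup_const, iSup_const, e1, Submodule.map_id] at h1
  rw [h1, h2, iSup_congr fun α => (congrArg (Submodule.map · _) (e2 α)).trans
    (Submodule.map_smul _ _ _ hm)]
  refine P1.growth hc (hE.pi (Fin n)) g hg (fun γ a v hv => ?_) (h.pi hc hE ho n) hμ _ ?_ T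
  · exact P1.mem_pi.2 fun i => hge γ a _ (P1.mem_pi.1 hv i)
  · rintro _ ⟨c, -, rfl⟩
    have key : ∀ a, (Fintype.linearCombination k b).compLeft (Fin n) c ∈ (E.pi (Fin n)).ch a :=
      fun a => P1.mem_pi.2 fun i => by
        change Fintype.linearCombination k b (c i) ∈ _
        rw [Fintype.linearCombination_apply]
        exact Submodule.sum_mem _ fun l _ => Submodule.smul_mem _ _ (hb l a)
    exact ⟨key false, key true⟩

theorem tb_pos {k F : Type} [Field k] [Field F] [Algebra k F] {t : Fˣ} {V : Type}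
    [AddCommGroup V] [Module F V] [Module k V] [IsScalarTower k F V] {A : Type} [CommRing A]
    [Algebra F A] [Module A V] [IsScalarTower F A V] (hc : IsCoord1 k t) {E : P1 k t V}
    (hE : E.FG) {Γ : Type} [Fintype Γ] (g : Γ → A) {e : ℕ} (hge : ∀ γ, E.OpStable (g γ) e)
    (c : ℕ) (h0 : (E.tw (-(c : ℤ))).h0 = 0) (U : Submodule A V) (j T : ℕ)
    {R N : ℕ} (f : Fin R → V) (hf : LinearIndependent k f) (b : Fin N → V)
    (hb : (E.tw j).ch false ⊓ (E.tw j).ch true ≤ Submodule.span k (Set.range b))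
    {m : k} (hm : m ≠ 0) (B0 : Matrix (Fin R) (Fin N) k)
    (B : Fin (T + 1) × Γ → Matrix (Fin R) (Fin N) k) (hB0 : ∀ n, b n = ∑ r, B0 r n • f r)
    (hB : ∀ α n, m • (t : F) ^ (α.1 : ℕ) • g α.2 • b n = ∑ r, B α r n • f r) :
    ∃ S : Submodule k (Fin N → k),
      (E.inf (U.restrictScalars F)).deg + (E.inf (U.restrictScalars F)).rk * j ≤
        Module.finrank k (S.map B0.mulVecLin) ∧
      Module.finrank k ↥(⨆ α, S.map (B α).mulVecLin) ≤
        (E.inf (U.restrictScalars F)).rk * (c + j + e + T) := by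
  obtain ⟨S, hS, h1, h2⟩ := P1.certificate hc hE g hge c h0 U j T
  have h3 : (S.comap (Fintype.linearCombination k b)).map (Fintype.linearCombination k b) = S :=
    Submodule.map_comap_eq_self (by rw [Fintype.range_linearCombination]; exact hS.trans hb)
  have h4 := finrank_frame_one f hf b (fun _ : Unit => LinearMap.id) (fun _ => B0)
    (fun _ n => hB0 n) (S.comap (Fintype.linearCombination k b))
  have h5 := finrank_frame_one f hf b (fun α => m • P1.opT k V t (g α.2) α.1) B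
    (fun α n => by rw [← hB, LinearMap.smul_apply, P1.opT_apply])
    (S.comap (Fintype.linearCombination k b))
  rw [iSup_const, iSup_const, Submodule.map_id, h3] at h4
  rw [h3, iSup_congr fun α => Submodule.map_smul _ _ _ hm] at h5
  exact ⟨_, h4 ▸ h1, h5 ▸ h2⟩

theorem tb_data (hc : IsCoord ℚ x y) (G : Geo false false x y A) {N : PSh ℚ x y V} (hN : N.FG)
    (hs : G.Stab N) (bs : Module.Basis (Fin ρ) L V) (j T : ℕ) :
    ∃ (m M R : ℕ) (b : Fin M → V) (f : Fin R → V) (B0 : Matrix (Fin R) (Fin M) (Polynomial ℤ))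
      (B : Fin (T + 1) × (Finset Ix × Finset Ix × Bool) → Matrix (Fin R) (Fin M) (Polynomial ℤ)),
      0 < m ∧ LinearIndependent (PSh.Kx ℚ x) f ∧ (∀ r, f r ∈ latt (Oprim x y) bs) ∧
      (∀ (p : ℕ) [Fact p.Prime] (L' : Type) [Field L'] [Algebra (ZMod p) L'] (x' y' : L'ˣ),
        IsCoord (ZMod p) x' y' →
        LinearIndependent (PSh.Kx (ZMod p) x') fun r => rv p x y x' y' bs (f r)) ∧
      (∀ n, b n ∈ ((N.tw 0 j).EZ bs).dirx.ch false) ∧
      (∀ v ∈ ((N.tw 0 j).EZ bs).dirx.ch false, ∃ c : Fin M → Polynomial ℤ,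
        v = ∑ n, (evK ℚ x (c n) : L) • b n) ∧
      (∀ n, b n = ∑ r, (evK ℚ x (B0 r n) : L) • f r) ∧
      ∀ α n, (m : ℤ) • (y : L) ^ (α.1 : ℕ) • G.mon α.2 • b n =
        ∑ r, (evK ℚ x (B α r n) : L) • f r := by
  choose m0 hm0 hm1 using fun γ => exists_nat_op hc bs (G.mon γ)
  obtain ⟨s, hs1, hs2⟩ := (PSh.FG.dirx hc.int (PSh.EZ_FG hc (hN.tw 0 j) bs)).exists_gens false
  obtain ⟨R, f, hf1, hf2, hf3, hf4⟩ := exists_frame hc hN bs (j + ((15 + T : ℕ) : ℤ))
  let b : Fin s.card → V := fun n => (s.equivFin.symm n : V)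
  have hb : ∀ n, b n ∈ ((N.tw 0 j).EZ bs).dirx.ch false := fun n => hs1 (s.equivFin.symm n).2
  have htw : ∀ (a : Bool) (v : V), v ∈ ((N.tw 0 j).col false |>.tw ((15 + T : ℕ) : ℤ)).ch a →
      v ∈ (N.tw 0 (j + ((15 + T : ℕ) : ℤ))).ch false a := by
    intro a v hv
    rw [← add_zero (0 : ℤ), ← PSh.tw_tw, PSh.mem_tw, tu_false, one_mul]
    exact hv
  have h0 : ∀ n, b n ∈ ((N.tw 0 (j + ((15 + T : ℕ) : ℤ))).EZ bs).dirx.ch false := by
    intro n
    have h := P1.tw_le_tw ((N.tw 0 j).col false) (Int.natCast_nonneg (15 + T))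
    rw [P1.tw_zero] at h
    exact ⟨⟨htw _ _ (h false (hb n).1.1), (hb n).1.2⟩, ⟨htw _ _ (h true (hb n).2.1), (hb n).1.2⟩⟩
  have h1 : ∀ (α : Fin (T + 1) × (Finset Ix × Finset Ix × Bool)) n,
      ((∏ γ, m0 γ : ℕ) : ℤ) • (y : L) ^ (α.1 : ℕ) • G.mon α.2 • b n ∈
        ((N.tw 0 (j + ((15 + T : ℕ) : ℤ))).EZ bs).dirx.ch false := by
    intro α n
    have hl : ((∏ γ, m0 γ : ℕ) : ℤ) • (y : L) ^ (α.1 : ℕ) • G.mon α.2 • b n ∈
        latt (Oprim x y) bs := by
      rw [smul_comm, ← Finset.prod_erase_mul _ _ (Finset.mem_univ α.2), Nat.cast_mul, mul_smul]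
      refine smul_mem_latt ?_ (Submodule.smul_mem _ _ (hm1 _ _ (hb n).1.2))
      simpa using unit_mem_Oprim (x := x) (y := y) 0 (α.1 : ℕ)
    obtain ⟨d, hd⟩ := (hs.tw 0 j).mon α.2
    have ho : ((N.tw 0 j).col false).OpStable (G.mon α.2) 15 := fun a v hv => by
      have h := hd false a v hv
      rwa [PSh.chop, tu_false, one_mul, smul_assoc, ← Units.smul_def] at h
    have hi : (α.1 : ℕ) ≤ T := Nat.lt_succ_iff.1 α.1.2
    exact ⟨⟨Submodule.smul_of_tower_mem _ _ (htw _ _ (P1.tb_op_mem ho hi (hb n).1.1)), hl⟩,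
      ⟨Submodule.smul_of_tower_mem _ _ (htw _ _ (P1.tb_op_mem ho hi (hb n).2.1)), hl⟩⟩
  choose B0 hB0 using fun n => hf4 _ (h0 n)
  choose B hB using fun α n => hf4 _ (h1 α n)
  refine ⟨∏ γ, m0 γ, s.card, R, b, f, fun r n => B0 n r, fun α r n => B α n r,
    Finset.prod_pos fun γ _ => hm0 γ, hf1, hf2, hf3, hb, fun v hv => ?_, hB0, hB⟩
  have h2 : (s : Set V) = Set.range b := by
    ext v
    constructor
    · intro hv
      exact ⟨s.equivFin ⟨v, hv⟩, by simp [b]⟩
    · rintro ⟨n, rfl⟩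
      exact (s.equivFin.symm n).2
  have h3 := hs2 v hv
  rw [h2, Submodule.mem_span_range_iff_exists_fun] at h3
  obtain ⟨c, rfl⟩ := h3
  choose c' hc' using fun n => (mem_adjoin_int_iff (x := x)).1 (c n).2
  exact ⟨c', Finset.sum_congr rfl fun n _ => by rw [hc']; rfl⟩

theorem tb_rv_comb {p : ℕ} [Fact p.Prime] {L' : Type} [Field L'] [Algebra (ZMod p) L']
    {x' y' : L'ˣ} (hc : IsCoord ℚ x y) (hc' : IsCoord (ZMod p) x' y')
    {bs : Module.Basis (Fin ρ) L V} {R : ℕ} {f : Fin R → V} (hf : ∀ r, f r ∈ latt (Oprim x y) bs)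
    (c : Fin R → Polynomial ℤ) :
    rv p x y x' y' bs (∑ r, (evK ℚ x (c r) : L) • f r) =
      ∑ r, evK (ZMod p) x' (c r) • rv p x y x' y' bs (f r) := by
  rw [rv_sum hc hc' _ fun r _ => latt_prim_le (smul_mem_latt (evK_mem _) (hf r))]
  refine Finset.sum_congr rfl fun r _ => ?_
  rw [rv_smul hc hc' (evK_mem _ p) (latt_prim_le (hf r)), red_evK hc hc']
  rfl

theorem tb_rk (hc : IsCoord ℚ x y) (G : Geo false false x y A) {N : PSh ℚ x y V} (hN : N.FG)
    (hs : G.Stab N) (bs : Module.Basis (Fin ρ) L V) {μ : ℚ} (hμ : N.fib.SubLe A μ) (r : ℕ) :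
    ∃ m0 : ℕ, ∀ (p : ℕ) [Fact p.Prime], m0 < p →
      ∀ (L' : Type) [Field L'] [Algebra (ZMod p) L'] (x' y' : L'ˣ) (hc' : IsCoord (ZMod p) x' y')
        (A' : Type) [CommRing A'] [Algebra L' A'] [Module A' (Fin ρ → L')]
        [IsScalarTower L' A' (Fin ρ → L')] (G' : Geo false false x' y' A'),
        Compat p bs G G' → ∀ U : Submodule A' (Fin ρ → L'),
          ((PSh.Np hc hc' N bs).fib.inf (U.restrictScalars L')).rk = r →
          (((PSh.Np hc hc' N bs).fib.inf (U.restrictScalars L')).deg : ℚ) ≤ μ * r := by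
  by_contra hcon
  obtain ⟨j0, hj0⟩ := (PSh.EZ_FG hc hN bs).exists_ly_le
  obtain ⟨j, hj1, hj2⟩ : ∃ j : ℕ, j0 ≤ j ∧ (15 : ℚ) ≤ μ + j := by
    obtain ⟨j1, h1⟩ := exists_nat_ge (15 - μ)
    refine ⟨max j0.toNat j1, by omega, ?_⟩
    have : (j1 : ℚ) ≤ (max j0.toNat j1 : ℕ) := by exact_mod_cast le_max_right _ _
    linarith
  have hly : ((N.tw 0 j).EZ bs).ly false ≤
      ((N.tw 0 j).EZ bs).ch false false ⊔ ((N.tw 0 j).EZ bs).ch false true := by
    rw [← PSh.EZ_tw]
    refine le_trans (fun v hv => ?_) (hj0 j hj1 false)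
    simpa [PSh.mem_ly, PSh.mem_tw] using hv
  obtain ⟨c, hcu⟩ := PSh.Np_uniform hc hN bs
  have hδ : (0 : ℚ) < ⌊μ * r⌋ + 1 - μ * r := sub_pos.2 (Int.lt_floor_add_one _)
  obtain ⟨T, hT⟩ := exists_nat_gt ((μ + j) * (r * (c + j + 14)) / (⌊μ * r⌋ + 1 - μ * r))
  rw [div_lt_iff₀ hδ] at hT
  obtain ⟨m, M, R, b, f, B0, B, hm, hf1, hf2, hf3, hb1, hb2, hB0, hB⟩ :=
    tb_data hc G hN hs bs j T
  obtain ⟨n, hn, S, hS1, hS2⟩ := spread (evK ℚ x) (evK_injective hc) evK_frac B0 B
    (⌊μ * r⌋ + 1 + r * j).toNat (r * (c + j + 15 + T)) (fun c0 hc0 => by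
      obtain ⟨m1, hm1⟩ := evK_ne_zero hc0
      by_contra hne
      refine hcon ⟨max m m1, fun p _ hp L' _ _ x' y' hc' A' _ _ _ _ G' hG U hU => ?_⟩
      by_contra hlt
      have hmp : (m : PSh.Kx (ZMod p) x') ≠ 0 := by
        rw [← map_natCast (algebraMap (ZMod p) (PSh.Kx (ZMod p) x')), map_ne_zero, Ne,
          ZMod.natCast_eq_zero_iff]
        exact fun h => absurd (Nat.le_of_dvd hm h) (by omega)
      obtain ⟨S, h1, h2⟩ := tb_pos hc'.fib (PSh.Np_FG hc hc' hN bs).fib G'.mon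
        (e := 15) (fun γ => ((hG.stab hc hc' hs).mon γ).choose_spec.fib) c
        (hcu p L' x' y' hc').2 U j T _ (hf3 p L' x' y' hc') (fun n => rv p x y x' y' bs (b n))
        (by
          rw [← PSh.fib_tw _ 0, PSh.Np_tw]
          refine (PSh.Np_fib_H0 hc hc' _ bs hly).trans (Submodule.span_le.2 ?_)
          rintro _ ⟨v, hv, rfl⟩
          obtain ⟨c1, rfl⟩ := hb2 v hv
          rw [tb_rv_comb hc hc' fun n => (hb1 n).1.2]
          exact Submodule.sum_mem _ fun n _ =>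
            Submodule.smul_mem _ _ (Submodule.subset_span ⟨n, rfl⟩))
        hmp (B0.map (evK (ZMod p) x')) (fun α => (B α).map (evK (ZMod p) x'))
        (fun n => by rw [hB0 n, tb_rv_comb hc hc' hf2]; rfl)
        (fun α n => by
          obtain ⟨k1, k2⟩ := tb_redOp_mon hG α.2 _ (latt_prim_le (hb1 n).1.2)
          have k3 : (y : L) ^ (α.1 : ℕ) ∈ OO p x y := by
            simpa using unit_mem_Oprim (x := x) (y := y) 0 (α.1 : ℕ) p
          have k4 : red p x y x' y' ((y : L) ^ (α.1 : ℕ)) = (y' : L') ^ (α.1 : ℕ) := by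
            simpa using red_unit hc hc' 0 (α.1 : ℕ)
          have k5 := congrArg (rv p x y x' y' bs) (hB α n)
          rw [tb_rv_comb hc hc' hf2, rv_zsmul hc hc' _ (smul_mem_latt k3 k1),
            rv_smul hc hc' k3 k1, k2, k4, natCast_zsmul] at k5
          rw [Nat.cast_smul_eq_nsmul, k5]
          rfl)
      rw [hU] at h1 h2
      refine hne ⟨_, inferInstance, evK (ZMod p) x', hm1 p (by omega) L' x' y' hc', S, ?_, h2⟩
      have h3 := Int.floor_lt.2 (not_le.1 hlt)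
      omega)
  have h1 := tb_zero hc.fib (hN.tw 0 j).fib G.mon G.span_monomials (e := 15)
    (fun γ => ((hs.tw 0 j).mon γ).choose_spec.fib) (hs.tw 0 j).ops (μ := μ + j)
    (by rw [PSh.fib_tw]; exact_mod_cast hμ.tw hc.fib hN.fib j) hj2 f hf1 b
    (fun n a => PSh.ch_le_fib _ false a (by
      cases a
      · exact (hb1 n).1.1
      · exact (hb1 n).2.1)) T (m := m) (Nat.cast_ne_zero.2 hm.ne') (B0.map (evK ℚ x))
    (fun α => (B α).map (evK ℚ x)) hB0
    (fun α n => by rw [Nat.cast_smul_eq_nsmul, ← natCast_zsmul, hB]; rfl) n S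
  have h2 : (n : ℚ) * (⌊μ * r⌋ + 1 + r * j) ≤
      Module.finrank (PSh.Kx ℚ x) (S.map ((B0.map (evK ℚ x)).mulVecLin.compLeft (Fin n))) := by
    have h3 : (n : ℤ) * (⌊μ * r⌋ + 1 + r * j) ≤ (n * (⌊μ * r⌋ + 1 + r * j).toNat : ℕ) := by
      push_cast
      exact mul_le_mul_of_nonneg_left (Int.self_le_toNat _) (Int.natCast_nonneg _)
    exact_mod_cast h3.trans (Int.ofNat_le.2 hS1)
  have h3 : (Module.finrank (PSh.Kx ℚ x)
      ↥(⨆ α, S.map (((B α).map (evK ℚ x)).mulVecLin.compLeft (Fin n))) : ℚ) ≤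
        n * (r * (c + j + 15 + T)) := by exact_mod_cast hS2
  have h4 := mul_le_mul_of_nonneg_left h2 (by positivity : (0 : ℚ) ≤ T + 1)
  have h5 := mul_le_mul_of_nonneg_left h3 (by linarith : (0 : ℚ) ≤ μ + j)
  have h6 : (n : ℚ) * ((T + 1) * (⌊μ * r⌋ + 1 + r * j)) ≤
      n * ((μ + j) * (r * (c + j + 15 + T))) := by linarith
  have h7 := le_of_mul_le_mul_left h6 (by exact_mod_cast hn)
  linarith

theorem transfer (hc : IsCoord ℚ x y) (G : Geo false false x y A) {N : PSh ℚ x y V} (hN : N.FG)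
    (hs : G.Stab N) (bs : Module.Basis (Fin ρ) L V) {μ : ℚ} (hμ : N.fib.SubLe A μ) :
    ∃ m0 : ℕ, ∀ (p : ℕ) [Fact p.Prime], m0 < p →
      ∀ (L' : Type) [Field L'] [Algebra (ZMod p) L'] (x' y' : L'ˣ) (hc' : IsCoord (ZMod p) x' y')
        (A' : Type) [CommRing A'] [Algebra L' A'] [Module A' (Fin ρ → L')]
        [IsScalarTower L' A' (Fin ρ → L')] (G' : Geo false false x' y' A'),
        Compat p bs G G' → (PSh.Np hc hc' N bs).fib.SubLe A' μ := by
  choose m0 hm0 using tb_rk hc G hN hs bs hμ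
  refine ⟨(Finset.range (ρ + 1)).sup m0, fun p _ hp L' _ _ x' y' hc' A' _ _ _ _ G' hG U => ?_⟩
  refine hm0 _ p (lt_of_le_of_lt (Finset.le_sup (Finset.mem_range.2 (Nat.lt_succ_of_le ?_))) hp)
    L' x' y' hc' A' G' hG U rfl
  exact (Submodule.finrank_le _).trans (Module.finrank_fin_fun L').le

end Vale.Agent.P190
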